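import Vale.Agent.P228.Nat

set_option linter.unusedSectionVars false
set_option linter.unusedSimpArgs false
set_option linter.unusedVariables false
noncomputable section
open Matrix Filter Topology
namespace Vale.Agent.P228

variable {R S : Type} [Ring R] [StarRing R] [Algebra ℂ R] [StarModule ℂ R]
  [Ring S] [StarRing S] [Algebra ℂ S] [StarModule ℂ S]

lemma m2_ext {T : Type} {a b c d a' b' c' d' : T} (h1 : a = a') (h2 : b = b') (h3 : c = c')
    (h4 : d = d') : (!![a, b; c, d] : M2 T) = !![a', b'; c', d'] := by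
  rw [h1, h2, h3, h4]

lemma one_m2 {T : Type} [Ring T] : (1 : M2 T) = !![1, 0; 0, 1] := s2_one.symm

lemma neg_m2 {T : Type} [Ring T] (a b c d : T) :
    -(!![a, b; c, d] : M2 T) = !![-a, -b; -c, -d] := by
  ext i j; fin_cases i <;> fin_cases j <;> rfl

lemma add_m2 {T : Type} [Ring T] (a b c d a' b' c' d' : T) :
    (!![a, b; c, d] : M2 T) + !![a', b'; c', d'] = !![a + a', b + b'; c + c', d + d'] := by
  ext i j; fin_cases i <;> fin_cases j <;> rfl

lemma sub_m2 {T : Type} [Ring T] (a b c d a' b' c' d' : T) :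
    (!![a, b; c, d] : M2 T) - !![a', b'; c', d'] = !![a - a', b - b'; c - c', d - d'] := by
  ext i j; fin_cases i <;> fin_cases j <;> rfl

lemma smul_m2 (r : ℂ) (a b c d : R) :
    r • (!![a, b; c, d] : M2 R) = !![r • a, r • b; r • c, r • d] := by
  ext i j; fin_cases i <;> fin_cases j <;> rfl

lemma zero_m2 {T : Type} [Ring T] : (0 : M2 T) = !![0, 0; 0, 0] := by
  ext i j; fin_cases i <;> fin_cases j <;> rfl

lemma s2_zero {T : Type} [Ring T] : s2 (0 : T) = 0 := zero_m2.symm

lemma sh_add (a b : R) : sh a * sh b = sh (a + b) := by simp [sh, add_comm]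
lemma th_add (a b : R) : th a * th b = th (a + b) := by simp [th]
lemma sh_zero : sh (0 : R) = 1 := one_m2.symm
lemma th_zero : th (0 : R) = 1 := one_m2.symm
lemma star_sh' (a : R) : star (sh a) = th (star a) := by simp [sh, th, star_m2]
lemma star_th' (a : R) : star (th a) = sh (star a) := by simp [sh, th, star_m2]

theorem el_mul_elInv (a a' : R) : el a a' * elInv a a' = 1 := by
  calc _ = sh (-a') * (th a * ((sh (-a') * sh a') * th (-a))) * sh a' := by
        simp only [el, elInv, mul_assoc]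
    _ = 1 := by simp only [sh_add, th_add, neg_add_cancel, add_neg_cancel, sh_zero, th_zero,
        one_mul, mul_one]

theorem elInv_mul_el (a a' : R) : elInv a a' * el a a' = 1 := by
  calc _ = sh a' * (th (-a) * ((sh a' * sh (-a')) * th a)) * sh (-a') := by
        simp only [el, elInv, mul_assoc]
    _ = 1 := by simp only [sh_add, th_add, neg_add_cancel, add_neg_cancel, sh_zero, th_zero,
        one_mul, mul_one]

lemma el_eq (a a' : R) :
    el a a' = !![1 - a' * a, -(a' + a') + a' * a * a'; a, 1 - a * a'] := by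
  simp only [el, sh, th, Matrix.mul_fin_two]
  refine m2_ext ?_ ?_ ?_ ?_ <;> noncomm_ring

lemma elInv_eq (a a' : R) :
    elInv a a' = !![1 - a' * a, (a' + a') - a' * a * a'; -a, 1 - a * a'] := by
  simp only [elInv, sh, th, Matrix.mul_fin_two]
  refine m2_ext ?_ ?_ ?_ ?_ <;> noncomm_ring

theorem el_of_inv {a a' : R} (h1 : a * a' = 1) (h2 : a' * a = 1) :
    el a a' = !![0, -a'; a, 0] := by
  rw [el_eq, h1, h2]
  refine m2_ext ?_ ?_ ?_ ?_ <;> noncomm_ring

lemma elInv_of_inv {a a' : R} (h1 : a * a' = 1) (h2 : a' * a = 1) :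
    elInv a a' = !![0, a'; -a, 0] := by
  rw [elInv_eq, h1, h2]
  refine m2_ext ?_ ?_ ?_ ?_ <;> noncomm_ring

theorem s2_mul (a b : R) : s2 (a * b) = s2 a * s2 b := by simp [s2]

theorem dg_mul (a b c d : R) : dg a b * dg c d = dg (a * c) (b * d) := by simp [dg]

theorem star_dg (a b : R) : star (dg a b) = dg (star a) (star b) := by simp [dg, star_m2]

theorem star_s2 (a : R) : star (s2 a) = s2 (star a) := by simp [s2, star_m2]

theorem Val.unique {A A' A'' : R} (h : Val A A') (h' : Val A A'') : A' = A'' := by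
  rw [← one_mul A'', ← h.2.2.2, mul_assoc, h'.2.2.1, mul_one]

theorem Val.symm {A A' : R} (h : Val A A') : Val A' A := ⟨h.2.1, h.1, h.2.2.2, h.2.2.1⟩

theorem Val.neg {A A' : R} (h : Val A A') : Val (-A) (-A') :=
  ⟨by rw [star_neg, h.1], by rw [star_neg, h.2.1], by rw [neg_mul_neg, h.2.2.1],
    by rw [neg_mul_neg, h.2.2.2]⟩

theorem Val.dg {A A' C C' : R} (h : Val A A') (h' : Val C C') : Val (dg A C) (dg A' C') :=
  ⟨by rw [star_dg, h.1, h'.1], by rw [star_dg, h.2.1, h'.2.1],
    by rw [dg_mul, h.2.2.1, h'.2.2.1]; exact s2_one, by rw [dg_mul, h.2.2.2, h'.2.2.2]; exact s2_one⟩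

theorem Val.s2 {A A' : R} (h : Val A A') : Val (s2 A) (s2 A') := h.dg h

lemma dg_add (a b c d : R) : dg a b + dg c d = dg (a + c) (b + d) := by
  simp only [dg, add_m2, add_zero]

lemma blk_mul (M N M' N' : M2 R) : blk M N * blk M' N' = blk (M * M') (N * N') := by
  refine Matrix.ext fun i j => ?_
  simp only [blk, Matrix.mul_apply, Fin.sum_univ_two, Matrix.of_apply, dg_mul, dg_add]

lemma star_blk (M N : M2 R) : star (blk M N) = blk (star M) (star N) := by
  refine Matrix.ext fun i j => ?_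
  simp only [blk, Matrix.star_apply, Matrix.of_apply, star_dg]

lemma blk_one : blk (1 : M2 R) 1 = 1 := by
  refine Matrix.ext fun i j => ?_
  fin_cases i <;> fin_cases j
  · exact s2_one
  · exact s2_zero
  · exact s2_zero
  · exact s2_one

theorem Val.blk {M M' N N' : M2 R} (h : Val M M') (h' : Val N N') :
    Val (blk M N) (blk M' N') :=
  ⟨by rw [star_blk, h.1, h'.1], by rw [star_blk, h.2.1, h'.2.1],
    by rw [blk_mul, h.2.2.1, h'.2.2.1, blk_one], by rw [blk_mul, h.2.2.2, h'.2.2.2, blk_one]⟩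

/-- the fourth condition of `Val` is automatic -/
lemma val_of {A A' : R} (h1 : star A = A) (h2 : star A' = A') (h3 : A * A' = 1) : Val A A' := by
  refine ⟨h1, h2, h3, ?_⟩
  have := congrArg star h3
  rwa [star_mul, h1, h2, star_one] at this

theorem Val.conj {A A' g g' : R} (h : Val A A') (h1 : g * g' = 1) (h2 : g' * g = 1) :
    Val (g * A * star g) (star g' * A' * g') := by
  refine val_of ?_ ?_ ?_
  · simp only [star_mul, star_star, h.1, mul_assoc]
  · simp only [star_mul, star_star, h.2.1, mul_assoc]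
  · calc _ = g * A * star (g' * g) * A' * g' := by simp only [star_mul, mul_assoc]
      _ = 1 := by rw [h2, star_one, mul_one, mul_assoc g, h.2.2.1, mul_one, h1]

theorem Val.smul {A A' : R} (h : Val A A') {r : ℝ} (hr : r ≠ 0) :
    Val ((r : ℂ) • A) (((r⁻¹ : ℝ) : ℂ) • A') := by
  refine val_of ?_ ?_ ?_
  · rw [star_smul, h.1, Complex.star_def, Complex.conj_ofReal]
  · rw [star_smul, h.2.1, Complex.star_def, Complex.conj_ofReal]
  · rw [smul_mul_smul_comm, h.2.2.1, ← Complex.ofReal_mul, mul_inv_cancel₀ hr, Complex.ofReal_one,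
      one_smul]

/-- an element commuting with a valid form commutes with its inverse -/
theorem Val.commute {A A' y : R} (h : Val A A') (hy : Commute y A) : Commute y A' := by
  calc y * A' = (A' * A) * y * A' := by rw [h.2.2.2, one_mul]
    _ = A' * (y * A) * A' := by rw [hy.eq]; simp only [mul_assoc]
    _ = A' * y * (A * A') := by simp only [mul_assoc]
    _ = A' * y := by rw [h.2.2.1, mul_one]

theorem val_hyp {Y : R} (hY : star Y = Y) : Val (!![0, 1; 1, Y] : M2 R) !![-Y, 1; 1, 0] := by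
  refine val_of ?_ ?_ ?_
  · simp [star_m2, hY]
  · simp [star_m2, hY]
  · rw [one_m2]; simp

theorem val_swp : Val (swp : M2 R) swp := by
  have := val_hyp (R := R) (Y := 0) (star_zero _)
  rwa [neg_zero] at this

lemma I_smul_mul (a b : R) : (Complex.I • a) * (Complex.I • b) = -(a * b) := by
  rw [smul_mul_smul_comm, Complex.I_mul_I, neg_smul, one_smul]

lemma star_I_smul (a : R) : star (Complex.I • a) = -(Complex.I • star a) := by
  rw [star_smul, Complex.star_def, Complex.conj_I, neg_smul]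

theorem val_sig : Val (sig : M2 R) sig := by
  have h : star (sig : M2 R) = sig := by
    simp only [sig, star_m2, star_neg, star_I_smul, star_one, star_zero, neg_neg]
  refine val_of h h ?_
  simp only [sig, Matrix.mul_fin_two, mul_neg, neg_mul, I_smul_mul, mul_one, neg_neg, zero_mul,
    mul_zero, zero_add, add_zero, neg_zero, one_m2]

theorem val_two {Y Y' : R} (h : Val Y Y') : Val (two Y Y') (two' Y Y') := by
  refine val_of ?_ ?_ ?_
  · simp [two, star_m2, h.1, h.2.1]
  · simp [two', star_m2, h.1, h.2.1]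
  · simp only [two, two', Matrix.mul_fin_two, smul_mul_smul_comm, h.2.2.1, h.2.2.2, one_m2,
      mul_neg, mul_one, one_mul]
    refine m2_ext ?_ ?_ ?_ ?_ <;> module

theorem diff_zero (A1 A1' A2 : R) : diff A1 A1' A2 0 = swp := by simp [diff, swp]

theorem diff'_zero (A1 A1' A2 A2' : R) : diff' A1 A1' A2 A2' 0 = swp := by simp [diff', swp]

theorem diff_self (A1 A1' C : R) : diff A1 A1' A1 C = !![0, 1; 1, C * A1' * C] := by simp [diff]

theorem diff'_self (A1 A1' A2' C : R) :
    diff' A1 A1' A1 A2' C = !![-(C * A1' * C), 1; 1, 0] := by simp [diff']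

theorem diff_val_one {A1 A1' A2 A2' : R} (h1 : Val A1 A1') (h2 : Val A2 A2') :
    Val (diff A1 A1' A2 1) (diff' A1 A1' A2 A2' 1) := by
  have e1 : 1 + (A1 - A2) * A2' = A1 * A2' := by rw [sub_mul, h2.2.2.1]; abel
  have k1 : ∀ c, A1 * (A1' * c) = c := fun c => by rw [← mul_assoc, h1.2.2.1, one_mul]
  have k2 : ∀ c, A1' * (A1 * c) = c := fun c => by rw [← mul_assoc, h1.2.2.2, one_mul]
  have k3 : ∀ c, A2 * (A2' * c) = c := fun c => by rw [← mul_assoc, h2.2.2.1, one_mul]
  have k4 : ∀ c, A2' * (A2 * c) = c := fun c => by rw [← mul_assoc, h2.2.2.2, one_mul]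
  simp only [diff, diff', one_mul, mul_one, e1]
  refine val_of ?_ ?_ ?_
  · simp only [star_m2, star_sub, star_one, h1.1, h1.2.1, h2.1]
  · simp only [star_m2, star_neg, star_mul, star_sub, star_star, h1.1, h1.2.1, h2.1, h2.2.1]
    refine m2_ext ?_ rfl rfl ?_ <;>
      simp only [mul_sub, sub_mul, mul_assoc, k1, k2, k3, k4, h1.2.2.1, h1.2.2.2, h2.2.2.1,
        h2.2.2.2, mul_one]
  · simp only [Matrix.mul_fin_two, star_mul, h1.1, h2.2.1, one_m2]
    refine m2_ext ?_ ?_ ?_ ?_ <;>
      simp only [mul_sub, sub_mul, mul_neg, mul_assoc, k1, k2, k3, k4, h1.2.2.1, h1.2.2.2, h2.2.2.1,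
        h2.2.2.2, mul_one, one_mul] <;> abel

theorem diff_val {A1 A1' A2 A2' C : R} (hC : star C = C)
    (h : C = 0 ∨ (C = 1 ∧ Val A1 A1' ∧ Val A2 A2') ∨ (A1 = A2 ∧ star A1' = A1')) :
    Val (diff A1 A1' A2 C) (diff' A1 A1' A2 A2' C) := by
  rcases h with rfl | ⟨rfl, h1, h2⟩ | ⟨rfl, h1⟩
  · rw [diff_zero, diff'_zero]; exact val_swp
  · exact diff_val_one h1 h2
  · rw [diff_self, diff'_self]
    exact val_hyp (by simp only [star_mul, hC, h1, mul_assoc])

theorem dA1_val {T T' : R} (h : Val T T') (J : R) : Val (dA1 T J) (dA1' T' J) := by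
  have := h.s2.conj (g := star (dW J)) (g' := star (dWi J))
    (by rw [← star_mul, dW, dWi, elInv_mul_el, star_one])
    (by rw [← star_mul, dW, dWi, el_mul_elInv, star_one])
  simpa only [star_star, dA1, dA1'] using this

lemma s2_conj_m2 (g g' a b c d : R) : s2 g' * !![a, b; c, d] * s2 g =
    !![g' * a * g, g' * b * g; g' * c * g, g' * d * g] := by simp [s2]

lemma conj_mul {g g' : R} (h1 : g * g' = 1) (a b : R) :
    g' * a * g * (g' * b * g) = g' * (a * b) * g := by
  calc _ = g' * a * (g * g') * b * g := by simp only [mul_assoc]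
    _ = _ := by rw [h1]; simp only [mul_one, mul_assoc]

lemma el_conj {g g' : R} (h1 : g * g' = 1) (h2 : g' * g = 1) (a a' : R) :
    el (g' * a * g) (g' * a' * g) = s2 g' * el a a' * s2 g := by
  rw [el_eq, el_eq, s2_conj_m2]
  simp only [conj_mul h1, mul_sub, sub_mul, mul_add, add_mul, mul_neg, neg_mul, mul_one, h2]

lemma elInv_conj {g g' : R} (h1 : g * g' = 1) (h2 : g' * g = 1) (a a' : R) :
    elInv (g' * a * g) (g' * a' * g) = s2 g' * elInv a a' * s2 g := by
  rw [elInv_eq, elInv_eq, s2_conj_m2]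
  simp only [conj_mul h1, mul_sub, sub_mul, mul_add, add_mul, mul_neg, neg_mul, mul_one, h2]

lemma dW_conj {J g g' : R} (h1 : g * g' = 1) (h2 : g' * g = 1) :
    dW (g' * J * g) = s2 g' * dW J * s2 g := by
  rw [dW, dW, ← el_conj h1 h2]; simp only [mul_smul_comm, smul_mul_assoc, mul_neg, neg_mul]

lemma dWi_conj {J g g' : R} (h1 : g * g' = 1) (h2 : g' * g = 1) :
    dWi (g' * J * g) = s2 g' * dWi J * s2 g := by
  rw [dWi, dWi, ← elInv_conj h1 h2]; simp only [mul_smul_comm, smul_mul_assoc, mul_neg, neg_mul]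

theorem dA1_conj {T J g g' : R} (h1 : g * g' = 1) (h2 : g' * g = 1) :
    dA1 (star g * T * g) (g' * J * g) = star (s2 g) * dA1 T J * s2 g := by
  have e : s2 g * s2 g' = 1 := by rw [← s2_mul, h1, s2_one]
  rw [dA1, dA1, dW_conj h1 h2, s2_mul, s2_mul, ← star_s2]
  calc _ = star (s2 g) * star (dW J) * star (s2 g * s2 g') * s2 T * (s2 g * s2 g') * dW J * s2 g := by
        simp only [star_mul, mul_assoc]
    _ = _ := by rw [e]; simp only [star_one, mul_one, mul_assoc]

theorem dA1'_conj {T' J g g' : R} (h1 : g * g' = 1) (h2 : g' * g = 1) :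
    dA1' (g' * T' * star g') (g' * J * g) = s2 g' * dA1' T' J * star (s2 g') := by
  have e : s2 g * s2 g' = 1 := by rw [← s2_mul, h1, s2_one]
  rw [dA1', dA1', dWi_conj h1 h2, s2_mul, s2_mul, ← star_s2]
  calc _ = s2 g' * dWi J * (s2 g * s2 g') * s2 T' * star (s2 g * s2 g') * star (dWi J) *
        star (s2 g') := by simp only [star_mul, mul_assoc]
    _ = _ := by rw [e]; simp only [star_one, mul_one, mul_assoc]

/-- the defect of an almost involution -/
theorem dA1_defect {T T' J e : R} (hv : Val T T') (he : IsProj e) (h1 : J * J = 1 - e)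
    (h2 : J * e = 0) (h3 : e * J = 0) (h4 : star J * T = -(T * J)) (h5 : Commute e T) :
    dA1 T J = s2 (((2 : ℂ) • e - 1) * T) ∧ dA1' T' J = s2 (((2 : ℂ) • e - 1) * T') := by
  have h5' : Commute e T' := hv.commute h5
  have h6 : T' * star J = -(J * T') := by
    calc _ = T' * (star J * T) * T' := by rw [mul_assoc, mul_assoc, hv.2.2.1, mul_one]
      _ = -(T' * T * J * T') := by rw [h4]; simp only [mul_neg, neg_mul, mul_assoc]
      _ = _ := by rw [hv.2.2.2, one_mul]
  have a1 : -(Complex.I • J) * (Complex.I • J) = 1 - e := by rw [neg_mul, I_smul_mul, neg_neg, h1]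
  have a2 : (Complex.I • J) * -(Complex.I • J) = 1 - e := by rw [mul_neg, I_smul_mul, neg_neg, h1]
  have a3 : (1 - e) * -(Complex.I • J) = -(Complex.I • J) := by
    rw [sub_mul, one_mul, mul_neg, mul_smul_comm, h3, smul_zero, neg_zero, sub_zero]
  have W : dW J = !![e, Complex.I • J; Complex.I • J, e] := by
    rw [dW, el_eq, a1, a2, a3]
    refine m2_ext ?_ ?_ rfl ?_ <;> abel
  have Wi : dWi J = !![e, -(Complex.I • J); -(Complex.I • J), e] := by
    rw [dWi, elInv_eq, a1, a2, a3]
    refine m2_ext ?_ ?_ rfl ?_ <;> abel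
  have b1 : e * T * e = e * T := by rw [mul_assoc, ← h5.eq, ← mul_assoc, he.2]
  have b2 : e * T * (Complex.I • J) = 0 := by
    rw [h5.eq, mul_smul_comm, mul_assoc, h3, mul_zero, smul_zero]
  have b3 : -(Complex.I • star J) * T * e = 0 := by
    rw [neg_mul, smul_mul_assoc, h4, neg_mul, smul_mul_assoc, neg_mul, mul_assoc, h2]; simp
  have b4 : -(Complex.I • star J) * T * (Complex.I • J) = e * T - T := by
    rw [neg_mul, smul_mul_assoc, h4, smul_neg, neg_neg, I_smul_mul, mul_assoc, h1, mul_sub,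
      mul_one, h5.eq]; abel
  have c1 : e * T' * e = e * T' := by rw [mul_assoc, ← h5'.eq, ← mul_assoc, he.2]
  have c2 : e * T' * (Complex.I • star J) = 0 := by
    rw [mul_smul_comm, mul_assoc, h6, mul_neg, ← mul_assoc, h3]; simp
  have c3 : -(Complex.I • J) * T' * e = 0 := by
    rw [mul_assoc, ← h5'.eq, ← mul_assoc, neg_mul, smul_mul_assoc, h2]; simp
  have c4 : -(Complex.I • J) * T' * (Complex.I • star J) = e * T' - T' := by
    rw [mul_assoc, mul_smul_comm Complex.I T', h6, neg_mul, smul_neg, mul_neg, neg_neg, I_smul_mul,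
      ← mul_assoc, h1, sub_mul, one_mul]; abel
  constructor
  · rw [dA1, W, star_m2, he.1, star_I_smul, s2, s2]
    simp only [Matrix.mul_fin_two, mul_zero, add_zero, zero_add, b1, b2, b3, b4, sub_mul,
      two_smul, one_mul, add_mul]
    refine m2_ext ?_ rfl rfl ?_ <;> abel
  · rw [dA1', Wi, star_m2, he.1, star_neg, star_I_smul, neg_neg, s2, s2]
    simp only [Matrix.mul_fin_two, mul_zero, add_zero, zero_add, c1, c2, c3, c4, sub_mul,
      two_smul, one_mul, add_mul]
    refine m2_ext ?_ rfl rfl ?_ <;> abel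

theorem dA1_of_inv {T T' J : R} (h : Inv T T' J) : dA1 T J = -s2 T := by
  have := (dA1_defect (e := 0) h.1 ⟨star_zero _, mul_zero _⟩ (by rw [h.2.1, sub_zero])
    (mul_zero _) (zero_mul _) h.2.2 (Commute.zero_left _)).1
  rw [this, smul_zero, zero_sub, neg_one_mul]
  exact map_neg (s2H : R →⋆ₐ[ℂ] _) T

theorem defo_val {T T' J C : R} (hC : star C = C)
    (h : C = 0 ∨ (C = 1 ∧ Val T T') ∨ Inv T T' J) : Val (defo T T' J C) (defo' T T' J C) := by
  refine diff_val (by rw [star_s2, hC]) ?_
  rcases h with rfl | ⟨rfl, h⟩ | h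
  · exact Or.inl s2_zero
  · exact Or.inr (Or.inl ⟨s2_one, dA1_val h J, h.s2.neg⟩)
  · exact Or.inr (Or.inr ⟨dA1_of_inv h, (dA1_val h.1 J).2.1⟩)

theorem Inv.conj {T T' J g g' : R} (h : Inv T T' J) (h1 : g * g' = 1) (h2 : g' * g = 1) :
    Inv (star g * T * g) (g' * T' * star g') (g' * J * g) := by
  refine ⟨?_, ?_, ?_⟩
  · have := h.1.conj (g := star g) (g' := star g') (by rw [← star_mul, h2, star_one])
      (by rw [← star_mul, h1, star_one])
    simpa only [star_star] using this
  · rw [conj_mul h1, h.2.1, mul_one, h2]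
  · calc _ = star g * (star J * star (g * g') * T) * g := by simp only [star_mul, mul_assoc]
      _ = -(star g * T * (g * g') * J * g) := by
          rw [h1, star_one, mul_one, h.2.2]; simp only [mul_neg, neg_mul, mul_one, mul_assoc]
      _ = _ := by simp only [mul_assoc]

lemma inv_J1 : Inv (sig : M2 R) sig J1 := by
  refine ⟨val_sig, ?_, ?_⟩
  · rw [one_m2]; simp [J1]
  · simp [J1, sig, star_m2, neg_m2]

lemma th_sig_sh' (a : R) : th a * sig * sh a = sig := by simp [th, sh, sig]
lemma sh_sig_th' (a : R) : sh a * sig * th a = sig := by simp [th, sh, sig]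

theorem inv_Jof {a a' : R} (h : star a = a) (h' : star a' = a') : Inv sig sig (Jof a a') := by
  have := inv_J1.conj (elInv_mul_el a a') (el_mul_elInv a a')
  have e1 : star (elInv a a') * sig * elInv a a' = sig := by
    simp only [elInv, star_mul, star_sh', star_th', star_neg, h, h']
    calc _ = th a' * (sh (-a) * (th a' * sig * sh a') * th (-a)) * sh a' := by simp only [mul_assoc]
      _ = sig := by rw [th_sig_sh', sh_sig_th', th_sig_sh']
  have e2 : el a a' * sig * star (el a a') = sig := by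
    simp only [el, star_mul, star_sh', star_th', star_neg, h, h']
    calc _ = sh (-a') * (th a * (sh (-a') * sig * th (-a')) * sh a) * th (-a') := by
          simp only [mul_assoc]
      _ = sig := by rw [sh_sig_th', th_sig_sh', sh_sig_th']
  rwa [e1, e2] at this

theorem JR_of_idem {Q : R} (h : Q * Q = Q) : JR Q = dg (1 - (2 : ℂ) • Q) ((2 : ℂ) • Q - 1) := by
  have k : ∀ c, Q * (Q * c) = Q * c := fun c => by rw [← mul_assoc, h]
  rw [JR, h, Jof, el_eq, elInv_eq, J1, dg]
  simp only [Matrix.mul_fin_two, h, two_smul]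
  refine m2_ext ?_ ?_ ?_ ?_ <;>
    simp only [mul_sub, sub_mul, mul_add, add_mul, mul_neg, neg_mul, mul_one, one_mul, mul_zero,
      zero_mul, h, k, neg_add, neg_neg] <;> abel

theorem JL_eq_JR {Q A A' : R} (h : Val A A') (hQ : Q = 0 ∨ Q = 1) : JL Q A A' = JR Q := by
  rcases hQ with rfl | rfl
  · simp [JL, JR]
  · rw [JR_of_idem (mul_one 1), JL, mul_one, mul_one, one_mul, one_mul, Jof,
      el_of_inv h.2.2.1 h.2.2.2, elInv_of_inv h.2.2.1 h.2.2.2, J1, dg]
    simp only [Matrix.mul_fin_two, two_smul]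
    refine m2_ext ?_ ?_ ?_ ?_ <;>
      simp only [mul_neg, neg_mul, mul_one, mul_zero, zero_mul, h.2.2.1, h.2.2.2, neg_neg, neg_zero,
        add_zero, zero_add] <;> abel

theorem bottJ_inv {c : Cut R} {A A' : R} (hc : c.Herm) (h : Val A A')
    (hg : c.P = 0 ∨ c.P = 1 ∨ c.Q = 0 ∨ c.Q = 1) : Inv sig sig (bottJ c A A') := by
  have hR : Inv sig sig (JR c.Q) :=
    inv_Jof (by rw [star_mul, hc.2.1]) (by rw [star_mul, hc.2.1])
  have hL : Inv sig sig (JL c.Q A A') :=
    inv_Jof (by simp only [star_mul, hc.2.1, h.1, mul_assoc])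
      (by simp only [star_mul, hc.2.1, h.2.1, mul_assoc])
  rcases hg with h0 | h0 | h0
  · have : bottJ c A A' = JR c.Q := by rw [bottJ, h0, s2_zero, zero_mul, add_zero]
    exact this ▸ hR
  · have : bottJ c A A' = JL c.Q A A' := by rw [bottJ, h0, s2_one, one_mul, add_sub_cancel]
    exact this ▸ hL
  · have : bottJ c A A' = JR c.Q := by rw [bottJ, JL_eq_JR h h0, sub_self, mul_zero, add_zero]
    exact this ▸ hR

theorem bott_val {c : Cut R} {A A' : R} (hc : c.Herm) (h : c.C = 0 ∨ (Val A A' ∧ c.Good)) :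
    Val (bott c A A') (bott' c A A') := by
  refine defo_val (by rw [star_s2, hc.2.2]) ?_
  rcases h with h0 | ⟨h, h0 | h0 | h0⟩
  · exact Or.inl (by rw [h0, s2_zero])
  · exact Or.inl (by rw [h0, s2_zero])
  · exact Or.inr (Or.inl ⟨by rw [h0, s2_one], val_sig⟩)
  · exact Or.inr (Or.inr (bottJ_inv hc h h0))

/-- two skew involutions with the same positive eigenspace are joined by a segment -/
theorem Inv.cvx {T T' J J' : R} (h : Inv T T' J) (h' : Inv T T' J') (he : J * (1 + J') = 1 + J')
    (t : ℝ) : Inv T T' (cvx t J J') := by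
  have e1 : J * J' = 1 + J' - J := by rw [← he, mul_add, mul_one]; abel
  have e2 : J' * J = 1 + J - J' := by
    have a := congrArg (fun x => T' * (star x * T)) e1
    simp only [star_mul, star_add, star_sub, star_one, sub_mul, add_mul, one_mul, mul_assoc,
      h.2.2, h'.2.2, mul_neg] at a
    rw [← mul_assoc (star J'), h'.2.2] at a
    simp only [neg_mul, neg_neg, mul_sub, mul_add, mul_neg, ← mul_assoc, h.1.2.2.2, one_mul] at a
    rw [a]; abel
  refine ⟨h.1, ?_, ?_⟩
  · simp only [P228.cvx, mul_add, add_mul, smul_mul_smul_comm, h.2.1, h'.2.1, e1, e2,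
      Complex.ofReal_sub, Complex.ofReal_one]
    module
  · simp only [star_cvx]
    simp only [P228.cvx, mul_add, add_mul, smul_mul_assoc, mul_smul_comm, h.2.2, h'.2.2, smul_neg,
      neg_add]

end Vale.Agent.P228
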