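import Vale.Agent.P228.BSDefs
import Vale.Agent.P228.AlgVal

set_option linter.unusedSectionVars false
set_option linter.unusedSimpArgs false
set_option linter.unusedVariables false
noncomputable section
open Matrix Filter Topology
namespace Vale.Agent.P228

variable {R S : Type} [Ring R] [StarRing R] [Algebra ℂ R] [StarModule ℂ R]
  [Ring S] [StarRing S] [Algebra ℂ S] [StarModule ℂ S]

lemma commute_star_of_unit {y z : R} (hz : star z * z = 1 ∧ z * star z = 1) (h : Commute y z) :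
    Commute y (star z) := by
  calc y * star z = (star z * z) * y * star z := by rw [hz.1, one_mul]
    _ = star z * (y * z) * star z := by rw [h.eq]; simp only [mul_assoc]
    _ = star z * y * (z * star z) := by simp only [mul_assoc]
    _ = star z * y := by rw [hz.2, mul_one]

lemma I2_mul_I2 : (Complex.I / 2) * (Complex.I / 2) = -1 / 4 := by
  have : Complex.I * Complex.I = -1 := Complex.I_mul_I
  linear_combination (1 / 4 : ℂ) * this

lemma star_I2 : star (Complex.I / 2) = -(Complex.I / 2) := by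
  simp [neg_div]

lemma A2_core {z z' w w' : R} (h1 : z' * z = 1) (h2 : z * z' = 1) (h3 : w' * w = 1)
    (h4 : w * w' = 1) (c1 : w * z = z * w) (c2 : w * z' = z' * w) (c3 : w' * z = z * w')
    (c4 : w' * z' = z' * w') :
    (!![z' - z, -(z' - 1 + w * (1 + z')); z - 1 + w' * (1 + z), w - w'] : M2 R) *
      !![-(w - w'), -(z' - 1 + w * (1 + z')); z - 1 + w' * (1 + z), -(z' - z)] =
      (-4 : ℂ) • (1 : M2 R) := by
  have h1' : ∀ c, z' * (z * c) = c := fun c => by rw [← mul_assoc, h1, one_mul]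
  have h2' : ∀ c, z * (z' * c) = c := fun c => by rw [← mul_assoc, h2, one_mul]
  have h3' : ∀ c, w' * (w * c) = c := fun c => by rw [← mul_assoc, h3, one_mul]
  have h4' : ∀ c, w * (w' * c) = c := fun c => by rw [← mul_assoc, h4, one_mul]
  have c1' : ∀ c, w * (z * c) = z * (w * c) := fun c => by rw [← mul_assoc, c1, mul_assoc]
  have c2' : ∀ c, w * (z' * c) = z' * (w * c) := fun c => by rw [← mul_assoc, c2, mul_assoc]
  have c3' : ∀ c, w' * (z * c) = z * (w' * c) := fun c => by rw [← mul_assoc, c3, mul_assoc]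
  have c4' : ∀ c, w' * (z' * c) = z' * (w' * c) := fun c => by rw [← mul_assoc, c4, mul_assoc]
  have e4 : (-4 : ℂ) • (1 : R) = -(1 + 1 + 1 + 1) := by
    rw [show (-4 : ℂ) = -(1 + 1 + 1 + 1) by norm_num]
    simp only [neg_smul, add_smul, one_smul]
  rw [Matrix.mul_fin_two, ← s2_one, s2]
  ext i j
  fin_cases i <;> fin_cases j <;>
    simp only [Matrix.smul_apply, Matrix.of_apply, Matrix.cons_val', Matrix.cons_val_zero,
      Matrix.cons_val_one, Matrix.cons_val_fin_one, Fin.zero_eta, Fin.mk_one, Fin.isValue, e4,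
      smul_zero] <;>
    simp only [mul_add, add_mul, mul_sub, sub_mul, mul_neg, neg_mul, mul_one, one_mul, mul_assoc,
      h1, h2, h3, h4, c1, c2, c3, c4, h1', h2', h3', h4', c1', c2', c3', c4'] <;>
    abel

theorem A2_val {z w : R} (hz : star z * z = 1 ∧ z * star z = 1)
    (hw : star w * w = 1 ∧ w * star w = 1) (hzw : Commute z w) : Val (A2 z w) (A2' z w) := by
  have c2 : Commute w (star z) := commute_star_of_unit hz hzw.symm
  have c3 : Commute z (star w) := commute_star_of_unit hw hzw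
  have c4 : Commute (star w) (star z) := commute_star_of_unit hz c3.symm
  have e1 : star (z - 1 + star w * (1 + z)) = star z - 1 + w * (1 + star z) := by
    simp only [star_add, star_sub, star_one, star_mul, star_star]
    rw [((Commute.one_right w).add_right c2).eq]
  have e2 : star (star z - 1 + w * (1 + star z)) = z - 1 + star w * (1 + z) := by
    rw [← e1, star_star]
  have s1 : star (A2 z w) = A2 z w := by
    rw [A2, star_smul, star_m2, star_I2, star_neg, e1, e2, neg_smul, ← smul_neg]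
    congr 1
    ext i j
    fin_cases i <;> fin_cases j <;> simp
  have s2 : star (A2' z w) = A2' z w := by
    rw [A2', star_smul, star_m2, star_I2, star_neg (star z - 1 + w * (1 + star z)), e1, e2,
      neg_smul, ← smul_neg]
    congr 1
    ext i j
    fin_cases i <;> fin_cases j <;> simp
  have m1 : A2 z w * A2' z w = 1 := by
    rw [A2, A2', smul_mul_smul_comm, A2_core hz.1 hz.2 hw.1 hw.2 hzw.symm.eq c2.eq c3.symm.eq c4.eq,
      I2_mul_I2, smul_smul]
    norm_num
  refine ⟨s1, s2, m1, ?_⟩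
  have := congrArg star m1
  rwa [star_mul, s1, s2, star_one] at this

lemma commute_s2_m2 {y a b c d : R} (ha : Commute y a) (hb : Commute y b) (hc : Commute y c)
    (hd : Commute y d) : Commute (s2 y) (!![a, b; c, d] : M2 R) := by
  show s2 y * _ = _ * s2 y
  simp only [s2, Matrix.mul_fin_two, ha.eq, hb.eq, hc.eq, hd.eq, mul_zero, zero_mul, add_zero,
    zero_add]

lemma commute_s2_A2 {y z w : R} (h1 : Commute y z) (h2 : Commute y (star z)) (h3 : Commute y w)
    (h4 : Commute y (star w)) : Commute (s2 y) (A2 z w) ∧ Commute (s2 y) (A2' z w) := by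
  have o := Commute.one_right y
  constructor
  · exact (commute_s2_m2 (h2.sub_right h1)
      ((h2.sub_right o).add_right (h3.mul_right (o.add_right h2))).neg_right
      ((h1.sub_right o).add_right (h4.mul_right (o.add_right h1))) (h3.sub_right h4)).smul_right _
  · exact (commute_s2_m2 (h3.sub_right h4).neg_right
      ((h2.sub_right o).add_right (h3.mul_right (o.add_right h2))).neg_right
      ((h1.sub_right o).add_right (h4.mul_right (o.add_right h1)))
      (h2.sub_right h1).neg_right).smul_right _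

lemma Val.mul_comm {A A' Z Z' : R} (h : Val A A') (h' : Val Z Z') (c : Commute Z A) :
    Val (A * Z) (A' * Z') := by
  have c1 : Commute Z A' := h.commute c
  have c2 : Commute A Z' := h'.commute c.symm
  have c3 : Commute A' Z' := h'.commute c1.symm
  refine ⟨?_, ?_, ?_, ?_⟩
  · rw [star_mul, h.1, h'.1, c.eq]
  · rw [star_mul, h.2.1, h'.2.1, c3.eq]
  · rw [mul_assoc, ← mul_assoc Z, c1.eq, mul_assoc, h'.2.2.1, mul_one, h.2.2.1]
  · rw [mul_assoc, ← mul_assoc Z', ← c2.eq, mul_assoc, h'.2.2.2, mul_one, h.2.2.2]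

variable {P Q C z w Z Z' e : R}

theorem bA_val (h : BSRel P Q C z w Z Z' e) : Val (bA z w Z) (bA' z w Z') :=
  (A2_val h.zu h.wu h.zw).mul_comm h.val.s2
    (commute_s2_A2 h.Zz (commute_star_of_unit h.zu h.Zz) h.Zw (commute_star_of_unit h.wu h.Zw)).1

lemma sh_mul_neg (a : R) : sh a * sh (-a) = 1 := by
  rw [← s2_one]; simp [sh, s2]
lemma sh_neg_mul (a : R) : sh (-a) * sh a = 1 := by
  rw [← s2_one]; simp [sh, s2]
lemma th_mul_neg (a : R) : th a * th (-a) = 1 := by
  rw [← s2_one]; simp [th, s2]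
lemma th_neg_mul (a : R) : th (-a) * th a = 1 := by
  rw [← s2_one]; simp [th, s2]

theorem bg_mul (Q z w Z Z' : R) :
    bg Q z w Z Z' * bg' Q z w Z Z' = 1 ∧ bg' Q z w Z Z' * bg Q z w Z Z' = 1 := by
  constructor
  · rw [bg, bg', mul_assoc, ← mul_assoc (th _), th_mul_neg, one_mul, sh_neg_mul]
  · rw [bg, bg', mul_assoc, ← mul_assoc (sh _), sh_mul_neg, one_mul, th_neg_mul]

lemma star_sh (a : R) : star (sh a) = th (star a) := by simp [sh, th, star_m2]
lemma star_th (a : R) : star (th a) = sh (star a) := by simp [sh, th, star_m2]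

lemma th_sig_sh (a : R) : th a * sig * sh a = sig := by simp [th, sh, sig]
lemma sh_sig_th (a : R) : sh a * sig * th a = sig := by simp [th, sh, sig]

lemma ba_herm (h : BSRel P Q C z w Z Z' e) (hQ : IsProj Q) :
    star (ba Q z w Z) = ba Q z w Z ∧ star (ba' Q z w Z') = ba' Q z w Z' := by
  have := bA_val h
  constructor
  · rw [ba, star_mul, star_mul, star_s2, hQ.1, this.1, mul_assoc]
  · rw [ba', star_mul, star_mul, star_s2, hQ.1, this.2.1, mul_assoc]

theorem bg_sig (h : BSRel P Q C z w Z Z' e) (hQ : IsProj Q) :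
    star (bg Q z w Z Z') * sig * bg Q z w Z Z' = sig ∧
      bg' Q z w Z Z' * sig * star (bg' Q z w Z Z') = sig := by
  obtain ⟨h1, h2⟩ := ba_herm h hQ
  constructor
  · rw [bg, star_mul, star_sh, star_th, star_neg, h1, h2]
    calc _ = sh (ba Q z w Z) * (th (-ba' Q z w Z') * sig * sh (-ba' Q z w Z')) * th (ba Q z w Z) := by
          simp only [mul_assoc]
      _ = sig := by rw [th_sig_sh, sh_sig_th]
  · rw [bg', star_mul, star_sh, star_th, star_neg, h1, h2]
    calc _ = th (-ba Q z w Z) * (sh (ba' Q z w Z') * sig * th (ba' Q z w Z')) * sh (-ba Q z w Z) := by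
          simp only [mul_assoc]
      _ = sig := by rw [sh_sig_th, th_sig_sh]

/-! the easy collar cases -/

lemma easy_case (a a' : R) :
    th (-a) * sh a' * Jof a a' * (sh (-a') * th a) * (1 + J1) = 1 + J1 := by
  have e1 : (1 + J1 : M2 R) = !![1 + 1, 0; 0, 0] := by
    rw [← s2_one]; simp [s2, J1]
  calc _ = th (-a) * ((sh a' * sh (-a')) * th a) * sh (-a') * J1 * sh a' *
        (th (-a) * ((sh a' * sh (-a')) * th a)) * (1 + J1) := by
        simp only [Jof, el, elInv, mul_assoc]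
    _ = sh (-a') * J1 * sh a' * (1 + J1) := by
        simp only [sh_mul_neg, one_mul, th_neg_mul, mul_one]
    _ = 1 + J1 := by rw [e1]; simp [sh, J1]

lemma bJ2_of_one (hΘ : bΘ P Q z w = 1) : bJ2 P Q z w Z Z' = J1 := by
  have e : bRe (1 : M2 R) = 1 := by
    rw [bRe, star_one, ← two_smul ℂ, smul_smul]; norm_num
  simp [bJ2, hΘ, e, bIm, J1]

/-! the case `P = 0` -/

lemma fix_col {Q a a' y τ : R} (hQ : Q * Q = Q) (h1 : Q * a = a) (h2 : Q * a' = a')
    (h3 : Q * τ = τ) (h4 : Q * y = a' * (a * y + τ)) :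
    JR Q * (sh (-a') * th a) * !![y, 0; τ, 0] = (sh (-a') * th a) * !![y, 0; τ, 0] := by
  have e1 : (sh (-a') * th a) * !![y, 0; τ, 0] = !![y - a' * (a * y + τ), 0; a * y + τ, 0] := by
    rw [mul_assoc]
    simp only [sh, th, Matrix.mul_fin_two]
    congr 2
    · congr 1
      · noncomm_ring
      · simp
    · simp
  have e2 : Q * (y - a' * (a * y + τ)) = 0 := by
    rw [mul_sub, ← mul_assoc, h2, h4, sub_self]
  have e3 : Q * (a * y + τ) = a * y + τ := by rw [mul_add, ← mul_assoc, h1, h3]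
  rw [mul_assoc, e1, JR_of_idem hQ, dg, Matrix.mul_fin_two]
  simp only [sub_mul, smul_mul_assoc, e2, e3, one_mul, zero_mul, mul_zero, add_zero, zero_add,
    smul_zero, sub_zero, two_smul, add_sub_cancel_right, add_mul]

lemma one_add_J2 {T Y Y' : R} (h1 : T * star T = 1) (hY : Y * Y' = 1) (c1 : Commute Y T)
    (c2 : Commute Y (star T)) :
    (1 : M2 R) + !![(1 / 2 : ℂ) • (T + star T), (2 : ℂ) • (((Complex.I / 2) • (star T - T)) * Y');
        (1 / 2 : ℂ) • (Y * ((Complex.I / 2) • (star T - T))), -((1 / 2 : ℂ) • (T + star T))] =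
      !![(1 / 2 : ℂ) • (1 + T), 0; (Complex.I / 4) • (Y * (1 - T)), 0] *
        !![1 + star T, (-2 * Complex.I) • ((1 - star T) * Y'); 0, 0] := by
  have e1 : (1 + T) * (1 + star T) = 1 + 1 + (T + star T) := by
    simp only [mul_add, add_mul, one_mul, mul_one, h1]; abel
  have e2 : (1 + T) * ((1 - star T) * Y') = -((star T - T) * Y') := by
    rw [← mul_assoc, ← neg_mul]; congr 1
    simp only [mul_sub, add_mul, one_mul, mul_one, h1]; abel
  have e3 : Y * (1 - T) * (1 + star T) = Y * (star T - T) := by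
    rw [mul_assoc]; congr 1
    simp only [mul_add, sub_mul, one_mul, mul_one, h1]; abel
  have e4 : Y * (1 - T) * ((1 - star T) * Y') = 1 + 1 - (T + star T) := by
    have : (1 - T) * (1 - star T) = 1 + 1 - (T + star T) := by
      simp only [mul_sub, sub_mul, one_mul, mul_one, h1]; abel
    have o := Commute.one_right Y
    rw [mul_assoc, ← mul_assoc (1 - T), this, ← mul_assoc,
      ((o.add_right o).sub_right (c1.add_right c2)).eq, mul_assoc, hY, mul_one]
  have hI : Complex.I * Complex.I = -1 := Complex.I_mul_I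
  rw [Matrix.mul_fin_two, ← s2_one, s2]
  simp only [smul_mul_assoc, mul_smul_comm, e1, e2, e3, e4, zero_mul, add_zero, smul_smul,
    Matrix.of_add_of, Matrix.add_cons, Matrix.head_cons, Matrix.tail_cons, Matrix.empty_add_empty,
    zero_add]
  congr 2
  · congr 1
    · module
    · congr 1
      module
  · congr 1
    congr 1
    · module
    · congr 1
      rw [show -2 * Complex.I * (Complex.I / 4) = 1 / 2 by linear_combination (-1 / 2 : ℂ) * hI]
      module

/-- elements commuting with the vertical data -/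
structure Cen (Q w p : R) : Prop where
  cQ : Commute p Q
  cw : Commute p w
  cs : Commute p (star w)

namespace Cen
variable {p q : R}
lemma one : Cen Q w 1 := ⟨Commute.one_left _, Commute.one_left _, Commute.one_left _⟩
lemma zero : Cen Q w 0 := ⟨Commute.zero_left _, Commute.zero_left _, Commute.zero_left _⟩
lemma add (h : Cen Q w p) (h' : Cen Q w q) : Cen Q w (p + q) :=
  ⟨h.1.add_left h'.1, h.2.add_left h'.2, h.3.add_left h'.3⟩
lemma sub (h : Cen Q w p) (h' : Cen Q w q) : Cen Q w (p - q) :=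
  ⟨h.1.sub_left h'.1, h.2.sub_left h'.2, h.3.sub_left h'.3⟩
lemma mul (h : Cen Q w p) (h' : Cen Q w q) : Cen Q w (p * q) :=
  ⟨h.1.mul_left h'.1, h.2.mul_left h'.2, h.3.mul_left h'.3⟩
lemma neg (h : Cen Q w p) : Cen Q w (-p) := ⟨h.1.neg_left, h.2.neg_left, h.3.neg_left⟩
lemma cE (h : Cen Q w p) : Commute p (Q - star w * Q * w) :=
  h.1.sub_right ((h.3.mul_right h.1).mul_right h.2)
end Cen

section Vert
variable (hw : star w * w = 1 ∧ w * star w = 1) (hQ : IsProj Q) (hq : Q * w * (1 - Q) = 0)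
include hw hQ hq

lemma v_QwQ : Q * w * Q = Q * w := by
  rw [mul_sub, mul_one, sub_eq_zero] at hq; exact hq.symm

lemma v_QsQ : Q * star w * Q = star w * Q := by
  have := congrArg star (v_QwQ hw hQ hq)
  simpa only [star_mul, hQ.1, mul_assoc] using this

lemma v_QE : Q * (Q - star w * Q * w) = Q - star w * Q * w := by
  rw [mul_sub, hQ.2, ← mul_assoc, ← mul_assoc, v_QsQ hw hQ hq]

lemma v_EQ : (Q - star w * Q * w) * Q = Q - star w * Q * w := by
  rw [sub_mul, hQ.2, mul_assoc (star w), mul_assoc (star w), v_QwQ hw hQ hq]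

lemma v_wE : w * (Q - star w * Q * w) = (1 - Q) * w * Q := by
  rw [mul_sub, ← mul_assoc, ← mul_assoc, hw.2, one_mul, sub_mul, sub_mul, one_mul,
    v_QwQ hw hQ hq]

lemma v_QwE : Q * (w * (Q - star w * Q * w)) = 0 := by
  rw [v_wE hw hQ hq, ← mul_assoc, ← mul_assoc, mul_sub, mul_one, hQ.2, sub_self, zero_mul, zero_mul]

lemma v_QwwE : Q * (w * (w * (Q - star w * Q * w))) = 0 := by
  rw [v_wE hw hQ hq]
  calc _ = Q * w * (1 - Q) * w * Q := by simp only [mul_assoc]
    _ = 0 := by rw [hq, zero_mul, zero_mul]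

lemma v_EE : (Q - star w * Q * w) * (Q - star w * Q * w) = Q - star w * Q * w := by
  nth_rewrite 1 [sub_mul]
  rw [v_QE hw hQ hq, mul_assoc (star w * Q), mul_assoc (star w) Q (w * _), v_QwE hw hQ hq, mul_zero,
    sub_zero]

lemma gen1 {x p0 p1 p2 : R} (hx : x = p0 + star w * p1 + w * p2) (h0 : Cen Q w p0)
    (h1 : Cen Q w p1) (h2 : Cen Q w p2) :
    (1 - Q) * x * Q = p2 * (w * (Q - star w * Q * w)) := by
  have a0 : (1 - Q) * p0 * Q = 0 := by
    rw [mul_assoc, h0.1.eq, ← mul_assoc, sub_mul, one_mul, hQ.2, sub_self, zero_mul]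
  have a1 : (1 - Q) * (star w * p1) * Q = 0 := by
    rw [mul_assoc, mul_assoc, h1.1.eq, ← mul_assoc, ← mul_assoc, sub_mul, sub_mul, one_mul,
      v_QsQ hw hQ hq, sub_self, zero_mul]
  have a2 : (1 - Q) * (w * p2) * Q = p2 * (w * (Q - star w * Q * w)) := by
    rw [mul_assoc, mul_assoc, h2.1.eq, ← mul_assoc, ← mul_assoc, ← v_wE hw hQ hq,
      (h2.2.mul_right h2.cE).eq]
  rw [hx, mul_add, mul_add, add_mul, add_mul, a0, a1, a2, zero_add, zero_add]

lemma gen2 {x p0 p1 p2 : R} (hx : x = p0 + star w * p1 + w * p2) (h0 : Cen Q w p0)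
    (h1 : Cen Q w p1) (h2 : Cen Q w p2) :
    Q * x * (w * (Q - star w * Q * w)) = p1 * (Q - star w * Q * w) := by
  have a0 : Q * p0 * (w * (Q - star w * Q * w)) = 0 := by
    rw [← h0.1.eq, mul_assoc, v_QwE hw hQ hq, mul_zero]
  have a1 : Q * (star w * p1) * (w * (Q - star w * Q * w)) = p1 * (Q - star w * Q * w) := by
    rw [← h1.3.eq, ← mul_assoc, ← mul_assoc, ← h1.1.eq, mul_assoc (p1 * Q), hw.1, mul_one,
      mul_assoc, v_QE hw hQ hq]
  have a2 : Q * (w * p2) * (w * (Q - star w * Q * w)) = 0 := by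
    rw [← h2.2.eq, ← mul_assoc Q, ← h2.1.eq, mul_assoc, mul_assoc, v_QwwE hw hQ hq, mul_zero]
  rw [hx, mul_add, mul_add, add_mul, add_mul, a0, a1, a2, zero_add, add_zero]

lemma gen3 {x p0 p2 : R} (hx : x = p0 + w * p2) (h0 : Cen Q w p0) (h2 : Cen Q w p2) :
    Q * x * (Q - star w * Q * w) = p0 * (Q - star w * Q * w) := by
  have a0 : Q * p0 * (Q - star w * Q * w) = p0 * (Q - star w * Q * w) := by
    rw [← h0.1.eq, mul_assoc, v_QE hw hQ hq]
  have a2 : Q * (w * p2) * (Q - star w * Q * w) = 0 := by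
    rw [← h2.2.eq, ← mul_assoc Q, ← h2.1.eq, mul_assoc, mul_assoc, v_QwE hw hQ hq, mul_zero]
  rw [hx, mul_add, add_mul, a0, a2, add_zero]

end Vert

lemma s2_mul_m2_mul_s2 (x y a b c d : R) :
    s2 x * !![a, b; c, d] * s2 y = !![x * a * y, x * b * y; x * c * y, x * d * y] := by
  simp [s2]

lemma bA_eq (z w Z : R) : bA z w Z = (Complex.I / 2) •
    !![(star z - z) * Z, -(star z - 1 + w * (1 + star z)) * Z;
      (z - 1 + star w * (1 + z)) * Z, (w - star w) * Z] := by
  rw [bA, A2, smul_mul_assoc]; simp [s2]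

lemma bA'_eq (z w Z : R) : bA' z w Z = (Complex.I / 2) •
    !![-(w - star w) * Z, -(star z - 1 + w * (1 + star z)) * Z;
      (z - 1 + star w * (1 + z)) * Z, -(star z - z) * Z] := by
  rw [bA', A2', smul_mul_assoc]; simp [s2]

lemma one_sub_s2 (a : R) : 1 - s2 a = s2 (1 - a) := by
  rw [← s2H_apply, ← s2H_apply, map_sub, map_one]

lemma key_zero (h : BSRel P Q C z w Z Z' e) (hQ : IsProj Q) {E : R} (hE : E = Q - star w * Q * w) :
    s2 Q * (1 - (1 / 2 : ℂ) • dg 0 ((1 + z) * E)) = ba' Q z w Z' *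
      (ba Q z w Z * (1 - (1 / 2 : ℂ) • dg 0 ((1 + z) * E)) +
        (Complex.I / 4) • (s2 Z * dg 0 ((1 + z) * E))) := by
  have hw := h.wu
  have hq := h.Qw
  have cz : Cen Q w z := ⟨h.Qz.symm, h.zw, commute_star_of_unit hw h.zw⟩
  have cz' : Cen Q w (star z) := ⟨(commute_star_of_unit h.zu h.Qz).symm,
    (commute_star_of_unit h.zu h.zw.symm).symm, (commute_star_of_unit h.zu cz.3.symm).symm⟩
  have cZ : Cen Q w Z := ⟨h.ZQ, h.Zw, commute_star_of_unit hw h.Zw⟩
  have cZ' : Cen Q w Z' := ⟨(h.val.commute cZ.1.symm).symm, (h.val.commute cZ.2.symm).symm,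
    (h.val.commute cZ.3.symm).symm⟩
  have c1 : Cen Q w 1 := Cen.one
  have c0 : Cen Q w 0 := Cen.zero
  have Zz' : Commute Z (star z) := commute_star_of_unit h.zu h.Zz
  have ZZ : Z' * Z = 1 := h.val.2.2.2
  have cE : ∀ {p}, Cen Q w p → Commute p E := fun hp => hE ▸ hp.cE
  have EE : E * E = E := hE ▸ v_EE hw hQ hq
  have QE : Q * E = E := hE ▸ v_QE hw hQ hq
  have M1 : (1 - s2 Q) * bA z w Z * s2 Q =
      s2 (w * E) * ((Complex.I / 2) • !![0, -((1 + star z) * Z); 0, Z]) := by
    rw [one_sub_s2, bA_eq, mul_smul_comm, smul_mul_assoc, s2_mul_m2_mul_s2,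
      gen1 hw hQ hq (p0 := (star z - z) * Z) (p1 := 0) (p2 := 0) (by noncomm_ring)
        ((cz'.sub cz).mul cZ) c0 c0,
      gen1 hw hQ hq (p0 := -((star z - 1) * Z)) (p1 := 0) (p2 := -((1 + star z) * Z))
        (by noncomm_ring) ((cz'.sub c1).mul cZ).neg c0 ((c1.add cz').mul cZ).neg,
      gen1 hw hQ hq (p0 := (z - 1) * Z) (p1 := (1 + z) * Z) (p2 := 0)
        (by noncomm_ring) ((cz.sub c1).mul cZ) ((c1.add cz).mul cZ) c0,
      gen1 hw hQ hq (p0 := 0) (p1 := -Z) (p2 := Z) (by noncomm_ring) c0 cZ.neg cZ, ← hE,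
      mul_smul_comm]
    congr 1
    have k1 := (((c1.add cz').mul cZ).neg.2.mul_right (cE ((c1.add cz').mul cZ).neg)).eq
    have k2 := (cZ.2.mul_right (cE cZ)).eq
    rw [k1, k2]
    simp [s2]
  have M2' : s2 Q * bA' z w Z' * s2 (w * E) =
      (Complex.I / 2) • !![Z' * E, 0; (1 + z) * Z' * E, 0] := by
    rw [bA'_eq, mul_smul_comm, smul_mul_assoc, s2_mul_m2_mul_s2, hE,
      gen2 hw hQ hq (p0 := 0) (p1 := Z') (p2 := -Z') (by noncomm_ring) c0 cZ' cZ'.neg,
      gen2 hw hQ hq (p0 := -((star z - 1) * Z')) (p1 := 0) (p2 := -((1 + star z) * Z'))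
        (by noncomm_ring) ((cz'.sub c1).mul cZ').neg c0 ((c1.add cz').mul cZ').neg,
      gen2 hw hQ hq (p0 := (z - 1) * Z') (p1 := (1 + z) * Z') (p2 := 0)
        (by noncomm_ring) ((cz.sub c1).mul cZ') ((c1.add cz).mul cZ') c0,
      gen2 hw hQ hq (p0 := -(star z - z) * Z') (p1 := 0) (p2 := 0) (by noncomm_ring)
        ((cz'.sub cz).neg.mul cZ') c0 c0]
    simp
  have M3 : s2 Q * bA' z w Z' * dg 0 E =
      (Complex.I / 2) • !![0, -((star z - 1) * Z') * E; 0, -(star z - z) * Z' * E] := by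
    have : ∀ a b c d : R, s2 Q * !![a, b; c, d] * dg 0 E = !![0, Q * b * E; 0, Q * d * E] := by
      intro a b c d; simp [s2, dg]
    rw [bA'_eq, mul_smul_comm, smul_mul_assoc, this, hE,
      gen3 hw hQ hq (p0 := -((star z - 1) * Z')) (p2 := -((1 + star z) * Z'))
        (by noncomm_ring) ((cz'.sub c1).mul cZ').neg ((c1.add cz').mul cZ').neg,
      gen3 hw hQ hq (p0 := -(star z - z) * Z') (p2 := 0) (by noncomm_ring)
        ((cz'.sub cz).neg.mul cZ') c0]
  have QQ : s2 Q * s2 Q = s2 Q := by rw [← s2_mul, hQ.2]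
  have aa : ba' Q z w Z' * ba Q z w Z =
      s2 Q - s2 Q * bA' z w Z' * ((1 - s2 Q) * bA z w Z * s2 Q) := by
    have := (bA_val h).2.2.2
    calc _ = s2 Q * bA' z w Z' * (s2 Q * s2 Q) * bA z w Z * s2 Q := by
          simp only [ba, ba', mul_assoc]
      _ = s2 Q * (bA' z w Z' * bA z w Z) * s2 Q -
          s2 Q * bA' z w Z' * ((1 - s2 Q) * bA z w Z * s2 Q) := by rw [QQ]; noncomm_ring
      _ = _ := by rw [this, mul_one, QQ]
  have t1 : s2 Z * dg 0 ((1 + z) * E) = dg 0 E * s2 (Z * (1 + z)) := by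
    have := (cE (cZ.mul (c1.add cz))).eq
    simp only [s2, dg, Matrix.mul_fin_two, mul_zero, zero_mul, add_zero, zero_add, ← mul_assoc, this]
  have t2 : s2 Q * dg 0 E = dg 0 E := by simp [s2, dg, QE]
  have at' : ba' Q z w Z' * (s2 Z * dg 0 ((1 + z) * E)) =
      (Complex.I / 2) • !![0, -((star z - 1) * Z') * E; 0, -(star z - z) * Z' * E] *
        s2 (Z * (1 + z)) := by
    rw [t1, ba', mul_assoc (s2 Q * bA' z w Z'), ← mul_assoc (s2 Q) (dg 0 E), t2, ← mul_assoc, M3]
  have u1 : Z' * E * ((1 + star z) * Z) = (1 + star z) * E := by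
    have k1 : Commute (1 + star z) Z := ((Commute.one_right Z).add_right Zz').symm
    rw [k1.eq, ← mul_assoc, mul_assoc Z', ← (cE cZ).eq, ← mul_assoc, ZZ, one_mul,
      (cE (c1.add cz')).eq]
  have u2 : ∀ u : R, u * Z' * E * (Z * (1 + z)) = u * (1 + z) * E := fun u => by
    rw [← mul_assoc, mul_assoc (u * Z'), ← (cE cZ).eq, ← mul_assoc, mul_assoc u, ZZ, mul_one,
      mul_assoc, ← (cE (c1.add cz)).eq, mul_assoc]
  have u3 : ∀ u : R, u * E * ((1 + z) * E) = u * (1 + z) * E := fun u => by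
    rw [mul_assoc u, ← mul_assoc E, ← (cE (c1.add cz)).eq, mul_assoc, EE, mul_assoc]
  have p1 : (1 + star z) * (1 + z) = 1 + 1 + (star z + z) := by
    simp only [mul_add, add_mul, one_mul, mul_one, h.zu.1]; abel
  have p2 : (star z - 1) * (1 + z) = star z - z := by
    simp only [mul_add, sub_mul, one_mul, mul_one, h.zu.1]; abel
  have p3 : (1 + z) * (1 + star z) = 1 + 1 + (star z + z) := by
    simp only [mul_add, add_mul, one_mul, mul_one, h.zu.2]; abel
  have hI : Complex.I * Complex.I = -1 := Complex.I_mul_I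
  have fin : s2 Q * bA' z w Z' * ((1 - s2 Q) * bA z w Z * s2 Q) *
      (1 - (1 / 2 : ℂ) • dg 0 ((1 + z) * E)) =
      (Complex.I / 4) • (ba' Q z w Z' * (s2 Z * dg 0 ((1 + z) * E))) := by
    rw [at', M1, ← mul_assoc (s2 Q * bA' z w Z'), M2', smul_mul_smul_comm, I2_mul_I2,
      smul_mul_assoc, smul_mul_assoc, smul_smul,
      show Complex.I / 4 * (Complex.I / 2) = -1 / 8 by linear_combination (1 / 8 : ℂ) * hI,
      mul_sub, mul_one, mul_smul_comm]
    have w1 : (1 + z) * Z' * E * ((1 + star z) * Z) = (1 + z) * (1 + star z) * E := by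
      rw [mul_assoc (1 + z), mul_assoc (1 + z), u1, mul_assoc]
    simp only [s2, dg, Matrix.mul_fin_two, mul_zero, zero_mul, add_zero, zero_add, mul_neg, neg_mul,
      u1, w1, u2, u3, neg_zero]
    have q1 : (star z - z) * (1 + z) = star z + 1 - z - z * z := by
      simp only [mul_add, sub_mul, mul_one, h.zu.1]; abel
    have q2 : (1 + 1 + (star z + z)) * (1 + z) = 1 + 1 + 1 + z + z + z + star z + z * z := by
      simp only [mul_add, add_mul, one_mul, mul_one, h.zu.1]; abel
    rw [p1, p2, p3, q1, q2]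
    ext i j
    fin_cases i <;> fin_cases j <;>
      simp only [Matrix.smul_apply, Matrix.sub_apply, Matrix.of_apply, Matrix.cons_val',
        Matrix.cons_val_zero, Matrix.cons_val_one, Matrix.cons_val_fin_one, Fin.zero_eta,
        Fin.mk_one, Fin.isValue, smul_zero, sub_zero, add_mul, sub_mul, one_mul] <;>
      module
  rw [mul_add, ← mul_assoc, aa, sub_mul, fin, mul_smul_comm, sub_add_cancel]

/-- the key computation: on the collar the two involutions have the same positive eigenspace -/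
theorem bJ1_bJ2 (h : BSRel P Q C z w Z Z' e) (hP : IsProj P) (hQ : IsProj Q) (hPQ : Commute P Q)
    (hg : P = 0 ∨ P = 1 ∨ Q = 0 ∨ Q = 1) :
    bJ1 P Q C z w Z Z' * (1 + bJ2 P Q z w Z Z') = 1 + bJ2 P Q z w Z Z' := by
  have s20 : s2 (0 : R) = 0 := map_zero (s2H : R →⋆ₐ[ℂ] _)
  have easy : bΘ P Q z w = 1 → bJ P Q C z w Z Z' = Jof (ba Q z w Z) (ba' Q z w Z') →
      bJ1 P Q C z w Z Z' * (1 + bJ2 P Q z w Z Z') = 1 + bJ2 P Q z w Z Z' := fun h1 h2 => by
    rw [bJ2_of_one h1, bJ1, h2, bg, bg', easy_case]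
  have d11 : dg (1 : R) 1 = 1 := s2_one
  have hQQ : (Q = 0 ∨ Q = 1) →
      bJ1 P Q C z w Z Z' * (1 + bJ2 P Q z w Z Z') = 1 + bJ2 P Q z w Z Z' := fun hq => by
    have hE : Q - star w * Q * w = 0 := by
      rcases hq with rfl | rfl
      · simp
      · simp [h.wu.1]
    refine easy (by rw [bΘ, hE]; simp [d11]) ?_
    have : JL (s2 Q) (bA z w Z) (bA' z w Z') = JR (s2 Q) := JL_eq_JR (bA_val h) (by
      rcases hq with rfl | rfl
      · exact Or.inl s20
      · exact Or.inr s2_one)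
    show JR (s2 Q) + s2 (s2 P) * (JL (s2 Q) (bA z w Z) (bA' z w Z') - JR (s2 Q)) =
      JL (s2 Q) (bA z w Z) (bA' z w Z')
    rw [this, sub_self, mul_zero, add_zero]
  rcases hg with rfl | rfl | hq | hq
  · obtain ⟨E, hE⟩ : ∃ E, E = Q - star w * Q * w := ⟨_, rfl⟩
    have hw := h.wu
    have cz : Cen Q w z := ⟨h.Qz.symm, h.zw, commute_star_of_unit hw h.zw⟩
    have cZ : Cen Q w Z := ⟨h.ZQ, h.Zw, commute_star_of_unit hw h.Zw⟩
    have zE : Commute z E := hE ▸ cz.cE
    have ZE : Commute Z E := hE ▸ cZ.cE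
    have EE : E * E = E := hE ▸ v_EE hw hQ h.Qw
    have QE : Q * E = E := hE ▸ v_QE hw hQ h.Qw
    have sE : star E = E := by
      rw [hE]; simp only [star_sub, star_mul, hQ.1, star_star, mul_assoc]
    have hΘ : bΘ 0 Q z w = dg 1 (1 - (1 + z) * E) := by
      rw [bΘ, ← hE]; congr 1; noncomm_ring
    have h1T : 1 - bΘ 0 Q z w = dg 0 ((1 + z) * E) := by
      rw [hΘ, ← d11]
      ext i j
      fin_cases i <;> fin_cases j <;> simp [dg]
    have TT : bΘ 0 Q z w * star (bΘ 0 Q z w) = 1 := by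
      rw [hΘ, star_dg, dg_mul, star_one, mul_one, ← d11]
      congr 1
      have k : E * star z = star z * E := (commute_star_of_unit h.zu zE.symm).eq
      have k' : ∀ c, E * (star z * c) = star z * (E * c) := fun c => by
        rw [← mul_assoc, k, mul_assoc]
      have k2 : ∀ c, z * (star z * c) = c := fun c => by rw [← mul_assoc, h.zu.2, one_mul]
      have k3 : ∀ c, E * (E * c) = E * c := fun c => by rw [← mul_assoc, EE]
      simp only [star_sub, star_mul, star_add, star_one, sE, mul_sub, sub_mul, mul_add, add_mul,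
        one_mul, mul_one, mul_assoc, k, k', k2, k3, EE]
      abel
    have o := Commute.one_right Z
    have c1 : Commute (s2 Z) (bΘ 0 Q z w) := by
      rw [hΘ]
      exact commute_s2_m2 o (Commute.zero_right _) (Commute.zero_right _)
        (o.sub_right ((o.add_right h.Zz).mul_right ZE))
    have c2 : Commute (s2 Z) (star (bΘ 0 Q z w)) := by
      have := c1.star_star
      rwa [star_s2, h.val.1] at this
    have hJ : bJ 0 Q C z w Z Z' = JR (s2 Q) := by
      show JR (s2 Q) + s2 (s2 (0 : R)) * _ = _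
      rw [s20, show s2 (0 : M2 R) = 0 from map_zero (s2H : M2 R →⋆ₐ[ℂ] _), zero_mul, add_zero]
    have hy : (1 / 2 : ℂ) • (1 + bΘ 0 Q z w) = 1 - (1 / 2 : ℂ) • dg 0 ((1 + z) * E) := by
      rw [← h1T]; module
    have QQ : s2 Q * s2 Q = s2 Q := by rw [← s2_mul, hQ.2]
    have hf := fix_col (Q := s2 Q) (a := ba Q z w Z) (a' := ba' Q z w Z') QQ
      (by rw [ba, ← mul_assoc, ← mul_assoc, QQ]) (by rw [ba', ← mul_assoc, ← mul_assoc, QQ])
      (by
        rw [mul_smul_comm]
        congr 1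
        have k : Q * (Z * ((1 + z) * E)) = Z * ((1 + z) * E) := by
          rw [← mul_assoc, ← h.ZQ.eq, mul_assoc, ← mul_assoc Q,
            ((Commute.one_right Q).add_right h.Qz).eq, mul_assoc, QE]
        simp [s2, dg, k]) (key_zero h hQ hE)
    rw [bJ2, bRe, bIm, one_add_J2 TT h.val.s2.2.2.1 c1 c2, hy, h1T, bJ1, hJ, bg, mul_assoc (bg' _ _ _ _ _),
      mul_assoc (bg' _ _ _ _ _), ← mul_assoc (JR _ * _), hf, ← bg, ← mul_assoc, ← mul_assoc,
      (bg_mul _ _ _ _ _).2, one_mul]
  · refine easy (by rw [bΘ]; simp [d11]) ?_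
    show JR (s2 Q) + s2 (s2 (1 : R)) * (JL (s2 Q) (bA z w Z) (bA' z w Z') - JR (s2 Q)) =
      JL (s2 Q) (bA z w Z) (bA' z w Z')
    rw [s2_one, s2_one, one_mul, add_sub_cancel]
  · exact hQQ (Or.inl hq)
  · exact hQQ (Or.inr hq)

end Vale.Agent.P228
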