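import Vale.Agent.P228.BSAlg1

set_option linter.unusedSectionVars false
set_option linter.unusedSimpArgs false
set_option linter.unusedVariables false
noncomputable section
open Matrix Filter Topology
namespace Vale.Agent.P228

variable {R S : Type} [Ring R] [StarRing R] [Algebra ℂ R] [StarModule ℂ R]
  [Ring S] [StarRing S] [Algebra ℂ S] [StarModule ℂ S]

variable {P Q C z w Z Z' e : R}

lemma iso_ext {θ E x : R} (hE : IsProj E) (c : Commute θ E) (h1 : star θ * θ = 1)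
    (h2 : θ * star θ = 1 - x) :
    star (1 - E + θ * E) * (1 - E + θ * E) = 1 ∧
      (1 - E + θ * E) * star (1 - E + θ * E) = 1 - E * x := by
  have c' : Commute (star θ) E := by
    have := c.star_star
    rwa [hE.1] at this
  have k1 : ∀ a, E * (θ * a) = θ * (E * a) := fun a => by rw [← mul_assoc, ← c.eq, mul_assoc]
  have k2 : ∀ a, E * (star θ * a) = star θ * (E * a) := fun a => by
    rw [← mul_assoc, ← c'.eq, mul_assoc]
  have k3 : ∀ a, star θ * (θ * a) = a := fun a => by rw [← mul_assoc, h1, one_mul]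
  have k4 : ∀ a, E * (E * a) = E * a := fun a => by rw [← mul_assoc, hE.2]
  have k5 : θ * (star θ * E) = E - E * x := by
    have : Commute (θ * star θ) E := c.mul_left c'
    rw [← mul_assoc, this.eq, h2, mul_sub, mul_one]
  constructor
  · simp only [star_add, star_sub, star_one, star_mul, hE.1, mul_add, add_mul, mul_sub, sub_mul,
      one_mul, mul_one, mul_assoc, k1, k2, k3, k4, hE.2, ← c.eq, ← c'.eq]
    abel
  · simp only [star_add, star_sub, star_one, star_mul, hE.1, mul_add, add_mul, mul_sub, sub_mul,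
      one_mul, mul_one, mul_assoc, k1, k2, k4, k5, hE.2, ← c.eq, ← c'.eq]
    abel

theorem bΘ_mul (h : BSRel P Q C z w Z Z' e) (hP : IsProj P) (hQ : IsProj Q) (hPQ : Commute P Q) :
    star (bΘ P Q z w) * bΘ P Q z w = 1 ∧ bΘ P Q z w * star (bΘ P Q z w) = 1 - dg 0 e ∧
      Commute (s2 Z) (bΘ P Q z w) ∧ Commute Z e := by
  have hw := h.wu
  have cz : Cen Q w z := ⟨h.Qz.symm, h.zw, commute_star_of_unit hw h.zw⟩
  have cZ : Cen Q w Z := ⟨h.ZQ, h.Zw, commute_star_of_unit hw h.Zw⟩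
  have cP : Cen Q w P := ⟨hPQ, h.Pw, commute_star_of_unit hw h.Pw⟩
  have hE : IsProj (Q - star w * Q * w) :=
    ⟨by simp only [star_sub, star_mul, hQ.1, star_star, mul_assoc], v_EE hw hQ h.Qw⟩
  have cθ : Commute (P - z * (1 - P)) (Q - star w * Q * w) :=
    (cP.sub (cz.mul (Cen.one.sub cP))).cE
  have a1 : P * (z * (1 - P)) = 0 := by rw [← mul_assoc, h.Pz]
  have a2 : (1 - P) * star z * P = 0 := by
    have := congrArg star h.Pz
    simpa only [star_mul, star_sub, star_one, hP.1, star_zero, mul_assoc] using this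
  have a3 : (1 - P) * (1 - P) = 1 - P := hP.one_sub.2
  have a4 : (1 - P) * P = 0 := by rw [sub_mul, one_mul, hP.2, sub_self]
  have a5 : P * (1 - P) = 0 := by rw [mul_sub, mul_one, hP.2, sub_self]
  have sθ : star (P - z * (1 - P)) = P - (1 - P) * star z := by
    simp only [star_sub, star_mul, star_one, hP.1]
  have t1 : star (P - z * (1 - P)) * (P - z * (1 - P)) = 1 := by
    rw [sθ, mul_sub, sub_mul P, sub_mul P, hP.2, a1, a2, mul_assoc, ← mul_assoc (star z), h.zu.1,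
      one_mul, a3]
    abel
  have t2 : (P - z * (1 - P)) * star (P - z * (1 - P)) = 1 - (z * P * star z - P) := by
    rw [sθ, mul_sub, sub_mul P, sub_mul P, hP.2, mul_assoc z, a4, ← mul_assoc P, a5, mul_assoc z,
      ← mul_assoc (1 - P), a3, sub_mul, one_mul, mul_sub z, h.zu.2, mul_assoc z]
    simp only [mul_zero, zero_mul]
    abel
  obtain ⟨i1, i2⟩ := iso_ext hE cθ t1 t2
  have o := Commute.one_right Z
  have d11 : dg (1 : R) 1 = 1 := s2_one
  refine ⟨?_, ?_, ?_, ?_⟩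
  · rw [bΘ, star_dg, dg_mul, i1, star_one, mul_one, d11]
  · rw [bΘ, star_dg, dg_mul, i2, star_one, mul_one, ← h.ee, one_m2, dg, dg, sub_m2]
    simp only [sub_zero]
  · exact commute_s2_m2 o (Commute.zero_right _) (Commute.zero_right _)
      ((o.sub_right cZ.cE).add_right
        ((h.ZP.sub_right (h.Zz.mul_right (o.sub_right h.ZP))).mul_right cZ.cE))
  · rw [h.ee]
    exact cZ.cE.mul_right
      (((h.Zz.mul_right h.ZP).mul_right (commute_star_of_unit h.zu h.Zz)).sub_right h.ZP)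

lemma val_csmul {A A' : R} (h : Val A A') {a b : ℂ} (ha : star a = a) (hb : star b = b)
    (hab : a * b = 1) : Val (a • A) (b • A') :=
  val_of (by rw [star_smul, ha, h.1]) (by rw [star_smul, hb, h.2.1])
    (by rw [smul_mul_smul_comm, hab, h.2.2.1, one_smul])

theorem bS_val (h : Val Z Z') : Val (bS Z) (bS' Z') :=
  (val_csmul h (by simp) (by simp) (by norm_num)).s2.dg
    (val_csmul h (by simp) (by simp) (by norm_num)).s2

lemma e_zero (h : BSRel P Q C z w Z Z' e) (hg : P = 0 ∨ P = 1 ∨ Q = 0 ∨ Q = 1) : e = 0 := by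
  rw [h.ee]
  rcases hg with rfl | rfl | rfl | rfl
  · simp
  · simp [h.zu.2]
  · simp
  · simp [h.wu.1]

lemma s2_smul (r : ℂ) (a : R) : s2 (r • a) = r • s2 a := map_smul (s2H : R →⋆ₐ[ℂ] _) r a
lemma s2_add (a b : R) : s2 (a + b) = s2 a + s2 b := map_add (s2H : R →⋆ₐ[ℂ] _) a b
lemma s2_sub (a b : R) : s2 (a - b) = s2 a - s2 b := map_sub (s2H : R →⋆ₐ[ℂ] _) a b
lemma s2_neg (a : R) : s2 (-a) = -s2 a := map_neg (s2H : R →⋆ₐ[ℂ] _) a

lemma J3_skew {T Y : R} (c : Commute Y T) (c' : Commute Y (star T)) (a : ℂ) :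
    star (!![0, star T; T, 0] : M2 R) * dg (-a • Y) (a • Y) =
      -(dg (-a • Y) (a • Y) * !![0, star T; T, 0]) := by
  simp only [star_m2, star_zero, star_star, dg, Matrix.mul_fin_two, neg_m2, zero_mul, mul_zero,
    add_zero, zero_add, neg_zero, mul_smul_comm, smul_mul_assoc, c.eq, c'.eq, neg_smul, neg_neg,
    mul_neg, neg_mul, smul_zero]

lemma bS_eq (Z : R) : bS Z = dg (-(1 / 4 : ℂ) • s2 Z) ((1 / 4 : ℂ) • s2 Z) := by
  rw [bS, s2_smul, s2_smul, neg_div]

lemma bS'_eq (Z : R) : bS' Z = dg (-(4 : ℂ) • s2 Z) ((4 : ℂ) • s2 Z) := by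
  rw [bS', s2_smul, s2_smul]

lemma commute_star_of_herm {Y T : R} (hY : star Y = Y) (c : Commute Y T) : Commute Y (star T) := by
  have := c.star_star
  rwa [hY] at this

theorem bJ3_inv (h : BSRel P Q C z w Z Z' e) (hP : IsProj P) (hQ : IsProj Q) (hPQ : Commute P Q)
    (hg : P = 0 ∨ P = 1 ∨ Q = 0 ∨ Q = 1) : Inv (bS Z) (bS' Z') (bJ3 P Q z w) := by
  obtain ⟨h1, h2, h3, -⟩ := bΘ_mul h hP hQ hPQ
  rw [e_zero h hg, show dg (0 : R) 0 = 0 from s2_zero, sub_zero] at h2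
  refine ⟨bS_val h.val, ?_, ?_⟩
  · simp only [bJ3, Matrix.mul_fin_two, zero_mul, mul_zero, add_zero, zero_add, h1, h2]
    exact s2_one
  · rw [bS_eq, bJ3]
    exact J3_skew h3 (commute_star_of_herm h.val.s2.1 h3) _

lemma bκ_mul : (bκ : M2 R) * bκ' = 1 ∧ (bκ' : M2 R) * bκ = 1 := by
  constructor <;>
    simp only [bκ, bκ', mul_smul_comm (1 / 2 : ℂ), smul_mul_assoc (1 / 2 : ℂ), Matrix.mul_fin_two,
      neg_mul, mul_neg, I_smul_mul, mul_one, one_mul, smul_m2, one_m2, neg_neg] <;>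
    refine m2_ext ?_ ?_ ?_ ?_ <;> module

lemma zeta_inv {C Y Y' : R} (hC : C * C = C) (h1 : Y * Y' = 1) (c : Commute Y C) (c' : Commute Y' C)
    {a b : ℂ} (hab : a * b = 1) :
    (a • (C * Y) + (1 - C)) * (b • (C * Y') + (1 - C)) = 1 := by
  have e1 : C * Y * (C * Y') = C := by
    rw [mul_assoc, ← mul_assoc Y, c.eq, mul_assoc, h1, mul_one, hC]
  have e2 : C * Y * (1 - C) = 0 := by
    rw [mul_sub, mul_one, mul_assoc, c.eq, ← mul_assoc, hC, sub_self]
  have e3 : (1 - C) * (C * Y') = 0 := by rw [sub_mul, one_mul, ← mul_assoc, hC, sub_self]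
  have e4 : (1 - C) * (1 - C) = 1 - C := by
    rw [sub_mul, one_mul, mul_sub, mul_one, hC, sub_self, sub_zero]
  rw [add_mul, mul_add, mul_add, smul_mul_smul_comm, smul_mul_assoc, mul_smul_comm, e1, e2, e3, e4,
    hab, one_smul, smul_zero, smul_zero]
  abel

theorem bh_mul (hC : IsProj C) (h : C = 0 ∨ (Val Z Z' ∧ Commute Z C)) :
    bh C Z * bh' C Z' = 1 ∧ bh' C Z' * bh C Z = 1 := by
  have key : ((1 / 2 : ℂ) • (C * Z) + (1 - C)) * ((2 : ℂ) • (C * Z') + (1 - C)) = 1 ∧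
      ((2 : ℂ) • (C * Z') + (1 - C)) * ((1 / 2 : ℂ) • (C * Z) + (1 - C)) = 1 := by
    rcases h with rfl | ⟨h, c⟩
    · simp
    · have c' : Commute Z' C := (h.commute c.symm).symm
      exact ⟨zeta_inv hC.2 h.2.2.1 c c' (by norm_num), zeta_inv hC.2 h.2.2.2 c' c (by norm_num)⟩
  constructor
  · rw [bh, bh', mul_assoc, ← mul_assoc bκ', bκ_mul.2, one_mul, dg_mul, ← s2_mul, key.1, mul_one,
      s2_one]
    exact s2_one
  · rw [bh, bh', mul_assoc, ← mul_assoc (dg _ _), dg_mul, ← s2_mul, key.2, mul_one, s2_one,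
      show dg (1 : M2 R) 1 = 1 from s2_one, one_mul, bκ_mul.1]

lemma conj_gen {Y Y' T : R} (h : Val Y Y') (c : Commute Y T) (c' : Commute Y (star T)) :
    star (dg 1 ((1 / 2 : ℂ) • Y) * bκ') * sig * (dg 1 ((1 / 2 : ℂ) • Y) * bκ') =
        dg (-(1 / 4 : ℂ) • Y) ((1 / 4 : ℂ) • Y) ∧
      bκ * dg 1 ((2 : ℂ) • Y') * sig * star (bκ * dg 1 ((2 : ℂ) • Y')) =
        dg (-(4 : ℂ) • Y') ((4 : ℂ) • Y') ∧
      bκ * dg 1 ((2 : ℂ) • Y') *
        !![(1 / 2 : ℂ) • (T + star T), (2 : ℂ) • (((Complex.I / 2) • (star T - T)) * Y');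
          (1 / 2 : ℂ) • (Y * ((Complex.I / 2) • (star T - T))), -((1 / 2 : ℂ) • (T + star T))] *
        (dg 1 ((1 / 2 : ℂ) • Y) * bκ') = !![0, star T; T, 0] := by
  have hI : Complex.I * Complex.I = -1 := Complex.I_mul_I
  have k1 : ∀ a, Y' * (Y * a) = a := fun a => by rw [← mul_assoc, h.2.2.2, one_mul]
  have k2 : Y' * (T * Y) = T := by rw [← c.eq, k1]
  have k3 : Y' * (star T * Y) = star T := by rw [← c'.eq, k1]
  have s2' : star (1 / 2 : ℂ) = 1 / 2 := by simp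
  have s3' : star (2 : ℂ) = 2 := by simp
  refine ⟨?_, ?_, ?_⟩
  · simp only [bκ', sig, dg, smul_m2, Matrix.mul_fin_two, star_m2, star_add, star_mul, star_smul,
      star_neg, star_one, star_zero, h.1, s2', Complex.star_def, Complex.conj_I, mul_smul_comm,
      smul_mul_assoc, mul_neg, neg_mul, mul_one, one_mul, mul_zero, zero_mul, add_zero, zero_add,
      smul_zero, smul_neg, neg_smul, smul_smul, map_mul, map_neg, map_div₀, map_one, map_ofNat,
      neg_zero]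
    refine m2_ext ?_ ?_ ?_ ?_ <;> match_scalars <;>
      (apply Complex.ext <;> simp <;> norm_num)
  · simp only [bκ, sig, dg, smul_m2, Matrix.mul_fin_two, star_m2, star_add, star_mul, star_smul,
      star_neg, star_one, star_zero, h.2.1, s3', Complex.star_def, Complex.conj_I, mul_smul_comm,
      smul_mul_assoc, mul_neg, neg_mul, mul_one, one_mul, mul_zero, zero_mul, add_zero, zero_add,
      smul_zero, smul_neg, neg_smul, smul_smul, map_mul, map_neg, map_div₀, map_one, map_ofNat,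
      neg_zero]
    refine m2_ext ?_ ?_ ?_ ?_ <;> match_scalars <;>
      (apply Complex.ext <;> simp <;> norm_num)
  · simp only [bκ, bκ', dg, smul_m2, Matrix.mul_fin_two, mul_smul_comm,
      smul_mul_assoc, mul_neg, neg_mul, mul_one, one_mul, mul_zero, zero_mul, add_zero, zero_add,
      smul_zero, smul_neg, neg_smul, mul_add, add_mul, mul_sub, sub_mul, mul_assoc, k1, k2, k3,
      h.2.2.2]
    refine m2_ext ?_ ?_ ?_ ?_ <;> match_scalars <;>
      (apply Complex.ext <;> simp <;> norm_num)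

theorem bh_conj' (hv : Val Z Z') (c : Commute (s2 Z) (bΘ P Q z w)) :
    star (bh 1 Z) * sig * bh 1 Z = bS Z ∧ bh' 1 Z' * sig * star (bh' 1 Z') = bS' Z' ∧
      bh' 1 Z' * bJ2 P Q z w Z Z' * bh 1 Z = bJ3 P Q z w := by
  have := conj_gen hv.s2 c (commute_star_of_herm hv.s2.1 c)
  simpa only [bh, bh', bS_eq, bS'_eq, bJ2, bJ3, bRe, bIm, one_mul, sub_self, add_zero, s2_smul]
    using this

theorem bh_conj (h : BSRel P Q C z w Z Z' e) :
    star (bh 1 Z) * sig * bh 1 Z = bS Z ∧ bh' 1 Z' * sig * star (bh' 1 Z') = bS' Z' ∧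
      bh' 1 Z' * bJ2 P Q z w Z Z' * bh 1 Z = bJ3 P Q z w := by
  have hw := h.wu
  have cZ : Cen Q w Z := ⟨h.ZQ, h.Zw, commute_star_of_unit hw h.Zw⟩
  have o := Commute.one_right Z
  exact bh_conj' h.val (commute_s2_m2 o (Commute.zero_right _) (Commute.zero_right _)
      ((o.sub_right cZ.cE).add_right
        ((h.ZP.sub_right (h.Zz.mul_right (o.sub_right h.ZP))).mul_right cZ.cE)))

theorem bJ2_inv (h : BSRel P Q C z w Z Z' e) (hP : IsProj P) (hQ : IsProj Q) (hPQ : Commute P Q)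
    (hg : P = 0 ∨ P = 1 ∨ Q = 0 ∨ Q = 1) : Inv sig sig (bJ2 P Q z w Z Z') := by
  obtain ⟨m1, m2⟩ := bh_mul (C := 1) (Z := Z) (Z' := Z') ⟨star_one _, mul_one _⟩
    (Or.inr ⟨h.val, Commute.one_right _⟩)
  obtain ⟨e1, e2, e3⟩ := bh_conj h
  have := (bJ3_inv h hP hQ hPQ hg).conj m2 m1
  rw [← e1, ← e2, ← e3] at this
  have a1 : star (bh' 1 Z') * (star (bh 1 Z) * sig * bh 1 Z) * bh' 1 Z' = sig := by
    calc _ = star (bh 1 Z * bh' 1 Z') * sig * (bh 1 Z * bh' 1 Z') := by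
          simp only [star_mul, mul_assoc]
      _ = sig := by rw [m1, star_one, one_mul, mul_one]
  have a2 : bh 1 Z * (bh' 1 Z' * sig * star (bh' 1 Z')) * star (bh 1 Z) = sig := by
    calc _ = (bh 1 Z * bh' 1 Z') * sig * star (bh 1 Z * bh' 1 Z') := by
          simp only [star_mul, mul_assoc]
      _ = sig := by rw [m1, star_one, one_mul, mul_one]
  have a3 : bh 1 Z * (bh' 1 Z' * bJ2 P Q z w Z Z' * bh 1 Z) * bh' 1 Z' = bJ2 P Q z w Z Z' := by
    calc _ = (bh 1 Z * bh' 1 Z') * bJ2 P Q z w Z Z' * (bh 1 Z * bh' 1 Z') := by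
          simp only [mul_assoc]
      _ = _ := by rw [m1, one_mul, mul_one]
  rwa [a1, a2, a3] at this

lemma blk_m2 (a b c d a' b' c' d' : R) :
    blk (!![a, b; c, d] : M2 R) !![a', b'; c', d'] = !![dg a a', dg b b'; dg c c', dg d d'] := by
  refine Matrix.ext fun i j => ?_
  fin_cases i <;> fin_cases j <;> rfl

lemma blk_self (a b c d : R) :
    blk (!![a, b; c, d] : M2 R) !![a, b; c, d] = !![s2 a, s2 b; s2 c, s2 d] := blk_m2 ..

lemma cvx_s2 (t : ℝ) (a b : R) : cvx t (s2 a) (s2 b) = s2 (cvx t a b) :=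
  (map_cvx (s2H : R →⋆ₐ[ℂ] _) t a b).symm

lemma final_gen {T T' J C ε : R} (hv : Val T T') (hε : IsProj ε) (hC : IsProj C)
    (h1 : J * J = 1 - ε) (h2 : J * ε = 0) (h3 : ε * J = 0) (h4 : star J * T = -(T * J))
    (h5 : Commute ε T) (h6 : C * ε = ε) (t : ℝ) :
    Val (cvx t (defo T T' J C)
        !![s2 ((2 : ℂ) • (ε * T)), s2 1; s2 1, s2 (ε * T')])
      (cvx t (defo' T T' J C)
        !![s2 (ε * T'), s2 (1 - (2 : ℂ) • ε); s2 (1 - (2 : ℂ) • ε), s2 ((2 : ℂ) • (ε * T))]) := by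
  obtain ⟨d1, d2⟩ := dA1_defect hv hε h1 h2 h3 h4 h5
  have h5' : Commute ε T' := hv.commute h5
  have h7 : ε * C = ε := by
    have := congrArg star h6
    rwa [star_mul, hε.1, hC.1] at this
  obtain ⟨N, hN⟩ : ∃ N, N = C * ((1 - ε) * T') * C := ⟨_, rfl⟩
  have k1 : ∀ a, ε * (ε * a) = ε * a := fun a => by rw [← mul_assoc, hε.2]
  have k2 : ∀ a, T * (ε * a) = ε * (T * a) := fun a => by rw [← mul_assoc, ← h5.eq, mul_assoc]
  have k3 : ∀ a, T' * (ε * a) = ε * (T' * a) := fun a => by rw [← mul_assoc, ← h5'.eq, mul_assoc]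
  have k4 : ∀ a, ε * (C * a) = ε * a := fun a => by rw [← mul_assoc, h7]
  have k5 : ∀ a, C * (ε * a) = ε * a := fun a => by rw [← mul_assoc, h6]
  have n1 : ε * N = 0 := by
    simp only [hN, mul_assoc, sub_mul, mul_sub, one_mul, k1, k4, sub_self]
  have n2 : N * ε = 0 := by
    simp only [hN, mul_assoc, sub_mul, mul_sub, one_mul, h6, ← h5'.eq, k1, sub_self]
  have n3 : star N = N := by
    simp only [hN, star_mul, star_sub, star_one, hC.1, hε.1, hv.2.1, mul_assoc, sub_mul, mul_sub,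
      one_mul, mul_one, k3]
  have n2' : ∀ a, N * (ε * a) = 0 := fun a => by rw [← mul_assoc, n2, zero_mul]
  have n4 : ε * (T * N) = 0 := by rw [← k2, n1, mul_zero]
  have c1 : ε * (T * C) = ε * T := by rw [← k2, h7, h5.eq]
  have c2 : ε * (T' * C) = ε * T' := by rw [← k3, h7, h5'.eq]
  have D : s2 C * (dA1 T J - -s2 T) * s2 C = s2 ((2 : ℂ) • (ε * T)) := by
    rw [d1, sub_neg_eq_add, ← s2_add, ← s2_mul, ← s2_mul]
    congr 1
    simp only [sub_mul, one_mul, sub_add_cancel, smul_mul_assoc, mul_smul_comm, mul_assoc, k5, c1]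
  have X : s2 C * dA1' T' J * s2 C = s2 (ε * T' - N) := by
    rw [d2, ← s2_mul, ← s2_mul, hN]
    congr 1
    simp only [sub_mul, mul_sub, one_mul, smul_mul_assoc, mul_smul_comm, mul_assoc, k5, c2, two_smul,
      add_mul, mul_add]
    abel
  have Y : 1 + s2 ((2 : ℂ) • (ε * T)) * -s2 T' = s2 (1 - (2 : ℂ) • ε) := by
    rw [mul_neg, ← s2_mul, smul_mul_assoc, mul_assoc, hv.2.2.1, mul_one, s2_sub, s2_one,
      sub_eq_add_neg]
  have s2' : star (2 : ℂ) = 2 := by simp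
  have sY : star (1 - (2 : ℂ) • ε) = 1 - (2 : ℂ) • ε := by
    rw [star_sub, star_one, star_smul, hε.1, s2']
  have XY : -((ε * T' - N) * (1 - (2 : ℂ) • ε)) = ε * T' + N := by
    simp only [sub_mul, mul_sub, mul_one, mul_smul_comm, mul_assoc, ← h5'.eq, k1, n2, two_smul,
      mul_add]
    abel
  have YD : -((1 - (2 : ℂ) • ε) * ((2 : ℂ) • (ε * T))) = (2 : ℂ) • (ε * T) := by
    simp only [sub_mul, one_mul, two_smul, mul_add, add_mul, k1]
    abel
  rw [defo, defo', diff, diff', D, X, Y, star_s2, sY, ← s2_mul, ← s2_mul, ← s2_neg, ← s2_neg, XY,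
    YD, ← s2_one, cvx_m2, cvx_m2]
  simp only [cvx_s2, cvx_self]
  rw [← blk_self, ← blk_self]
  have x1 : cvx t (ε * T' - N) (ε * T') = ε * T' - ((1 - t : ℝ) : ℂ) • N := by
    simp only [cvx, Complex.ofReal_sub, Complex.ofReal_one]; module
  have x2 : cvx t (ε * T' + N) (ε * T') = ε * T' + ((1 - t : ℝ) : ℂ) • N := by
    simp only [cvx, Complex.ofReal_sub, Complex.ofReal_one]; module
  have sr : star ((1 - t : ℝ) : ℂ) = ((1 - t : ℝ) : ℂ) := Complex.conj_ofReal _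
  have e1 : star (ε * T) = ε * T := by rw [star_mul, hv.1, hε.1, h5.eq]
  have e2 : star (ε * T') = ε * T' := by rw [star_mul, hv.2.1, hε.1, h5'.eq]
  rw [x1, x2]
  generalize ((1 - t : ℝ) : ℂ) = s at sr
  have key : Val (!![(2 : ℂ) • (ε * T), 1; 1, ε * T' - s • N] : M2 R)
      !![ε * T' + s • N, 1 - (2 : ℂ) • ε; 1 - (2 : ℂ) • ε, (2 : ℂ) • (ε * T)] := by
    refine val_of ?_ ?_ ?_
    · simp only [star_m2, star_smul, star_sub, star_one, s2', sr, e1, e2, n3]
    · simp only [star_m2, star_smul, star_sub, star_add, star_one, s2', sr, e1, e2, n3, hε.1]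
    · rw [Matrix.mul_fin_two, one_m2]
      refine m2_ext ?_ ?_ ?_ ?_ <;>
        simp only [mul_add, add_mul, mul_sub, sub_mul, mul_one, one_mul, smul_mul_assoc,
          mul_smul_comm, mul_assoc, k1, k2, k3, n2, n2', n4, hv.2.2.1, hv.2.2.2, ← h5.eq, ← h5'.eq,
          hε.2, smul_zero] <;> module
  exact key.blk key

lemma blk_swp : blk (swp : M2 R) swp = swp := by
  rw [swp, blk_self, s2_zero, s2_one]; rfl

/-- the last homotopy, to the split form -/
theorem b_final (hC : IsProj C) (he : IsProj e) (hCe : C * e = e) {Y Y' : R}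
    (h : C = 0 ∨ (BSRel P Q C z w Z Z' e ∧ IsProj P ∧ IsProj Q ∧ Commute P Q ∧ Y = Z ∧ Y' = Z'))
    (t : ℝ) :
    Val (cvx t (defo (bS Z) (bS' Z') (bJ3 P Q z w) (s2 (s2 C))) (bG (bF e Y Y')))
      (cvx t (defo' (bS Z) (bS' Z') (bJ3 P Q z w) (s2 (s2 C))) (bG (bF' e Y Y'))) := by
  rcases h with rfl | ⟨h, hP, hQ, hPQ, rfl, rfl⟩
  · have : e = 0 := by rw [← hCe, zero_mul]
    subst this
    simp only [defo, defo', s2_zero, diff_zero, diff'_zero, bG, bF, bF', zero_mul, zero_add,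
      sub_zero, one_mul, blk_swp, cvx_self]
    exact val_swp
  obtain ⟨h1, h2, h3, h4⟩ := bΘ_mul h hP hQ hPQ
  have d0 : dg (0 : R) 0 = 0 := s2_zero
  have d0' : dg (0 : M2 R) 0 = 0 := s2_zero
  have pe : IsProj (dg (0 : R) e) := ⟨by rw [star_dg, star_zero, he.1], by rw [dg_mul, he.2, mul_zero]⟩
  have pε : IsProj (bε e) := ⟨by rw [bε, star_dg, star_zero, pe.1], by rw [bε, dg_mul, pe.2, mul_zero]⟩
  have a1 : star (bΘ P Q z w) * dg 0 e = 0 := by
    have : dg (0 : R) e = 1 - bΘ P Q z w * star (bΘ P Q z w) := by rw [h2, sub_sub_cancel]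
    rw [this, mul_sub, mul_one, ← mul_assoc, h1, one_mul, sub_self]
  have a2 : dg 0 e * bΘ P Q z w = 0 := by
    have := congrArg star a1
    rwa [star_mul, star_star, pe.1, star_zero] at this
  have g1 : bJ3 P Q z w * bJ3 P Q z w = 1 - bε e := by
    rw [bJ3, bε, dg, one_m2 (T := M2 R), sub_m2]
    simp only [Matrix.mul_fin_two, zero_mul, mul_zero, add_zero, zero_add, h1, h2, sub_zero]
  have g2 : bJ3 P Q z w * bε e = 0 := by
    rw [bJ3, bε, dg, zero_m2 (T := M2 R)]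
    simp only [Matrix.mul_fin_two, zero_mul, mul_zero, add_zero, zero_add, a1]
  have g3 : bε e * bJ3 P Q z w = 0 := by
    rw [bJ3, bε, dg, zero_m2 (T := M2 R)]
    simp only [Matrix.mul_fin_two, zero_mul, mul_zero, add_zero, zero_add, a2]
  have g4 : star (bJ3 P Q z w) * bS Y = -(bS Y * bJ3 P Q z w) := by
    rw [bS_eq, bJ3]
    exact J3_skew h3 (commute_star_of_herm h.val.s2.1 h3) _
  have m1 : bε e * bS Y = dg 0 (dg 0 ((1 / 4 : ℂ) • (e * Y))) := by
    rw [bε, bS, dg_mul, zero_mul, show s2 ((1 / 4 : ℂ) • Y) = dg _ _ from rfl, dg_mul, zero_mul,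
      mul_smul_comm]
  have m2 : bε e * bS' Y' = dg 0 (dg 0 ((4 : ℂ) • (e * Y'))) := by
    rw [bε, bS', dg_mul, zero_mul, show s2 ((4 : ℂ) • Y') = dg _ _ from rfl, dg_mul, zero_mul,
      mul_smul_comm]
  have g5 : Commute (bε e) (bS Y) := by
    show _ = _
    rw [m1, bε, bS, dg_mul, mul_zero, show s2 ((1 / 4 : ℂ) • Y) = dg _ _ from rfl, dg_mul, mul_zero,
      smul_mul_assoc, h4.eq]
  have g6 : s2 (s2 C) * bε e = bε e := by
    rw [bε, show s2 (s2 C) = dg (dg C C) (dg C C) from rfl, dg_mul, dg_mul, mul_zero, mul_zero, hCe]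
  have pC : IsProj (s2 (s2 C)) := (hC.map s2H).map s2H
  have key := final_gen (bS_val h.val) pε pC g1 g2 g3 g4 g5 g6 t
  have dsm : ∀ (r : ℂ) (a : R), r • dg (0 : M2 R) (dg 0 a) = dg 0 (dg 0 (r • a)) := fun r a => by
    simp only [dg, smul_m2, smul_zero]
  have F : bF e Y Y' = !![(2 : ℂ) • (1 / 4 : ℂ) • (e * Y), 1; 1, (4 : ℂ) • (e * Y')] := by
    rw [bF, one_sub_s2]
    simp only [two, swp, s2, Matrix.mul_fin_two, add_m2, mul_zero, zero_mul, add_zero, zero_add,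
      mul_one, mul_smul_comm, add_sub_cancel]
    refine m2_ext ?_ ?_ ?_ ?_ <;> module
  have F' : bF' e Y Y' = !![(4 : ℂ) • (e * Y'), 1 - (2 : ℂ) • e; 1 - (2 : ℂ) • e,
      (2 : ℂ) • (1 / 4 : ℂ) • (e * Y)] := by
    rw [bF', one_sub_s2]
    simp only [two', swp, s2, Matrix.mul_fin_two, add_m2, mul_zero, zero_mul, add_zero, zero_add,
      mul_one, mul_smul_comm, mul_neg]
    refine m2_ext ?_ ?_ ?_ ?_ <;> module
  have o1 : (1 : M2 (M2 R)) - (2 : ℂ) • bε e = dg 1 (dg 1 (1 - (2 : ℂ) • e)) := by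
    rw [bε, dsm, one_m2 (T := M2 R), dg, dg, sub_m2, one_m2 (T := R), dg, sub_m2, dg]
    simp only [sub_zero]
  have o2 : (1 : M2 (M2 R)) = dg 1 (dg 1 1) := by
    rw [show dg (1 : R) 1 = 1 from s2_one]; exact s2_one.symm
  rw [m1, m2, dsm, o1] at key
  rw [F, F', bG, bG]
  simp only [swp, blk_m2]
  rw [← o2]
  exact key

end Vale.Agent.P228
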