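import Vale.Agent.P228.Lem
import Vale.Agent.P228.BSAlg1
import Vale.Agent.P228.BSAlg2

set_option linter.unusedSectionVars false
set_option linter.unusedSimpArgs false
set_option linter.unusedVariables false
noncomputable section
open Matrix Filter Topology
namespace Vale.Agent.P228

section Exact
variable {R S : Type} [Ring R] [StarRing R] [Algebra ℂ R] [StarModule ℂ R]
  [Ring S] [StarRing S] [Algebra ℂ S] [StarModule ℂ S]
  {n : Type} [Fintype n] [DecidableEq n]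

lemma idem_lift_s2 {k : ℕ} {c : Fin k → Cut R} (hQ : ∀ j, (c j).Q * (c j).Q = (c j).Q) (j : Fin k) :
    (lift s2 c j).Q * (lift s2 c j).Q = (lift s2 c j).Q := by
  show s2 _ * s2 _ = s2 _
  rw [← s2_mul, hQ]

lemma sigR_bG (k : ℕ) (ρ : R →⋆ₙₐ[ℂ] Matrix n n ℂ) (c : Fin k → Cut R)
    (hQ : ∀ j, (c j).Q * (c j).Q = (c j).Q) (M M' : M2 R) :
    sigR k (matRep (Fin 2) (matRep (Fin 2) (matRep (Fin 2) (matRep (Fin 2) ρ))))
      (lift s2 (lift s2 (lift s2 (lift s2 c)))) (bG M) (bG M') =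
      2 * sigR k (matRep (Fin 2) ρ) (lift s2 c) M M' := by
  rw [bG, bG, sigR_blk, sigR_blk, sigR_blk, sigR_swp _ _ _ hQ, sigR_swp _ _ _ (idem_lift_s2 hQ)]
  omega

lemma sigR_bF (k : ℕ) (ρ : R →⋆ₙₐ[ℂ] Matrix n n ℂ) (e : R) (f : S →⋆ₐ[ℂ] R) (he : IsProj e)
    (hf : ∀ a, Commute e (f a)) (c : Fin k → Cut S) (hQ : ∀ j, (c j).Q * (c j).Q = (c j).Q)
    (Y Y' : S) :
    sigR k (matRep (Fin 2) ρ) (lift s2 (lift f c)) (bF e (f Y) (f Y')) (bF' e (f Y) (f Y')) =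
      sigR k (matRep (Fin 2) (ρ.comp (cutHom e f he hf))) (lift s2 c) (two Y Y') (two' Y Y') := by
  have he' : IsProj (s2 e) := he.map s2H
  have h1 := commute_s2_mapH e f hf
  have h2 : ∀ a, Commute (1 - s2 e) (mapH (Fin 2) f a) :=
    fun a => (Commute.one_left _).sub_left (h1 a)
  have h3 : ∀ a, Commute (1 - e) (f a) := fun a => (Commute.one_left _).sub_left (hf a)
  have := sigR_split k (matRep (Fin 2) ρ) (s2 e) (mapH (Fin 2) f) he' h1 h2 (lift s2 c)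
    (two Y Y') (two' Y Y') swp swp
  rw [lift_s2_lift, mapH_two, mapH_two', mapH_swp, matRep_cutHom_s2 ρ e f he hf] at this
  have e1 : (matRep (Fin 2) ρ).comp (cutHom (1 - s2 e) (mapH (Fin 2) f) he'.one_sub h2) =
      matRep (Fin 2) (ρ.comp (cutHom (1 - e) f he.one_sub h3)) := by
    rw [← matRep_cutHom_s2 ρ (1 - e) f he.one_sub h3 (he.one_sub.map s2H)
      (commute_s2_mapH _ f h3)]
    congr 1
    ext1 a
    show (1 - s2 e) * _ = s2 (1 - e) * _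
    rw [one_sub_s2]
  rw [e1, sigR_swp _ _ _ hQ, add_zero] at this
  exact this

end Exact

namespace Ctx
variable {X Λ : Type} {F : Filter Λ}
  {A : Type} [Ring A] [StarRing A] [Algebra ℂ A] [StarModule ℂ A]
  {R : X → Type} [∀ x, Ring (R x)] [∀ x, StarRing (R x)] [∀ x, Algebra ℂ (R x)]
  [∀ x, StarModule ℂ (R x)]
  {n : Λ → Type} [∀ l, Fintype (n l)] [∀ l, DecidableEq (n l)]

theorem bstep (Γ : Ctx F A R n) {k : ℕ} {c : Fin (k + 1) → Cut A} (hc : Γ.Adm c)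
    {z w Z Z' e : A} (hP : IsProj (c 0).P) (hQ : IsProj (c 0).Q) (hC : IsProj (c 0).C)
    (hPQ : Commute (c 0).P (c 0).Q) (he : IsProj e) (hCe : (c 0).C * e = e)
    (h : ∀ x, Γ.Live c x → BSRel (Γ.π x (c 0).P) (Γ.π x (c 0).Q) (Γ.π x (c 0).C) (Γ.π x z)
      (Γ.π x w) (Γ.π x Z) (Γ.π x Z') (Γ.π x e))
    {A' : Type} [Ring A'] [StarRing A'] [Algebra ℂ A'] [StarModule ℂ A'] (f : A' →⋆ₐ[ℂ] A)
    (hf : ∀ a, Commute e (f a)) (c' : Fin k → Cut A') (hc' : lift f c' = Fin.tail c)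
    (hQ' : ∀ j, (c' j).Q * (c' j).Q = (c' j).Q) (Y Y' : A')
    (hY : ∀ x, Γ.Live c x → Γ.π x (f Y) = Γ.π x Z ∧ Γ.π x (f Y') = Γ.π x Z') :
    Γ.m2.s (k + 1) (lift s2 c) (A2 z w * s2 Z) (A2' z w * s2 Z') =ᶠ[F] fun l =>
      2 * sigR k (matRep (Fin 2) ((Γ.ρ l).comp (cutHom e f he hf))) (lift s2 c')
        (two Y Y') (two' Y Y') := by
  obtain ⟨P, hP0⟩ : ∃ P, P = (c 0).P := ⟨_, rfl⟩
  obtain ⟨Q, hQ0⟩ : ∃ Q, Q = (c 0).Q := ⟨_, rfl⟩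
  obtain ⟨C, hC0⟩ : ∃ C, C = (c 0).C := ⟨_, rfl⟩
  have h₂ : Γ.m2.m2.Adm (lift s2 (lift s2 (Fin.tail c))) := hc.tail.m2.m2
  have cases : ∀ x, Γ.Live (Fin.tail c) x → Γ.π x C = 0 ∨
      ((BSRel (Γ.π x P) (Γ.π x Q) (Γ.π x C) (Γ.π x z) (Γ.π x w) (Γ.π x Z) (Γ.π x Z') (Γ.π x e) ∧
        Γ.π x (f Y) = Γ.π x Z ∧ Γ.π x (f Y') = Γ.π x Z') ∧
        (Γ.π x C = 1 ∨ (Γ.π x P = 0 ∨ Γ.π x P = 1 ∨ Γ.π x Q = 0 ∨ Γ.π x Q = 1))) := fun x hx => by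
    subst hP0 hQ0 hC0
    by_cases h0 : Γ.π x (c 0).C = 0
    · exact Or.inl h0
    · have hl := live_succ hx h0
      refine Or.inr ⟨⟨h x hl, hY x hl⟩, ?_⟩
      rcases hc.1.2 x 0 with h1 | h1
      · exact absurd h1 h0
      · exact h1
  have e0 : Γ.m2.s (k + 1) (lift s2 c) (A2 z w * s2 Z) (A2' z w * s2 Z') =
      Γ.m2.m2.m2.m2.s k (lift s2 (lift s2 (lift s2 (lift s2 (Fin.tail c)))))
        (defo sig sig (bJ P Q C z w Z Z') (s2 (s2 C)))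
        (defo' sig sig (bJ P Q C z w Z Z') (s2 (s2 C))) := by
    subst hP0 hQ0 hC0; rfl
  rw [← hP0] at hP hPQ
  rw [← hQ0] at hQ hPQ
  rw [← hC0] at hC hCe
  have sC : star (s2 (s2 C)) = s2 (s2 C) := by rw [star_s2, star_s2, hC.1]
  have pPQ : ∀ x, Commute (Γ.π x P) (Γ.π x Q) := fun x => hPQ.map (Γ.π x)
  have iJ : ∀ x, BSRel (Γ.π x P) (Γ.π x Q) (Γ.π x C) (Γ.π x z) (Γ.π x w) (Γ.π x Z) (Γ.π x Z')
      (Γ.π x e) → (Γ.π x P = 0 ∨ Γ.π x P = 1 ∨ Γ.π x Q = 0 ∨ Γ.π x Q = 1) →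
      Inv sig sig (bJ (Γ.π x P) (Γ.π x Q) (Γ.π x C) (Γ.π x z) (Γ.π x w) (Γ.π x Z) (Γ.π x Z')) ∧
      Inv sig sig (bJ1 (Γ.π x P) (Γ.π x Q) (Γ.π x C) (Γ.π x z) (Γ.π x w) (Γ.π x Z) (Γ.π x Z')) :=
    fun x hb hg => by
      have i1 : Inv sig sig
          (bJ (Γ.π x P) (Γ.π x Q) (Γ.π x C) (Γ.π x z) (Γ.π x w) (Γ.π x Z) (Γ.π x Z')) := by
        refine bottJ_inv ⟨?_, ?_, ?_⟩ (bA_val hb) ?_
        · show star (s2 _) = s2 _
          rw [star_s2, (hP.map _).1]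
        · show star (s2 _) = s2 _
          rw [star_s2, (hQ.map _).1]
        · show star (s2 _) = s2 _
          rw [star_s2, (hC.map _).1]
        · show s2 _ = 0 ∨ s2 _ = 1 ∨ s2 _ = 0 ∨ s2 _ = 1
          rcases hg with h1 | h1 | h1 | h1 <;> simp [h1, s2_zero, s2_one]
      refine ⟨i1, ?_⟩
      have i2 := i1.conj (bg_mul _ _ _ _ _).1 (bg_mul (Γ.π x Q) (Γ.π x z) (Γ.π x w) (Γ.π x Z)
        (Γ.π x Z')).2
      rw [(bg_sig hb (hQ.map _)).1, (bg_sig hb (hQ.map _)).2] at i2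
      exact i2
  have s1 := Γ.m2.m2.defo_conj h₂ (T := sig) (T' := sig) (J := bJ P Q C z w Z Z') (T₁ := sig)
    (T₁' := sig) (J₁ := bJ1 P Q C z w Z Z') sC (bg Q z w Z Z') (bg' Q z w Z Z') fun x hx => by
      simp only [mat_π, map_mul, map_star, mapH_bg, mapH_bg', mapH_bJ, mapH_bJ1, mapH_sig, mapH_s2]
      refine ⟨(bg_mul _ _ _ _ _).1, (bg_mul _ _ _ _ _).2, ?_⟩
      rcases cases x hx.of_m2.of_m2 with h0 | ⟨⟨hb, -⟩, h1 | hg⟩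
      · exact Or.inl (by rw [h0, s2_zero, s2_zero])
      · exact Or.inr (Or.inl ⟨by rw [h1, s2_one, s2_one], val_sig, (bg_sig hb (hQ.map _)).1.symm,
          (bg_sig hb (hQ.map _)).2.symm, rfl⟩)
      · exact Or.inr (Or.inr (iJ x hb hg))
  have s2' := Γ.m2.m2.defo_cvx h₂ (T := sig) (T' := sig) (J := bJ1 P Q C z w Z Z')
    (J₁ := bJ2 P Q z w Z Z') sC fun x hx => by
      simp only [mat_π, mapH_bJ1, mapH_bJ2, mapH_sig, mapH_s2]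
      rcases cases x hx.of_m2.of_m2 with h0 | ⟨⟨hb, -⟩, h1 | hg⟩
      · exact Or.inl (by rw [h0, s2_zero, s2_zero])
      · exact Or.inr (Or.inl ⟨by rw [h1, s2_one, s2_one], val_sig⟩)
      · exact Or.inr (Or.inr ⟨(iJ x hb hg).2, bJ2_inv hb (hP.map _) (hQ.map _) (pPQ x) hg,
          bJ1_bJ2 hb (hP.map _) (hQ.map _) (pPQ x) hg⟩)
  have s3 := Γ.m2.m2.defo_conj h₂ (T := sig) (T' := sig) (J := bJ2 P Q z w Z Z') (T₁ := bS Z)
    (T₁' := bS' Z') (J₁ := bJ3 P Q z w) sC (bh C Z) (bh' C Z') fun x hx => by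
      simp only [mat_π, map_mul, map_star, mapH_bh, mapH_bh', mapH_bJ2, mapH_bJ3, mapH_sig,
        mapH_s2, mapH_bS, mapH_bS']
      rcases cases x hx.of_m2.of_m2 with h0 | ⟨⟨hb, -⟩, h1⟩
      · obtain ⟨m1, m2⟩ := bh_mul (Z := Γ.π x Z) (Z' := Γ.π x Z') (hC.map (Γ.π x)) (Or.inl h0)
        exact ⟨m1, m2, Or.inl (by rw [h0, s2_zero, s2_zero])⟩
      obtain ⟨m1, m2⟩ := bh_mul (hC.map (Γ.π x)) (Or.inr ⟨hb.val, hb.ZC⟩)
      refine ⟨m1, m2, ?_⟩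
      rcases h1 with h1 | hg
      · obtain ⟨a1, a2, a3⟩ := bh_conj hb
        rw [h1]
        exact Or.inr (Or.inl ⟨by rw [s2_one, s2_one], val_sig, a1.symm, a2.symm, a3.symm⟩)
      · exact Or.inr (Or.inr ⟨bJ2_inv hb (hP.map _) (hQ.map _) (pPQ x) hg,
          bJ3_inv hb (hP.map _) (hQ.map _) (pPQ x) hg⟩)
  have s4 := Γ.m2.m2.m2.m2.cvx_homotopy h₂.1.m2.m2
    (a := defo (bS Z) (bS' Z') (bJ3 P Q z w) (s2 (s2 C)))
    (a' := defo' (bS Z) (bS' Z') (bJ3 P Q z w) (s2 (s2 C)))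
    (b := bG (bF e (f Y) (f Y'))) (b' := bG (bF' e (f Y) (f Y'))) fun x hx t _ => by
      simp only [mat_π, mapH_defo, mapH_defo', mapH_bJ3, mapH_s2, mapH_bS, mapH_bS', mapH_bG,
        mapH_bF, mapH_bF']
      refine b_final (hC.map _) (he.map _) (by rw [← map_mul, hCe]) ?_ t
      rcases cases x hx.of_m2.of_m2.of_m2.of_m2 with h0 | ⟨⟨hb, h1, h2⟩, -⟩
      · exact Or.inl h0
      · exact Or.inr ⟨hb, hP.map _, hQ.map _, pPQ x, h1, h2⟩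
  rw [e0]
  filter_upwards [s1, s2', s3, s4] with l s1 s2' s3 s4
  rw [s1, s2', s3, s4, ← sigR_bF k (Γ.ρ l) e f he hf c' hQ', hc']
  exact sigR_bG k (Γ.ρ l) (Fin.tail c) hc.tail.2 _ _

end Ctx

end Vale.Agent.P228
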