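import Vale.Agent.P228.Nat

set_option linter.unusedSectionVars false
noncomputable section
open Matrix Filter Topology
namespace Vale.Agent.P228

variable {R S : Type} [Ring R] [StarRing R] [Algebra ℂ R] [StarModule ℂ R]
  [Ring S] [StarRing S] [Algebra ℂ S] [StarModule ℂ S]

/-! The matrices of the base computation. -/

def bA (z w Z : R) : M2 R := A2 z w * s2 Z
def bA' (z w Z' : R) : M2 R := A2' z w * s2 Z'
def bCut (P Q C : R) : Cut (M2 R) := ⟨s2 P, s2 Q, s2 C⟩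
def ba (Q z w Z : R) : M2 R := s2 Q * bA z w Z * s2 Q
def ba' (Q z w Z' : R) : M2 R := s2 Q * bA' z w Z' * s2 Q
def bg (Q z w Z Z' : R) : M2 (M2 R) := sh (-ba' Q z w Z') * th (ba Q z w Z)
def bg' (Q z w Z Z' : R) : M2 (M2 R) := th (-ba Q z w Z) * sh (ba' Q z w Z')
def bJ (P Q C z w Z Z' : R) : M2 (M2 R) := bottJ (bCut P Q C) (bA z w Z) (bA' z w Z')
def bJ1 (P Q C z w Z Z' : R) : M2 (M2 R) := bg' Q z w Z Z' * bJ P Q C z w Z Z' * bg Q z w Z Z'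
def bΘ (P Q z w : R) : M2 R :=
  dg 1 (1 - (Q - star w * Q * w) + (P - z * (1 - P)) * (Q - star w * Q * w))
def bRe (T : M2 R) : M2 R := (1 / 2 : ℂ) • (T + star T)
def bIm (T : M2 R) : M2 R := (Complex.I / 2) • (star T - T)
def bJ2 (P Q z w Z Z' : R) : M2 (M2 R) :=
  !![bRe (bΘ P Q z w), (2 : ℂ) • (bIm (bΘ P Q z w) * s2 Z');
     (1 / 2 : ℂ) • (s2 Z * bIm (bΘ P Q z w)), -bRe (bΘ P Q z w)]
def bκ : M2 R := !![1, -(Complex.I • (1 : R)); 1, Complex.I • (1 : R)]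
def bκ' : M2 R := (1 / 2 : ℂ) • !![1, 1; Complex.I • (1 : R), -(Complex.I • (1 : R))]
def bh (C Z : R) : M2 (M2 R) := dg 1 (s2 ((1 / 2 : ℂ) • (C * Z) + (1 - C))) * bκ'
def bh' (C Z' : R) : M2 (M2 R) := bκ * dg 1 (s2 ((2 : ℂ) • (C * Z') + (1 - C)))
def bS (Z : R) : M2 (M2 R) := dg (s2 ((-1 / 4 : ℂ) • Z)) (s2 ((1 / 4 : ℂ) • Z))
def bS' (Z' : R) : M2 (M2 R) := dg (s2 ((-4 : ℂ) • Z')) (s2 ((4 : ℂ) • Z'))
def bJ3 (P Q z w : R) : M2 (M2 R) := !![0, star (bΘ P Q z w); bΘ P Q z w, 0]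
def bε (e : R) : M2 (M2 R) := dg 0 (dg 0 e)
def bF (e Y Y' : R) : M2 R := s2 e * two Y Y' + (1 - s2 e) * swp
def bF' (e Y Y' : R) : M2 R := s2 e * two' Y Y' + (1 - s2 e) * swp
def bG (M : M2 R) : M2 (M2 (M2 (M2 R))) := blk (blk swp (blk swp M)) (blk swp (blk swp M))

section Nat
variable (f : R →⋆ₐ[ℂ] S)

@[simp] lemma mapH_bA (z w Z : R) : mapH (Fin 2) f (bA z w Z) = bA (f z) (f w) (f Z) := by
  simp [bA]
@[simp] lemma mapH_bA' (z w Z : R) : mapH (Fin 2) f (bA' z w Z) = bA' (f z) (f w) (f Z) := by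
  simp [bA']
@[simp] lemma map_bCut (P Q C : R) :
    (bCut P Q C).map (mapH (Fin 2) f) = bCut (f P) (f Q) (f C) := by simp [bCut, Cut.map]
@[simp] lemma mapH_bg (Q z w Z Z' : R) : mapH (Fin 2) (mapH (Fin 2) f) (bg Q z w Z Z') =
    bg (f Q) (f z) (f w) (f Z) (f Z') := by simp [bg, ba, ba']
@[simp] lemma mapH_bg' (Q z w Z Z' : R) : mapH (Fin 2) (mapH (Fin 2) f) (bg' Q z w Z Z') =
    bg' (f Q) (f z) (f w) (f Z) (f Z') := by simp [bg', ba, ba']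
@[simp] lemma mapH_bJ (P Q C z w Z Z' : R) : mapH (Fin 2) (mapH (Fin 2) f) (bJ P Q C z w Z Z') =
    bJ (f P) (f Q) (f C) (f z) (f w) (f Z) (f Z') := by simp [bJ]
@[simp] lemma mapH_bJ1 (P Q C z w Z Z' : R) : mapH (Fin 2) (mapH (Fin 2) f) (bJ1 P Q C z w Z Z') =
    bJ1 (f P) (f Q) (f C) (f z) (f w) (f Z) (f Z') := by simp [bJ1]
@[simp] lemma mapH_bΘ (P Q z w : R) : mapH (Fin 2) f (bΘ P Q z w) = bΘ (f P) (f Q) (f z) (f w) := by
  simp [bΘ, map_star]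
@[simp] lemma mapH_bJ2 (P Q z w Z Z' : R) : mapH (Fin 2) (mapH (Fin 2) f) (bJ2 P Q z w Z Z') =
    bJ2 (f P) (f Q) (f z) (f w) (f Z) (f Z') := by simp [bJ2, bRe, bIm, map_star]
@[simp] lemma mapH_bκ : mapH (Fin 2) f bκ = bκ := by simp [bκ]
@[simp] lemma mapH_bκ' : mapH (Fin 2) f bκ' = bκ' := by
  rw [bκ', map_smul, mapH_m2]; simp [bκ']
@[simp] lemma mapH_bh (C Z : R) : mapH (Fin 2) (mapH (Fin 2) f) (bh C Z) = bh (f C) (f Z) := by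
  simp [bh]
@[simp] lemma mapH_bh' (C Z : R) : mapH (Fin 2) (mapH (Fin 2) f) (bh' C Z) = bh' (f C) (f Z) := by
  simp [bh']
@[simp] lemma mapH_bS (Z : R) : mapH (Fin 2) (mapH (Fin 2) f) (bS Z) = bS (f Z) := by simp [bS]
@[simp] lemma mapH_bS' (Z : R) : mapH (Fin 2) (mapH (Fin 2) f) (bS' Z) = bS' (f Z) := by
  simp only [bS', mapH_dg, mapH_s2, map_smul]
@[simp] lemma mapH_bJ3 (P Q z w : R) : mapH (Fin 2) (mapH (Fin 2) f) (bJ3 P Q z w) =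
    bJ3 (f P) (f Q) (f z) (f w) := by simp [bJ3, map_star]
@[simp] lemma mapH_bε (e : R) : mapH (Fin 2) (mapH (Fin 2) f) (bε e) = bε (f e) := by simp [bε]
@[simp] lemma mapH_bF (e Y Y' : R) : mapH (Fin 2) f (bF e Y Y') = bF (f e) (f Y) (f Y') := by
  simp [bF]
@[simp] lemma mapH_bF' (e Y Y' : R) : mapH (Fin 2) f (bF' e Y Y') = bF' (f e) (f Y) (f Y') := by
  simp [bF']
@[simp] lemma mapH_bG (M : M2 R) :
    mapH (Fin 2) (mapH (Fin 2) (mapH (Fin 2) (mapH (Fin 2) f))) (bG M) = bG (mapH (Fin 2) f M) := by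
  simp [bG]

end Nat

end Vale.Agent.P228
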