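import Vale.Agent.P228.Nat
import Vale.Agent.P228.AlgVal
import Vale.Agent.P228.BSAlg1

set_option linter.unusedSectionVars false
set_option linter.unusedSimpArgs false
set_option linter.unusedVariables false
noncomputable section
open Matrix Filter Topology
namespace Vale.Agent.P228

section Plain
variable {T : Type} [Ring T] [Algebra ℂ T] {k : ℕ}

theorem sc_mul (I : Type) [Fintype I] [DecidableEq I] (a b : T) :
    sc I (a * b) = sc I a * sc I b := by
  simp only [sc, Matrix.diagonal_mul_diagonal]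

theorem commute_sc {I : Type} [Fintype I] [DecidableEq I] {y : T} {M : Matrix I I T}
    (h : ∀ i j, Commute y (M i j)) : Commute (sc I y) M := by
  ext i j
  simp only [sc, Matrix.diagonal_mul, Matrix.mul_diagonal, (h i j).eq]

lemma sc_sub_one (I : Type) [Fintype I] [DecidableEq I] (a : T) (i j : I) :
    (sc I a - 1) i j = if i = j then a - 1 else 0 := by
  by_cases h : i = j
  · subst h; simp [sc]
  · simp [sc, h, Matrix.diagonal_apply_ne _ h, Matrix.one_apply_ne h]

/-- linear naturality of the differential -/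
lemma dM_lin {T' : Type} [Ring T'] [Algebra ℂ T'] (L : T →ₗ[ℂ] T') : ∀ (k : ℕ) (z : Ix k → T)
    (z' : Ix k → T'), (∀ i, L (z i - 1) = z' i - 1) → ∀ b b', L (dM k z b b') = dM k z' b b'
  | 0, _, _, _, _, _ => by simp [dM]
  | k + 1, z, z', h, b, b' => by
    have ih := dM_lin L k (tl z) (tl z') (fun i => h _) (Fin.tail b) (Fin.tail b')
    simp only [dM, cmp2_apply]
    generalize (b 0).1 = i1
    generalize (b' 0).1 = i2
    generalize (b 0).2 = j1
    generalize (b' 0).2 = j2
    fin_cases i1 <;> fin_cases i2 <;> fin_cases j1 <;> fin_cases j2 <;>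
      simp only [dstep, Fin.zero_eta, Fin.mk_one, Fin.isValue, Matrix.of_apply, Matrix.cons_val',
        Matrix.cons_val_zero, Matrix.cons_val_one, Matrix.cons_val_fin_one, Matrix.zero_apply,
        Matrix.neg_apply, Matrix.smul_apply, map_zero, map_neg, map_smul, ih, sc_sub_one,
        apply_ite L, h]

theorem dM_eq_sum (z : Ix k → T) (b b' : B k) :
    dM k z b b' = ∑ i, dC k i b b' • (z i - 1) := by
  let u : Ix k → (Ix k → ℂ) := fun i => Pi.single i 1 + 1
  have h1 : ∀ i, dM k u b b' i = dC k i b b' := fun i =>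
    dM_lin (LinearMap.proj i : (Ix k → ℂ) →ₗ[ℂ] ℂ) k u (Pi.single i 1 + 1) (fun i' => by
      simp [u, Pi.single_apply, eq_comm]) b b'
  have h2 := dM_lin (Fintype.linearCombination ℂ fun i => z i - 1) k u z (fun i => by
    simp [u, Fintype.linearCombination_apply_single]) b b'
  rw [← h2, Fintype.linearCombination_apply]
  simp only [h1]

theorem dM_commute {z : Ix k → T} {y : T} (h : ∀ i, Commute y (z i)) (b b' : B k) :
    Commute y (dM k z b b') := by
  rw [dM_eq_sum]
  exact Commute.sum_right _ _ _ fun i _ => ((h i).sub_right (Commute.one_right y)).smul_right _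

lemma dstep_sq {z w D : T} (h1 : Commute z w) (h2 : Commute z D) (h3 : Commute w D)
    (h4 : D * D = 0) : dstep z w D * dstep z w D = 0 := by
  have a1 : D * (z - 1) = (z - 1) * D := (h2.sub_left (Commute.one_left D)).eq.symm
  have a2 : D * (w - 1) = (w - 1) * D := (h3.sub_left (Commute.one_left D)).eq.symm
  have a3 : (w - 1) * (z - 1) = (z - 1) * (w - 1) :=
    ((h1.sub_left (Commute.one_left w)).sub_right (Commute.one_right _)).eq.symm
  rw [dstep, Matrix.mul_fin_two, zero_m2, zero_m2]
  simp only [Matrix.mul_fin_two, add_m2, mul_zero, zero_mul, add_zero, zero_add, mul_neg, neg_mul,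
    mul_smul_comm, smul_mul_assoc, a1, a2, a3, h4, neg_zero, add_neg_cancel, neg_add_cancel,
    neg_neg, smul_zero, smul_neg]

lemma commute_sc_sc (I : Type) [Fintype I] [DecidableEq I] {a b : T} (h : Commute a b) :
    Commute (sc I a) (sc I b) := by
  show _ = _
  rw [← sc_mul, ← sc_mul, h.eq]

theorem dM_sq {z : Ix k → T} (h : ∀ i i', Commute (z i) (z i')) : dM k z * dM k z = 0 := by
  induction k with
  | zero => simp [dM]
  | succ k ih =>
    have c : ∀ i, Commute (sc (B k) (z i)) (dM k (tl z)) := fun i =>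
      commute_sc (dM_commute fun i => h _ _)
    have ih' : dM k (tl z) * dM k (tl z) = 0 := ih fun i i' => h _ _
    rw [dM, ← cmp2_mul, dstep_sq (commute_sc_sc _ (h _ _)) (c _) (c _) ih', cmp2_zero]

lemma deg_succ (b : B (k + 1)) : deg b = deg1 (b 0) + deg (Fin.tail b) := Fin.sum_univ_succ _

lemma dM_deg : ∀ (k : ℕ) (z : Ix k → T) (b b' : B k), dM k z b b' ≠ 0 → deg b + 1 = deg b'
  | 0, _, _, _, h => by simp [dM] at h
  | k + 1, z, b, b', h => by
    have ih := dM_deg k (tl z) (Fin.tail b) (Fin.tail b')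
    have e1 : deg1 (b 0) = deg1 ((b 0).1, (b 0).2) := rfl
    have e2 : deg1 (b' 0) = deg1 ((b' 0).1, (b' 0).2) := rfl
    have hs : ∀ a : T, (sc (B k) a - 1) (Fin.tail b) (Fin.tail b') ≠ 0 →
        deg (Fin.tail b) = deg (Fin.tail b') := fun a ha => by
      rw [sc_sub_one] at ha
      by_cases h : Fin.tail b = Fin.tail b'
      · rw [h]
      · simp [h] at ha
    have hs' : ∀ a : T, Complex.I • (sc (B k) a - 1) (Fin.tail b) (Fin.tail b') ≠ 0 →
        deg (Fin.tail b) = deg (Fin.tail b') := fun a ha => hs a fun h0 => ha (by rw [h0, smul_zero])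
    rw [deg_succ, deg_succ, e1, e2]
    simp only [dM, cmp2_apply] at h
    revert h
    generalize (b 0).1 = i1
    generalize (b' 0).1 = i2
    generalize (b 0).2 = j1
    generalize (b' 0).2 = j2
    fin_cases i1 <;> fin_cases i2 <;> fin_cases j1 <;> fin_cases j2 <;>
      simp only [dstep, Fin.zero_eta, Fin.mk_one, Fin.isValue, Matrix.of_apply, Matrix.cons_val',
        Matrix.cons_val_zero, Matrix.cons_val_one, Matrix.cons_val_fin_one, Matrix.zero_apply,
        Matrix.neg_apply, Matrix.smul_apply, ne_eq, not_true_eq_false, false_imp_iff, neg_eq_zero,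
        deg1, one_ne_zero, if_true, if_false] <;>
      intro h <;>
      first
        | (have := ih h; omega)
        | (have := hs _ h; omega)
        | (have := hs' _ h; omega)

theorem dC_deg {i : Ix k} {b b' : B k} (h : dC k i b b' ≠ 0) : deg b + 1 = deg b' :=
  dM_deg k _ b b' h

lemma deg1_le (a : Fin 2 × Fin 2) : deg1 a ≤ 2 := by revert a; decide
lemma deg1_eq_zero (a : Fin 2 × Fin 2) : deg1 a = 0 ↔ a = (0, 0) := by revert a; decide
lemma deg1_eq_two (a : Fin 2 × Fin 2) : deg1 a = 2 ↔ a = (0, 1) := by revert a; decide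

theorem deg_le (b : B k) : deg b ≤ 2 * k := by
  have := Finset.sum_le_sum (s := Finset.univ) fun j _ => deg1_le (b j)
  simpa [deg, mul_comm] using this

theorem deg_eq_zero (b : B k) : deg b = 0 ↔ b = b0 k := by
  simp only [deg, Finset.sum_eq_zero_iff, Finset.mem_univ, true_imp_iff, deg1_eq_zero, funext_iff, b0]

theorem deg_eq_top (b : B k) : deg b = 2 * k ↔ b = top k := by
  have h : 2 * k = ∑ _j : Fin k, 2 := by simp [mul_comm]
  rw [h, deg, Finset.sum_eq_sum_iff_of_le fun j _ => deg1_le (b j)]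
  simp only [Finset.mem_univ, true_imp_iff, deg1_eq_two, funext_iff, top]

end Plain

section Star
variable {R : Type} [Ring R] [StarRing R] [Algebra ℂ R] [StarModule ℂ R] {k : ℕ}

theorem star_sc (I : Type) [Fintype I] [DecidableEq I] (a : R) : star (sc I a) = sc I (star a) :=
  (map_star (scH I : R →⋆ₐ[ℂ] _) a).symm

lemma commute_entry {I : Type} [Fintype I] [DecidableEq I] {y : R} {M : Matrix I I R}
    (h : Commute (sc I y) M) (i j : I) : Commute y (M i j) := by
  have := congrFun (congrFun h.eq i) j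
  simp only [sc, Matrix.diagonal_mul, Matrix.mul_diagonal] at this
  exact this

lemma commute_s2_dg {y a b : R} (ha : Commute y a) (hb : Commute y b) : Commute (s2 y) (dg a b) :=
  commute_s2_m2 ha (Commute.zero_right _) (Commute.zero_right _) hb

lemma commute_s2_swp (y : R) : Commute (s2 y) swp :=
  commute_s2_m2 (Commute.zero_right _) (Commute.one_right _) (Commute.one_right _)
    (Commute.zero_right _)

lemma φψ_commute {y : R} : ∀ (k : ℕ) (z : Ix k → R),
    (∀ i, Commute y (z i) ∧ Commute y (star (z i))) →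
    Commute (sc (B k) y) (φM k z) ∧ Commute (sc (B k) y) (ψM k z)
  | 0, _, _ => ⟨Commute.one_right _, Commute.one_right _⟩
  | k + 1, z, h => by
    obtain ⟨i1, i2⟩ := φψ_commute k (tl z) fun i => h _
    have c : ∀ i, Commute (sc (B k) y) (sc (B k) (z i)) ∧
        Commute (sc (B k) y) (star (sc (B k) (z i))) := fun i =>
      ⟨commute_sc_sc _ (h i).1, by rw [star_sc]; exact commute_sc_sc _ (h i).2⟩
    obtain ⟨a1, a2⟩ := commute_s2_A2 (c (0, false)).1 (c (0, false)).2 (c (0, true)).1 (c (0, true)).2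
    rw [← cmp2_s2_s2_sc]
    constructor
    · exact (commute_s2_dg ((commute_s2_swp _).mul_right (commute_s2_dg i1 i1))
        (a1.mul_right (commute_s2_dg i1 i1))).map (cmp2H k)
    · exact (commute_s2_dg ((commute_s2_swp _).mul_right (commute_s2_dg i2 i2))
        (a2.mul_right (commute_s2_dg i2 i2))).map (cmp2H k)

theorem φM_commute {z : Ix k → R} {y : R} (h : ∀ i, Commute y (z i) ∧ Commute y (star (z i)))
    (b b' : B k) : Commute y (φM k z b b') := commute_entry (φψ_commute k z h).1 b b'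

theorem ψM_commute {z : Ix k → R} {y : R} (h : ∀ i, Commute y (z i) ∧ Commute y (star (z i)))
    (b b' : B k) : Commute y (ψM k z b b') := commute_entry (φψ_commute k z h).2 b b'

theorem CU.commute_star {ι : Type} {z : ι → R} (h : CU z) {y : R} {i : ι} (hy : Commute y (z i)) :
    Commute y (star (z i)) := commute_star_of_unit (h.1 i) hy

lemma A2_col {z w : R} (hz : star z * z = 1 ∧ z * star z = 1)
    (hw : star w * w = 1 ∧ w * star w = 1) (hzw : Commute z w) :
    A2 z w * !![0, -(Complex.I • (w - 1)); 0, Complex.I • (z - 1)] +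
      star !![z - 1, w - 1; 0, 0] * swp = 0 := by
  have c1 : w * z = z * w := hzw.symm.eq
  have c2 : w * star z = star z * w := (commute_star_of_unit hz hzw.symm).eq
  have c3 : star w * z = z * star w := (commute_star_of_unit hw hzw).symm.eq
  have h1' : ∀ c, star z * (z * c) = c := fun c => by rw [← mul_assoc, hz.1, one_mul]
  have c3' : ∀ c, star w * (z * c) = z * (star w * c) := fun c => by
    rw [← mul_assoc, c3, mul_assoc]
  have c2' : ∀ c, w * (star z * c) = star z * (w * c) := fun c => by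
    rw [← mul_assoc, c2, mul_assoc]
  rw [A2, smul_mul_assoc, star_m2, swp, zero_m2]
  simp only [Matrix.mul_fin_two, smul_m2, add_m2, star_sub, star_one, star_zero]
  refine m2_ext ?_ ?_ ?_ ?_ <;>
    simp only [mul_add, add_mul, mul_sub, sub_mul, mul_neg, neg_mul, mul_one, one_mul, mul_assoc,
      mul_zero, zero_mul, mul_smul_comm, hz.1, hz.2, hw.1, hw.2, c1, c2, c3, h1', c2', c3'] <;>
    match_scalars <;> (apply Complex.ext <;> simp <;> norm_num)

lemma strict_step {z w D Z Z' : R} (hz : star z * z = 1 ∧ z * star z = 1)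
    (hw : star w * w = 1 ∧ w * star w = 1) (hzw : Commute z w) (hs : Strict D Z Z')
    (c1 : Commute z D) (c2 : Commute w D) (c3 : Commute z Z) (c4 : Commute w Z) :
    Strict (dstep z w D) (dg (swp * s2 Z) (A2 z w * s2 Z)) (dg (swp * s2 Z') (A2' z w * s2 Z')) := by
  have c1' := commute_star_of_unit hz c1.symm
  have c2' := commute_star_of_unit hw c2.symm
  have c3' := commute_star_of_unit hz c3.symm
  have c4' := commute_star_of_unit hw c4.symm
  have vA := A2_val hz hw hzw
  have cA : Commute (s2 Z) (A2 z w) := (commute_s2_A2 c3.symm c3' c4.symm c4').1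
  have cD : Commute (s2 (star D)) (A2 z w) := by
    have := ((commute_s2_A2 c1.symm c1' c2.symm c2').1).star_star
    rwa [vA.1, star_s2] at this
  refine ⟨dstep_sq hzw c1 c2 hs.1,
    (val_swp.mul_comm hs.2.1.s2 (commute_s2_swp Z)).dg (vA.mul_comm hs.2.1.s2 cA), ?_⟩
  obtain ⟨a, ha⟩ : ∃ a : M2 R, a = !![z - 1, w - 1; 0, 0] := ⟨_, rfl⟩
  obtain ⟨b, hb⟩ : ∃ b : M2 R, b = !![0, -(Complex.I • (w - 1)); 0, Complex.I • (z - 1)] := ⟨_, rfl⟩
  have e : dstep z w D = !![s2 D, a; b, -s2 D] := by
    rw [dstep, ha, hb, s2, neg_m2, neg_zero]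
  have o := Commute.one_right Z
  have o0 := Commute.zero_right Z
  have ca : Commute (s2 Z) a := ha ▸ commute_s2_m2 (c3.symm.sub_right o) (c4.symm.sub_right o) o0 o0
  have cb : Commute (s2 Z) b := hb ▸ commute_s2_m2 o0 ((c4.symm.sub_right o).smul_right _).neg_right
    o0 ((c3.symm.sub_right o).smul_right _)
  have k1 : A2 z w * b + star a * swp = 0 := by rw [ha, hb]; exact A2_col hz hw hzw
  have k2 : swp * a + star b * A2 z w = 0 := by
    have := congrArg star k1
    rwa [star_add, star_mul, star_mul, star_star, vA.1, val_swp.1, star_zero, add_comm] at this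
  have k3 : s2 Z * s2 D + s2 (star D) * s2 Z = 0 := by
    rw [← s2_mul, ← s2_mul, ← s2H_apply, ← s2H_apply, ← map_add, hs.2.2, map_zero]
  rw [e, star_m2, dg, Matrix.mul_fin_two, Matrix.mul_fin_two, add_m2, zero_m2 (T := M2 R),
    star_neg, star_s2]
  simp only [mul_zero, zero_mul, add_zero, zero_add]
  refine m2_ext ?_ ?_ ?_ ?_
  · rw [← mul_assoc (s2 (star D)), (commute_s2_swp _).eq, mul_assoc, mul_assoc, ← mul_add, k3,
      mul_zero]
  · rw [mul_assoc, ca.eq, ← mul_assoc, ← mul_assoc, ← add_mul, k2, zero_mul]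
  · rw [mul_assoc, cb.eq, ← mul_assoc, ← mul_assoc, ← add_mul, k1, zero_mul]
  · rw [mul_neg, neg_mul, ← mul_assoc (s2 (star D)), cD.eq, mul_assoc, mul_assoc, ← neg_add,
      ← mul_add, k3, mul_zero, neg_zero]

lemma Strict.map {S : Type} [Ring S] [StarRing S] [Algebra ℂ S] [StarModule ℂ S] (f : R →⋆ₐ[ℂ] S)
    {d φ ψ : R} (h : Strict d φ ψ) : Strict (f d) (f φ) (f ψ) :=
  ⟨by rw [← map_mul, h.1, map_zero], h.2.1.map f,
    by rw [← map_star, ← map_mul, ← map_mul, ← map_add, h.2.2, map_zero]⟩

lemma sc_unit (I : Type) [Fintype I] [DecidableEq I] {z : R}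
    (hz : star z * z = 1 ∧ z * star z = 1) :
    star (sc I z) * sc I z = 1 ∧ sc I z * star (sc I z) = 1 := by
  rw [star_sc, ← sc_mul, ← sc_mul, hz.1, hz.2]; exact ⟨rfl, rfl⟩

theorem std_strict {z : Ix k → R} (h : CU z) : Strict (dM k z) (φM k z) (ψM k z) := by
  induction k with
  | zero => exact ⟨by simp [dM], ⟨star_one _, star_one _, mul_one _, mul_one _⟩, by simp [dM]⟩
  | succ k ih =>
    have ht : CU (tl z) := ⟨fun i => h.1 _, fun i i' => h.2 _ _⟩
    have c : ∀ i, Commute (sc (B k) (z i)) (φM k (tl z)) := fun i =>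
      (φψ_commute k (tl z) fun i' => ⟨h.2 _ _, h.commute_star (h.2 _ _)⟩).1
    have c' : ∀ i, Commute (sc (B k) (z i)) (dM k (tl z)) := fun i =>
      commute_sc (dM_commute fun i => h.2 _ _)
    exact (strict_step (sc_unit _ (h.1 _)) (sc_unit _ (h.1 _)) (commute_sc_sc _ (h.2 _ _)) (ih ht)
      (c' _) (c' _) (c _) (c _)).map (cmp2H k)

lemma eq_cons_iff {a : Fin 2 × Fin 2} (b : B (k + 1)) :
    b = (fun _ => a) ↔ (b 0).1 = a.1 ∧ (b 0).2 = a.2 ∧ Fin.tail b = fun _ => a := by
  constructor
  · rintro rfl; exact ⟨rfl, rfl, rfl⟩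
  · rintro ⟨h1, h2, h3⟩
    funext j
    exact Fin.cases (Prod.ext h1 h2) (fun j => congrFun h3 j) j

lemma eq_top_iff' (b : B (k + 1)) :
    b = top (k + 1) ↔ (b 0).1 = 0 ∧ (b 0).2 = 1 ∧ Fin.tail b = top k := eq_cons_iff b

lemma eq_b0_iff (b : B (k + 1)) :
    b = b0 (k + 1) ↔ (b 0).1 = 0 ∧ (b 0).2 = 0 ∧ Fin.tail b = b0 k := eq_cons_iff b

lemma swp_s2 (Z : R) : swp * s2 Z = !![0, Z; Z, 0] := by simp [swp, s2]

theorem φM_col (z : Ix k → R) (b : B k) : φM k z b (b0 k) = if b = top k then 1 else 0 := by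
  induction k with
  | zero => rw [if_pos (Subsingleton.elim _ _), φM, Subsingleton.elim b (b0 0), Matrix.one_apply_eq]
  | succ k ih =>
    have ih := ih (tl z) (Fin.tail b)
    have e : Fin.tail (b0 (k + 1)) = b0 k := rfl
    simp only [φM, cmp2_apply, swp_s2, e, eq_top_iff' b, show b0 (k + 1) 0 = (0, 0) from rfl]
    generalize (b 0).1 = i1
    generalize (b 0).2 = j1
    fin_cases i1 <;> fin_cases j1 <;> simp [dg, ih]

theorem φM_row (z : Ix k → R) (b : B k) : φM k z (top k) b = if b = b0 k then 1 else 0 := by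
  induction k with
  | zero => rw [if_pos (Subsingleton.elim _ _), φM, Subsingleton.elim b (top 0), Matrix.one_apply_eq]
  | succ k ih =>
    have ih := ih (tl z) (Fin.tail b)
    have e : Fin.tail (top (k + 1)) = top k := rfl
    simp only [φM, cmp2_apply, swp_s2, e, eq_b0_iff b, show top (k + 1) 0 = (0, 1) from rfl]
    generalize (b 0).1 = i1
    generalize (b 0).2 = j1
    fin_cases i1 <;> fin_cases j1 <;> simp [dg, ih]

theorem ψM_row (z : Ix k → R) (b : B k) : ψM k z (b0 k) b = if b = top k then 1 else 0 := by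
  induction k with
  | zero => rw [if_pos (Subsingleton.elim _ _), ψM, Subsingleton.elim b (b0 0), Matrix.one_apply_eq]
  | succ k ih =>
    have ih := ih (tl z) (Fin.tail b)
    have e : Fin.tail (b0 (k + 1)) = b0 k := rfl
    simp only [ψM, cmp2_apply, swp_s2, e, eq_top_iff' b, show b0 (k + 1) 0 = (0, 0) from rfl]
    generalize (b 0).1 = i1
    generalize (b 0).2 = j1
    fin_cases i1 <;> fin_cases j1 <;> simp [dg, ih]

end Star

end Vale.Agent.P228
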