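import Vale.Agent.P228.BS
import Vale.Agent.P228.Std

set_option linter.unusedSectionVars false
noncomputable section
open Matrix Filter Topology
namespace Vale.Agent.P228

namespace Ctx
variable {X Λ : Type} {F : Filter Λ}
  {A : Type} [Ring A] [StarRing A] [Algebra ℂ A] [StarModule ℂ A]
  {R : X → Type} [∀ x, Ring (R x)] [∀ x, StarRing (R x)] [∀ x, Algebra ℂ (R x)]
  [∀ x, StarModule ℂ (R x)]
  {n : Λ → Type} [∀ l, Fintype (n l)] [∀ l, DecidableEq (n l)]

section Alg
variable {S S' T : Type} [Ring S] [StarRing S] [Algebra ℂ S] [StarModule ℂ S]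
  [Ring S'] [StarRing S'] [Algebra ℂ S'] [StarModule ℂ S']
  [Ring T] [StarRing T] [Algebra ℂ T] [StarModule ℂ T] {k : ℕ}

theorem base_tail {c : Fin (k + 1) → Cut S} {z : Ix (k + 1) → S} {e : Fin (k + 1) → S}
    (h : LocRel c z e) : LocRel (Fin.tail c) (tl z) (Fin.tail e) :=
  ⟨⟨fun _ => h.cu.1 _, fun _ _ => h.cu.2 _ _⟩,
    fun j _ hi => h.cP j.succ _ fun h1 => hi (Prod.ext (Fin.succ_injective _ (Prod.ext_iff.1 h1).1)
      (Prod.ext_iff.1 h1).2),
    fun j _ hi => h.cQ j.succ _ fun h1 => hi (Prod.ext (Fin.succ_injective _ (Prod.ext_iff.1 h1).1)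
      (Prod.ext_iff.1 h1).2),
    fun j _ hi => h.cC j.succ _ fun h1 => hi (Fin.succ_injective _ h1),
    fun j => h.Pz j.succ, fun j => h.Qw j.succ, fun j => h.ee j.succ⟩

theorem base_ne (i : Ix k) (b : Bool) : ((i.1.succ, i.2) : Ix (k + 1)) ≠ (0, b) :=
  fun h => Fin.succ_ne_zero _ (congrArg Prod.fst h)

theorem base_comm {c : Fin (k + 1) → Cut S} {z : Ix (k + 1) → S} {e : Fin (k + 1) → S}
    (h : LocRel c z e) (i : Ix k) : Commute (tl z i) (e 0) := by
  have hP := h.cP 0 _ (base_ne i false)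
  have hQ := h.cQ 0 _ (base_ne i true)
  have h1 := fun j => h.cu.2 (i.1.succ, i.2) j
  have h2 := fun j => h.cu.commute_star (h1 j)
  rw [h.ee 0]
  exact (hQ.sub_right (((h2 _).mul_right hQ).mul_right (h1 _))).mul_right
    ((((h1 _).mul_right hP).mul_right (h2 _)).sub_right hP)

theorem base_bs {c : Fin (k + 1) → Cut S} {z : Ix (k + 1) → S} {e : Fin (k + 1) → S}
    (h : LocRel c z e) : BSRel (sc (B k) (c 0).P) (sc (B k) (c 0).Q) (sc (B k) (c 0).C)
      (sc (B k) (z (0, false))) (sc (B k) (z (0, true))) (φM k (tl z)) (ψM k (tl z))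
      (sc (B k) (e 0)) := by
  have hu : ∀ i, star (sc (B k) (z i)) * sc (B k) (z i) = 1 ∧
      sc (B k) (z i) * star (sc (B k) (z i)) = 1 := fun i => by
    rw [star_sc, ← sc_mul, ← sc_mul, (h.cu.1 i).1, (h.cu.1 i).2, sc_one]
    exact ⟨rfl, rfl⟩
  have hZ : ∀ y, (∀ i, Commute (tl z i) y) → Commute (φM k (tl z)) (sc (B k) y) := fun y hy =>
    (commute_sc (φM_commute fun i =>
      ⟨(hy i).symm, (base_tail h).cu.commute_star (hy i).symm⟩)).symm
  refine ⟨hu _, hu _, (h.cu.2 _ _).map (scH (B k)), (std_strict (base_tail h).cu).2.1,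
    hZ _ fun _ => h.cu.2 _ _, hZ _ fun _ => h.cu.2 _ _, hZ _ fun i => h.cP 0 _ (base_ne i _),
    hZ _ fun i => h.cQ 0 _ (base_ne i _), hZ _ fun i => h.cC 0 _ (Fin.succ_ne_zero _),
    (h.cP 0 (0, true) (by simp)).symm.map (scH (B k)),
    (h.cQ 0 (0, false) (by simp)).symm.map (scH (B k)), ?_, ?_, ?_⟩
  · simpa only [map_mul, map_sub, map_one, map_zero, scH_apply] using
      congrArg (scH (B k)) (h.Pz 0)
  · simpa only [map_mul, map_sub, map_one, map_zero, scH_apply] using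
      congrArg (scH (B k)) (h.Qw 0)
  · simpa only [map_mul, map_sub, map_star, scH_apply] using congrArg (scH (B k)) (h.ee 0)

theorem base_move (f : T →⋆ₐ[ℂ] S) (g : T →⋆ₐ[ℂ] S') (hfg : ∀ a b, f a = f b → g a = g b)
    {c : Fin k → Cut T} {z : Ix k → T} {e : Fin k → T}
    (h : LocRel (lift f c) (fun i => f (z i)) fun j => f (e j)) :
    LocRel (lift g c) (fun i => g (z i)) fun j => g (e j) := by
  have hc : ∀ a b, Commute (f a) (f b) → Commute (g a) (g b) := fun a b h => by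
    have h1 := hfg (a * b) (b * a) (by rw [map_mul, map_mul, h.eq])
    rwa [map_mul, map_mul] at h1
  refine ⟨⟨fun i => ⟨?_, ?_⟩, fun _ _ => hc _ _ (h.cu.2 _ _)⟩, fun j i hi => hc _ _ (h.cP j i hi),
    fun j i hi => hc _ _ (h.cQ j i hi), fun j i hi => hc _ _ (h.cC j i hi), fun j => ?_,
    fun j => ?_, fun j => ?_⟩
  · simpa only [map_mul, map_star, map_one] using hfg (star (z i) * z i) 1
      (by simpa only [map_mul, map_star, map_one] using (h.cu.1 i).1)
  · simpa only [map_mul, map_star, map_one] using hfg (z i * star (z i)) 1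
      (by simpa only [map_mul, map_star, map_one] using (h.cu.1 i).2)
  · have h1 := hfg ((c j).P * z (j, false) * (1 - (c j).P)) 0
      (by rw [map_mul, map_mul, map_sub, map_one, map_zero]; exact h.Pz j)
    rw [map_mul, map_mul, map_sub, map_one, map_zero] at h1
    exact h1
  · have h1 := hfg ((c j).Q * z (j, true) * (1 - (c j).Q)) 0
      (by rw [map_mul, map_mul, map_sub, map_one, map_zero]; exact h.Qw j)
    rw [map_mul, map_mul, map_sub, map_one, map_zero] at h1
    exact h1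
  · have h1 := hfg (e j) (((c j).Q - star (z (j, true)) * (c j).Q * z (j, true)) *
      (z (j, false) * (c j).P * star (z (j, false)) - (c j).P))
      (by simp only [map_mul, map_sub, map_star]; exact h.ee j)
    simp only [map_mul, map_sub, map_star] at h1
    exact h1

theorem base_triv [Subsingleton S] (c : Fin k → Cut S) (z : Ix k → S) (e : Fin k → S) :
    LocRel c z e :=
  ⟨⟨fun _ => ⟨Subsingleton.elim _ _, Subsingleton.elim _ _⟩, fun _ _ => Subsingleton.elim _ _⟩,
    fun _ _ _ => Subsingleton.elim _ _, fun _ _ _ => Subsingleton.elim _ _,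
    fun _ _ _ => Subsingleton.elim _ _, fun _ => Subsingleton.elim _ _,
    fun _ => Subsingleton.elim _ _, fun _ => Subsingleton.elim _ _⟩

theorem base_mem {e a : S} (he : IsProj e) (h : Commute e a) :
    a ∈ StarSubalgebra.centralizer ℂ ({e} : Set S) := by
  rw [StarSubalgebra.mem_centralizer_iff]
  rintro g rfl
  rw [he.1]
  exact ⟨h.eq, h.eq⟩

theorem base_cm {e : S} (a : StarSubalgebra.centralizer ℂ ({e} : Set S)) :
    Commute e ((StarSubalgebra.centralizer ℂ ({e} : Set S)).subtype a) :=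
  (((StarSubalgebra.mem_centralizer_iff ℂ).1 a.2) e rfl).1

theorem base_avg {e : S} (he : IsProj e) (y : S) :
    Commute e (e * y * e + (1 - e) * y * (1 - e)) := by
  have h1 : e * (1 - e) = 0 := by rw [mul_sub, mul_one, he.2, sub_self]
  have h2 : (1 - e) * e = 0 := by rw [sub_mul, one_mul, he.2, sub_self]
  show e * _ = _ * e
  rw [mul_add, add_mul, ← mul_assoc, ← mul_assoc, he.2, ← mul_assoc, ← mul_assoc, h1,
    mul_assoc _ e e, he.2, mul_assoc _ (1 - e) e, h2, zero_mul, zero_mul, mul_zero]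

theorem base_avg' {e y : S} (he : IsProj e) (h : Commute y e) :
    e * y * e + (1 - e) * y * (1 - e) = y := by
  rw [← h.eq, ← ((Commute.one_right y).sub_right h).eq, mul_assoc, mul_assoc, he.2, he.one_sub.2,
    ← mul_add, add_sub_cancel, mul_one]

end Alg

theorem base (k : ℕ) (Γ : Ctx F A R n) {c : Fin k → Cut A} (hc : Γ.Adm c) (z : Ix k → A)
    (e : Fin k → A) (hr : CutRel c e)
    (h : ∀ x, Γ.Live c x → LocRel (lift (Γ.π x) c) (fun i => Γ.π x (z i)) fun j => Γ.π x (e j))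
    (h0 : ∀ᶠ l in F, Γ.ρ l (List.ofFn e).prod ≠ 0) :
    ∀ᶠ l in F, (Γ.mat (B k)).s k (lift (sc (B k)) c) (φM k z) (ψM k z) l ≠ 0 := by
  induction k generalizing A R n Γ with
  | zero =>
    refine h0.mono fun l hl => sgn_proj_ne_zero (matRep (B 0) (Γ.ρ l) 1)
      ⟨by rw [← map_star, star_one], by rw [← map_mul, mul_one]⟩ fun h1 => hl ?_
    ext i j
    exact congrFun (congrFun h1 (b0 0, i)) (b0 0, j)
  | succ k ih =>
    have he := hr.pe 0
    let A₀ := StarSubalgebra.centralizer ℂ ({e 0} : Set A)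
    let c₀ : Fin k → Cut A₀ := fun j => ⟨⟨(c j.succ).P, base_mem he (hr.eP 0 _)⟩,
      ⟨(c j.succ).Q, base_mem he (hr.eQ 0 _)⟩, ⟨(c j.succ).C, base_mem he (hr.eC 0 _)⟩⟩
    let e₀ : Fin k → A₀ := fun j => ⟨e j.succ, base_mem he (hr.ee 0 _)⟩
    let z₀ : Ix k → A₀ := fun i => ⟨_, base_mem he (base_avg he (tl z i))⟩
    let Γ' := Γ.pull (cutHom (e 0) A₀.subtype he base_cm)
    have hz : ∀ x, Γ.Live c x → (fun i => Γ.π x (A₀.subtype (z₀ i))) =
        tl fun i => Γ.π x (z i) := fun x hx => funext fun i => by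
      show Γ.π x (e 0 * tl z i * e 0 + (1 - e 0) * tl z i * (1 - e 0)) = _
      simp only [map_add, map_mul, map_sub, map_one]
      exact base_avg' (he.map _) (base_comm (h x hx) i)
    have hT : ∀ x a b, (Γ.π x).comp A₀.subtype a = (Γ.π x).comp A₀.subtype b →
        Γ'.π x a = Γ'.π x b := fun x a b hab => (Γ.pull_π_eq _ x a b).2 (by
      rw [cutHom_apply, cutHom_apply, map_mul, map_mul]
      exact congrArg _ hab)
    have hT0 : ∀ x (a : A₀), Γ.π x a = 0 → Γ'.π x a = 0 := fun x a ha =>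
      (hT x a 0 (ha.trans (map_zero _).symm)).trans (map_zero _)
    have hT1 : ∀ x (a : A₀), Γ.π x a = 1 → Γ'.π x a = 1 := fun x a ha =>
      (hT x a 1 (ha.trans (map_one _).symm)).trans (map_one _)
    have hc' : Γ'.Adm c₀ := by
      refine ⟨⟨fun j => ⟨Subtype.ext (hc.1.1 j.succ).1, Subtype.ext (hc.1.1 j.succ).2.1,
        Subtype.ext (hc.1.1 j.succ).2.2⟩, fun x j => ?_⟩, fun j => Subtype.ext (hc.2 j.succ)⟩
      exact (hc.1.2 x j.succ).imp (hT0 x (c₀ j).C) (Or.imp (hT1 x (c₀ j).C) (Or.imp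
        (hT0 x (c₀ j).P) (Or.imp (hT1 x (c₀ j).P) (Or.imp (hT0 x (c₀ j).Q) (hT1 x (c₀ j).Q)))))
    have hr' : CutRel c₀ e₀ :=
      ⟨fun j => ⟨Subtype.ext (hr.pP j.succ).1, Subtype.ext (hr.pP j.succ).2⟩,
        fun j => ⟨Subtype.ext (hr.pQ j.succ).1, Subtype.ext (hr.pQ j.succ).2⟩,
        fun j => ⟨Subtype.ext (hr.pC j.succ).1, Subtype.ext (hr.pC j.succ).2⟩,
        fun j => ⟨Subtype.ext (hr.pe j.succ).1, Subtype.ext (hr.pe j.succ).2⟩,
        fun j => Subtype.ext (hr.PQ j.succ), fun j => Subtype.ext (hr.Ce j.succ),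
        fun j j' => Subtype.ext (hr.eP j.succ j'.succ), fun j j' => Subtype.ext (hr.eQ j.succ j'.succ),
        fun j j' => Subtype.ext (hr.eC j.succ j'.succ), fun j j' => Subtype.ext (hr.ee j.succ j'.succ)⟩
    have h' : ∀ x, Γ'.Live c₀ x → LocRel (lift (Γ'.π x) c₀) (fun i => Γ'.π x (z₀ i))
        fun j => Γ'.π x (e₀ j) := fun x hx => by
      by_cases h1 : Γ.π x (e 0) = 0
      · have h2 : Γ'.π x 0 = Γ'.π x 1 := (Γ.pull_π_eq _ x 0 1).2 (by
          rw [cutHom_apply, cutHom_apply, map_mul, map_mul, h1, zero_mul, zero_mul])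
        rw [map_zero, map_one] at h2
        have := subsingleton_of_zero_eq_one h2
        exact base_triv _ _ _
      · have h2 : Γ.Live c x := live_succ (fun j h3 => hx j (hT0 x (c₀ j).C h3))
          fun h3 => h1 (by rw [← hr.Ce 0, map_mul, h3, zero_mul])
        refine base_move _ _ (hT x) ?_
        have h3 := base_tail (h x h2)
        rw [← hz x h2] at h3
        exact h3
    have hI := ih Γ' hc' z₀ e₀ hr' h' (h0.mono fun l hl => by
      show Γ.ρ l (e 0 * A₀.subtype (List.ofFn e₀).prod) ≠ 0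
      rw [map_list_prod, List.map_ofFn]
      rwa [List.ofFn_succ, List.prod_cons] at hl)
    have h2 := (Γ'.mat (B k)).s_two (hc'.mat (B k)) (Y := φM k z₀) (Y' := ψM k z₀) fun x hx => by
      rw [mat_π, mapH_φM, mapH_ψM]
      exact (std_strict (h' x hx.of_mat).cu).2.1
    have h3 := (Γ.mat (B k)).bstep (hc.mat (B k)) (z := sc (B k) (z (0, false)))
      (w := sc (B k) (z (0, true))) (Z := φM k (tl z)) (Z' := ψM k (tl z)) (e := sc (B k) (e 0))
      ((hr.pP 0).map (scH (B k))) ((hr.pQ 0).map (scH (B k))) ((hr.pC 0).map (scH (B k)))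
      ((hr.PQ 0).map (scH (B k))) (he.map (scH (B k)))
      ((sc_mul _ _ _).symm.trans (congrArg _ (hr.Ce 0)))
      (fun x hx => by
        simp only [mat_π, lift, Cut.map, mapH_sc, mapH_φM, mapH_ψM]
        exact base_bs (h x hx.of_mat))
      (mapH (B k) A₀.subtype) (commute_sc_mapH _ _ _ base_cm) (lift (sc (B k)) c₀)
      (lift_sc_lift A₀.subtype (B k) c₀) (hc'.mat (B k)).2 (φM k z₀) (ψM k z₀) fun x hx => by
        simp only [mat_π, mapH_φM, mapH_ψM, hz x hx.of_mat]
        exact ⟨rfl, rfl⟩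
    filter_upwards [hI, h2, h3] with l l1 l2 l3
    rw [s, mat_ρ, φM, ψM, sigR_cmp2, sigR_dg, sigR_offd _ _ _ (hc.mat (B k)).2, zero_add]
    refine ne_of_eq_of_ne l3 (mul_ne_zero two_ne_zero ?_)
    have e1 := matRep_cutHom_sc (B k) (Γ.ρ l) (e 0) A₀.subtype he base_cm (he.map (scH (B k)))
      (commute_sc_mapH _ _ _ base_cm)
    have e2 := congrArg (fun ρ => sigR k (matRep (Fin 2) ρ) (lift s2 (lift (sc (B k)) c₀))
      (two (φM k z₀) (ψM k z₀)) (two' (φM k z₀) (ψM k z₀))) e1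
    exact ne_of_eq_of_ne (e2.trans l2) (mul_ne_zero two_ne_zero l1)

end Ctx

end Vale.Agent.P228
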