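import Vale.Agent.P228.LatC

set_option linter.unusedSectionVars false
noncomputable section
open Matrix Filter Topology
namespace Vale.Agent.P228

variable {k : ℕ}

/-- cells within `r` lattice steps -/
def caNear (r : ℕ) (i j : B k × Lat k) : Prop := ∀ t, |i.2 t - j.2 t| ≤ r

lemma caNear_self (r : ℕ) (j : B k × Lat k) : caNear r j j := fun t => by simp

lemma caNear_nr {i j : B k × Lat k} (h : caNear (deg j.1) i j) : Nr i j := fun t =>
  (h t).trans (by exact_mod_cast deg_le j.1)

lemma caNear_face {i j m : B k × Lat k} (hm : ent (dE k) m j ≠ 0) (h : caNear (deg m.1) i m) :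
    caNear (deg j.1) i j := fun t => by
  obtain ⟨h1, h2⟩ := dE_ne hm
  have h3 := h t
  have h4 : |m.2 t - j.2 t| ≤ 1 := by
    rcases h2 with h2 | ⟨s, h2⟩
    · simp [h2]
    · rw [h2, Pi.add_apply, add_sub_cancel_left, Pi.single_apply]
      split_ifs <;> simp
  have h5 := abs_sub_le (i.2 t) (m.2 t) (j.2 t)
  rw [← h1]; push_cast; linarith

lemma ca_congr {M : Type} [AddCommGroup M] [Module ℂ M] (L L' : CC k →ₗ[ℂ] M) (y : CC k)
    (h : ∀ m, y m ≠ 0 → L (Finsupp.single m 1) = L' (Finsupp.single m 1)) : L y = L' y := by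
  rw [← Finsupp.sum_single y, Finsupp.sum, map_sum, map_sum]
  refine Finset.sum_congr rfl fun m hm => ?_
  rw [← Finsupp.smul_single_one, map_smul, map_smul, h m (Finsupp.mem_support_iff.1 hm)]

lemma ca_ind {p : B k × Lat k → Prop}
    (h : ∀ j, (∀ m, ent (dE k) m j ≠ 0 → p m) → p j) (j : B k × Lat k) : p j := by
  induction hn : deg j.1 using Nat.strong_induction_on generalizing j with
  | _ r ih =>
    refine h j fun m hm => ih (deg m.1) ?_ m rfl
    have := (dE_ne hm).1
    omega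

def caK (F : B k × Lat k → CC k) (G : B k × Lat k → Op k) : ℕ → Op k
  | 0 => 0
  | r + 1 => Finsupp.lift (CC k) ℂ (B k × Lat k) fun j =>
      F j + G j (caK F G r (dE k (Finsupp.single j 1)))

lemma caK_stable (F : B k × Lat k → CC k) (G : B k × Lat k → Op k) : ∀ (r : ℕ) (j : B k × Lat k),
    deg j.1 < r → caK F G (r + 1) (Finsupp.single j 1) = caK F G r (Finsupp.single j 1)
  | 0, _, h => absurd h (Nat.not_lt_zero _)
  | r + 1, j, h => by
    rw [caK, lb_lift]
    conv_rhs => rw [caK, lb_lift]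
    rw [ca_congr (caK F G (r + 1)) (caK F G r) _ fun m hm => caK_stable F G r m (by
      have := (dE_ne (i := m) (j := j) hm).1
      omega)]

lemma ca_fix (F : B k × Lat k → CC k) (G : B k × Lat k → Op k) : ∃ K : Op k, ∀ j,
    K (Finsupp.single j 1) = F j + G j (K (dE k (Finsupp.single j 1))) := by
  refine ⟨caK F G (2 * k + 1), fun j => ?_⟩
  rw [← caK_stable F G _ j (Nat.lt_succ_of_le (deg_le _))]
  conv_lhs => rw [caK, lb_lift]

lemma ca_aug_dE1 (j : B k × Lat k) : dE k (aug k (Finsupp.single j 1) • Finsupp.single j 1) = 0 := by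
  rw [aug_single]
  split_ifs with h
  · rw [one_smul]
    ext i
    by_contra h1
    have := (dE_ne (i := i) (j := j) h1).1
    rw [h, (deg_eq_zero _).2 rfl] at this
    omega
  · rw [zero_smul, map_zero]

lemma ca_dE_b0 (a : Lat k) : dE k (Finsupp.single (b0 k, a) 1) = 0 := by
  have := ca_aug_dE1 (b0 k, a)
  rwa [aug_single, if_pos rfl, one_smul] at this

lemma ca_aug_zero (y : CC k) (h : ∀ i, y i ≠ 0 → deg i.1 ≠ 0) : aug k y = 0 :=
  ca_congr (aug k) 0 y fun m hm => by
    rw [aug_single, if_neg fun h1 => h m hm ((deg_eq_zero _).2 h1)]; rfl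

lemma ca_dd (y : CC k) : dE k (dE k y) = 0 := LinearMap.congr_fun dE_sq y

section Contr
variable {h : Lat k → Op k}
  (h1 : ∀ a, dE k * h a + h a * dE k = 1 - (aug k).smulRight (Finsupp.single (b0 k, a) (1 : ℂ)))
  (h2 : ∀ a i j, ent (h a) i j ≠ 0 →
    deg i.1 = deg j.1 + 1 ∧ ∀ t, i.2 t ∈ Set.uIcc (a t) (j.2 t))
include h1 in
lemma ca_dh (a : Lat k) (y : CC k) (hy : dE k y = 0) (hy' : aug k y = 0) : dE k (h a y) = y := by
  have := LinearMap.congr_fun (h1 a) y
  simpa [hy, hy'] using this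

include h2 in
lemma ca_aug_h (a : Lat k) (y : CC k) : aug k (h a y) = 0 :=
  ca_aug_zero _ fun i hi => by
    obtain ⟨m, hm, -⟩ := apply_ne hi
    have := (h2 a i m hm).1
    omega

include h2 in
lemma ca_supp_h {S : Set (Lat k)} (hS : BoxConv S) {a : Lat k} (ha : a ∈ S) {y : CC k}
    (hy : ∀ m, y m ≠ 0 → m.2 ∈ S) {i : B k × Lat k} (hi : h a y i ≠ 0) : i.2 ∈ S := by
  obtain ⟨m, hm, hm'⟩ := apply_ne hi
  exact hS a ha m.2 (hy m hm') _ (h2 a i m hm).2

end Contr

/-- chain map carried by a vertex map -/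
theorem exists_chain (a : B k × Lat k → Lat k) : ∃ T : Op k,
    dE k * T = T * dE k ∧ (∀ y, aug k (T y) = aug k y) ∧ DegPres T ∧
    ∀ (j : B k × Lat k) (S : Set (Lat k)), BoxConv S → (∀ j', Nr j' j → a j' ∈ S) →
      ∀ i, ent T i j ≠ 0 → i.2 ∈ S := by
  obtain ⟨h, h1, h2⟩ := exists_contr k
  obtain ⟨T, hT⟩ := ca_fix (fun j => aug k (Finsupp.single j 1) • Finsupp.single (b0 k, a j) (1 : ℂ))
    (fun j => h (a j))
  have ha : ∀ y, aug k (T y) = aug k y := fun y =>
    ca_congr (aug k ∘ₗ T) (aug k) y fun m _ => by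
      rw [LinearMap.comp_apply, hT, map_add, ca_aug_h h2, map_smul, aug_single (b0 k, a m),
        if_pos rfl, smul_eq_mul, mul_one, add_zero]
  refine ⟨T, ?_, ha, fun i j => ?_, fun j S hS hj => ?_⟩
  · have : ∀ j, dE k (T (Finsupp.single j 1)) = T (dE k (Finsupp.single j 1)) := by
      refine ca_ind fun j ih => ?_
      have e : dE k (T (dE k (Finsupp.single j 1))) = T (dE k (dE k (Finsupp.single j 1))) :=
        ca_congr (dE k * T) (T * dE k) _ ih
      rw [ca_dd, map_zero] at e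
      rw [hT j, map_add, map_smul, ca_dE_b0, smul_zero, zero_add,
        ca_dh h1 _ _ e (by rw [ha, aug_dE])]
    exact Finsupp.lhom_ext' fun j => LinearMap.ext_ring (this j)
  · revert i
    refine ca_ind (p := fun j => ∀ i, ent T i j ≠ 0 → deg i.1 = deg j.1) (fun j ih i hi => ?_) j
    rw [ent, hT, Finsupp.add_apply] at hi
    by_cases h3 : (aug k (Finsupp.single j 1) • Finsupp.single (b0 k, a j) (1 : ℂ)) i = 0
    · rw [h3, zero_add] at hi
      obtain ⟨m, hm, hm'⟩ := apply_ne hi
      obtain ⟨m', hm2, hm3⟩ := apply_ne hm'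
      have a1 := (h2 _ _ _ hm).1
      have a2 := ih m' hm3 m hm2
      have a3 := (dE_ne (i := m') (j := j) hm3).1
      omega
    · rw [Finsupp.smul_apply, smul_eq_mul, aug_single] at h3
      have a1 : j.1 = b0 k := by
        by_contra a1
        exact left_ne_zero_of_mul h3 (if_neg a1)
      have a2 : (b0 k, a j) = i := by
        by_contra a2
        exact right_ne_zero_of_mul h3 (Finsupp.single_eq_of_ne' a2)
      rw [a1, ← a2]
  · refine ca_ind (p := fun j => (∀ j', caNear (deg j.1) j' j → a j' ∈ S) →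
      ∀ i, ent T i j ≠ 0 → i.2 ∈ S) (fun j ih hj i hi => ?_) j fun j' h' => hj j' (caNear_nr h')
    have haj := hj j (caNear_self _ _)
    rw [ent, hT, Finsupp.add_apply] at hi
    by_cases h3 : (aug k (Finsupp.single j 1) • Finsupp.single (b0 k, a j) (1 : ℂ)) i = 0
    · rw [h3, zero_add] at hi
      refine ca_supp_h h2 hS haj (fun m hm => ?_) hi
      obtain ⟨m', hm2, hm3⟩ := apply_ne hm
      exact ih m' hm3 (fun j' h' => hj j' (caNear_face hm3 h')) m hm2
    · rw [Finsupp.smul_apply, smul_eq_mul] at h3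
      have a2 : (b0 k, a j) = i := by
        by_contra a2
        exact right_ne_zero_of_mul h3 (Finsupp.single_eq_of_ne' a2)
      rw [← a2]; exact haj

/-- null-homotopy of a (locally defined) chain map of augmentation zero -/
theorem exists_homotopy (a : B k × Lat k → Lat k) (O : Op k) : ∃ H : Op k,
    (∀ j : B k × Lat k,
      (∀ j', Nr j' j → dE k (O (Finsupp.single j' 1)) = O (dE k (Finsupp.single j' 1)) ∧
        aug k (O (Finsupp.single j' 1)) = 0) →
      (dE k * H + H * dE k) (Finsupp.single j 1) = O (Finsupp.single j 1)) ∧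
    ∀ (j : B k × Lat k) (S : Set (Lat k)), BoxConv S →
      (∀ j', Nr j' j → a j' ∈ S ∧ ∀ i, ent O i j' ≠ 0 → i.2 ∈ S) →
      ∀ i, ent H i j ≠ 0 → i.2 ∈ S := by
  obtain ⟨h, h1, h2⟩ := exists_contr k
  obtain ⟨H, hH⟩ := ca_fix (fun j => h (a j) (O (Finsupp.single j 1))) (fun j => -h (a j))
  have hH' : ∀ j, H (Finsupp.single j 1) =
      h (a j) (O (Finsupp.single j 1) - H (dE k (Finsupp.single j 1))) := fun j => by
    rw [map_sub, sub_eq_add_neg]; exact hH j
  have ha : ∀ y, aug k (H y) = 0 := fun y =>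
    ca_congr (aug k ∘ₗ H) 0 y fun m _ => by
      rw [LinearMap.comp_apply, hH', ca_aug_h h2]; rfl
  refine ⟨H, fun j hj => ?_, fun j S hS hj => ?_⟩
  · refine ca_ind (p := fun j => (∀ j', caNear (deg j.1) j' j →
        dE k (O (Finsupp.single j' 1)) = O (dE k (Finsupp.single j' 1)) ∧
        aug k (O (Finsupp.single j' 1)) = 0) →
      (dE k * H + H * dE k) (Finsupp.single j 1) = O (Finsupp.single j 1))
      (fun j ih hj => ?_) j fun j' h' => hj j' (caNear_nr h')
    obtain ⟨a1, a2⟩ := hj j (caNear_self _ _)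
    have e : (dE k * H + H * dE k) (dE k (Finsupp.single j 1)) = O (dE k (Finsupp.single j 1)) :=
      ca_congr _ _ _ fun m hm => ih m hm fun j' h' => hj j' (caNear_face hm h')
    rw [LinearMap.add_apply, Module.End.mul_apply, Module.End.mul_apply, ca_dd, map_zero,
      add_zero] at e
    rw [LinearMap.add_apply, Module.End.mul_apply, Module.End.mul_apply, hH' j,
      ca_dh h1 _ _ (by rw [map_sub, e, a1, sub_self]) (by rw [map_sub, a2, ha, sub_self]),
      sub_add_cancel]
  · refine ca_ind (p := fun j => (∀ j', caNear (deg j.1) j' j →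
        a j' ∈ S ∧ ∀ i, ent O i j' ≠ 0 → i.2 ∈ S) → ∀ i, ent H i j ≠ 0 → i.2 ∈ S)
      (fun j ih hj i hi => ?_) j fun j' h' => hj j' (caNear_nr h')
    obtain ⟨a1, a2⟩ := hj j (caNear_self _ _)
    rw [ent, hH'] at hi
    refine ca_supp_h h2 hS a1 (fun m hm => ?_) hi
    by_cases h3 : O (Finsupp.single j 1) m = 0
    · rw [Finsupp.sub_apply, h3, zero_sub, neg_ne_zero] at hm
      obtain ⟨m', hm2, hm3⟩ := apply_ne hm
      exact ih m' hm3 (fun j' h' => hj j' (caNear_face hm3 h')) m hm2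
    · exact a2 m h3

end Vale.Agent.P228
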