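import Vale.Agent.P228.Fine

set_option linter.unusedSectionVars false
noncomputable section
open Matrix Filter Topology
namespace Vale.Agent.P228

def clamp {k : ℕ} (y : E k) : E k := fun i => max (-2) (min 2 (y i))

lemma clamp_mem {k : ℕ} (y : E k) : clamp y ∈ Metric.closedBall (0 : E k) 2 := by
  rw [mem_closedBall_zero_iff, pi_norm_le_iff_of_nonneg (by norm_num)]
  intro i
  rw [Real.norm_eq_abs, abs_le]
  exact ⟨le_max_left _ _, max_le (by norm_num) (min_le_left _ _)⟩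

lemma dist_clamp_le {k : ℕ} (y y' : E k) : dist (clamp y) (clamp y') ≤ dist y y' := by
  refine (dist_pi_le_iff dist_nonneg).2 fun i => le_trans ?_ (dist_le_pi_dist y y' i)
  rw [Real.dist_eq, Real.dist_eq]
  refine (abs_max_sub_max_le_max _ _ _ _).trans (max_le (by simp) ?_)
  exact (abs_min_sub_min_le_max _ _ _ _).trans (max_le (by simp) le_rfl)

lemma clamp_of_le {k : ℕ} {y : E k} (h : ‖y‖ ≤ 2) : clamp y = y := by
  funext i
  have := abs_le.1 ((norm_le_pi_norm y i).trans h)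
  simp only [clamp]
  rw [min_eq_right this.2, max_eq_right this.1]

/-- a sequence of finite data with vanishing control -/
abbrev DSeq (k : ℕ) := ∀ j : ℕ, Disc k (eta j)

namespace DSeq
variable {k : ℕ} (D : DSeq k)

instance (j : ℕ) : Nonempty (D j).n := by
  obtain ⟨a, -⟩ := (D j).surj 0 (by
    have : pos (D j).η (0 : Lat k) = 0 := by funext i; simp [pos]
    rw [this]; simp)
  exact ⟨a⟩

abbrev n (j : ℕ) : Type := (D j).n

def g1 (j : ℕ) (a : D.n j) : E k := clamp ((D j).F a)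

def g2 (j : ℕ) (a : D.n j) : E k := by
  classical exact if ‖pos (D j).η ((D j).v a)‖ ≤ 1 then pos (D j).η ((D j).v a) else D.g1 j a

lemma exists_lim (θ : ∀ j, D.n j) :
    ∃ y, Tendsto (fun j => D.g1 j (θ j)) (UU : Filter ℕ) (𝓝 y) := by
  obtain ⟨y, -, h⟩ := (isCompact_closedBall (0 : E k) 2).ultrafilter_le_nhds
    (UU.map fun j => D.g1 j (θ j))
    (by simp only [Ultrafilter.coe_map, Filter.le_principal_iff, Filter.mem_map]
        exact Filter.univ_mem' fun l => clamp_mem _)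
  exact ⟨y, h⟩

def lim (θ : ∀ j, D.n j) : E k := (D.exists_lim θ).choose

lemma lim_tendsto (θ : ∀ j, D.n j) :
    Tendsto (fun j => D.g1 j (θ j)) (UU : Filter ℕ) (𝓝 (D.lim θ)) := (D.exists_lim θ).choose_spec

/-- coarse labels -/
def Lb : Lab UU D.n (E k) where
  lab := D.lim
  congr u w h := tendsto_nhds_unique (D.lim_tendsto u)
    ((D.lim_tendsto w).congr' (h.mono fun l hl => by simp only [hl]))

lemma pt_g1 : D.Lb.Pt D.g1 id := D.lim_tendsto

lemma mem_ctrl (a : ∀ j, Matrix (D.n j) (D.n j) ℂ)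
    (h : ∀ j u w, a j u w ≠ 0 → dist ((D j).F u) ((D j).F w) ≤ eta j) : a ∈ D.Lb.ctrl := by
  intro u w huw
  refine tendsto_nhds_unique (D.lim_tendsto u) ((D.lim_tendsto w).congr_dist ?_)
  refine squeeze_zero' (Eventually.of_forall fun _ => dist_nonneg) ?_ eta_tendsto
  filter_upwards [huw] with j hj
  rw [dist_comm]
  exact (dist_clamp_le _ _).trans (h j _ _ hj)

def z (i : Ix k) : D.Lb.ctrl := ⟨fun j => shiftM (D j).v i, D.mem_ctrl _ fun j u w h =>
  (D j).hz u w i (by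
    by_contra h2
    exact h (by simp [shiftM, h2]))⟩

abbrev Mat := Matrix (B k) (B k) D.Lb.ctrl

abbrev Γ := D.Lb.ctx.mat (B k)

abbrev lev (j : ℕ) : D.Mat →⋆ₐ[ℂ] Raw k (D.n j) := mapH (B k) (D.Lb.ev j)

def toMat (Y : ∀ j, Raw k (D.n j))
    (h : ∀ j b b' u w, Y j b b' u w ≠ 0 → dist ((D j).F u) ((D j).F w) ≤ eta j) : D.Mat :=
  Matrix.of fun b b' => ⟨fun j => Y j b b', D.mem_ctrl _ fun j u w => h j b b' u w⟩

lemma lev_toMat (Y : ∀ j, Raw k (D.n j))
    (h : ∀ j b b' u w, Y j b b' u w ≠ 0 → dist ((D j).F u) ((D j).F w) ≤ eta j) (j : ℕ) :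
    D.lev j (D.toMat Y h) = Y j := rfl

end DSeq

end Vale.Agent.P228
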