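import Vale.Agent.P228.Defs

set_option linter.unusedSectionVars false
noncomputable section
open Matrix Filter Topology
open scoped ComplexOrder
namespace Vale.Agent.P228

section General
variable {E F : Type} [AddCommGroup E] [Module ℝ E] [FiniteDimensional ℝ E]
  [AddCommGroup F] [Module ℝ F] [FiniteDimensional ℝ F]

lemma sgn_le_pos_of_map (Q : QuadraticForm ℝ F) (L : E →ₗ[ℝ] F)
    (h : ∀ v, v ≠ 0 → 0 < Q (L v)) : Module.finrank ℝ E ≤ sigPos Q := by
  have hinj : Function.Injective L := by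
    rw [← LinearMap.ker_eq_bot, LinearMap.ker_eq_bot']
    intro v hv
    by_contra h0
    have := h v h0
    rw [hv] at this
    simp at this
  rw [← LinearMap.finrank_range_of_inj hinj]
  apply le_sigPos_of_posDef
  rintro ⟨x, v, rfl⟩ hx
  rw [QuadraticMap.restrict_apply]
  apply h
  rintro rfl
  exact hx (by simp)

lemma sgn_pos_comp_le (Q : QuadraticForm ℝ F) (Q' : QuadraticForm ℝ E) (L : E →ₗ[ℝ] F)
    (h : ∀ v, Q' v = Q (L v)) : sigPos Q' ≤ sigPos Q := by
  obtain ⟨V, hV, hp⟩ := exists_finrank_eq_sigPos_and_posDef Q'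
  rw [← hV]
  refine sgn_le_pos_of_map Q (L ∘ₗ V.subtype) fun v hv => ?_
  have := hp v hv
  rw [QuadraticMap.restrict_apply, h] at this
  simpa using this

lemma sgn_exists_nonpos (Q : QuadraticForm ℝ E) : ∃ W : Submodule ℝ E,
    sigPos Q + Module.finrank ℝ W = Module.finrank ℝ E ∧ ∀ x ∈ W, Q x ≤ 0 := by
  obtain ⟨V, hV, hp⟩ := exists_finrank_eq_sigNeg_and_negDef Q
  have hd : V ⊓ Q.radical = ⊥ := by
    rw [eq_bot_iff]
    rintro x ⟨h1, h2⟩
    by_contra h0
    have := hp ⟨x, h1⟩ (fun h => h0 (by simpa using h))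
    rw [QuadraticMap.restrict_apply] at this
    have h3 := (QuadraticMap.mem_radical_iff'.mp h2).1
    simp [h3] at this
  refine ⟨V ⊔ Q.radical, ?_, ?_⟩
  · have h1 := Submodule.finrank_sup_add_finrank_inf_eq V Q.radical
    have h2 := QuadraticForm.sigPos_add_sigNeg_add_radical (Q := Q)
    rw [hd, finrank_bot] at h1
    omega
  · intro x hx
    obtain ⟨y, hy, z, hz, rfl⟩ := Submodule.mem_sup.mp hx
    rw [add_comm, (QuadraticMap.mem_radical_iff'.mp hz).2]
    by_cases h0 : y = 0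
    · simp [h0]
    · have := hp ⟨y, hy⟩ (fun h => h0 (by simpa using h))
      rw [QuadraticMap.restrict_apply] at this
      simp at this
      exact this.le

lemma sgn_pos_add_le (Q1 Q2 : QuadraticForm ℝ E) : sigPos (Q1 + Q2) ≤ sigPos Q1 + sigPos Q2 := by
  obtain ⟨V, hV, hp⟩ := exists_finrank_eq_sigPos_and_posDef (Q1 + Q2)
  obtain ⟨W, hW, hn⟩ := sgn_exists_nonpos Q1
  have h1 := Submodule.finrank_sup_add_finrank_inf_eq V W
  have h2 : Module.finrank ℝ (V ⊔ W : Submodule ℝ E) ≤ Module.finrank ℝ E := Submodule.finrank_le _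
  have h3 : Module.finrank ℝ (V ⊓ W : Submodule ℝ E) ≤ sigPos Q2 := by
    apply le_sigPos_of_posDef
    rintro ⟨x, hx1, hx2⟩ hx
    have := hp ⟨x, hx1⟩ (fun h => hx (Subtype.ext (congrArg Subtype.val h :)))
    rw [QuadraticMap.restrict_apply] at this ⊢
    have h4 := hn x hx2
    simp only [_root_.add_apply] at this
    linarith
  omega

lemma sgn_pos_add_eq (Q1 Q2 : QuadraticForm ℝ E) (p : E →ₗ[ℝ] E)
    (h1 : ∀ x y, Q1 (p x + (y - p y)) = Q1 x) (h2 : ∀ x y, Q2 (p x + (y - p y)) = Q2 y) :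
    sigPos (Q1 + Q2) = sigPos Q1 + sigPos Q2 := by
  refine le_antisymm (sgn_pos_add_le Q1 Q2) ?_
  obtain ⟨V1, hV1, hp1⟩ := exists_finrank_eq_sigPos_and_posDef Q1
  obtain ⟨V2, hV2, hp2⟩ := exists_finrank_eq_sigPos_and_posDef Q2
  rw [← hV1, ← hV2, ← Module.finrank_prod]
  refine sgn_le_pos_of_map (Q1 + Q2) ((p ∘ₗ V1.subtype).coprod
    ((LinearMap.id - p) ∘ₗ V2.subtype)) ?_
  rintro ⟨x, y⟩ hxy
  have e : ((p ∘ₗ V1.subtype).coprod ((LinearMap.id - p) ∘ₗ V2.subtype)) (x, y)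
      = p x + (y - p y) := by simp
  rw [e, _root_.add_apply, h1, h2]
  have a1 : 0 ≤ Q1 x := by simpa [QuadraticMap.restrict_apply] using hp1.nonneg x
  have a2 : 0 ≤ Q2 y := by simpa [QuadraticMap.restrict_apply] using hp2.nonneg y
  by_cases hx : x = 0
  · have hy : y ≠ 0 := fun hy => hxy (by simp [hx, hy])
    have := hp2 y hy
    rw [QuadraticMap.restrict_apply] at this
    linarith
  · have := hp1 x hx
    rw [QuadraticMap.restrict_apply] at this
    linarith

end General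

variable {n m : Type} [Fintype n] [DecidableEq n] [Fintype m] [DecidableEq m]

/-- a complex matrix as a real linear map -/
def sgnL (T : Matrix m n ℂ) : (n → ℂ) →ₗ[ℝ] (m → ℂ) := (Matrix.mulVecLin T).restrictScalars ℝ

@[simp] lemma sgnL_apply (T : Matrix m n ℂ) (v : n → ℂ) : sgnL T v = T *ᵥ v := rfl

lemma sgn_hq_conj (M : Matrix n n ℂ) (T : Matrix m n ℂ) (v : m → ℂ) :
    hq (T * M * Tᴴ) v = hq M (Tᴴ *ᵥ v) := by
  rw [hq_apply, hq_apply, star_mulVec, conjTranspose_conjTranspose, ← Matrix.mulVec_mulVec,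
    ← Matrix.mulVec_mulVec, dotProduct_mulVec]

lemma sgn_hq_neg (M : Matrix n n ℂ) : hq (-M) = -hq M := by
  ext v
  simp [hq_apply, Matrix.neg_mulVec]

lemma sgn_hq_add (M N : Matrix n n ℂ) : hq (M + N) = hq M + hq N := by
  ext v
  simp [hq_apply, Matrix.add_mulVec]

theorem sgn_congr (M : Matrix n n ℂ) (N : Matrix m m ℂ) (T : Matrix m n ℂ) (T' : Matrix n m ℂ)
    (h1 : N = T * M * Tᴴ) (h2 : M = T' * N * T'ᴴ) : sgn N = sgn M := by
  have e1 : ∀ v, hq N v = hq M (sgnL Tᴴ v) := fun v => by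
    rw [h1, sgn_hq_conj]; rfl
  have e2 : ∀ v, hq M v = hq N (sgnL T'ᴴ v) := fun v => by
    rw [h2, sgn_hq_conj]; rfl
  have a1 := sgn_pos_comp_le _ _ _ e1
  have a2 := sgn_pos_comp_le _ _ _ e2
  have a3 := sgn_pos_comp_le (-hq M) (-hq N) (sgnL Tᴴ) (fun v => by simp [e1])
  have a4 := sgn_pos_comp_le (-hq N) (-hq M) (sgnL T'ᴴ) (fun v => by simp [e2])
  rw [sigPos_neg, sigPos_neg] at a3 a4
  unfold sgn
  omega

theorem sgn_neg (M : Matrix n n ℂ) : sgn (-M) = -sgn M := by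
  unfold sgn
  rw [sgn_hq_neg, sigPos_neg, sigNeg_neg]
  ring

lemma sgn_hq_eq_of_mul (M Q : Matrix n n ℂ) (hQ : Qᴴ = Q) (h1 : Q * M = M) (h2 : M * Q = M)
    {v w : n → ℂ} (h : Q *ᵥ v = Q *ᵥ w) : hq M v = hq M w := by
  have e : ∀ u, hq M u = hq M (Q *ᵥ u) := fun u => by
    have := sgn_hq_conj M Q u
    rwa [hQ, h1, h2] at this
  rw [e v, e w, h]

theorem sgn_add_orth (M N P : Matrix n n ℂ) (hP : IsProj P) (h1 : P * M = M) (h2 : M * P = M)
    (h3 : P * N = 0) (h4 : N * P = 0) : sgn (M + N) = sgn M + sgn N := by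
  have hs : Pᴴ = P := hP.1
  have hPP : ∀ v, P *ᵥ P *ᵥ v = P *ᵥ v := fun v => by rw [Matrix.mulVec_mulVec, hP.2]
  have a1 : ∀ x y, hq M (sgnL P x + (y - sgnL P y)) = hq M x := fun x y =>
    sgn_hq_eq_of_mul M P hs h1 h2 (by simp [Matrix.mulVec_add, Matrix.mulVec_sub, hP.2])
  have a2 : ∀ x y, hq N (sgnL P x + (y - sgnL P y)) = hq N y := fun x y =>
    sgn_hq_eq_of_mul N (1 - P) (by simp [hs]) (by simp [sub_mul, h3]) (by simp [mul_sub, h4])
      (by simp only [sgnL_apply, Matrix.mulVec_add, Matrix.mulVec_sub, Matrix.sub_mulVec,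
            Matrix.one_mulVec, hPP]; abel)
  have b1 := sgn_pos_add_eq (hq M) (hq N) (sgnL P) a1 a2
  have b2 := sgn_pos_add_eq (-hq M) (-hq N) (sgnL P) (fun x y => by
    simp only [_root_.neg_apply, a1]) (fun x y => by
    simp only [_root_.neg_apply, a2])
  rw [← neg_add, sigPos_neg, sigPos_neg, sigPos_neg] at b2
  unfold sgn
  rw [sgn_hq_add, b1, b2]
  push_cast
  ring

lemma sgn_mem_radical (M : Matrix n n ℂ) (hM : Mᴴ = M) (v : n → ℂ) :
    v ∈ (hq M).radical ↔ M *ᵥ v = 0 := by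
  have sym : ∀ w, star v ⬝ᵥ M *ᵥ w = star (M *ᵥ v) ⬝ᵥ w := fun w => by
    rw [star_mulVec, hM, dotProduct_mulVec]
  rw [QuadraticMap.mem_radical_iff']
  constructor
  · rintro ⟨h0, h⟩
    have h1 := h (M *ᵥ v)
    rw [hq_apply] at h0
    rw [hq_apply, hq_apply, star_add, Matrix.mulVec_add, add_dotProduct, dotProduct_add,
      dotProduct_add, sym (M *ᵥ v)] at h1
    simp only [Complex.add_re] at h1
    have h2 : (star (M *ᵥ v) ⬝ᵥ M *ᵥ v).re = 0 := by linarith
    have h3 : 0 ≤ star (M *ᵥ v) ⬝ᵥ M *ᵥ v := dotProduct_star_self_nonneg _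
    have h4 : star (M *ᵥ v) ⬝ᵥ M *ᵥ v = 0 :=
      Complex.ext h2 (by simpa using (Complex.nonneg_iff.mp h3).2.symm)
    exact dotProduct_star_self_eq_zero.mp h4
  · intro h
    refine ⟨by simp [hq_apply, h], fun w => ?_⟩
    rw [hq_apply, hq_apply, star_add, Matrix.mulVec_add, h, zero_add, add_dotProduct, sym w, h]
    simp

lemma sgn_pos_lsc (M : ℝ → Matrix n n ℂ) (hc : Continuous M) (t₀ : ℝ) :
    ∀ᶠ t in 𝓝 t₀, sigPos (hq (M t₀)) ≤ sigPos (hq (M t)) := by
  obtain ⟨V, hV, hp⟩ := exists_finrank_eq_sigPos_and_posDef (hq (M t₀))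
  have hK : IsCompact (Metric.sphere (0 : V) 1) := isCompact_sphere _ _
  have hg : Continuous fun z : ℝ × V => hq (M z.1) z.2 := by
    simp only [hq_apply]
    refine Complex.continuous_re.comp (Continuous.dotProduct (by fun_prop) ?_)
    exact Continuous.matrix_mulVec (hc.comp continuous_fst) (by fun_prop)
  have h1 : ∀ᶠ t in 𝓝 t₀, ∀ y ∈ Metric.sphere (0 : V) 1, 0 < hq (M t) y := by
    refine hK.eventually_forall_of_forall_eventually (P := fun t y => 0 < hq (M t) y) ?_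
    intro y hy
    have hy0 : y ≠ 0 := by
      rintro rfl
      simp at hy
    have := hp y hy0
    rw [QuadraticMap.restrict_apply] at this
    exact hg.continuousAt.eventually (lt_mem_nhds this)
  filter_upwards [h1] with t ht
  rw [← hV]
  apply le_sigPos_of_posDef
  intro y hy
  have hn : 0 < ‖y‖ := norm_pos_iff.mpr hy
  have h2 := ht (‖y‖⁻¹ • y) (by
    rw [mem_sphere_zero_iff_norm, norm_smul, norm_inv, norm_norm, inv_mul_cancel₀ hn.ne'])
  rw [QuadraticMap.restrict_apply]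
  rw [Submodule.coe_smul, QuadraticMap.map_smul, smul_eq_mul] at h2
  exact (mul_pos_iff_of_pos_left (by positivity)).mp h2

theorem sgn_homotopy (M M' : ℝ → Matrix n n ℂ) (P : Matrix n n ℂ) (hP : star P = P)
    (hc : Continuous M)
    (h : ∀ t ∈ Set.Icc (0 : ℝ) 1, star (M t) = M t ∧ M t * M' t = P ∧ P * M t = M t) :
    sgn (M 0) = sgn (M 1) := by
  have hs : Pᴴ = P := hP
  have hr : ∀ t ∈ Set.Icc (0 : ℝ) 1, (hq (M t)).radical = LinearMap.ker (sgnL P) := by
    intro t ht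
    obtain ⟨a1, a2, a3⟩ := h t ht
    have a1' : (M t)ᴴ = M t := a1
    ext v
    rw [sgn_mem_radical _ a1', LinearMap.mem_ker, sgnL_apply]
    constructor
    · intro hv
      have : P = (M' t)ᴴ * M t := by rw [← hs, ← a2, conjTranspose_mul, a1']
      rw [this, ← Matrix.mulVec_mulVec, hv, Matrix.mulVec_zero]
    · intro hv
      have : M t = M t * P := by
        have := congrArg conjTranspose a3
        rw [conjTranspose_mul, hs, a1'] at this
        exact this.symm
      rw [this, ← Matrix.mulVec_mulVec, hv, Matrix.mulVec_zero]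
  have hcont : ContinuousOn (fun t => sgn (M t)) (Set.Icc (0 : ℝ) 1) := by
    intro t₀ ht₀
    refine (continuousWithinAt_const (b := sgn (M t₀))).congr_of_eventuallyEq ?_ rfl
    have e1 := sgn_pos_lsc M hc t₀
    have e2 := sgn_pos_lsc (fun t => -M t) hc.neg t₀
    filter_upwards [mem_nhdsWithin_of_mem_nhds e1, mem_nhdsWithin_of_mem_nhds e2,
      self_mem_nhdsWithin] with t b1 b2 ht
    simp only [sgn_hq_neg, sigPos_neg] at b1 b2
    have c1 := QuadraticForm.sigPos_add_sigNeg_add_radical (Q := hq (M t))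
    have c2 := QuadraticForm.sigPos_add_sigNeg_add_radical (Q := hq (M t₀))
    rw [hr t ht] at c1
    rw [hr t₀ ht₀] at c2
    unfold sgn
    omega
  exact isPreconnected_Icc.constant hcont (by simp) (by simp)

theorem sgn_proj_ne_zero (P : Matrix n n ℂ) (hP : IsProj P) (h0 : P ≠ 0) : sgn P ≠ 0 := by
  have hs : Pᴴ = P := hP.1
  have e : ∀ v, hq P v = (star (P *ᵥ v) ⬝ᵥ P *ᵥ v).re := fun v => by
    rw [hq_apply, star_mulVec, hs, ← dotProduct_mulVec, Matrix.mulVec_mulVec, hP.2]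
  have nn : ∀ v, 0 ≤ hq P v := fun v => by
    rw [e]
    exact (Complex.nonneg_iff.mp (dotProduct_star_self_nonneg _)).1
  have h1 := QuadraticForm.sigPos_add_finrank_le_of_nonpos (Q := -hq P) (V := ⊤)
    (fun x _ => by simpa using nn x)
  rw [finrank_top, sigPos_neg] at h1
  have h2 := QuadraticForm.sigPos_add_sigNeg_add_radical (Q := hq P)
  have h3 : (hq P).radical ≠ ⊤ := by
    intro h
    apply h0
    ext i j
    have : Pi.single j (1 : ℂ) ∈ (hq P).radical := by rw [h]; trivial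
    rw [sgn_mem_radical P hs] at this
    simpa using congrFun this i
  have h4 := Submodule.finrank_lt h3
  unfold sgn
  omega

end Vale.Agent.P228
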