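import Vale.Agent.P228.Nat
import Vale.Agent.P228.Sgn
import Vale.Agent.P228.AlgVal


set_option linter.unusedSectionVars false
noncomputable section
open Matrix Filter Topology
namespace Vale.Agent.P228

variable {R S : Type} [Ring R] [StarRing R] [Algebra ℂ R] [StarModule ℂ R]
  [Ring S] [StarRing S] [Algebra ℂ S] [StarModule ℂ S]

variable {n m : Type} [Fintype n] [DecidableEq n] [Fintype m] [DecidableEq m]

lemma se_mp (I : Type) [Fintype I] [DecidableEq I] (ρ : R →⋆ₙₐ[ℂ] Matrix n n ℂ)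
    (f : S →⋆ₐ[ℂ] R) : matRep I (preRep ρ f) = preRep (matRep I ρ) (mapH I f) := by
  ext M i j; rfl

lemma se_pre (k : ℕ) : ∀ {R : Type} [Ring R] [StarRing R] [Algebra ℂ R] [StarModule ℂ R]
    {S : Type} [Ring S] [StarRing S] [Algebra ℂ S] [StarModule ℂ S]
    {n : Type} [Fintype n] [DecidableEq n] (ρ : R →⋆ₙₐ[ℂ] Matrix n n ℂ) (f : S →⋆ₐ[ℂ] R)
    (c : Fin k → Cut S) (A A' : S),
    sigR k (preRep ρ f) c A A' = sigR k ρ (lift f c) (f A) (f A') := by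
  induction k with
  | zero => intros; rfl
  | succ k ih =>
    intro R _ _ _ _ S _ _ _ _ n _ _ ρ f c A A'
    rw [sigR_succ, sigR_succ, se_mp, se_mp, se_mp, ih, lift_s2_lift, lift_s2_lift, lift_s2_lift,
      mapH_bott, mapH_bott', tail_lift]
    rfl

theorem sigR_pre (k : ℕ) (ρ : R →⋆ₙₐ[ℂ] Matrix n n ℂ) (f : S →⋆ₐ[ℂ] R) (c : Fin k → Cut S)
    (A A' : S) : sigR k (preRep ρ f) c A A' = sigR k ρ (lift f c) (f A) (f A') := by
  exact se_pre k ρ f c A A'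

/-- the block matrix with `T` along the diagonal -/
def seBlk (I : Type) [DecidableEq I] (T : Matrix m n ℂ) : Matrix (I × m) (I × n) ℂ :=
  Matrix.of fun p q => if p.1 = q.1 then T p.2 q.2 else 0

lemma se_blk_rep (I : Type) [Fintype I] [DecidableEq I] (ρ : R →⋆ₙₐ[ℂ] Matrix n n ℂ)
    (ρ' : R →⋆ₙₐ[ℂ] Matrix m m ℂ) (T : Matrix m n ℂ) (h1 : ∀ a, ρ' a = T * ρ a * Tᴴ)
    (M : Matrix I I R) : matRep I ρ' M = seBlk I T * matRep I ρ M * (seBlk I T)ᴴ := by
  ext ⟨i, a⟩ ⟨j, b⟩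
  simp [seBlk, h1, Matrix.mul_apply, Fintype.sum_prod_type, apply_ite (starRingEnd ℂ),
    Finset.sum_ite_irrel]

lemma se_equiv (k : ℕ) : ∀ {R : Type} [Ring R] [StarRing R] [Algebra ℂ R] [StarModule ℂ R]
    {n m : Type} [Fintype n] [DecidableEq n] [Fintype m] [DecidableEq m]
    (ρ : R →⋆ₙₐ[ℂ] Matrix n n ℂ) (ρ' : R →⋆ₙₐ[ℂ] Matrix m m ℂ)
    (T : Matrix m n ℂ) (T' : Matrix n m ℂ) (_ : ∀ a, ρ' a = T * ρ a * Tᴴ)
    (_ : ∀ a, ρ a = T' * ρ' a * T'ᴴ) (c : Fin k → Cut R) (A A' : R),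
    sigR k ρ' c A A' = sigR k ρ c A A' := by
  induction k with
  | zero =>
    intro R _ _ _ _ n m _ _ _ _ ρ ρ' T T' h1 h2 c A A'
    exact sgn_congr _ _ T T' (h1 A) (h2 A)
  | succ k ih =>
    intro R _ _ _ _ n m _ _ _ _ ρ ρ' T T' h1 h2 c A A'
    rw [sigR_succ, sigR_succ]
    exact ih _ _ _ _ (se_blk_rep _ _ _ _ (se_blk_rep _ _ _ _ (se_blk_rep _ _ _ _ h1)))
      (se_blk_rep _ _ _ _ (se_blk_rep _ _ _ _ (se_blk_rep _ _ _ _ h2))) _ _ _

theorem sigR_equiv (k : ℕ) (ρ : R →⋆ₙₐ[ℂ] Matrix n n ℂ) (ρ' : R →⋆ₙₐ[ℂ] Matrix m m ℂ)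
    (T : Matrix m n ℂ) (T' : Matrix n m ℂ) (h1 : ∀ a, ρ' a = T * ρ a * Tᴴ)
    (h2 : ∀ a, ρ a = T' * ρ' a * T'ᴴ) (c : Fin k → Cut R) (A A' : R) :
    sigR k ρ' c A A' = sigR k ρ c A A' := by
  exact se_equiv k ρ ρ' T T' h1 h2 c A A'

/-- a representation supported on the range of an injection -/
lemma se_inj (k : ℕ) (ρ : R →⋆ₙₐ[ℂ] Matrix n n ℂ) (ρ' : R →⋆ₙₐ[ℂ] Matrix m m ℂ) (e : n → m)
    (he : Function.Injective e) (h1 : ∀ a x y, ρ' a (e x) (e y) = ρ a x y)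
    (h2 : ∀ a u v, (∀ x, u ≠ e x) → ρ' a u v = 0) (c : Fin k → Cut R) (A A' : R) :
    sigR k ρ' c A A' = sigR k ρ c A A' := by
  have h3 : ∀ a u v, (∀ x, v ≠ e x) → ρ' a u v = 0 := fun a u v hv => by
    have := h2 (star a) v u hv
    rw [map_star, Matrix.star_apply] at this
    exact star_eq_zero.1 this
  refine sigR_equiv k ρ ρ' (Matrix.of fun u x => if u = e x then 1 else 0)
    (Matrix.of fun u x => if u = e x then (1 : ℂ) else 0)ᴴ (fun a => ?_) (fun a => ?_) c A A'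
  · ext u v
    by_cases hu : ∃ x, u = e x
    · obtain ⟨x, rfl⟩ := hu
      by_cases hv : ∃ y, v = e y
      · obtain ⟨y, rfl⟩ := hv
        simp [Matrix.mul_apply, he.eq_iff, h1, apply_ite (starRingEnd ℂ)]
      · have hv' : ∀ y, v ≠ e y := fun y h => hv ⟨y, h⟩
        simp [Matrix.mul_apply, h3 a _ v hv', hv']
    · have hu' : ∀ y, u ≠ e y := fun y h => hu ⟨y, h⟩
      simp [Matrix.mul_apply, h2 a u v hu', hu']
  · ext x y
    simp [Matrix.mul_apply, h1, apply_ite (starRingEnd ℂ)]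

lemma se_bij (k : ℕ) (ρ : R →⋆ₙₐ[ℂ] Matrix n n ℂ) (ρ' : R →⋆ₙₐ[ℂ] Matrix m m ℂ) (e : n → m)
    (he : Function.Bijective e) (h1 : ∀ a x y, ρ' a (e x) (e y) = ρ a x y)
    (c : Fin k → Cut R) (A A' : R) : sigR k ρ' c A A' = sigR k ρ c A A' :=
  se_inj k ρ ρ' e he.1 h1 (fun _ u _ h => by
    obtain ⟨x, hx⟩ := he.2 u
    exact absurd hx.symm (h x)) c A A'

lemma se_mat_add (I : Type) [Fintype I] [DecidableEq I] {ρ ρ1 ρ2 : R →⋆ₙₐ[ℂ] Matrix n n ℂ}
    (h : ∀ a, ρ a = ρ1 a + ρ2 a) (M : Matrix I I R) :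
    matRep I ρ M = matRep I ρ1 M + matRep I ρ2 M := by
  ext i j; simp [h]

lemma se_mat_orth (I : Type) [Fintype I] [DecidableEq I] {ρ1 ρ2 : R →⋆ₙₐ[ℂ] Matrix n n ℂ}
    (h : ∀ a b, ρ1 a * ρ2 b = 0) (M N : Matrix I I R) :
    matRep I ρ1 M * matRep I ρ2 N = 0 := by
  ext i j
  rw [Matrix.mul_apply, Fintype.sum_prod_type]
  refine Finset.sum_eq_zero fun l _ => ?_
  have := congrFun (congrFun (h (M i.1 l) (N l j.1)) i.2) j.2
  rw [Matrix.mul_apply] at this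
  exact this

lemma se_add (k : ℕ) : ∀ {R : Type} [Ring R] [StarRing R] [Algebra ℂ R] [StarModule ℂ R]
    {n : Type} [Fintype n] [DecidableEq n] (ρ ρ1 ρ2 : R →⋆ₙₐ[ℂ] Matrix n n ℂ)
    (_ : ∀ a, ρ a = ρ1 a + ρ2 a) (_ : ∀ a b, ρ1 a * ρ2 b = 0) (c : Fin k → Cut R) (A A' : R),
    sigR k ρ c A A' = sigR k ρ1 c A A' + sigR k ρ2 c A A' := by
  induction k with
  | zero =>
    intro R _ _ _ _ n _ _ ρ ρ1 ρ2 h h0 c A A'
    rw [sigR_zero, sigR_zero, sigR_zero, h]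
    refine sgn_add_orth _ _ (ρ1 1) ⟨by rw [← map_star, star_one], by rw [← map_mul, one_mul]⟩
      (by rw [← map_mul, one_mul]) (by rw [← map_mul, mul_one]) (h0 _ _) ?_
    have := congrArg star (h0 1 (star A))
    rwa [star_mul, ← map_star, ← map_star, star_star, star_one, star_zero] at this
  | succ k ih =>
    intro R _ _ _ _ n _ _ ρ ρ1 ρ2 h h0 c A A'
    rw [sigR_succ, sigR_succ, sigR_succ]
    have a1 := se_mat_add (Fin 2) h
    have a2 := se_mat_add (Fin 2) a1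
    have a3 := se_mat_add (Fin 2) a2
    have b1 := se_mat_orth (Fin 2) h0
    have b2 := se_mat_orth (Fin 2) b1
    have b3 := se_mat_orth (Fin 2) b2
    exact ih _ _ _ a3 b3 _ _ _

theorem sigR_add (k : ℕ) (ρ ρ1 ρ2 : R →⋆ₙₐ[ℂ] Matrix n n ℂ) (h : ∀ a, ρ a = ρ1 a + ρ2 a)
    (h0 : ∀ a b, ρ1 a * ρ2 b = 0) (c : Fin k → Cut R) (A A' : R) :
    sigR k ρ c A A' = sigR k ρ1 c A A' + sigR k ρ2 c A A' := by
  exact se_add k ρ ρ1 ρ2 h h0 c A A'

theorem sigR_unit (k : ℕ) (ρ : R →⋆ₙₐ[ℂ] Matrix n n ℂ) (c : Fin k → Cut R) (u : R)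
    (h1 : star u * u = 1) (h2 : u * star u = 1)
    (hc : ∀ j, Commute u (c j).P ∧ Commute u (c j).Q ∧ Commute u (c j).C) (A A' : R) :
    sigR k ρ c (u * A * star u) (u * A' * star u) = sigR k ρ c A A' := by
  have e : ∀ a, Commute u a → u * a * star u = a := fun a ha => by
    rw [ha.eq, mul_assoc, h2, mul_one]
  have hl : lift (conjH u h1 h2) c = c := by
    funext j
    obtain ⟨a1, a2, a3⟩ := hc j
    simp only [lift, Cut.map, conjH_apply, e _ a1, e _ a2, e _ a3]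
  have h3 := sigR_pre k ρ (conjH u h1 h2) c A A'
  rw [hl, conjH_apply, conjH_apply] at h3
  rw [← h3]
  refine sigR_equiv k ρ _ (ρ u) (ρ (star u)) (fun a => ?_) (fun a => ?_) c A A'
  · rw [preRep_apply, conjH_apply, map_mul, map_mul, map_star]; rfl
  · have h4 : (ρ (star u))ᴴ = ρ u := by
      rw [map_star]; exact Matrix.conjTranspose_conjTranspose _
    rw [h4, preRep_apply, conjH_apply, ← map_mul, ← map_mul]
    have h5 : star u * (u * a * star u) * u = (star u * u) * a * (star u * u) := by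
      simp only [mul_assoc]
    rw [h5, h1, one_mul, mul_one]

lemma se_star_J1 : star (J1 : M2 R) = J1 := by simp [J1, star_m2]

lemma se_J1_J1 : (J1 : M2 R) * J1 = 1 := inv_J1.2.1

lemma se_J1u : star (J1 : M2 R) * J1 = 1 := by rw [se_star_J1, se_J1_J1]

lemma se_J1u' : (J1 : M2 R) * star J1 = 1 := by rw [se_star_J1, se_J1_J1]

lemma se_J1_conj (a b c d : R) : J1 * !![a, b; c, d] * star J1 = !![a, -b; -c, d] := by
  rw [se_star_J1]; simp [J1]

lemma se_J1_s2 (a : R) : Commute J1 (s2 a) := by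
  show J1 * s2 a = s2 a * J1
  simp [J1, s2]

lemma se_s2_comm {a b : R} (h : Commute a b) : Commute (s2 a) (s2 b) := by
  show s2 a * s2 b = s2 b * s2 a
  rw [← s2_mul, ← s2_mul, h.eq]

lemma se_s2u {u : R} (h : star u * u = 1) : star (s2 u) * s2 u = 1 := by
  rw [star_s2, ← s2_mul, h, s2_one]

lemma se_s2u' {u : R} (h : u * star u = 1) : s2 u * star (s2 u) = 1 := by
  rw [star_s2, ← s2_mul, h, s2_one]

lemma se_mapH_conj (u : R) (h1 : star u * u = 1) (h2 : u * star u = 1) :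
    mapH (Fin 2) (conjH u h1 h2) = conjH (s2 u) (se_s2u h1) (se_s2u' h2) := by
  refine StarAlgHom.ext fun M => ?_
  rw [conjH_apply, star_s2]
  ext i j
  fin_cases i <;> fin_cases j <;>
    simp [s2, Matrix.mul_apply, Fin.sum_univ_two, Matrix.vecMul, dotProduct]

lemma se_Jof_neg (a a' : R) : Jof (-a) (-a') = J1 * Jof a a' * star J1 := by
  have e1 : el (-a) (-a') = J1 * el a a' * star J1 := by
    rw [el_eq, el_eq, se_J1_conj]; apply m2_ext <;> noncomm_ring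
  have e2 : elInv (-a) (-a') = J1 * elInv a a' * star J1 := by
    rw [elInv_eq, elInv_eq, se_J1_conj]; apply m2_ext <;> noncomm_ring
  rw [Jof, Jof, e1, e2, se_star_J1]
  calc J1 * el a a' * J1 * J1 * (J1 * elInv a a' * J1)
      = J1 * (el a a' * (J1 * J1) * J1 * elInv a a') * J1 := by simp only [mul_assoc]
    _ = _ := by rw [se_J1_J1, mul_one]

lemma se_bottJ_neg (c : Cut R) (hQ : c.Q * c.Q = c.Q) (A A' : R) :
    bottJ c (-A) (-A') = J1 * bottJ c A A' * star J1 := by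
  have e1 : J1 * JR c.Q * star J1 = JR c.Q := by
    rw [JR_of_idem hQ, dg, se_J1_conj, neg_zero]
  have e2 : JL c.Q (-A) (-A') = J1 * JL c.Q A A' * star J1 := by
    rw [JL, JL, ← se_Jof_neg, mul_neg, neg_mul, mul_neg, neg_mul]
  rw [bottJ, bottJ, e2, mul_add, add_mul, e1, ← mul_assoc, (se_J1_s2 c.P).eq, mul_assoc (s2 c.P),
    mul_assoc (s2 c.P), mul_sub J1, sub_mul, e1]

lemma se_diff_neg (A1 A1' A2 C : R) :
    diff (-A1) (-A1') (-A2) C = -(J1 * diff A1 A1' A2 C * star J1) := by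
  rw [diff, diff, se_J1_conj, neg_m2, neg_neg]; apply m2_ext <;> noncomm_ring

lemma se_diff'_neg (A1 A1' A2 A2' C : R) :
    diff' (-A1) (-A1') (-A2) (-A2') C = -(J1 * diff' A1 A1' A2 A2' C * star J1) := by
  have e : 1 + C * (-A1 - -A2) * C * -A2' = 1 + C * (A1 - A2) * C * A2' := by noncomm_ring
  rw [diff', diff', se_J1_conj, neg_m2, e]; apply m2_ext <;> noncomm_ring

lemma se_s2_neg (a : R) : s2 (-a) = -s2 a := map_neg s2H a

lemma se_defo_neg (T T' J C : R) :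
    defo (-T) (-T') J C = -(J1 * defo T T' J C * star J1) := by
  rw [defo, defo, ← se_diff_neg, dA1, dA1, dA1', dA1', se_s2_neg, se_s2_neg]
  simp only [mul_neg, neg_mul]

lemma se_defo'_neg (T T' J C : R) :
    defo' (-T) (-T') J C = -(J1 * defo' T T' J C * star J1) := by
  rw [defo', defo', ← se_diff'_neg, dA1, dA1, dA1', dA1', se_s2_neg, se_s2_neg]
  simp only [mul_neg, neg_mul]

lemma se_conj_sig : J1 * (-sig : M2 R) * star J1 = sig := by
  rw [sig, neg_m2, se_J1_conj]; simp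

lemma se_conj_s2 (a : R) : J1 * s2 a * star J1 = s2 a := by
  rw [s2, se_J1_conj, neg_zero]

lemma se_bott_neg (c : Cut R) (hQ : c.Q * c.Q = c.Q) (A A' : R) :
    bott c (-A) (-A') = s2 (s2 J1) * -(J1 * bott c A A' * star J1) * star (s2 (s2 J1)) := by
  have h := mapH_defo (conjH (J1 : M2 R) se_J1u se_J1u') (-sig) (-sig) (bottJ c A A') (s2 c.C)
  rw [se_mapH_conj, se_mapH_conj, conjH_apply, conjH_apply, conjH_apply, conjH_apply,
    se_conj_sig, se_conj_s2, ← se_bottJ_neg c hQ, se_defo_neg] at h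
  exact h.symm

lemma se_bott'_neg (c : Cut R) (hQ : c.Q * c.Q = c.Q) (A A' : R) :
    bott' c (-A) (-A') = s2 (s2 J1) * -(J1 * bott' c A A' * star J1) * star (s2 (s2 J1)) := by
  have h := mapH_defo' (conjH (J1 : M2 R) se_J1u se_J1u') (-sig) (-sig) (bottJ c A A') (s2 c.C)
  rw [se_mapH_conj, se_mapH_conj, conjH_apply, conjH_apply, conjH_apply, conjH_apply,
    se_conj_sig, se_conj_s2, ← se_bottJ_neg c hQ, se_defo'_neg] at h
  exact h.symm

lemma se_lift_idem {k : ℕ} {c : Fin k → Cut R} (hQ : ∀ j, (c j).Q * (c j).Q = (c j).Q) (j : Fin k) :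
    (lift s2 c j).Q * (lift s2 c j).Q = (lift s2 c j).Q := by
  show s2 (c j).Q * s2 (c j).Q = s2 (c j).Q
  rw [← s2_mul, hQ]

lemma se_neg (k : ℕ) : ∀ {R : Type} [Ring R] [StarRing R] [Algebra ℂ R] [StarModule ℂ R]
    {n : Type} [Fintype n] [DecidableEq n] (ρ : R →⋆ₙₐ[ℂ] Matrix n n ℂ) (c : Fin k → Cut R)
    (_ : ∀ j, (c j).Q * (c j).Q = (c j).Q) (A A' : R),
    sigR k ρ c (-A) (-A') = -sigR k ρ c A A' := by
  induction k with
  | zero =>
    intro R _ _ _ _ n _ _ ρ c hQ A A'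
    rw [sigR_zero, sigR_zero, map_neg, sgn_neg]
  | succ k ih =>
    intro R _ _ _ _ n _ _ ρ c hQ A A'
    rw [sigR_succ, sigR_succ, se_bott_neg _ (hQ 0), se_bott'_neg _ (hQ 0),
      sigR_unit k _ _ _ (se_s2u (se_s2u se_J1u)) (se_s2u' (se_s2u' se_J1u'))
        (fun j => ⟨se_s2_comm (se_s2_comm (se_J1_s2 _)), se_s2_comm (se_s2_comm (se_J1_s2 _)),
          se_s2_comm (se_s2_comm (se_J1_s2 _))⟩),
      ih _ _ (se_lift_idem (se_lift_idem (se_lift_idem (c := Fin.tail c) fun j => hQ j.succ))),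
      sigR_unit k _ _ _ se_J1u se_J1u' (fun j => ⟨se_J1_s2 _, se_J1_s2 _, se_J1_s2 _⟩)]

theorem sigR_neg (k : ℕ) (ρ : R →⋆ₙₐ[ℂ] Matrix n n ℂ) (c : Fin k → Cut R)
    (hQ : ∀ j, (c j).Q * (c j).Q = (c j).Q) (A A' : R) :
    sigR k ρ c (-A) (-A') = -sigR k ρ c A A' := by
  exact se_neg k ρ c hQ A A'

lemma se_prod (k : ℕ) (ρ : R →⋆ₙₐ[ℂ] Matrix n n ℂ) (H : S × S →⋆ₐ[ℂ] R)
    (σ1 σ2 : S →⋆ₙₐ[ℂ] Matrix n n ℂ) (h : ∀ a b, ρ (H (a, b)) = σ1 a + σ2 b)
    (h0 : ∀ a b, σ1 a * σ2 b = 0) (c : Fin k → Cut S) (a a' b b' : S) :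
    sigR k ρ (lift (fun a => H (a, a)) c) (H (a, b)) (H (a', b')) =
      sigR k σ1 c a a' + sigR k σ2 c b b' := by
  have h1 := sigR_pre k ρ H (lift (fun a => (a, a)) c) (a, b) (a', b')
  have h2 := sigR_add k (preRep ρ H) (preRep σ1 (StarAlgHom.fst ℂ S S))
    (preRep σ2 (StarAlgHom.snd ℂ S S)) (fun p => h p.1 p.2) (fun p q => h0 p.1 q.2)
    (lift (fun a => (a, a)) c) (a, b) (a', b')
  rw [sigR_pre k σ1, sigR_pre k σ2] at h2
  exact h1.symm.trans h2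

def seDg : R × R →⋆ₐ[ℂ] M2 R where
  toFun p := dg p.1 p.2
  map_one' := one_m2.symm
  map_mul' p q := (dg_mul _ _ _ _).symm
  map_zero' := zero_m2.symm
  map_add' p q := (dg_add _ _ _ _).symm
  commutes' r := s2H.commutes r
  map_star' p := (star_dg _ _).symm

def seInl : R →⋆ₙₐ[ℂ] M2 R where
  toFun a := dg a 0
  map_smul' r a := by simp [dg]
  map_zero' := zero_m2.symm
  map_add' a b := by rw [dg_add, add_zero]
  map_mul' a b := by rw [dg_mul, mul_zero]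
  map_star' a := by rw [star_dg, star_zero]

def seInr : R →⋆ₙₐ[ℂ] M2 R where
  toFun a := dg 0 a
  map_smul' r a := by simp [dg]
  map_zero' := zero_m2.symm
  map_add' a b := by rw [dg_add, add_zero]
  map_mul' a b := by rw [dg_mul, mul_zero]
  map_star' a := by rw [star_dg, star_zero]

theorem sigR_dg (k : ℕ) (ρ : R →⋆ₙₐ[ℂ] Matrix n n ℂ) (c : Fin k → Cut R) (A A' C C' : R) :
    sigR k (matRep (Fin 2) ρ) (lift s2 c) (dg A C) (dg A' C') =
      sigR k ρ c A A' + sigR k ρ c C C' := by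
  have h := se_prod k (matRep (Fin 2) ρ) seDg ((matRep (Fin 2) ρ).comp seInl)
    ((matRep (Fin 2) ρ).comp seInr) (fun a b => by
      show matRep (Fin 2) ρ (dg a b) = matRep (Fin 2) ρ (dg a 0) + matRep (Fin 2) ρ (dg 0 b)
      rw [← map_add, dg_add, add_zero, zero_add]) (fun a b => by
      show matRep (Fin 2) ρ (dg a 0) * matRep (Fin 2) ρ (dg 0 b) = 0
      rw [← map_mul, dg_mul, mul_zero, zero_mul, dg, ← zero_m2, map_zero]) c A A' C C'
  rw [se_inj k ρ ((matRep (Fin 2) ρ).comp seInl) (fun x => ((0 : Fin 2), x))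
      (fun x y h => (Prod.ext_iff.1 h).2) (fun a x y => rfl) ?_,
    se_inj k ρ ((matRep (Fin 2) ρ).comp seInr) (fun x => ((1 : Fin 2), x))
      (fun x y h => (Prod.ext_iff.1 h).2) (fun a x y => rfl) ?_] at h
  · exact h
  · rintro a ⟨i, x⟩ ⟨j, y⟩ hu
    show ρ (dg 0 a i j) x y = 0
    fin_cases i
    · fin_cases j <;> simp [dg]
    · exact absurd rfl (hu x)
  · rintro a ⟨i, x⟩ ⟨j, y⟩ hu
    show ρ (dg a 0 i j) x y = 0
    fin_cases i
    · exact absurd rfl (hu x)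
    · fin_cases j <;> simp [dg]

theorem sigR_offd (k : ℕ) (ρ : R →⋆ₙₐ[ℂ] Matrix n n ℂ) (c : Fin k → Cut R)
    (hQ : ∀ j, (c j).Q * (c j).Q = (c j).Q) (Z Z' : R) :
    sigR k (matRep (Fin 2) ρ) (lift s2 c) (swp * s2 Z) (swp * s2 Z') = 0 := by
  have e : ∀ Y : R, J1 * (swp * s2 Y) * star J1 = -(swp * s2 Y) := fun Y => by
    have : swp * s2 Y = !![0, Y; Y, 0] := by simp [swp, s2]
    rw [this, se_J1_conj, neg_m2, neg_zero]
  have h1 := sigR_unit k (matRep (Fin 2) ρ) (lift s2 c) J1 se_J1u se_J1u'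
    (fun j => ⟨se_J1_s2 _, se_J1_s2 _, se_J1_s2 _⟩) (swp * s2 Z) (swp * s2 Z')
  rw [e, e, sigR_neg k _ _ (se_lift_idem hQ)] at h1
  omega

theorem sigR_swp (k : ℕ) (ρ : R →⋆ₙₐ[ℂ] Matrix n n ℂ) (c : Fin k → Cut R)
    (hQ : ∀ j, (c j).Q * (c j).Q = (c j).Q) :
    sigR k (matRep (Fin 2) ρ) (lift s2 c) swp swp = 0 := by
  have := sigR_offd k ρ c hQ 1 1
  rwa [s2_one, mul_one] at this

def seFlip : M2 (M2 R) →⋆ₐ[ℂ] M2 (M2 R) where
  toFun X := Matrix.of fun i j => Matrix.of fun a b => X a b i j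
  map_one' := by
    ext i j a b
    simp only [Matrix.of_apply, Matrix.one_apply]
    by_cases h1 : i = j <;> by_cases h2 : a = b <;> simp [h1, h2, Matrix.one_apply]
  map_mul' X Y := by
    ext i j a b
    simp only [Matrix.of_apply, Matrix.mul_apply, Matrix.sum_apply]
    exact Finset.sum_comm
  map_zero' := rfl
  map_add' X Y := rfl
  commutes' r := by
    ext i j a b
    simp only [Matrix.of_apply, Matrix.algebraMap_matrix_apply]
    by_cases h1 : i = j <;> by_cases h2 : a = b <;> simp [h1, h2, Matrix.algebraMap_matrix_apply]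
  map_star' X := rfl

lemma seFlip_dg (M N : M2 R) : seFlip (dg M N) = blk M N := by
  ext i j a b
  show dg M N a b i j = dg (M i j) (N i j) a b
  fin_cases a <;> fin_cases b <;> simp [dg]

lemma seFlip_s2 (a : R) : seFlip (s2 (s2 a)) = s2 (s2 a) := by
  ext i j x y
  show s2 (s2 a) x y i j = s2 (s2 a) i j x y
  fin_cases i <;> fin_cases j <;> fin_cases x <;> fin_cases y <;> simp [s2]

theorem sigR_blk (k : ℕ) (ρ : R →⋆ₙₐ[ℂ] Matrix n n ℂ) (c : Fin k → Cut R) (M M' N N' : M2 R) :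
    sigR k (matRep (Fin 2) (matRep (Fin 2) ρ)) (lift s2 (lift s2 c)) (blk M N) (blk M' N') =
      sigR k (matRep (Fin 2) ρ) (lift s2 c) M M' + sigR k (matRep (Fin 2) ρ) (lift s2 c) N N' := by
  have hl : lift seFlip (lift s2 (lift s2 c)) = lift s2 (lift s2 c) := by
    funext j; simp only [lift, Cut.map, seFlip_s2]
  have h := sigR_pre k (matRep (Fin 2) (matRep (Fin 2) ρ)) seFlip (lift s2 (lift s2 c))
    (dg M N) (dg M' N')
  rw [hl, seFlip_dg, seFlip_dg] at h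
  rw [← h, ← sigR_dg]
  refine se_bij k _ _ (fun p : Fin 2 × Fin 2 × n => (p.2.1, p.1, p.2.2)) ?_
    (fun _ _ _ => rfl) _ _ _
  exact Function.Involutive.bijective fun p => rfl

theorem sigR_cmp2 (k j : ℕ) (ρ : R →⋆ₙₐ[ℂ] Matrix n n ℂ) (c : Fin k → Cut R)
    (M M' : M2 (M2 (Matrix (B j) (B j) R))) :
    sigR k (matRep (B (j + 1)) ρ) (lift (sc (B (j + 1))) c) (cmp2 M) (cmp2 M') =
      sigR k (matRep (Fin 2) (matRep (Fin 2) (matRep (B j) ρ)))
        (lift s2 (lift s2 (lift (sc (B j)) c))) M M' := by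
  have hl : lift (cmp2H j) (lift s2 (lift s2 (lift (sc (B j)) c))) = lift (sc (B (j + 1))) c := by
    funext i; simp only [lift, Cut.map, cmp2H_apply, cmp2_s2_s2_sc]
  have h := sigR_pre k (matRep (B (j + 1)) ρ) (cmp2H j) (lift s2 (lift s2 (lift (sc (B j)) c))) M M'
  rw [hl, cmp2H_apply, cmp2H_apply] at h
  rw [← h]
  refine (se_bij k _ _ (fun p : B (j + 1) × n => ((p.1 0).1, (p.1 0).2, Fin.tail p.1, p.2)) ?_
    (fun _ _ _ => rfl) _ _ _).symm
  constructor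
  · rintro ⟨b, x⟩ ⟨b', x'⟩ hb
    simp only [Prod.mk.injEq] at hb
    obtain ⟨h1, h2, h3, h4⟩ := hb
    rw [← Fin.cons_self_tail b, ← Fin.cons_self_tail b', h3, Prod.ext h1 h2, h4]
  · rintro ⟨i1, i2, b, x⟩
    exact ⟨(Fin.cons (i1, i2) b, x), rfl⟩

def seSplit (e : R) (f : S →⋆ₐ[ℂ] R) (he : IsProj e)
    (hc : ∀ a, Commute e (f a)) (hc' : ∀ a, Commute (1 - e) (f a)) : S × S →⋆ₐ[ℂ] R where
  toFun p := cutHom e f he hc p.1 + cutHom (1 - e) f he.one_sub hc' p.2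
  map_one' := by simp
  map_mul' p q := by
    have h1 : ∀ a b, e * f a * ((1 - e) * f b) = 0 := fun a b => by
      rw [(hc a).eq, mul_assoc, ← mul_assoc e, mul_sub, mul_one, he.2, sub_self, zero_mul, mul_zero]
    have h2 : ∀ a b, (1 - e) * f a * (e * f b) = 0 := fun a b => by
      rw [(hc' a).eq, mul_assoc, ← mul_assoc (1 - e), sub_mul, one_mul, he.2, sub_self, zero_mul,
        mul_zero]
    rw [add_mul, mul_add, mul_add, ← map_mul, ← map_mul]
    simp only [cutHom_apply, h1, h2, add_zero, zero_add, Prod.fst_mul, Prod.snd_mul]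
  map_zero' := by simp
  map_add' p q := by
    rw [Prod.fst_add, Prod.snd_add, map_add, map_add]; abel
  commutes' r := by
    show e * f (algebraMap ℂ S r) + (1 - e) * f (algebraMap ℂ S r) = _
    rw [← add_mul, add_sub_cancel, one_mul]; exact f.commutes r
  map_star' p := by
    rw [star_add, ← map_star, ← map_star]; rfl

theorem sigR_split (k : ℕ) (ρ : R →⋆ₙₐ[ℂ] Matrix n n ℂ) (e : R) (f : S →⋆ₐ[ℂ] R) (he : IsProj e)
    (hc : ∀ a, Commute e (f a)) (hc' : ∀ a, Commute (1 - e) (f a)) (c : Fin k → Cut S)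
    (a a' b b' : S) :
    sigR k ρ (lift f c) (e * f a + (1 - e) * f b) (e * f a' + (1 - e) * f b') =
      sigR k (ρ.comp (cutHom e f he hc)) c a a' +
        sigR k (ρ.comp (cutHom (1 - e) f he.one_sub hc')) c b b' := by
  have h := se_prod k ρ (seSplit e f he hc hc') (ρ.comp (cutHom e f he hc))
    (ρ.comp (cutHom (1 - e) f he.one_sub hc')) (fun a b => map_add ρ _ _) (fun a b => by
      show ρ (e * f a) * ρ ((1 - e) * f b) = 0
      rw [← map_mul, (hc a).eq, mul_assoc, ← mul_assoc e, mul_sub, mul_one, he.2, sub_self,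
        zero_mul, mul_zero, map_zero]) c a a' b b'
  have e1 : (fun a => seSplit e f he hc hc' (a, a)) = f := by
    funext x
    show e * f x + (1 - e) * f x = f x
    rw [← add_mul, add_sub_cancel, one_mul]
  rw [e1] at h
  exact h

theorem matRep_preRep (I : Type) [Fintype I] [DecidableEq I] (ρ : R →⋆ₙₐ[ℂ] Matrix n n ℂ)
    (f : S →⋆ₐ[ℂ] R) : matRep I (preRep ρ f) = preRep (matRep I ρ) (mapH I f) := by
  exact se_mp I ρ f

theorem matRep_cutHom_s2 (ρ : R →⋆ₙₐ[ℂ] Matrix n n ℂ) (e : R) (f : S →⋆ₐ[ℂ] R) (he : IsProj e)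
    (hc : ∀ a, Commute e (f a)) (he' : IsProj (s2 e))
    (hc' : ∀ a, Commute (s2 e) (mapH (Fin 2) f a)) :
    (matRep (Fin 2) ρ).comp (cutHom (s2 e) (mapH (Fin 2) f) he' hc') =
      matRep (Fin 2) (ρ.comp (cutHom e f he hc)) := by
  ext M ⟨i, x⟩ ⟨j, y⟩
  show ρ ((s2 e * mapH (Fin 2) f M) i j) x y = ρ (e * f (M i j)) x y
  have : (s2 e * mapH (Fin 2) f M) i j = e * f (M i j) := by
    fin_cases i <;> simp [s2, Matrix.mul_apply, Fin.sum_univ_two]
  rw [this]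

theorem matRep_cutHom_sc (I : Type) [Fintype I] [DecidableEq I]
    (ρ : R →⋆ₙₐ[ℂ] Matrix n n ℂ) (e : R) (f : S →⋆ₐ[ℂ] R) (he : IsProj e)
    (hc : ∀ a, Commute e (f a)) (he' : IsProj (sc I e))
    (hc' : ∀ a, Commute (sc I e) (mapH I f a)) :
    (matRep I ρ).comp (cutHom (sc I e) (mapH I f) he' hc') =
      matRep I (ρ.comp (cutHom e f he hc)) := by
  ext M ⟨i, x⟩ ⟨j, y⟩
  show ρ ((sc I e * mapH I f M) i j) x y = ρ (e * f (M i j)) x y
  rw [sc, Matrix.diagonal_mul, mapH_apply]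

theorem commute_s2_mapH (e : R) (f : S →⋆ₐ[ℂ] R) (hc : ∀ a, Commute e (f a)) (M : M2 S) :
    Commute (s2 e) (mapH (Fin 2) f M) := by
  show s2 e * mapH (Fin 2) f M = mapH (Fin 2) f M * s2 e
  ext i j
  fin_cases i <;> fin_cases j <;> simp [s2, Matrix.mul_apply, Fin.sum_univ_two, (hc _).eq]

theorem commute_sc_mapH (I : Type) [Fintype I] [DecidableEq I] (e : R) (f : S →⋆ₐ[ℂ] R)
    (hc : ∀ a, Commute e (f a)) (M : Matrix I I S) : Commute (sc I e) (mapH I f M) := by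
  show sc I e * mapH I f M = mapH I f M * sc I e
  ext i j
  rw [sc, Matrix.diagonal_mul, Matrix.mul_diagonal, mapH_apply, (hc _).eq]

end Vale.Agent.P228
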