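import Vale.Agent.P228.Homotopy
import Vale.Agent.P228.SigExact

set_option linter.unusedSectionVars false
noncomputable section
open Matrix Filter Topology
namespace Vale.Agent.P228

namespace Lab
variable {Λ X : Type} {U : Ultrafilter Λ} {n : Λ → Type} [∀ l, Fintype (n l)]
  [∀ l, DecidableEq (n l)] [∀ l, Nonempty (n l)] (L : Lab U n X) {k : ℕ}

theorem dia_mul (g g' : ∀ l, n l → ℂ) : L.dia g * L.dia g' = L.dia fun l a => g l a * g' l a := by
  refine Subtype.ext (funext fun l => ?_)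
  exact Matrix.diagonal_mul_diagonal _ _

theorem dia_star (g : ∀ l, n l → ℂ) : star (L.dia g) = L.dia fun l a => star (g l a) := by
  refine Subtype.ext (funext fun l => ?_)
  exact Matrix.diagonal_conjTranspose _

theorem dia_one : (L.dia fun _ _ => 1) = 1 := by
  refine Subtype.ext (funext fun l => ?_)
  exact Matrix.diagonal_one

theorem dia_zero : (L.dia fun _ _ => 0) = 0 := by
  refine Subtype.ext (funext fun l => ?_)
  exact Matrix.diagonal_zero

theorem dia_commute (g g' : ∀ l, n l → ℂ) : Commute (L.dia g) (L.dia g') := by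
  show _ = _
  rw [dia_mul, dia_mul]
  simp only [mul_comm]

lemma cn_ind_pos {p : Prop} (h : p) : ind p = 1 := by simp [ind, h]

lemma cn_ind_neg {p : Prop} (h : ¬p) : ind p = 0 := by simp [ind, h]

theorem dia_ind_proj (q : ∀ l, n l → Prop) : IsProj (L.dia fun l a => ind (q l a)) := by
  constructor
  · rw [dia_star]
    refine congrArg L.dia (funext fun l => funext fun a => ?_)
    by_cases h : q l a
    · rw [cn_ind_pos h, star_one]
    · rw [cn_ind_neg h, star_zero]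
  · rw [dia_mul]
    refine congrArg L.dia (funext fun l => funext fun a => ?_)
    by_cases h : q l a
    · rw [cn_ind_pos h, mul_one]
    · rw [cn_ind_neg h, mul_zero]

theorem π_dia_eq {x : X} {g g' : ∀ l, n l → ℂ}
    (h : ∀ θ, L.lab θ = x → ∀ᶠ l in (U : Filter Λ), g l (θ l) = g' l (θ l)) :
    L.ctx.π x (L.dia g) = L.ctx.π x (L.dia g') := by
  refine (L.ctx_π_eq x _ _).2 fun u v hv => (h v hv).mono fun l hl => ?_
  show Matrix.diagonal (g l) (u l) (v l) = Matrix.diagonal (g' l) (u l) (v l)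
  by_cases h1 : u l = v l
  · rw [h1, Matrix.diagonal_apply_eq, Matrix.diagonal_apply_eq, hl]
  · rw [Matrix.diagonal_apply_ne _ h1, Matrix.diagonal_apply_ne _ h1]

/-- vanishing of columns gives vanishing in the local matrix ring -/
theorem mat_π_eq_zero {x : X} (Y : Matrix (B k) (B k) L.ctrl)
    (h : ∀ θ, L.lab θ = x → ∀ᶠ l in (U : Filter Λ), ColZero (mapH (B k) (L.ev l) Y) (θ l)) :
    (L.ctx.mat (B k)).π x Y = 0 := by
  refine Matrix.ext fun b b' => ?_
  show L.ctx.π x (Y b b') = 0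
  rw [← map_zero (L.ctx.π x)]
  exact (L.ctx_π_eq x _ _).2 fun u v hv => (h v hv).mono fun l hl => hl b b' (u l)

theorem colZero_of_π (Y : Matrix (B k) (B k) L.ctrl) (θ : ∀ l, n l)
    (h : (L.ctx.mat (B k)).π (L.lab θ) Y = 0) :
    ∀ᶠ l in (U : Filter Λ), ColZero (mapH (B k) (L.ev l) Y) (θ l) := by
  have h1 : ∀ p : B k × B k, ∀ᶠ l in (U : Filter Λ), ∀ u, (Y p.1 p.2).1 l u (θ l) = 0 := fun p => by
    have h2 : L.ctx.π (L.lab θ) (Y p.1 p.2) = L.ctx.π (L.lab θ) 0 := by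
      rw [map_zero]; exact congrFun (congrFun h p.1) p.2
    exact thread U fun u => (L.ctx_π_eq _ _ _).1 h2 u θ rfl
  filter_upwards [Filter.eventually_all.2 h1] with l hl b b' u
  exact hl (b, b') u

lemma cn_one {x : X} {q : ∀ l, n l → Prop}
    (h : ∀ θ, L.lab θ = x → ∀ᶠ l in (U : Filter Λ), q l (θ l)) :
    L.ctx.π x (L.dia fun l a => ind (q l a)) = 1 := by
  rw [← map_one (L.ctx.π x), ← L.dia_one]
  exact L.π_dia_eq fun θ hθ => (h θ hθ).mono fun l hl => cn_ind_pos hl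

lemma cn_zero {x : X} {q : ∀ l, n l → Prop}
    (h : ∀ θ, L.lab θ = x → ∀ᶠ l in (U : Filter Λ), ¬q l (θ l)) :
    L.ctx.π x (L.dia fun l a => ind (q l a)) = 0 := by
  rw [← map_zero (L.ctx.π x), ← L.dia_zero]
  exact L.π_dia_eq fun θ hθ => (h θ hθ).mono fun l hl => cn_ind_neg hl

lemma cn_tend {g : ∀ l, n l → E k} {pt : X → E k} (hg : L.Pt g pt) {x : X} {θ : ∀ l, n l}
    (hθ : L.lab θ = x) (i : Ix k) :
    Tendsto (fun l => g l (θ l) i) (U : Filter Λ) (𝓝 (pt x i)) :=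
  hθ ▸ tendsto_pi_nhds.1 (hg θ) i

lemma cn_half_one {g : ∀ l, n l → E k} {pt : X → E k} (hg : L.Pt g pt) {x : X} {i : Ix k} {s : ℝ}
    (h : pt x i < s) : L.ctx.π x (L.dia fun l a => ind (g l a i ≤ s)) = 1 :=
  L.cn_one fun _ hθ => ((L.cn_tend hg hθ i).eventually_lt_const h).mono fun _ hl => hl.le

lemma cn_half_zero {g : ∀ l, n l → E k} {pt : X → E k} (hg : L.Pt g pt) {x : X} {i : Ix k} {s : ℝ}
    (h : s < pt x i) : L.ctx.π x (L.dia fun l a => ind (g l a i ≤ s)) = 0 :=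
  L.cn_zero fun _ hθ => ((L.cn_tend hg hθ i).eventually_const_lt h).mono fun _ hl => not_le.2 hl

lemma cn_box_one {g : ∀ l, n l → E k} {pt : X → E k} (hg : L.Pt g pt) {x : X} {j : Fin k}
    {t : E k} {r : ℝ} (h1 : |pt x (j, false) - t (j, false)| < r)
    (h2 : |pt x (j, true) - t (j, true)| < r) : L.ctx.π x (L.cuts g t r j).C = 1 :=
  L.cn_one fun _ hθ => by
    filter_upwards [((L.cn_tend hg hθ _).sub_const _).abs.eventually_lt_const h1,
      ((L.cn_tend hg hθ _).sub_const _).abs.eventually_lt_const h2] with l a1 a2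
    exact ⟨a1.le, a2.le⟩

lemma cn_box_ne {g : ∀ l, n l → E k} {pt : X → E k} (hg : L.Pt g pt) {x : X} {i : Ix k}
    {t : E k} {r : ℝ} (h : L.ctx.π x (L.cuts g t r i.1).C ≠ 0) : |pt x i - t i| ≤ r := by
  by_contra h1
  refine h (L.cn_zero fun _ hθ => ?_)
  filter_upwards [((L.cn_tend hg hθ _).sub_const _).abs.eventually_const_lt (not_le.1 h1)]
    with l a1 a2
  obtain ⟨j, s⟩ := i
  cases s
  · exact absurd a2.1 (not_le.2 a1)
  · exact absurd a2.2 (not_le.2 a1)

lemma cn_herm (g : ∀ l, n l → E k) (t : E k) (r : ℝ) (j : Fin k) : (L.cuts g t r j).Herm :=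
  ⟨(L.dia_ind_proj _).1, (L.dia_ind_proj _).1, (L.dia_ind_proj _).1⟩

theorem cuts_adm {g : ∀ l, n l → E k} {pt : X → E k} (hg : L.Pt g pt) (t : E k) {r : ℝ}
    (hr : 0 < r) : L.ctx.Adm (L.cuts g t r) := by
  refine ⟨⟨L.cn_herm g t r, fun x j => ?_⟩, fun j => (L.dia_ind_proj _).2⟩
  rcases lt_trichotomy (pt x (j, false)) (t (j, false)) with h1 | h1 | h1
  · exact Or.inr (Or.inr (Or.inr (Or.inl (L.cn_half_one hg h1))))
  · rcases lt_trichotomy (pt x (j, true)) (t (j, true)) with h2 | h2 | h2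
    · exact Or.inr (Or.inr (Or.inr (Or.inr (Or.inr (L.cn_half_one hg h2)))))
    · exact Or.inr (Or.inl (L.cn_box_one hg (by simpa [h1] using hr) (by simpa [h2] using hr)))
    · exact Or.inr (Or.inr (Or.inr (Or.inr (Or.inl (L.cn_half_zero hg h2)))))
  · exact Or.inr (Or.inr (Or.inl (L.cn_half_zero hg h1)))

theorem cuts_live {g : ∀ l, n l → E k} {pt : X → E k} (hg : L.Pt g pt) {t : E k} {r : ℝ}
    (hr : 0 ≤ r) {x : X} (hx : L.ctx.Live (L.cuts g t r) x) : pt x ∈ Metric.closedBall t r := by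
  exact (dist_pi_le_iff hr).2 fun i => L.cn_box_ne hg (hx i.1)

section Sh
variable {N : Type} [Fintype N] [DecidableEq N] {v : N → Lat k}

lemma cn_sh1 (hv : Function.Injective v) (i : Ix k) {a : N}
    (h : v a + Pi.single i 1 ∈ Set.range v) (u : N) :
    (star (shiftM v i) * shiftM v i) u a = (1 : Matrix N N ℂ) u a := by
  obtain ⟨m, hm⟩ := h
  rw [Matrix.mul_apply, Finset.sum_eq_single m]
  · simp [shiftM, Matrix.star_apply, hm, hv.eq_iff, Matrix.one_apply, eq_comm]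
  · intro m' _ h'
    simp [shiftM, ← hm, hv.eq_iff, h']
  · simp

lemma cn_sh2 (hv : Function.Injective v) (i : Ix k) {a : N}
    (h : v a - Pi.single i 1 ∈ Set.range v) (u : N) :
    (shiftM v i * star (shiftM v i)) u a = (1 : Matrix N N ℂ) u a := by
  obtain ⟨m, hm⟩ := h
  have hm' : v m + Pi.single i 1 = v a := by rw [hm, sub_add_cancel]
  rw [Matrix.mul_apply, Finset.sum_eq_single m]
  · simp [shiftM, Matrix.star_apply, hm', hv.eq_iff, Matrix.one_apply]
  · intro m' _ h'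
    simp [shiftM, Matrix.star_apply, ← hm', hv.eq_iff, h'.symm]
  · simp

lemma cn_sh3 (hv : Function.Injective v) (i i' : Ix k) {a : N}
    (h : v a + Pi.single i' 1 ∈ Set.range v) (u : N) :
    (shiftM v i * shiftM v i') u a =
      if v u = v a + Pi.single i' 1 + Pi.single i 1 then 1 else 0 := by
  obtain ⟨m, hm⟩ := h
  rw [Matrix.mul_apply, Finset.sum_eq_single m]
  · simp [shiftM, hm]
  · intro m' _ h'
    simp [shiftM, ← hm, hv.eq_iff, h']
  · simp

lemma cn_near1 (w : Lat k) (i s : Ix k) : |(w + Pi.single i 1 : Lat k) s - w s| ≤ 2 := by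
  rw [Pi.add_apply, add_sub_cancel_left, Pi.single_apply]
  split_ifs <;> simp

lemma cn_near2 (w : Lat k) (i s : Ix k) : |(w - Pi.single i 1 : Lat k) s - w s| ≤ 2 := by
  rw [Pi.sub_apply, sub_sub_cancel_left, Pi.single_apply]
  split_ifs <;> simp

end Sh

/-- compressed shifts are commuting unitaries at interior labels -/
theorem shift_cu (v : ∀ l, n l → Lat k) (hv : ∀ l, Function.Injective (v l)) (z : Ix k → L.ctrl)
    (hz : ∀ i l, (z i).1 l = shiftM (v l) i) {x : X}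
    (hx : ∀ θ, L.lab θ = x → ∀ᶠ l in (U : Filter Λ), ∀ w : Lat k,
      (∀ i, |w i - v l (θ l) i| ≤ 2) → w ∈ Set.range (v l)) :
    CU fun i => L.ctx.π x (z i) := by
  refine ⟨fun i => ⟨?_, ?_⟩, fun i i' => ?_⟩
  · rw [← map_star, ← map_mul, ← map_one (L.ctx.π x)]
    refine (L.ctx_π_eq x _ _).2 fun u w hw => (hx w hw).mono fun l hl => ?_
    show (star ((z i).1 l) * (z i).1 l) (u l) (w l) = (1 : Matrix (n l) (n l) ℂ) (u l) (w l)
    rw [hz]
    exact cn_sh1 (hv l) i (hl _ (cn_near1 _ i)) _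
  · rw [← map_star, ← map_mul, ← map_one (L.ctx.π x)]
    refine (L.ctx_π_eq x _ _).2 fun u w hw => (hx w hw).mono fun l hl => ?_
    show ((z i).1 l * star ((z i).1 l)) (u l) (w l) = (1 : Matrix (n l) (n l) ℂ) (u l) (w l)
    rw [hz]
    exact cn_sh2 (hv l) i (hl _ (cn_near2 _ i)) _
  · show _ = _
    rw [← map_mul, ← map_mul]
    refine (L.ctx_π_eq x _ _).2 fun u w hw => (hx w hw).mono fun l hl => ?_
    show ((z i).1 l * (z i').1 l) (u l) (w l) = ((z i').1 l * (z i).1 l) (u l) (w l)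
    rw [hz, hz, cn_sh3 (hv l) i i' (hl _ (cn_near1 _ i')), cn_sh3 (hv l) i' i (hl _ (cn_near1 _ i)),
      add_right_comm]

/-- intertwining of diagonal elements with a shift -/
theorem dia_shift (v : ∀ l, n l → Lat k) (z : L.ctrl) (i : Ix k)
    (hz : ∀ l, z.1 l = shiftM (v l) i) (g g' : ∀ l, n l → ℂ) {x : X}
    (hx : ∀ θ θ' : ∀ l, n l, L.lab θ = x →
      (∀ᶠ l in (U : Filter Λ), v l (θ' l) = v l (θ l) + Pi.single i 1) →
      ∀ᶠ l in (U : Filter Λ), g' l (θ' l) = g l (θ l)) :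
    L.ctx.π x z * L.ctx.π x (L.dia g) = L.ctx.π x (L.dia g') * L.ctx.π x z := by
  rw [← map_mul, ← map_mul]
  refine (L.ctx_π_eq x _ _).2 fun u w hw => ?_
  have e : ∀ l, ((z * L.dia g).1 l (u l) (w l) = (L.dia g' * z).1 l (u l) (w l)) ↔
      shiftM (v l) i (u l) (w l) * g l (w l) = g' l (u l) * shiftM (v l) i (u l) (w l) := fun l => by
    show (z.1 l * Matrix.diagonal (g l)) (u l) (w l) = (Matrix.diagonal (g' l) * z.1 l) (u l) (w l) ↔ _
    rw [Matrix.mul_diagonal, Matrix.diagonal_mul, hz]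
  simp only [e]
  by_cases h : ∀ᶠ l in (U : Filter Λ), v l (u l) = v l (w l) + Pi.single i 1
  · filter_upwards [hx w u hw h] with l hl
    rw [hl, mul_comm]
  · filter_upwards [Ultrafilter.eventually_not.2 h] with l hl
    simp [shiftM, hl]

/-- a diagonal element which is locally constant along shifts commutes with the shifts -/
theorem dia_commute_shift (v : ∀ l, n l → Lat k) (z : L.ctrl) (i : Ix k)
    (hz : ∀ l, z.1 l = shiftM (v l) i) (g : ∀ l, n l → ℂ) {x : X}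
    (hx : ∀ θ θ' : ∀ l, n l, L.lab θ = x →
      (∀ᶠ l in (U : Filter Λ), v l (θ' l) = v l (θ l) + Pi.single i 1) →
      ∀ᶠ l in (U : Filter Λ), g l (θ' l) = g l (θ l)) :
    Commute (L.ctx.π x z) (L.ctx.π x (L.dia g)) := by
  exact L.dia_shift v z i hz g g hx

theorem s_eq_rawSig (v : ∀ l, n l → Lat k) (z : Ix k → L.ctrl)
    (hz : ∀ i l, (z i).1 l = shiftM (v l) i) (g : ∀ l, n l → E k)
    (e K M : Matrix (B k) (B k) L.ctrl) (l : Λ) :
    (L.ctx.mat (B k)).m2.s k (lift s2 (lift (sc (B k)) (L.cuts g 0 (1 / 2))))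
      (Bf (dM k z) (φM k z) (ψM k z) e K M) (Bf' (dM k z) (φM k z) (ψM k z) e K M) l =
    rawSig (v l) (g l) (mapH (B k) (L.ev l) e) (mapH (B k) (L.ev l) K) (mapH (B k) (L.ev l) M) := by
  show sigR k (matRep (Fin 2) (matRep (B k) (preRep (idRep (n l)) (L.ev l)))) _ _ _ = _
  have e1 : (fun i => L.ev l (z i)) = shiftM (v l) := funext fun i => hz i l
  rw [matRep_preRep, matRep_preRep, sigR_pre, mapH_Bf, mapH_Bf', mapH_dM, mapH_φM, mapH_ψM,
    lift_s2_lift, lift_sc_lift, lift_ev_cuts, e1, rawSig]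

section Move
variable {A : Type} [Ring A] [StarRing A] [Algebra ℂ A] [StarModule ℂ A]
  {R : X → Type} [∀ x, Ring (R x)] [∀ x, StarRing (R x)] [∀ x, Algebra ℂ (R x)]
  [∀ x, StarModule ℂ (R x)]
  {m : Λ → Type} [∀ l, Fintype (m l)] [∀ l, DecidableEq (m l)]
  (Γ : Ctx (U : Filter Λ) A R m) (ι : L.ctrl →⋆ₐ[ℂ] A)

lemma cn_coord {t o : E k} {r ρ y : ℝ} (hr : 0 ≤ r) (h : Metric.closedBall t r ⊆ Metric.ball o ρ)
    {i : Ix k} (hy : |y - t i| ≤ r) : dist y (o i) < ρ := by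
  have h1 : Function.update t i y ∈ Metric.closedBall t r := by
    refine (dist_pi_le_iff hr).2 fun s => ?_
    by_cases hs : s = i
    · subst hs; rwa [Function.update_self]
    · rwa [Function.update_of_ne hs, dist_self]
  have h2 := dist_le_pi_dist (Function.update t i y) o i
  rw [Function.update_self] at h2
  exact h2.trans_lt (h h1)

/-- segment of cuts -/
def cnSeg {T : Type} [Ring T] [Algebra ℂ T] [StarRing T] [StarModule ℂ T] (τ : ℝ)
    (c c' : Fin k → Cut T) : Fin k → Cut T := fun j =>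
  ⟨cvx τ (c j).P (c' j).P, cvx τ (c j).Q (c' j).Q, cvx τ (c j).C (c' j).C⟩

theorem move (hι : Γ.Over L.ctx ι) {g g' : ∀ l, n l → E k} {pt : X → E k} (hg : L.Pt g pt)
    (hg' : L.Pt g' pt) {t t' o : E k} {r r' ρ : ℝ} (h1 : dist t t' < r) (h2 : dist t t' < r')
    (h3 : Metric.closedBall t r ⊆ Metric.ball o ρ) (h4 : Metric.closedBall t' r' ⊆ Metric.ball o ρ)
    {a a' : A} (ha : ∀ x, pt x ∈ Metric.ball o ρ → Val (Γ.π x a) (Γ.π x a')) :
    Γ.s k (lift ι (L.cuts g t r)) a a' =ᶠ[(U : Filter Λ)] Γ.s k (lift ι (L.cuts g' t' r')) a a' := by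
  have hr : 0 < r := dist_nonneg.trans_lt h1
  have hr' : 0 < r' := dist_nonneg.trans_lt h2
  have hρ : 0 < ρ := Metric.nonempty_ball.1 ⟨t, h3 (Metric.mem_closedBall_self hr.le)⟩
  have half : ∀ (τ : ℝ) (x : X) (i : Ix k), pt x i ∉ Set.uIcc (t i) (t' i) →
      L.ctx.π x (cvx τ (L.dia fun l a => ind (g l a i ≤ t i))
        (L.dia fun l a => ind (g' l a i ≤ t' i))) = 0 ∨
      L.ctx.π x (cvx τ (L.dia fun l a => ind (g l a i ≤ t i))
        (L.dia fun l a => ind (g' l a i ≤ t' i))) = 1 := fun τ x i hi => by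
    rw [map_cvx]
    rw [Set.mem_uIcc] at hi
    rcases lt_or_ge (pt x i) (t i) with a1 | a1
    · have a2 : pt x i < t' i := by
        by_contra a2
        exact hi (Or.inr ⟨not_lt.1 a2, a1.le⟩)
      rw [L.cn_half_one hg a1, L.cn_half_one hg' a2, cvx_self]
      exact Or.inr rfl
    · have a2 : t' i < pt x i := by
        by_contra a2
        exact hi (Or.inl ⟨a1, not_lt.1 a2⟩)
      have a3 : t i < pt x i := by
        by_contra a3
        exact hi (Or.inr ⟨a2.le, not_lt.1 a3⟩)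
      rw [L.cn_half_zero hg a3, L.cn_half_zero hg' a2, cvx_self]
      exact Or.inl rfl
  have cl : ∀ (x : X) (i : Ix k), pt x i ∈ Set.uIcc (t i) (t' i) →
      |pt x i - t i| < r ∧ |pt x i - t' i| < r' := fun x i hi => by
    have a0 : |t' i - t i| ≤ dist t t' := by
      rw [abs_sub_comm]; exact dist_le_pi_dist t t' i
    have a1 := Set.abs_sub_left_of_mem_uIcc hi
    have a2 := Set.abs_sub_right_of_mem_uIcc hi
    rw [abs_sub_comm] at a2
    constructor <;> linarith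
  have adm : ∀ τ, L.ctx.AdmW (cnSeg τ (L.cuts g t r) (L.cuts g' t' r')) := fun τ => by
    refine ⟨fun j => ?_, fun x j => ?_⟩
    · obtain ⟨a1, a2, a3⟩ := L.cn_herm g t r j
      obtain ⟨b1, b2, b3⟩ := L.cn_herm g' t' r' j
      refine ⟨?_, ?_, ?_⟩ <;> simp only [cnSeg, star_cvx, a1, a2, a3, b1, b2, b3]
    · by_cases a1 : pt x (j, false) ∈ Set.uIcc (t (j, false)) (t' (j, false))
      · by_cases a2 : pt x (j, true) ∈ Set.uIcc (t (j, true)) (t' (j, true))
        · refine Or.inr (Or.inl ?_)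
          show L.ctx.π x (cvx τ _ _) = 1
          rw [map_cvx, L.cn_box_one hg (cl x _ a1).1 (cl x _ a2).1,
            L.cn_box_one hg' (cl x _ a1).2 (cl x _ a2).2, cvx_self]
        · exact Or.inr (Or.inr (Or.inr (Or.inr (half τ x _ a2))))
      · rcases half τ x _ a1 with a3 | a3
        · exact Or.inr (Or.inr (Or.inl a3))
        · exact Or.inr (Or.inr (Or.inr (Or.inl a3)))
  have e0 : cnSeg 0 (L.cuts g t r) (L.cuts g' t' r') = L.cuts g t r := by
    funext j; simp only [cnSeg, cvx_zero]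
  have e1 : cnSeg 1 (L.cuts g t r) (L.cuts g' t' r') = L.cuts g' t' r' := by
    funext j; simp only [cnSeg, cvx_one]
  have := Γ.homotopy k (fun τ => lift ι (cnSeg τ (L.cuts g t r) (L.cuts g' t' r'))) (fun _ => a)
    (fun _ => a') (fun j => ⟨(isFam_cvx _ _).hom ι, (isFam_cvx _ _).hom ι, (isFam_cvx _ _).hom ι⟩)
    (IsFam.const a) (IsFam.const a') (fun τ _ => hι.admW (adm τ)) fun τ _ x hx => by
      refine ha x ((dist_pi_lt_iff hρ).2 fun i => ?_)
      have a1 : L.ctx.π x (cvx τ (L.cuts g t r i.1).C (L.cuts g' t' r' i.1).C) ≠ 0 :=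
        hι.live hx i.1
      rw [map_cvx] at a1
      by_cases a2 : L.ctx.π x (L.cuts g t r i.1).C = 0
      · refine cn_coord hr'.le h4 (L.cn_box_ne hg' fun a3 => a1 ?_)
        rw [a2, a3, cvx_self]
      · exact cn_coord hr.le h3 (L.cn_box_ne hg a2)
  rwa [e0, e1] at this

theorem chain (hι : Γ.Over L.ctx ι) {g : ∀ l, n l → E k} {pt : X → E k} (hg : L.Pt g pt)
    {t o : E k} {r ρ : ℝ} (hr : 0 < r) (h3 : Metric.closedBall t r ⊆ Metric.ball o ρ)
    (h4 : Metric.closedBall 0 1 ⊆ Metric.ball o ρ)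
    {a a' : A} (ha : ∀ x, pt x ∈ Metric.ball o ρ → Val (Γ.π x a) (Γ.π x a')) :
    Γ.s k (lift ι (L.cuts g t r)) a a' =ᶠ[(U : Filter Λ)]
      Γ.s k (lift ι (L.cuts g 0 (1 / 2))) a a' := by
  obtain ⟨r₀, h0, h1, h2⟩ : ∃ r₀ : ℝ, 0 < r₀ ∧ r₀ ≤ r ∧ r₀ ≤ 1 :=
    ⟨min r 1, lt_min hr one_pos, min_le_left _ _, min_le_right _ _⟩
  have hb : ∀ s : ℝ, 0 ≤ s → s ≤ 1 → Metric.closedBall (s • t) r₀ ⊆ Metric.ball o ρ := by
    intro s s0 s1 y hy
    rw [mem_closedBall_iff_norm] at hy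
    have a1 : t + (y - s • t) ∈ Metric.ball o ρ :=
      h3 (by rw [mem_closedBall_iff_norm, add_sub_cancel_left]; exact hy.trans h1)
    have a2 : y - s • t ∈ Metric.ball o ρ :=
      h4 (by rw [mem_closedBall_iff_norm, sub_zero]; exact hy.trans h2)
    have a3 := convex_ball o ρ a1 a2 s0 (sub_nonneg.2 s1) (add_sub_cancel s 1)
    have e : s • (t + (y - s • t)) + (1 - s) • (y - s • t) = y := by module
    rwa [e] at a3
  obtain ⟨N, hN⟩ := exists_nat_gt (‖t‖ / r₀)
  have hN0 : (0 : ℝ) < N := (div_nonneg (norm_nonneg _) h0.le).trans_lt hN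
  have hN1 : ‖t‖ / N < r₀ := by
    rw [div_lt_iff₀ h0] at hN
    rw [div_lt_iff₀ hN0]; linarith
  have hs : ∀ m : ℕ, m ≤ N → Metric.closedBall ((1 - (m : ℝ) / N) • t) r₀ ⊆ Metric.ball o ρ :=
    fun m hm => hb _ (by
      rw [sub_nonneg, div_le_one hN0]; exact_mod_cast hm) (sub_le_self _ (by positivity))
  have key : ∀ m : ℕ, m ≤ N → Γ.s k (lift ι (L.cuts g t r)) a a' =ᶠ[(U : Filter Λ)]
      Γ.s k (lift ι (L.cuts g ((1 - (m : ℝ) / N) • t) r₀)) a a' := by
    intro m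
    induction m with
    | zero =>
      intro hm
      refine L.move Γ ι hι hg hg ?_ ?_ h3 (hs 0 hm) ha
      · simpa using hr
      · simpa using h0
    | succ m ih =>
      intro hm
      have hd : dist ((1 - (m : ℝ) / N) • t) ((1 - ((m + 1 : ℕ) : ℝ) / N) • t) < r₀ := by
        have e : (1 - (m : ℝ) / N) - (1 - ((m + 1 : ℕ) : ℝ) / N) = 1 / N := by
          push_cast; ring
        rw [dist_eq_norm, ← sub_smul, e, norm_smul, Real.norm_of_nonneg (by positivity), one_div,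
          inv_mul_eq_div]
        exact hN1
      exact (ih (by omega)).trans (L.move Γ ι hι hg hg hd hd (hs m (by omega)) (hs _ hm) ha)
  refine (key N le_rfl).trans (L.move Γ ι hι hg hg ?_ ?_ (hs N le_rfl)
    ((Metric.closedBall_subset_closedBall (by norm_num)).trans h4) ha)
  · simpa [div_self hN0.ne'] using h0
  · simp [div_self hN0.ne']

end Move
end Lab

end Vale.Agent.P228
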