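import Vale.Agent.P228.Coarse0
import Vale.Agent.P228.Conc
import Vale.Agent.P228.Base

set_option linter.unusedSectionVars false
noncomputable section
open Matrix Filter Topology
namespace Vale.Agent.P228

lemma c1_ind_pos {p : Prop} (h : p) : ind p = 1 := by simp [ind, h]

lemma c1_ind_neg {p : Prop} (h : ¬p) : ind p = 0 := by simp [ind, h]

lemma c1_ind_congr {p q : Prop} (h : p ↔ q) : ind p = ind q := by rw [propext h]

lemma c1_ind_mul (p q : Prop) : ind p * ind q = ind (p ∧ q) := by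
  by_cases hp : p <;> by_cases hq : q <;> simp [ind, hp, hq]

lemma c1_ind_sub (a n : ℤ) : ind (a ≤ n) - ind (a ≤ n - 1) = ind (a = n) := by
  rcases lt_trichotomy a n with h | h | h
  · rw [c1_ind_pos h.le, c1_ind_pos (by omega), c1_ind_neg h.ne, sub_self]
  · rw [c1_ind_pos h.le, c1_ind_neg (by omega), c1_ind_pos h, sub_zero]
  · rw [c1_ind_neg (by omega), c1_ind_neg (by omega), c1_ind_neg h.ne', sub_self]

lemma c1_clamp_eq {k : ℕ} {y : E k} (h : ‖clamp y‖ < 1) : clamp y = y := by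
  funext i
  have := abs_lt.1 ((norm_le_pi_norm (clamp y) i).trans_lt h)
  simp only [clamp] at this ⊢
  rcases le_total (y i) 2 with h1 | h1
  · rw [min_eq_right h1] at this ⊢
    rcases le_total (-2) (y i) with h2 | h2
    · exact max_eq_right h2
    · rw [max_eq_left h2] at this; linarith [this.1]
  · rw [min_eq_left h1, max_eq_right (by norm_num)] at this; linarith [this.2]

namespace Lab
variable {Λ X : Type} {U : Ultrafilter Λ} {n : Λ → Type} [∀ l, Fintype (n l)]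
  [∀ l, DecidableEq (n l)] [∀ l, Nonempty (n l)] (L : Lab U n X)

lemma c1_dia_sub (g g' : ∀ l, n l → ℂ) : L.dia g - L.dia g' = L.dia fun l a => g l a - g' l a :=
  Subtype.ext (funext fun l => Matrix.diagonal_sub (g l) (g' l))

lemma c1_ρ_dia (g : ∀ l, n l → ℂ) (l : Λ) (a : n l) : L.ctx.ρ l (L.dia g) a a = g l a :=
  Matrix.diagonal_apply_eq _ a

lemma c1_dia_prod : ∀ (m : ℕ) (g : Fin m → ∀ l, n l → ℂ),
    (List.ofFn fun j => L.dia (g j)).prod = L.dia fun l a => ∏ j, g j l a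
  | 0, g => by simp [L.dia_one]
  | m + 1, g => by
    rw [List.ofFn_succ, List.prod_cons, c1_dia_prod m fun j => g j.succ, L.dia_mul]
    simp only [Fin.prod_univ_succ]

end Lab

namespace DSeq
variable {k : ℕ} (D : DSeq k)

theorem pt_g2 : D.Lb.Pt D.g2 id := fun θ => by
  refine (D.lim_tendsto θ).congr_dist (squeeze_zero (fun _ => dist_nonneg) (fun j => ?_) eta_tendsto)
  unfold g2
  split_ifs with h
  · conv_lhs => rw [← clamp_of_le (h.trans one_le_two)]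
    exact (dist_clamp_le _ _).trans ((D j).hF _ (.inl h))
  · rw [dist_self]; exact (eta_pos j).le

/-- near the origin the lattice positions converge to the label -/
theorem pos_tendsto (θ : ∀ j, D.n j) (h : ‖D.lim θ‖ < 1) :
    Tendsto (fun j => pos (D j).η ((D j).v (θ j))) (UU : Filter ℕ) (𝓝 (D.lim θ)) ∧
      Tendsto (fun j => (D j).F (θ j)) (UU : Filter ℕ) (𝓝 (D.lim θ)) := by
  have h1 : ∀ᶠ j in (UU : Filter ℕ), ‖D.g1 j (θ j)‖ < 1 :=
    (D.lim_tendsto θ).norm.eventually_lt_const h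
  have h2 : Tendsto (fun j => (D j).F (θ j)) (UU : Filter ℕ) (𝓝 (D.lim θ)) :=
    (D.lim_tendsto θ).congr' (h1.mono fun j hj => c1_clamp_eq hj)
  refine ⟨h2.congr_dist (squeeze_zero' (.of_forall fun _ => dist_nonneg) ?_ eta_tendsto), h2⟩
  filter_upwards [h2.norm.eventually_lt_const h] with j hj
  exact (D j).hF _ (.inr hj.le)

lemma c1_near (θ : ∀ j, D.n j) (h : ‖D.lim θ‖ < 1) : ∀ᶠ j in (UU : Filter ℕ), ∀ w : Lat k,
    (∀ i, |w i - (D j).v (θ j) i| ≤ 2) → ‖pos (D j).η w‖ ≤ 1 := by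
  have h1 := (D.pos_tendsto θ h).1.norm.add (eta_tendsto.const_mul 2)
  rw [mul_zero, add_zero] at h1
  filter_upwards [h1.eventually_lt_const h] with j hj w hw
  refine (pi_norm_le_iff_of_nonneg zero_le_one).2 fun i => ?_
  have e1 : ‖pos (D j).η ((D j).v (θ j)) i‖ ≤ _ := norm_le_pi_norm _ i
  have e2 : |(w i : ℝ) - (D j).v (θ j) i| ≤ 2 := by exact_mod_cast hw i
  have e3 : pos (D j).η w i = pos (D j).η ((D j).v (θ j)) i +
      (D j).η * ((w i : ℝ) - (D j).v (θ j) i) := by simp only [pos]; ring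
  have e4 : ‖(D j).η * ((w i : ℝ) - (D j).v (θ j) i)‖ ≤ 2 * eta j := by
    rw [Real.norm_eq_abs, abs_mul, abs_of_pos (D j).ηpos, mul_comm]
    exact mul_le_mul e2 (D j).ηle (D j).ηpos.le zero_le_two
  rw [e3]
  linarith [norm_add_le (pos (D j).η ((D j).v (θ j)) i) ((D j).η * ((w i : ℝ) - (D j).v (θ j) i))]

theorem z_cu {x : E k} (hx : ‖x‖ < 1) : CU fun i => D.Lb.ctx.π x (D.z i) := by
  refine D.Lb.shift_cu (fun j => (D j).v) (fun j => (D j).inj) D.z (fun _ _ => rfl) fun θ hθ => ?_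
  filter_upwards [D.c1_near θ (by rwa [show D.lim θ = x from hθ])] with j hj w hw
  exact (D j).surj w (hj w hw)

lemma c1_g2 {x : E k} (hx : ‖x‖ < 1) (θ : ∀ j, D.n j) (hθ : D.Lb.lab θ = x) :
    ∀ᶠ j in (UU : Filter ℕ), D.g2 j (θ j) = pos (D j).η ((D j).v (θ j)) := by
  filter_upwards [D.c1_near θ (by rwa [show D.lim θ = x from hθ])] with j hj
  exact if_pos (hj _ fun i => by simp)

/-- diagonal indicator of a lattice condition -/
def dv (p : ℕ → Lat k → Prop) : D.Lb.ctrl := D.Lb.dia fun j a => ind (p j ((D j).v a))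

lemma dv_shift (x : E k) (i : Ix k) {p p' : ℕ → Lat k → Prop}
    (h : ∀ j w, p' j (w + Pi.single i 1) ↔ p j w) :
    D.Lb.ctx.π x (D.z i) * D.Lb.ctx.π x (D.dv p) =
      D.Lb.ctx.π x (D.dv p') * D.Lb.ctx.π x (D.z i) :=
  D.Lb.dia_shift (fun j => (D j).v) (D.z i) i (fun _ => rfl) _ _ fun _ _ _ h' =>
    h'.mono fun j hj => c1_ind_congr (by rw [hj]; exact h j _)

lemma dv_mul (p p' : ℕ → Lat k → Prop) : D.dv p * D.dv p' = D.dv fun j w => p j w ∧ p' j w := by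
  simp only [dv, D.Lb.dia_mul, c1_ind_mul]

lemma dv_sub (i : Ix k) (m : ℤ) :
    (D.dv fun _ w => w i ≤ m) - (D.dv fun _ w => w i ≤ m - 1) = D.dv fun _ w => w i = m := by
  simp only [dv, D.Lb.c1_dia_sub, c1_ind_sub]

lemma dv_step (x : E k) (i : Ix k) (m : ℤ) :
    D.Lb.ctx.π x (D.z i) * D.Lb.ctx.π x (D.dv fun _ w => w i ≤ m - 1) =
      D.Lb.ctx.π x (D.dv fun _ w => w i ≤ m) * D.Lb.ctx.π x (D.z i) :=
  D.dv_shift x i fun j w => by simp only [Pi.add_apply, Pi.single_eq_same]; omega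

lemma dv_kill (x : E k) (i : Ix k) :
    D.Lb.ctx.π x (D.dv fun _ w => w i ≤ 0) * D.Lb.ctx.π x (D.z i) *
      (1 - D.Lb.ctx.π x (D.dv fun _ w => w i ≤ 0)) = 0 := by
  have h := D.dv_step x i 1
  rw [sub_self] at h
  rw [mul_sub, mul_one, mul_assoc, h, ← mul_assoc, ← map_mul _ (D.dv _) (D.dv _), dv_mul, sub_eq_zero]
  congr 3
  funext j w
  exact propext ⟨fun h => ⟨h, by omega⟩, fun h => h.1⟩

lemma c1_half {x : E k} (hx : ‖x‖ < 1) (i : Ix k) :
    D.Lb.ctx.π x (D.Lb.dia fun j a => ind (D.g2 j a i ≤ (0 : E k) i)) =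
      D.Lb.ctx.π x (D.dv fun _ w => w i ≤ 0) :=
  D.Lb.π_dia_eq fun θ hθ => (D.c1_g2 hx θ hθ).mono fun j hj => c1_ind_congr (by
    rw [hj, pos, Pi.zero_apply]
    exact ⟨fun h => Int.cast_nonpos.1 (nonpos_of_mul_nonpos_right h (D j).ηpos),
      fun h => mul_nonpos_of_nonneg_of_nonpos (D j).ηpos.le (Int.cast_nonpos.2 h)⟩)

/-- the point projections -/
def ept (j : Fin k) : D.Lb.ctrl := D.Lb.dia fun l a =>
  ind ((|D.g2 l a (j, false) - (0 : E k) (j, false)| ≤ 1 / 2 ∧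
    |D.g2 l a (j, true) - (0 : E k) (j, true)| ≤ 1 / 2) ∧
    (D l).v a (j, true) = 0 ∧ (D l).v a (j, false) = 1)

lemma c1_eta : ∀ᶠ l in (UU : Filter ℕ), (D l).η ≤ 1 / 2 :=
  (eta_tendsto.eventually_lt_const (by norm_num : (0 : ℝ) < 1 / 2)).mono fun l hl =>
    (D l).ηle.trans hl.le

lemma c1_box {l : ℕ} (h : (D l).η ≤ 1 / 2) {a : D.n l} (ha : D.g2 l a = pos (D l).η ((D l).v a))
    {j : Fin k} (h1 : (D l).v a (j, true) = 0) (h2 : (D l).v a (j, false) = 1) :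
    |D.g2 l a (j, false) - (0 : E k) (j, false)| ≤ 1 / 2 ∧
      |D.g2 l a (j, true) - (0 : E k) (j, true)| ≤ 1 / 2 := by
  simp only [ha, pos, h1, h2, Pi.zero_apply, sub_zero, Int.cast_one, Int.cast_zero, mul_one,
    mul_zero, abs_zero, abs_of_pos (D l).ηpos]
  exact ⟨h, by norm_num⟩

lemma c1_cutRel : CutRel (D.Lb.cuts D.g2 0 (1 / 2)) D.ept where
  pP _ := D.Lb.dia_ind_proj _
  pQ _ := D.Lb.dia_ind_proj _
  pC _ := D.Lb.dia_ind_proj _
  pe _ := D.Lb.dia_ind_proj _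
  PQ _ := D.Lb.dia_commute _ _
  Ce j := (D.Lb.dia_mul _ _).trans (by simp only [c1_ind_mul, ept, and_self_left])
  eP _ _ := D.Lb.dia_commute _ _
  eQ _ _ := D.Lb.dia_commute _ _
  eC _ _ := D.Lb.dia_commute _ _
  ee _ _ := D.Lb.dia_commute _ _

lemma c1_locRel {x : E k} (hx : ‖x‖ < 1) :
    LocRel (lift (D.Lb.ctx.π x) (D.Lb.cuts D.g2 0 (1 / 2))) (fun i => D.Lb.ctx.π x (D.z i))
      fun j => D.Lb.ctx.π x (D.ept j) := by
  have cu := D.z_cu hx
  have hP : ∀ j, (lift (D.Lb.ctx.π x) (D.Lb.cuts D.g2 0 (1 / 2)) j).P =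
      D.Lb.ctx.π x (D.dv fun _ w => w (j, false) ≤ 0) := fun j => D.c1_half hx _
  have hQ : ∀ j, (lift (D.Lb.ctx.π x) (D.Lb.cuts D.g2 0 (1 / 2)) j).Q =
      D.Lb.ctx.π x (D.dv fun _ w => w (j, true) ≤ 0) := fun j => D.c1_half hx _
  have hC : ∀ j, (lift (D.Lb.ctx.π x) (D.Lb.cuts D.g2 0 (1 / 2)) j).C =
      D.Lb.ctx.π x (D.dv fun l w => |pos (D l).η w (j, false) - (0 : E k) (j, false)| ≤ 1 / 2 ∧
        |pos (D l).η w (j, true) - (0 : E k) (j, true)| ≤ 1 / 2) := fun j =>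
    D.Lb.π_dia_eq fun θ hθ => (D.c1_g2 hx θ hθ).mono fun l hl => by rw [hl]
  refine ⟨cu, fun j i hi => ?_, fun j i hi => ?_, fun j i hi => ?_, fun j => ?_, fun j => ?_,
    fun j => ?_⟩
  · rw [hP]
    exact D.dv_shift x i fun l w => by rw [Pi.add_apply, Pi.single_eq_of_ne hi.symm, add_zero]
  · rw [hQ]
    exact D.dv_shift x i fun l w => by rw [Pi.add_apply, Pi.single_eq_of_ne hi.symm, add_zero]
  · rw [hC]
    have : ∀ b, (j, b) ≠ i := fun b e => hi (congrArg Prod.fst e).symm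
    exact D.dv_shift x i fun l w => by
      simp only [pos, Pi.add_apply, Pi.single_eq_of_ne (this _), add_zero]
  · rw [hP]; exact D.dv_kill x _
  · rw [hQ]; exact D.dv_kill x _
  · have h1 := D.dv_step x (j, false) 1
    have h2 := D.dv_step x (j, true) 0
    have h3 := D.dv_sub (j, false) 1
    rw [sub_self] at h1 h3
    rw [hP, hQ, h1, mul_assoc (star _), ← h2, ← mul_assoc (star _), (cu.1 _).1, one_mul,
      mul_assoc _ _ (star _), (cu.1 _).2, mul_one, ← map_sub, ← map_sub, ← map_mul, dv_sub, h3,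
      dv_mul]
    exact D.Lb.π_dia_eq fun θ hθ => ((D.c1_g2 hx θ hθ).and D.c1_eta).mono fun l hl =>
      c1_ind_congr ⟨fun h => h.2, fun h => ⟨D.c1_box hl.2 hl.1 h.1 h.2, h⟩⟩

theorem std_ne_zero : ∀ᶠ j in (UU : Filter ℕ),
    D.Γ.s k (lift (sc (B k)) (D.Lb.cuts D.g2 0 (1 / 2))) (φM k D.z) (ψM k D.z) j ≠ 0 := by
  refine Ctx.base k D.Lb.ctx (D.Lb.cuts_adm D.pt_g2 0 (by norm_num)) D.z D.ept D.c1_cutRel
    (fun x hx => D.c1_locRel ?_) (D.c1_eta.mono fun l hl h => ?_)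
  · have := D.Lb.cuts_live D.pt_g2 (by norm_num) hx
    rw [mem_closedBall_zero_iff] at this
    exact this.trans_lt (by norm_num)
  · have h0 : ‖pos (D l).η (fun i : Ix k => if i.2 then 0 else 1)‖ ≤ 1 := by
      refine (pi_norm_le_iff_of_nonneg zero_le_one).2 fun i => ?_
      have := (D l).ηpos
      simp only [pos]
      split_ifs
      · simp
      · rw [Int.cast_one, mul_one, Real.norm_of_nonneg this.le]; linarith
    obtain ⟨a, ha⟩ := (D l).surj _ h0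
    have hg : D.g2 l a = pos (D l).η ((D l).v a) := if_pos (by rwa [ha])
    have e : (List.ofFn D.ept).prod = _ := D.Lb.c1_dia_prod k fun j l a =>
      ind ((|D.g2 l a (j, false) - (0 : E k) (j, false)| ≤ 1 / 2 ∧
      |D.g2 l a (j, true) - (0 : E k) (j, true)| ≤ 1 / 2) ∧
      (D l).v a (j, true) = 0 ∧ (D l).v a (j, false) = 1)
    rw [e] at h
    have h1 := (D.Lb.c1_ρ_dia _ l a).symm.trans (congrFun (congrFun h a) a)
    rw [Finset.prod_eq_one fun j _ => ?_] at h1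
    · exact one_ne_zero h1
    · have k1 : (D l).v a (j, true) = 0 := by rw [ha]; rfl
      have k2 : (D l).v a (j, false) = 1 := by rw [ha]; rfl
      exact c1_ind_pos ⟨D.c1_box hl hg k1 k2, k1, k2⟩

end DSeq

end Vale.Agent.P228
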