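import Vale.Agent.P228.Lem

set_option linter.unusedSectionVars false
noncomputable section
open Matrix Filter Topology
namespace Vale.Agent.P228

section Alg
variable {R S : Type} [Ring R] [StarRing R] [Algebra ℂ R] [StarModule ℂ R]
  [Ring S] [StarRing S] [Algebra ℂ S] [StarModule ℂ S]

lemma pd_val_aux {σ D G : R} (h1 : σ * σ = 1) (h2 : star σ = σ) (hD : D * D = 0)
    (hDs : σ * star D * σ = D) (hG : D * G + G * D = 1) (hGs : σ * star G * σ = G) :
    Val (σ * (D + G * D * G)) ((D + G * D * G) * σ) := by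
  have e1 : D * G * D = D := by
    linear_combination (norm := noncomm_ring) hG * D - G * hD
  have e2 : D * (G * G) = G * G * D := by
    linear_combination (norm := noncomm_ring) hG * G - G * hG
  have e3 : D * (G * G) * D = 0 := by
    rw [e2, mul_assoc, hD, mul_zero]
  have hU : (D + G * D * G) * (D + G * D * G) = 1 := by
    linear_combination (norm := noncomm_ring) hD + e1 * G + G * e1 + G * e3 * G + hG
  have hS : σ * star (D + G * D * G) * σ = D + G * D * G := by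
    have : σ * (star G * (star D * star G)) * σ =
        (σ * star G * σ) * (σ * star D * σ) * (σ * star G * σ) := by
      linear_combination (norm := noncomm_ring)
        -(σ * star G * h1 * star D * σ * σ * star G * σ) - σ * star G * star D * h1 * star G * σ
    rw [star_add, star_mul, star_mul, mul_add, add_mul, hDs, this, hGs, hDs]
  generalize D + G * D * G = U at hU hS
  refine ⟨?_, ?_, ?_, ?_⟩
  · rw [star_mul, h2]
    linear_combination (norm := noncomm_ring) σ * hS - h1 * star U * σ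
  · rw [star_mul, h2]
    linear_combination (norm := noncomm_ring) hS * σ - σ * star U * h1
  · linear_combination (norm := noncomm_ring) σ * hU * σ + h1
  · linear_combination (norm := noncomm_ring) U * h1 * U + hU

lemma swp_mul_swp : (swp : M2 R) * swp = 1 := val_swp.2.2.1

lemma star_swp : star (swp : M2 R) = swp := val_swp.1

lemma pdD_sq {d φ : R} (h1 : d * d = 0) (h3 : φ * d + star d * φ = 0) :
    pdD d φ * pdD d φ = 0 := by
  have h4 : star d * star d = 0 := by rw [← star_mul, h1, star_zero]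
  rw [pdD, Matrix.mul_fin_two, zero_m2]
  apply m2_ext <;> simp [h1, h3, h4]

lemma swp_conj (a b c d : R) : (swp : M2 R) * !![a, b; c, d] * swp = !![d, c; b, a] := by
  rw [swp, Matrix.mul_fin_two, Matrix.mul_fin_two]
  apply m2_ext <;> simp

lemma pdD_sym {d φ : R} (h2 : star φ = φ) : swp * star (pdD d φ) * swp = pdD d φ := by
  rw [pdD, star_m2, swp_conj]
  apply m2_ext <;> simp [h2]

theorem pd_val {d φ : R} {G : M2 R} (h : PDok d φ G) : Val (pdB d φ G) (pdB' d φ G) := by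
  obtain ⟨h1, h2, h3, h4, h5⟩ := h
  exact pd_val_aux swp_mul_swp star_swp (pdD_sq h1 h3) (pdD_sym h2) h4 h5

lemma sym_aux {σ D G : R} (h1 : σ * σ = 1) (h2 : star σ = σ)
    (hDs : σ * star D * σ = D) (hG : D * G + G * D = 1) :
    D * ((1 / 2 : ℂ) • (G + σ * star G * σ)) + ((1 / 2 : ℂ) • (G + σ * star G * σ)) * D = 1 ∧
      σ * star ((1 / 2 : ℂ) • (G + σ * star G * σ)) * σ = (1 / 2 : ℂ) • (G + σ * star G * σ) := by
  constructor
  · have hs : star G * star D + star D * star G = 1 := by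
      rw [← star_mul, ← star_mul, ← star_add, hG, star_one]
    have e1 : D * (σ * star G * σ) + (σ * star G * σ) * D = 1 := by
      linear_combination (norm := noncomm_ring) -(hDs * σ * star G * σ) - σ * star G * σ * hDs +
        σ * star D * h1 * star G * σ + σ * star G * h1 * star D * σ + σ * hs * σ + h1
    have e2 : D * (G + σ * star G * σ) + (G + σ * star G * σ) * D = 1 + 1 := by
      linear_combination (norm := noncomm_ring) hG + e1
    rw [mul_smul_comm, smul_mul_assoc, ← smul_add, e2, ← two_smul ℂ, smul_smul]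
    norm_num
  · have e0 : star (1 / 2 : ℂ) = 1 / 2 := by simp
    have e1 : σ * star (G + σ * star G * σ) * σ = G + σ * star G * σ := by
      rw [star_add, star_mul, star_mul, star_star, h2]
      linear_combination (norm := noncomm_ring) h1 * G * σ * σ + G * h1
    rw [star_smul, e0, mul_smul_comm, smul_mul_assoc, e1]

lemma th_mul_th_neg (y : R) : th y * th (-y) = 1 := by
  rw [th_add, add_neg_cancel, th_zero]

lemma th_neg_mul_th (y : R) : th (-y) * th y = 1 := by
  rw [th_add, neg_add_cancel, th_zero]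

lemma gam_ok {d φ ψ k l : R} (h1 : d * d = 0) (h2 : star φ = φ) (h3 : φ * d + star d * φ = 0)
    (h4 : d * k + k * d = 1 - ψ * φ) (h5 : d * ψ + ψ * star d = 0)
    (h6 : φ * ψ + star d * l + l * star d = 1) : PDok d φ (gam φ ψ k l) := by
  have hD := pdD_sq h1 h3
  have e1 : pdD d φ * !![k, ψ; 0, l] + !![k, ψ; 0, l] * pdD d φ = th (φ * k + l * φ) := by
    rw [pdD, Matrix.mul_fin_two, Matrix.mul_fin_two, add_m2, th]
    apply m2_ext
    · linear_combination (norm := noncomm_ring) h4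
    · linear_combination (norm := noncomm_ring) h5
    · noncomm_ring
    · linear_combination (norm := noncomm_ring) h6
  have e2 := th_mul_th_neg (φ * k + l * φ)
  have e3 := th_neg_mul_th (φ * k + l * φ)
  have e4 : pdD d φ * gam1 φ ψ k l + gam1 φ ψ k l * pdD d φ = 1 := by
    rw [gam1]
    generalize th (-(φ * k + l * φ)) = T' at e2 e3 ⊢
    generalize th (φ * k + l * φ) = T at e1 e2 e3
    generalize (!![k, ψ; 0, l] : M2 R) = G0 at e1 ⊢
    generalize pdD d φ = D at hD e1 ⊢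
    have c1 : D * T = T * D := by
      rw [← e1]
      linear_combination (norm := noncomm_ring) hD * G0 - G0 * hD
    have c2 : D * T' = T' * D := by
      linear_combination (norm := noncomm_ring) -(T' * c1 * T') - e3 * D * T' + T' * D * e2
    linear_combination (norm := noncomm_ring) c2 * G0 + T' * e1 + e3
  obtain ⟨f1, f2⟩ := sym_aux swp_mul_swp star_swp (pdD_sym (d := d) h2) e4
  exact ⟨h1, h2, h3, f1, f2⟩

lemma Strict.dψ {d φ ψ : R} (hs : Strict d φ ψ) : d * ψ + ψ * star d = 0 := by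
  obtain ⟨_, ⟨_, _, h3, h4⟩, h5⟩ := hs
  linear_combination (norm := noncomm_ring) ψ * h5 * ψ - h4 * d * ψ - ψ * star d * h3

lemma star_uφ {φ : R} (e : R) (h : star φ = φ) : star (uφ φ e) = uφ φ e := by
  have e0 : star (1 / 2 : ℂ) = 1 / 2 := by simp
  rw [uφ, star_smul, e0, star_add, star_mul, star_mul, star_star, h, add_comm]

lemma uu_eq (e : R) : uu e = e + e - 1 := by rw [uu, two_smul]

lemma half_add_self (a : R) : (1 / 2 : ℂ) • (a + a) = a := by
  rw [← two_smul ℂ, smul_smul]; norm_num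

lemma four_smul' (a : R) : (4 : ℂ) • a = a + a + a + a := by
  have : (4 : ℂ) = 1 + 1 + 1 + 1 := by norm_num
  rw [this, add_smul, add_smul, add_smul, one_smul]

theorem idem_ok {d φ ψ e K L : R} (hs : Strict d φ ψ) (hi : Idem d φ ψ e K L) :
    PDok d (uφ φ e) (uG φ ψ e K L) := by
  have h5 := hs.dψ
  obtain ⟨h1, ⟨h2, _, h3, h4⟩, h6⟩ := hs
  obtain ⟨i1, i2, i3⟩ := hi
  have eφ : uφ φ e = φ * (uu e + (d * L + L * d)) := by
    rw [uφ, ← half_add_self (φ * (uu e + (d * L + L * d)))]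
    congr 1
    rw [uu_eq, star_sub, star_add, star_one]
    linear_combination (norm := noncomm_ring) φ * i3 + φ * i3 - h3 * star e * φ - h3 * star e * φ
  have du : d * uu e = uu e * d := by
    rw [uu_eq]
    linear_combination (norm := noncomm_ring) i1 + i1
  have uu2 : uu e * uu e = 1 + (d * ((4 : ℂ) • K) + ((4 : ℂ) • K) * d) := by
    rw [uu_eq, four_smul']
    linear_combination (norm := noncomm_ring) i2 + i2 + i2 + i2
  have hst := star_uφ e h2
  rw [uG]
  rw [eφ] at hst ⊢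
  generalize uu e = u at *
  generalize (4 : ℂ) • K = K4 at *
  refine gam_ok h1 hst ?_ ?_ ?_ ?_
  · linear_combination (norm := noncomm_ring) h6 * (u + (d * L + L * d)) - φ * du +
      φ * L * h1 - φ * h1 * L
  · linear_combination (norm := noncomm_ring) u * h4 * (u + (d * L + L * d)) + uu2 - du * L
  · linear_combination (norm := noncomm_ring) u * h5 + du * ψ
  · linear_combination (norm := noncomm_ring) h6 * (K4 + L * u) * ψ + φ * (K4 + L * u) * h5 +
      φ * uu2 * ψ + h3 + φ * L * du * ψ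

theorem Bf_val {d φ ψ e K L : R} (hs : Strict d φ ψ) (hi : Idem d φ ψ e K L) :
    Val (Bf d φ ψ e K L) (Bf' d φ ψ e K L) := pd_val (idem_ok hs hi)

/-- the standard contraction for strict data -/
def pdG0 (ψ : R) : M2 R := !![0, ψ; 0, 0]

@[simp] lemma mapH_pdG0 (f : R →⋆ₐ[ℂ] S) (ψ : R) : mapH (Fin 2) f (pdG0 ψ) = pdG0 (f ψ) := by
  simp [pdG0]

lemma Strict.ok0 {d φ ψ : R} (hs : Strict d φ ψ) : PDok d φ (pdG0 ψ) := by
  have h5 := hs.dψ
  obtain ⟨h1, ⟨h2, h2', h3, h4⟩, h6⟩ := hs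
  refine ⟨h1, h2, h6, ?_, ?_⟩
  · rw [pdD, pdG0, Matrix.mul_fin_two, Matrix.mul_fin_two, add_m2, one_m2]
    apply m2_ext <;> simp [h3, h4, h5]
  · rw [pdG0, star_m2, swp_conj]
    apply m2_ext <;> simp [h2']

lemma Strict.smul {d φ ψ : R} (hs : Strict d φ ψ) (t : ℝ) : Strict ((t : ℂ) • d) φ ψ := by
  obtain ⟨h1, h2, h6⟩ := hs
  refine ⟨?_, h2, ?_⟩
  · rw [smul_mul_assoc, mul_smul_comm, h1, smul_zero, smul_zero]
  · rw [star_smul, Complex.star_def, Complex.conj_ofReal, mul_smul_comm, smul_mul_assoc,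
      ← smul_add, h6, smul_zero]

lemma Strict.neg {d φ ψ : R} (hs : Strict d φ ψ) : Strict d (-φ) (-ψ) := by
  obtain ⟨h1, h2, h6⟩ := hs
  refine ⟨h1, h2.neg, ?_⟩
  linear_combination (norm := noncomm_ring) -h6

lemma PDok.cvx {d φ : R} {G G' : M2 R} (h : PDok d φ G) (h' : PDok d φ G') (t : ℝ) :
    PDok d φ (cvx t G G') := by
  obtain ⟨h1, h2, h3, h4, h5⟩ := h
  obtain ⟨_, _, _, h4', h5'⟩ := h'
  refine ⟨h1, h2, h3, ?_, ?_⟩
  · have : pdD d φ * P228.cvx t G G' + P228.cvx t G G' * pdD d φ =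
        P228.cvx t (pdD d φ * G + G * pdD d φ) (pdD d φ * G' + G' * pdD d φ) := by
      simp only [P228.cvx, mul_add, add_mul, mul_smul_comm, smul_mul_assoc, smul_add]
      abel
    rw [this, h4, h4', cvx_self]
  · have : swp * star (P228.cvx t G G') * swp =
        P228.cvx t (swp * star G * swp) (swp * star G' * swp) := by
      rw [star_cvx]
      simp only [P228.cvx, mul_add, add_mul, mul_smul_comm, smul_mul_assoc]
    rw [this, h5, h5']

lemma pdD_conj (d φ m : R) : pdD d (φ + m * d - star d * m) = th m * pdD d φ * th (-m) := by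
  rw [pdD, pdD, th, th, Matrix.mul_fin_two, Matrix.mul_fin_two]
  apply m2_ext <;> noncomm_ring

lemma swp_mul_th (m : R) : swp * th m = sh m * swp := by
  rw [swp, th, sh, Matrix.mul_fin_two, Matrix.mul_fin_two]
  apply m2_ext <;> simp

lemma th_mul_swp (m : R) : th m * swp = swp * sh m := by
  rw [swp, th, sh, Matrix.mul_fin_two, Matrix.mul_fin_two]
  apply m2_ext <;> simp

lemma PDok.conj {d φ φ' m : R} {G : M2 R} (h : PDok d φ G) (hm : star m = -m)
    (hφ : φ' = φ + m * d - star d * m) : PDok d φ' (th m * G * th (-m)) := by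
  obtain ⟨h1, h2, h3, h4, h5⟩ := h
  have h1' : star d * star d = 0 := by rw [← star_mul, h1, star_zero]
  subst hφ
  refine ⟨h1, ?_, ?_, ?_, ?_⟩
  · rw [star_sub, star_add, star_mul, star_mul, star_star, h2, hm]
    noncomm_ring
  · linear_combination (norm := noncomm_ring) h3 + m * h1 - h1' * m
  · rw [pdD_conj]
    have e2 := th_mul_th_neg m
    have e3 := th_neg_mul_th m
    linear_combination (norm := noncomm_ring) th m * pdD d φ * e3 * G * th (-m) +
      th m * G * e3 * pdD d φ * th (-m) + th m * h4 * th (-m) + e2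
  · rw [star_mul, star_mul, star_th', star_th', star_neg, hm, neg_neg]
    have e1 := th_mul_swp m
    have e2 := swp_mul_th (-m)
    have e3 := swp_mul_swp (R := R)
    linear_combination (norm := noncomm_ring) th m * h5 * th (-m) -
      e1 * star G * sh (-m) * swp - th m * swp * star G * e2

lemma pdB_conj {d φ φ' m : R} (G : M2 R) (hm : star m = -m)
    (hφ : φ' = φ + m * d - star d * m) :
    pdB d φ' (th m * G * th (-m)) = sh m * pdB d φ G * star (sh m) := by
  subst hφ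
  rw [pdB, pdB, pdD_conj, star_sh', hm]
  have e1 := swp_mul_th m
  have e3 := th_neg_mul_th m
  linear_combination (norm := noncomm_ring) e1 * (pdD d φ + G * pdD d φ * G) * th (-m) +
    swp * th m * G * e3 * pdD d φ * th (-m) * th m * G * th (-m) +
    swp * th m * G * pdD d φ * e3 * G * th (-m)

lemma pdB_zero {φ ψ : R} (h : Val φ ψ) : pdB 0 φ (pdG0 ψ) = dg φ ψ := by
  rw [pdB, pdD, pdG0, Matrix.mul_fin_two, Matrix.mul_fin_two, add_m2, swp, Matrix.mul_fin_two, dg]
  apply m2_ext <;> simp [h.2.2.2]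

lemma isFam_pdB {d φ : ℝ → R} {G : ℝ → M2 R} (hd : IsFam d) (hφ : IsFam φ) (hG : IsFam G) :
    (IsFam fun t => pdB (d t) (φ t) (G t)) ∧ IsFam fun t => pdB' (d t) (φ t) (G t) := by
  have hD : IsFam fun t => pdD (d t) (φ t) := IsFam.m2 hd (IsFam.const 0) hφ hd.star
  have hU := hD.add ((hG.mul hD).mul hG)
  exact ⟨(IsFam.const swp).mul hU, hU.mul (IsFam.const swp)⟩

end Alg

namespace Ctx
variable {X Λ : Type} {F : Filter Λ}
  {A : Type} [Ring A] [StarRing A] [Algebra ℂ A] [StarModule ℂ A]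
  {R : X → Type} [∀ x, Ring (R x)] [∀ x, StarRing (R x)] [∀ x, Algebra ℂ (R x)]
  [∀ x, StarModule ℂ (R x)]
  {n : Λ → Type} [∀ l, Fintype (n l)] [∀ l, DecidableEq (n l)]

lemma valOn_pd (Γ : Ctx F A R n) {k : ℕ} {c : Fin k → Cut A} {d φ : A} {G : M2 A}
    (h : ∀ x, Γ.Live c x → PDok (Γ.π x d) (Γ.π x φ) (mapH (Fin 2) (Γ.π x) G)) :
    Γ.m2.ValOn (lift s2 c) (pdB d φ G) (pdB' d φ G) := fun x hx => by
  rw [mat_π, mapH_pdB, mapH_pdB']
  exact pd_val (h x hx.of_m2)

lemma pd_indep (Γ : Ctx F A R n) {k : ℕ} {c : Fin k → Cut A} (hc : Γ.Adm c) {d φ : A}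
    {G G' : M2 A} (h : ∀ x, Γ.Live c x → PDok (Γ.π x d) (Γ.π x φ) (mapH (Fin 2) (Γ.π x) G))
    (h' : ∀ x, Γ.Live c x → PDok (Γ.π x d) (Γ.π x φ) (mapH (Fin 2) (Γ.π x) G')) :
    Γ.m2.s k (lift s2 c) (pdB d φ G) (pdB' d φ G) =ᶠ[F]
      Γ.m2.s k (lift s2 c) (pdB d φ G') (pdB' d φ G') := by
  have hf := isFam_pdB (IsFam.const d) (IsFam.const φ) (isFam_cvx G G')
  have := Γ.m2.homotopy' hc.m2.1 _ _ hf.1 hf.2 fun t _ => Γ.valOn_pd fun x hx => by
    rw [map_cvx]
    exact (h x hx).cvx (h' x hx) t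
  simpa only [cvx_zero, cvx_one] using this

lemma pd_strict (Γ : Ctx F A R n) {k : ℕ} {c : Fin k → Cut A} (hc : Γ.Adm c) {d φ ψ : A}
    (h : ∀ x, Γ.Live c x → Strict (Γ.π x d) (Γ.π x φ) (Γ.π x ψ)) :
    Γ.m2.s k (lift s2 c) (pdB d φ (pdG0 ψ)) (pdB' d φ (pdG0 ψ)) =ᶠ[F]
      fun l => 2 * Γ.s k c φ ψ l := by
  have hv : Γ.ValOn c φ ψ := fun x hx => (h x hx).2.1
  have hd : IsFam fun t : ℝ => (t : ℂ) • d := (IsFam.const d).smul Complex.continuous_ofReal
  have hf := isFam_pdB hd (IsFam.const φ) (IsFam.const (pdG0 ψ))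
  have hok : ∀ t : ℝ, Γ.m2.ValOn (lift s2 c) (pdB ((t : ℂ) • d) φ (pdG0 ψ))
      (pdB' ((t : ℂ) • d) φ (pdG0 ψ)) := fun t => Γ.valOn_pd fun x hx => by
    rw [map_smul, mapH_pdG0]
    exact ((h x hx).smul t).ok0
  have h1 := Γ.m2.homotopy' hc.m2.1 _ _ hf.1 hf.2 fun t _ => hok t
  have h0 := hok 0
  simp only [Complex.ofReal_zero, Complex.ofReal_one, zero_smul, one_smul] at h1 h0
  have h2 : Γ.m2.s k (lift s2 c) (pdB 0 φ (pdG0 ψ)) (pdB' 0 φ (pdG0 ψ)) =ᶠ[F]
      Γ.m2.s k (lift s2 c) (dg φ ψ) (dg ψ φ) := by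
    refine Γ.m2.loc hc.m2.1 h0 (fun x hx => ?_) fun x hx => ?_
    · rw [mat_π, mapH_dg, mapH_dg]
      exact (hv x hx.of_m2).dg (hv x hx.of_m2).symm
    · rw [mat_π, mapH_dg, mapH_pdB, mapH_pdG0, map_zero]
      exact pdB_zero (hv x hx.of_m2)
  filter_upwards [h1, h2, Γ.s_inv hc hv] with l e1 e2 e3
  rw [← e1, e2]
  have e4 : Γ.m2.s k (lift s2 c) (dg φ ψ) (dg ψ φ) l = Γ.s k c φ ψ l + Γ.s k c ψ φ l :=
    sigR_dg k (Γ.ρ l) c φ ψ ψ φ
  rw [e4, e3, two_mul]

lemma pd_cmp (Γ : Ctx F A R n) {k : ℕ} {c : Fin k → Cut A} (hc : Γ.Adm c) {d φ ψ φ' m : A}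
    {G : M2 A} (h : ∀ x, Γ.Live c x → Strict (Γ.π x d) (Γ.π x φ) (Γ.π x ψ))
    (hG : ∀ x, Γ.Live c x → PDok (Γ.π x d) (Γ.π x φ') (mapH (Fin 2) (Γ.π x) G))
    (hm : ∀ x, Γ.Live c x → star (Γ.π x m) = -Γ.π x m ∧
      Γ.π x φ' = Γ.π x φ + Γ.π x m * Γ.π x d - star (Γ.π x d) * Γ.π x m) :
    Γ.m2.s k (lift s2 c) (pdB d φ' G) (pdB' d φ' G) =ᶠ[F] fun l => 2 * Γ.s k c φ ψ l := by
  have hG1 : ∀ x, Γ.Live c x → PDok (Γ.π x d) (Γ.π x φ')
      (mapH (Fin 2) (Γ.π x) (th m * pdG0 ψ * th (-m))) := fun x hx => by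
    rw [map_mul, map_mul, mapH_th, mapH_th, mapH_pdG0, map_neg]
    exact (h x hx).ok0.conj (hm x hx).1 (hm x hx).2
  have hv0 : Γ.m2.ValOn (lift s2 c) (pdB d φ (pdG0 ψ)) (pdB' d φ (pdG0 ψ)) :=
    Γ.valOn_pd fun x hx => by
      rw [mapH_pdG0]
      exact (h x hx).ok0
  have hinv : ∀ x, Γ.m2.π x (sh m) * Γ.m2.π x (sh (-m)) = 1 ∧
      Γ.m2.π x (sh (-m)) * Γ.m2.π x (sh m) = 1 := fun x => by
    rw [← map_mul, ← map_mul, sh_add, sh_add, add_neg_cancel, neg_add_cancel, sh_zero,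
      map_one]
    exact ⟨rfl, rfl⟩
  have h1 := Γ.pd_indep hc hG hG1
  have h3 := Γ.m2.congr hc.m2 hv0 (sh m) (sh (-m)) fun x _ => hinv x
  have h2 : Γ.m2.s k (lift s2 c) (pdB d φ' (th m * pdG0 ψ * th (-m)))
      (pdB' d φ' (th m * pdG0 ψ * th (-m))) =ᶠ[F]
      Γ.m2.s k (lift s2 c) (sh m * pdB d φ (pdG0 ψ) * star (sh m))
        (star (sh (-m)) * pdB' d φ (pdG0 ψ) * sh (-m)) := by
    refine Γ.m2.loc hc.m2.1 (Γ.valOn_pd hG1) (fun x hx => ?_) fun x hx => ?_
    · simp only [map_mul, map_star]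
      exact (hv0 x hx).conj (hinv x).1 (hinv x).2
    · simp only [map_mul, map_star, mat_π, mapH_pdB, mapH_th, mapH_sh, mapH_pdG0, map_neg]
      exact pdB_conj _ (hm x hx.of_m2).1 (hm x hx.of_m2).2
  exact h1.trans (h2.trans (h3.trans (Γ.pd_strict hc h)))

theorem pd_pm (Γ : Ctx F A R n) {k : ℕ} {c : Fin k → Cut A} (hc : Γ.Adm c)
    (d φ ψ e K L N : A) (b : Bool)
    (h : ∀ x, Γ.Live c x → Strict (Γ.π x d) (Γ.π x φ) (Γ.π x ψ) ∧
      Idem (Γ.π x d) (Γ.π x φ) (Γ.π x ψ) (Γ.π x e) (Γ.π x K) (Γ.π x L) ∧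
      Γ.π x (e - if b then 1 else 0) = Γ.π x (d * N + N * d)) :
    Γ.m2.s k (lift s2 c) (Bf d φ ψ e K L) (Bf' d φ ψ e K L) =ᶠ[F]
      fun l => (if b then 2 else -2) * Γ.s k c φ ψ l := by
  have hG : ∀ x, Γ.Live c x → PDok (Γ.π x d) (Γ.π x (uφ φ e))
      (mapH (Fin 2) (Γ.π x) (uG φ ψ e K L)) := fun x hx => by
    rw [map_uφ, mapH_uG]
    exact idem_ok (h x hx).1 (h x hx).2.1
  have hsk : ∀ x, Γ.Live c x → star (Γ.π x (φ * N - star N * φ)) = -Γ.π x (φ * N - star N * φ) :=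
    fun x hx => by
      simp only [map_sub, map_mul, map_star, star_sub, star_mul, star_star, (h x hx).1.2.1.1]
      noncomm_ring
  cases b with
  | true =>
    refine Γ.pd_cmp hc (m := φ * N - star N * φ) (fun x hx => (h x hx).1) hG
      fun x hx => ⟨hsk x hx, ?_⟩
    obtain ⟨⟨_, _, h6⟩, _, h7⟩ := h x hx
    simp only [map_sub, map_mul, map_add, map_one, if_true] at h7
    have h8 := congrArg star h7
    simp only [star_sub, star_add, star_mul, star_one] at h8
    simp only [map_sub, map_mul, map_star, map_uφ]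
    rw [uφ, ← half_add_self (_ + _ - _)]
    congr 1
    rw [uu_eq, star_sub, star_add, star_one]
    linear_combination (norm := noncomm_ring) Γ.π x φ * h7 + Γ.π x φ * h7 + h8 * Γ.π x φ +
      h8 * Γ.π x φ + h6 * Γ.π x N + h6 * Γ.π x N + star (Γ.π x N) * h6 + star (Γ.π x N) * h6
  | false =>
    have := Γ.pd_cmp hc (φ := -φ) (ψ := -ψ) (m := φ * N - star N * φ)
      (fun x hx => by rw [map_neg, map_neg]; exact (h x hx).1.neg) hG fun x hx => ⟨hsk x hx, by
        obtain ⟨⟨_, _, h6⟩, _, h7⟩ := h x hx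
        simp only [map_mul, map_add, Bool.false_eq_true, if_false, sub_zero] at h7
        have h8 := congrArg star h7
        simp only [star_add, star_mul] at h8
        simp only [map_sub, map_mul, map_star, map_uφ, map_neg]
        rw [uφ, ← half_add_self (_ + _ - _)]
        congr 1
        rw [uu_eq, star_sub, star_add, star_one]
        linear_combination (norm := noncomm_ring) Γ.π x φ * h7 + Γ.π x φ * h7 + h8 * Γ.π x φ +
          h8 * Γ.π x φ + h6 * Γ.π x N + h6 * Γ.π x N + star (Γ.π x N) * h6 +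
          star (Γ.π x N) * h6⟩
    filter_upwards [this] with l hl
    have e4 : Γ.s k c (-φ) (-ψ) l = -Γ.s k c φ ψ l := sigR_neg k (Γ.ρ l) c hc.2 φ ψ
    rw [Bf, Bf', hl, e4]
    simp

end Ctx

end Vale.Agent.P228
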