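import Vale.Agent.P228.Coarse1
import Vale.Agent.P228.PD

set_option linter.unusedSectionVars false
noncomputable section
open Matrix Filter Topology
namespace Vale.Agent.P228

lemma c2_clamp_le (a : ℝ) : max (-2) (min 2 a) ≤ 0 ↔ a ≤ 0 := by
  simp only [max_le_iff, min_le_iff]
  norm_num

lemma c2_clamp_abs (a : ℝ) : |max (-2) (min 2 a)| ≤ 1 / 2 ↔ |a| ≤ 1 / 2 := by
  simp only [abs_le, max_le_iff, min_le_iff, le_max_iff, le_min_iff]
  norm_num

lemma c2_rawCuts {k : ℕ} {n : Type} [Fintype n] [DecidableEq n] (F : n → E k) :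
    rawCuts (fun a => clamp (F a)) 0 (1 / 2) = rawCuts F 0 (1 / 2) := by
  funext j
  simp only [rawCuts, clamp, Pi.zero_apply, sub_zero, c2_clamp_le, c2_clamp_abs]

namespace DSeq
variable {k : ℕ} (D : DSeq k)

lemma c2_zero {x : E k} (hx : ‖x‖ < 3 / 4) (Y : D.Mat)
    (h : ∀ j a, ‖(D j).F a‖ ≤ 3 / 4 → ColZero (D.lev j Y) a) : D.Γ.π x Y = 0 :=
  D.Lb.mat_π_eq_zero Y fun θ hθ => by
    have h1 : ‖D.lim θ‖ < 3 / 4 := by rwa [show D.lim θ = x from hθ]
    exact ((D.pos_tendsto θ (h1.trans (by norm_num))).2.norm.eventually_lt_const h1).mono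
      fun j hj => h j _ hj.le

lemma c2_strict {x : E k} (hx : ‖x‖ < 1) :
    Strict (D.Γ.π x (dM k D.z)) (D.Γ.π x (φM k D.z)) (D.Γ.π x (ψM k D.z)) := by
  simp only [Ctx.mat_π, mapH_dM, mapH_φM, mapH_ψM]
  exact std_strict (D.z_cu hx)

lemma c2_dM (j : ℕ) : D.lev j (dM k D.z) = dM k (shiftM (D j).v) := mapH_dM _ k _
lemma c2_φM (j : ℕ) : D.lev j (φM k D.z) = φM k (shiftM (D j).v) := mapH_φM _ k _
lemma c2_ψM (j : ℕ) : D.lev j (ψM k D.z) = ψM k (shiftM (D j).v) := mapH_ψM _ k _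

lemma c2_pm (b : Bool) : ∀ᶠ j in (UU : Filter ℕ),
    rawSig (D j).v (D j).F ((D j).e b) ((D j).K b) ((D j).L b) = (if b then 2 else -2) *
      D.Γ.s k (lift (sc (B k)) (D.Lb.cuts D.g1 0 (1 / 2))) (φM k D.z) (ψM k D.z) j := by
  let e := D.toMat (fun j => (D j).e b) fun j => (D j).ce b
  let K := D.toMat (fun j => (D j).K b) fun j => (D j).cK b
  let L := D.toMat (fun j => (D j).L b) fun j => (D j).cL b
  let N := D.toMat (fun j => (D j).N b) fun j => (D j).cN b
  have he : ∀ j, D.lev j e = (D j).e b := fun j => rfl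
  have hK : ∀ j, D.lev j K = (D j).K b := fun j => rfl
  have hL : ∀ j, D.lev j L = (D j).L b := fun j => rfl
  have hN : ∀ j, D.lev j N = (D j).N b := fun j => rfl
  have := D.Γ.pd_pm ((D.Lb.cuts_adm D.pt_g1 0 (by norm_num : (0 : ℝ) < 1 / 2)).mat (B k))
    (dM k D.z) (φM k D.z) (ψM k D.z) e K L N b fun x hx => by
      have h1 := D.Lb.cuts_live D.pt_g1 (by norm_num) hx.of_mat
      rw [mem_closedBall_zero_iff] at h1
      have h2 : ‖x‖ < 3 / 4 := h1.trans_lt (by norm_num)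
      refine ⟨D.c2_strict (h2.trans (by norm_num)), ⟨?_, ?_, ?_⟩, ?_⟩
      · rw [← sub_eq_zero, ← map_mul, ← map_mul, ← map_sub]
        refine D.c2_zero h2 _ fun j a ha => ?_
        simp only [map_sub, map_mul, c2_dM, he]
        exact (D j).r1 b a ha
      · rw [← sub_eq_zero]
        simp only [← map_mul, ← map_sub, ← map_add]
        refine D.c2_zero h2 _ fun j a ha => ?_
        simp only [map_sub, map_mul, map_add, c2_dM, he, hK]
        exact (D j).r2 b a ha
      · rw [← sub_eq_zero]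
        simp only [← map_star, ← map_mul, ← map_sub, ← map_add]
        refine D.c2_zero h2 _ fun j a ha => ?_
        simp only [map_sub, map_mul, map_add, map_star, c2_dM, c2_φM, c2_ψM, he, hL]
        exact (D j).r3 b a ha
      · rw [← sub_eq_zero, ← map_sub]
        refine D.c2_zero h2 _ fun j a ha => ?_
        simp only [map_sub, map_mul, map_add, c2_dM, he, hN, apply_ite (D.lev j), map_one, map_zero]
        exact (D j).r4 b a ha
  filter_upwards [this] with j hj
  rw [← hj, D.Lb.s_eq_rawSig (fun j => (D j).v) D.z (fun _ _ => rfl) D.g1 e K L j, he, hK, hL,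
    rawSig, rawSig, ← c2_rawCuts (D j).F]
  rfl

end DSeq

theorem no_dseq {k : ℕ} (D : DSeq k) : False := by
  have h1 : Metric.closedBall (0 : E k) (1 / 2) ⊆ Metric.ball 0 (3 / 4) :=
    Metric.closedBall_subset_ball (by norm_num)
  have h2 := D.Lb.move D.Γ (scH (B k)) (D.Lb.ctx.over_mat (B k)) D.pt_g1 D.pt_g2 (t := 0) (t' := 0)
    (by simp) (by simp) h1 h1 (a := φM k D.z) (a' := ψM k D.z) fun x hx =>
      (D.c2_strict ((mem_ball_zero_iff.1 hx).trans (by norm_num))).2.1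
  obtain ⟨j, ⟨h3, h4⟩, h5, h6⟩ :=
    ((h2.and D.std_ne_zero).and ((D.c2_pm true).and (D.c2_pm false))).exists
  refine h4 (h3.symm.trans ?_)
  have h7 := (D j).sig
  rw [h5, h6] at h7
  simp only [if_true, Bool.false_eq_true, if_false] at h7
  change D.Γ.s k (lift (sc (B k)) (D.Lb.cuts D.g1 0 (1 / 2))) (φM k D.z) (ψM k D.z) j = 0
  omega

end Vale.Agent.P228
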