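import Vale.Agent.P228.OpsWt

set_option linter.unusedSectionVars false
noncomputable section
open Matrix Filter Topology
namespace Vale.Agent.P228

namespace Config
variable {p : ℕ} [Fact p.Prime] {k : ℕ} {δ : ℝ} (c : Config p k δ)

lemma cov_contAt {h : ℤ_[p]} {y : E k} (hy : y ∈ c.Ω) :
    ContinuousAt (fun q : ℤ_[p] × E k => c.act q.1 q.2) (h, y) :=
  c.cont.continuousAt ((isOpen_univ.prod c.isOpen).mem_nhds ⟨trivial, hy⟩)

lemma cov_unit {h : ℤ_[p]} (hh : PadicInt.toZMod h ≠ 0) : IsUnit h := by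
  by_contra hu
  apply hh
  rw [← RingHom.mem_ker, PadicInt.ker_toZMod]
  exact hu

lemma cov_free {y : E k} (hy : y ∈ c.Ω) (hnf : ∃ h, c.act h y ≠ y) {h : ℤ_[p]} (hh : IsUnit h) :
    c.act h y ≠ y := by
  intro e
  obtain ⟨h0, hh0⟩ := hnf
  have h1 : ∀ n : ℕ, c.act ((n : ℤ_[p]) * h) y = y := by
    intro n
    induction n with
    | zero => simpa using c.zero y hy
    | succ n ih => rw [Nat.cast_succ, add_mul, one_mul, c.add _ _ y hy, e, ih]
  have hc : Continuous fun g : ℤ_[p] => c.act (g * h) y := by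
    rw [continuous_iff_continuousAt]
    intro g
    exact (c.cov_contAt (h := g * h) hy).comp (f := fun g : ℤ_[p] => (g * h, y)) (by fun_prop)
  have h2 : ∀ g : ℤ_[p], c.act (g * h) y = y := fun g =>
    PadicInt.denseRange_natCast.induction_on g (isClosed_eq hc continuous_const) h1
  obtain ⟨u, rfl⟩ := hh
  have := h2 (h0 * ↑u⁻¹)
  rw [mul_assoc, Units.inv_mul, mul_one] at this
  exact hh0 this

lemma cov_eps {y : E k} (hy : y ∈ c.Ω) (hnf : ∃ h, c.act h y ≠ y) :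
    ∃ ε : ℝ, 0 < ε ∧ Metric.ball y ε ⊆ c.Ω ∧ ∀ h : ℤ_[p], PadicInt.toZMod h ≠ 0 →
      ∀ a ∈ Metric.ball y ε, ∀ b ∈ Metric.ball y ε, c.act h a ≠ b := by
  have hS : IsCompact {h : ℤ_[p] | ‖h‖ = 1} := (isClosed_eq continuous_norm continuous_const).isCompact
  have h1 : ∀ᶠ q : E k × E k in 𝓝 (y, y), ∀ h ∈ {h : ℤ_[p] | ‖h‖ = 1}, c.act h q.1 ≠ q.2 := by
    refine hS.eventually_forall_of_forall_eventually fun h hh => ?_
    have h3 : ContinuousAt (fun z : (E k × E k) × ℤ_[p] => c.act z.2 z.1.1) ((y, y), h) :=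
      ContinuousAt.comp (f := fun z : (E k × E k) × ℤ_[p] => (z.2, z.1.1)) (x := ((y, y), h))
        (c.cov_contAt (h := h) hy) (by fun_prop)
    have h2 : ContinuousAt (fun z : (E k × E k) × ℤ_[p] => c.act z.2 z.1.1 - z.1.2) ((y, y), h) :=
      h3.sub (by fun_prop)
    exact (h2.eventually_ne (sub_ne_zero.2 (c.cov_free hy hnf (PadicInt.isUnit_iff.2 hh)))).mono
      fun z hz => sub_ne_zero.1 hz
  obtain ⟨ε1, hε1, h3⟩ := Metric.eventually_nhds_iff_ball.1 h1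
  obtain ⟨ε2, hε2, h4⟩ := Metric.isOpen_iff.1 c.isOpen y hy
  refine ⟨min ε1 ε2, lt_min hε1 hε2, (Metric.ball_subset_ball (min_le_right _ _)).trans h4,
    fun h hh a ha b hb => h3 (a, b) ?_ h (PadicInt.isUnit_iff.1 (cov_unit hh))⟩
  rw [← ball_prod_same]
  exact ⟨Metric.ball_subset_ball (min_le_left _ _) ha, Metric.ball_subset_ball (min_le_left _ _) hb⟩

lemma cov_open {V : Set (E k)} (hV : IsOpen V) (hVΩ : V ⊆ c.Ω) (h : ℤ_[p]) :
    IsOpen (c.act h '' V) := by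
  have e : c.act h '' V = c.Ω ∩ c.act (-h) ⁻¹' V := by
    ext x
    constructor
    · rintro ⟨w, hw, rfl⟩
      refine ⟨c.mem h w (hVΩ hw), ?_⟩
      rw [Set.mem_preimage, ← c.add _ _ w (hVΩ hw), neg_add_cancel, c.zero w (hVΩ hw)]
      exact hw
    · rintro ⟨hx, hw⟩
      exact ⟨_, hw, by rw [← c.add _ _ x hx, add_neg_cancel, c.zero x hx]⟩
  rw [e]
  refine ContinuousOn.isOpen_inter_preimage (fun x hx => ?_) c.isOpen hV
  exact ((c.cov_contAt (h := -h) hx).comp (f := fun x : E k => (-h, x))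
    (by fun_prop)).continuousWithinAt

lemma cov_inv {V : Set (E k)} (hVΩ : V ⊆ c.Ω) (h : ℤ_[p]) :
    ∀ x ∈ ⋃ g, c.act g '' V, c.act h x ∈ ⋃ g, c.act g '' V := by
  intro x hx
  obtain ⟨g, w, hw, rfl⟩ := Set.mem_iUnion.1 hx
  exact Set.mem_iUnion.2 ⟨h + g, w, hw, c.add _ _ w (hVΩ hw)⟩

lemma cov_loc {y : E k} (hy : y ∈ c.Ω) (hnf : ∃ h, c.act h y ≠ y) :
    ∃ (W U : Set (E k)) (μ : E k → ℂ), y ∈ W ∧ IsOpen W ∧ (∀ h, ∀ x ∈ W, c.act h x ∈ W) ∧
      closure W ⊆ U ∧ U ⊆ c.Ω ∧ (∀ h, ∀ x ∈ U, c.act h x ∈ U) ∧ (∀ x, star (μ x) * μ x = 1) ∧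
      (∀ x ∈ U, ∀ᶠ x' in 𝓝 x, μ x' = μ x) ∧
      ∀ h, ∀ x ∈ U, μ (c.act h x) * chi (PadicInt.toZMod h) = μ x := by
  classical
  obtain ⟨ε, hε, hΩ, hd⟩ := c.cov_eps hy hnf
  have hb : Metric.closedBall y (ε / 2) ⊆ Metric.ball y ε :=
    Metric.closedBall_subset_ball (half_lt_self hε)
  have hb' : Metric.ball y (ε / 2) ⊆ c.Ω := (Metric.ball_subset_closedBall.trans hb).trans hΩ
  set μ : E k → ℂ := fun x => if hx : ∃ h, x ∈ c.act h '' Metric.ball y ε then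
    chi (-PadicInt.toZMod hx.choose) else 1 with hμ
  have key : ∀ h, ∀ x ∈ c.act h '' Metric.ball y ε, μ x = chi (-PadicInt.toZMod h) := by
    intro h x hx
    have hex : ∃ h, x ∈ c.act h '' Metric.ball y ε := ⟨h, hx⟩
    simp only [hμ, dif_pos hex]
    obtain ⟨w', hw', e'⟩ := hex.choose_spec
    obtain ⟨w, hw, e⟩ := hx
    have h1 : c.act (-h + hex.choose) w' = w := by
      rw [c.add _ _ w' (hΩ hw'), e', ← e, ← c.add _ _ w (hΩ hw), neg_add_cancel, c.zero w (hΩ hw)]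
    have h2 : PadicInt.toZMod (-h + hex.choose) = 0 := by
      by_contra h3
      exact hd _ h3 w' hw' w hw h1
    rw [map_add, map_neg, neg_add_eq_zero] at h2
    rw [h2]
  refine ⟨⋃ g, c.act g '' Metric.ball y (ε / 2), ⋃ g, c.act g '' Metric.ball y ε, μ,
    Set.mem_iUnion.2 ⟨0, y, Metric.mem_ball_self (half_pos hε), c.zero y hy⟩,
    isOpen_iUnion fun g => c.cov_open Metric.isOpen_ball hb' g, c.cov_inv hb', ?_, ?_,
    c.cov_inv hΩ, ?_, ?_, ?_⟩
  · have hc : IsCompact ((fun q : ℤ_[p] × E k => c.act q.1 q.2) ''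
        (Set.univ ×ˢ Metric.closedBall y (ε / 2))) :=
      (isCompact_univ.prod (isCompact_closedBall _ _)).image_of_continuousOn
        (c.cont.mono (Set.prod_mono le_rfl (hb.trans hΩ)))
    refine (closure_minimal ?_ hc.isClosed).trans ?_
    · intro x hx
      obtain ⟨g, w, hw, rfl⟩ := Set.mem_iUnion.1 hx
      exact ⟨(g, w), ⟨trivial, Metric.ball_subset_closedBall hw⟩, rfl⟩
    · rintro x ⟨⟨g, w⟩, ⟨-, hw⟩, rfl⟩
      exact Set.mem_iUnion.2 ⟨g, w, hb hw, rfl⟩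
  · intro x hx
    obtain ⟨g, w, hw, rfl⟩ := Set.mem_iUnion.1 hx
    exact c.mem g w (hΩ hw)
  · intro x
    simp only [hμ]
    split_ifs
    · rw [star_chi, ← chi_add, neg_add_cancel, chi_zero]
    · simp
  · intro x hx
    obtain ⟨g, hg⟩ := Set.mem_iUnion.1 hx
    filter_upwards [(c.cov_open Metric.isOpen_ball hΩ g).mem_nhds hg] with x' hx'
    rw [key g x hg, key g x' hx']
  · intro h x hx
    obtain ⟨g, w, hw, rfl⟩ := Set.mem_iUnion.1 hx
    rw [key g _ ⟨w, hw, rfl⟩, key (h + g) _ ⟨w, hw, c.add _ _ w (hΩ hw)⟩, ← chi_add, map_add]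
    congr 1
    ring

lemma cov_rad : ∃ r : ℝ, 0 < r ∧ Metric.closedBall c.t r ⊆ Metric.ball c.o c.R ∧
    ∀ x ∈ c.K, c.f x ∈ Metric.closedBall c.t r → ∃ h, c.act h x ≠ x := by
  have h1 : ∀ᶠ t' in 𝓝 c.t, ∀ x ∈ c.K, c.f x = t' → ∃ h, c.act h x ≠ x := by
    refine c.Kc.eventually_forall_of_forall_eventually fun x hx => ?_
    have hΩ := c.KΩ hx
    by_cases h : c.f x = c.t
    · obtain ⟨g, hg⟩ := c.free x hx h
      have h3 : ContinuousAt (fun z : E k × E k => c.act g z.2) (c.t, x) :=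
        ContinuousAt.comp (f := fun z : E k × E k => (g, z.2)) (x := (c.t, x))
          (c.cov_contAt (h := g) hΩ) (by fun_prop)
      have h2 : ContinuousAt (fun z : E k × E k => c.act g z.2 - z.2) (c.t, x) :=
        h3.sub (by fun_prop)
      exact (h2.eventually_ne (sub_ne_zero.2 hg)).mono fun z hz _ => ⟨g, sub_ne_zero.1 hz⟩
    · have h2 : ContinuousAt (fun z : E k × E k => c.f z.2 - z.1) (c.t, x) :=
        ((c.fcont.continuousAt (c.isOpen.mem_nhds hΩ)).comp (f := fun z : E k × E k => z.2)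
          (by fun_prop)).sub (by fun_prop)
      exact (h2.eventually_ne (sub_ne_zero.2 h)).mono fun z hz e => absurd e (sub_ne_zero.1 hz)
  obtain ⟨r, hr, h⟩ := Metric.nhds_basis_closedBall.eventually_iff.1
    (h1.and (Metric.isOpen_ball.mem_nhds c.tO))
  exact ⟨r, hr, fun x hx => (h hx).2, fun x hx hf => (h hf).1 x hx rfl⟩

theorem exists_cov : Nonempty c.Cov := by
  obtain ⟨r, hr, hsub, hfree⟩ := c.cov_rad
  have hC : IsCompact (c.K ∩ c.f ⁻¹' Metric.closedBall c.t r) :=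
    c.Kc.of_isClosed_subset ((c.fcont.mono c.KΩ).preimage_isClosed_of_isClosed c.Kc.isClosed
      Metric.isClosed_closedBall) Set.inter_subset_left
  have hloc := fun y (hy : y ∈ c.K ∩ c.f ⁻¹' Metric.closedBall c.t r) =>
    c.cov_loc (c.KΩ hy.1) (hfree y hy.1 hy.2)
  choose! W U μ h1 h2 h3 h4 h5 h6 h7 h8 h9 using hloc
  obtain ⟨s, hs1, hs2⟩ := hC.elim_nhds_subcover W fun y hy => (h2 y hy).mem_nhds (h1 y hy)
  have hm : ∀ i : Fin s.card, (s.equivFin.symm i).1 ∈ c.K ∩ c.f ⁻¹' Metric.closedBall c.t r :=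
    fun i => hs1 _ (s.equivFin.symm i).2
  refine ⟨⟨r, s.card, fun i => W (s.equivFin.symm i).1, fun i => U (s.equivFin.symm i).1,
    fun i => μ (s.equivFin.symm i).1, hr, hsub, fun i => h2 _ (hm i), fun i => h3 _ (hm i),
    fun i => h4 _ (hm i), fun i => h5 _ (hm i), fun i => h6 _ (hm i), fun y hy hf => ?_,
    fun i => h7 _ (hm i), fun i => h8 _ (hm i), fun i => h9 _ (hm i)⟩⟩
  obtain ⟨z, hz, hy'⟩ := Set.mem_iUnion₂.1 (hs2 ⟨hy, hf⟩)
  exact ⟨s.equivFin ⟨z, hz⟩, by simpa using hy'⟩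

end Config

end Vale.Agent.P228
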