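import Vale.Agent.P228.Defs

/-! Contexts: a star algebra of controlled operators with local quotients and representations. -/

set_option linter.unusedSectionVars false
noncomputable section
open Matrix Filter Topology
namespace Vale.Agent.P228

section Rep
variable {R S : Type} [Ring R] [StarRing R] [Algebra ℂ R] [StarModule ℂ R]
  [Ring S] [StarRing S] [Algebra ℂ S] [StarModule ℂ S]
  {n : Type} [Fintype n] [DecidableEq n]

def matRep (I : Type) [Fintype I] [DecidableEq I] (ρ : R →⋆ₙₐ[ℂ] Matrix n n ℂ) :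
    Matrix I I R →⋆ₙₐ[ℂ] Matrix (I × n) (I × n) ℂ where
  toFun M := Matrix.of fun i j => ρ (M i.1 j.1) i.2 j.2
  map_smul' r M := by ext i j; simp
  map_zero' := by ext i j; simp
  map_add' M N := by ext i j; simp
  map_mul' M N := by
    ext i j
    simp [Matrix.mul_apply, Fintype.sum_prod_type, map_sum, Matrix.sum_apply]
  map_star' M := by
    ext i j
    simp [Matrix.star_apply, map_star]

@[simp] lemma matRep_apply (I : Type) [Fintype I] [DecidableEq I] (ρ : R →⋆ₙₐ[ℂ] Matrix n n ℂ)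
    (M : Matrix I I R) (i j : I × n) : matRep I ρ M i j = ρ (M i.1 j.1) i.2 j.2 := rfl

/-- precomposition of a representation with a unital map -/
def preRep (ρ : R →⋆ₙₐ[ℂ] Matrix n n ℂ) (f : S →⋆ₐ[ℂ] R) : S →⋆ₙₐ[ℂ] Matrix n n ℂ :=
  ρ.comp (f : S →⋆ₙₐ[ℂ] R)

@[simp] lemma preRep_apply (ρ : R →⋆ₙₐ[ℂ] Matrix n n ℂ) (f : S →⋆ₐ[ℂ] R) (a : S) :
    preRep ρ f a = ρ (f a) := rfl

def idRep (n : Type) [Fintype n] [DecidableEq n] : Matrix n n ℂ →⋆ₙₐ[ℂ] Matrix n n ℂ :=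
  NonUnitalStarAlgHom.id ℂ _

@[simp] lemma idRep_apply (a : Matrix n n ℂ) : idRep n a = a := rfl

end Rep

/-- the signature after `k` Bott steps -/
def sigR : (k : ℕ) → {R : Type} → [Ring R] → [StarRing R] → [Algebra ℂ R] → [StarModule ℂ R] →
    {n : Type} → [Fintype n] → [DecidableEq n] → (R →⋆ₙₐ[ℂ] Matrix n n ℂ) → (Fin k → Cut R) →
    R → R → ℤ
  | 0, _, _, _, _, _, _, _, _, ρ, _, A, _ => sgn (ρ A)
  | k + 1, _, _, _, _, _, _, _, _, ρ, c, A, A' =>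
    sigR k (matRep (Fin 2) (matRep (Fin 2) (matRep (Fin 2) ρ)))
      (lift s2 (lift s2 (lift s2 (Fin.tail c)))) (bott (c 0) A A') (bott' (c 0) A A')

section SigR
variable {R : Type} [Ring R] [StarRing R] [Algebra ℂ R] [StarModule ℂ R]
  {n : Type} [Fintype n] [DecidableEq n]

lemma sigR_zero (ρ : R →⋆ₙₐ[ℂ] Matrix n n ℂ) (c : Fin 0 → Cut R) (A A' : R) :
    sigR 0 ρ c A A' = sgn (ρ A) := rfl

lemma sigR_succ (k : ℕ) (ρ : R →⋆ₙₐ[ℂ] Matrix n n ℂ) (c : Fin (k + 1) → Cut R) (A A' : R) :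
    sigR (k + 1) ρ c A A' = sigR k (matRep (Fin 2) (matRep (Fin 2) (matRep (Fin 2) ρ)))
      (lift s2 (lift s2 (lift s2 (Fin.tail c)))) (bott (c 0) A A') (bott' (c 0) A A') := rfl

/-- continuous families spanning a finite dimensional space -/
def IsFam (G : ℝ → R) : Prop :=
  G ∈ Submodule.span ℂ {G' : ℝ → R | ∃ (c : ℝ → ℂ) (a : R), Continuous c ∧ G' = fun t => c t • a}

end SigR

structure Ctx {X Λ : Type} (F : Filter Λ)
    (A : Type) [Ring A] [StarRing A] [Algebra ℂ A] [StarModule ℂ A]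
    (R : X → Type) [∀ x, Ring (R x)] [∀ x, StarRing (R x)] [∀ x, Algebra ℂ (R x)]
    [∀ x, StarModule ℂ (R x)]
    (n : Λ → Type) [∀ l, Fintype (n l)] [∀ l, DecidableEq (n l)] where
  π : ∀ x, A →⋆ₐ[ℂ] R x
  ρ : ∀ l, A →⋆ₙₐ[ℂ] Matrix (n l) (n l) ℂ
  fin : ∀ a, (∀ x, π x a = 0) → ∀ᶠ l in F, ρ l a = 0

/-- a star-stable ring congruence -/
structure SCon (A : Type) [Ring A] [StarRing A] extends RingCon A where
  star' : ∀ {a b : A}, r a b → r (star a) (star b)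

section SCon
variable {A : Type} [Ring A] [StarRing A] [Algebra ℂ A] [StarModule ℂ A]

def SCon.Q (c : SCon A) : Type := c.toRingCon.Quotient

instance (c : SCon A) : Ring c.Q := inferInstanceAs (Ring c.toRingCon.Quotient)
instance (c : SCon A) : Algebra ℂ c.Q := inferInstanceAs (Algebra ℂ c.toRingCon.Quotient)

instance (c : SCon A) : StarRing c.Q where
  star := Quotient.map' star fun _ _ h => c.star' h
  star_involutive := by
    rintro ⟨a⟩
    exact congrArg (Quot.mk _) (star_star a)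
  star_mul := by
    rintro ⟨a⟩ ⟨b⟩
    exact congrArg (Quot.mk _) (star_mul a b)
  star_add := by
    rintro ⟨a⟩ ⟨b⟩
    exact congrArg (Quot.mk _) (star_add a b)

instance (c : SCon A) : StarModule ℂ c.Q where
  star_smul := by
    rintro r ⟨a⟩
    exact congrArg (Quot.mk _) (star_smul r a)

def SCon.mkH (c : SCon A) : A →⋆ₐ[ℂ] c.Q where
  toFun a := (Quot.mk _ a : c.toRingCon.Quotient)
  map_one' := rfl
  map_mul' _ _ := rfl
  map_zero' := rfl
  map_add' _ _ := rfl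
  commutes' _ := rfl
  map_star' _ := rfl

lemma SCon.mkH_eq (c : SCon A) (a b : A) : c.mkH a = c.mkH b ↔ c.r a b :=
  RingCon.eq c.toRingCon

def SCon.ker {S : Type} [Ring S] [StarRing S] [Algebra ℂ S] [StarModule ℂ S]
    (f : A →⋆ₙₐ[ℂ] S) : SCon A where
  r a b := f a = f b
  iseqv := ⟨fun _ => rfl, fun h => h.symm, fun h h' => h.trans h'⟩
  mul' := fun {_ _ _ _} h h' => by simp only [map_mul]; rw [h, h']
  add' := fun {_ _ _ _} h h' => by simp only [map_add]; rw [h, h']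
  star' := fun {_ _} h => by simp only [map_star]; rw [h]

end SCon

namespace Ctx
variable {X Λ : Type} {F : Filter Λ}
  {A : Type} [Ring A] [StarRing A] [Algebra ℂ A] [StarModule ℂ A]
  {R : X → Type} [∀ x, Ring (R x)] [∀ x, StarRing (R x)] [∀ x, Algebra ℂ (R x)]
  [∀ x, StarModule ℂ (R x)]
  {n : Λ → Type} [∀ l, Fintype (n l)] [∀ l, DecidableEq (n l)]

def mat (Γ : Ctx F A R n) (I : Type) [Fintype I] [DecidableEq I] :
    Ctx F (Matrix I I A) (fun x => Matrix I I (R x)) (fun l => I × n l) where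
  π x := mapH I (Γ.π x)
  ρ l := matRep I (Γ.ρ l)
  fin a h := by
    have h1 : ∀ ij : I × I, ∀ᶠ l in F, Γ.ρ l (a ij.1 ij.2) = 0 := fun ij =>
      Γ.fin _ fun x => by simpa using congrFun (congrFun (h x) ij.1) ij.2
    filter_upwards [Filter.eventually_all.2 h1] with l hl
    ext i j
    simp [hl (i.1, j.1)]

@[simp] lemma mat_π (Γ : Ctx F A R n) (I : Type) [Fintype I] [DecidableEq I] (x : X) :
    (Γ.mat I).π x = mapH I (Γ.π x) := rfl

@[simp] lemma mat_ρ (Γ : Ctx F A R n) (I : Type) [Fintype I] [DecidableEq I] (l : Λ) :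
    (Γ.mat I).ρ l = matRep I (Γ.ρ l) := rfl

abbrev m2 (Γ : Ctx F A R n) := Γ.mat (Fin 2)

/-- pull back along a non-unital map (used for corners) -/
def pull (Γ : Ctx F A R n) {A' : Type} [Ring A'] [StarRing A'] [Algebra ℂ A'] [StarModule ℂ A']
    (θ : A' →⋆ₙₐ[ℂ] A) :
    Ctx F A' (fun x => (SCon.ker (((Γ.π x : A →⋆ₐ[ℂ] R x) : A →⋆ₙₐ[ℂ] R x).comp θ)).Q) n where
  π x := SCon.mkH _
  ρ l := (Γ.ρ l).comp θ
  fin a h := Γ.fin (θ a) fun x => by
    have := (SCon.mkH_eq _ a 0).1 ((h x).trans (map_zero _).symm)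
    simpa [SCon.ker] using this

lemma pull_π_eq (Γ : Ctx F A R n) {A' : Type} [Ring A'] [StarRing A'] [Algebra ℂ A']
    [StarModule ℂ A'] (θ : A' →⋆ₙₐ[ℂ] A) (x : X) (a b : A') :
    (Γ.pull θ).π x a = (Γ.pull θ).π x b ↔ Γ.π x (θ a) = Γ.π x (θ b) :=
  SCon.mkH_eq _ a b

@[simp] lemma pull_ρ (Γ : Ctx F A R n) {A' : Type} [Ring A'] [StarRing A'] [Algebra ℂ A']
    [StarModule ℂ A'] (θ : A' →⋆ₙₐ[ℂ] A) (l : Λ) : (Γ.pull θ).ρ l = (Γ.ρ l).comp θ := rfl

def s (Γ : Ctx F A R n) (k : ℕ) (c : Fin k → Cut A) (a a' : A) : Λ → ℤ :=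
  fun l => sigR k (Γ.ρ l) c a a'

lemma s_succ (Γ : Ctx F A R n) (k : ℕ) (c : Fin (k + 1) → Cut A) (a a' : A) :
    Γ.s (k + 1) c a a' = Γ.m2.m2.m2.s k (lift s2 (lift s2 (lift s2 (Fin.tail c))))
      (bott (c 0) a a') (bott' (c 0) a a') := rfl

def Live (Γ : Ctx F A R n) {k : ℕ} (c : Fin k → Cut A) (x : X) : Prop :=
  ∀ j, Γ.π x (c j).C ≠ 0

def AdmW (Γ : Ctx F A R n) {k : ℕ} (c : Fin k → Cut A) : Prop :=
  (∀ j, (c j).Herm) ∧ ∀ x j, ((c j).map (Γ.π x)).Good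

def Adm (Γ : Ctx F A R n) {k : ℕ} (c : Fin k → Cut A) : Prop :=
  Γ.AdmW c ∧ ∀ j, (c j).Q * (c j).Q = (c j).Q

def ValOn (Γ : Ctx F A R n) {k : ℕ} (c : Fin k → Cut A) (a a' : A) : Prop :=
  ∀ x, Γ.Live c x → Val (Γ.π x a) (Γ.π x a')

/-- `Γ` lies over `Γ₀` along `ι` -/
def Over {A₀ : Type} [Ring A₀] [StarRing A₀] [Algebra ℂ A₀] [StarModule ℂ A₀]
    {R₀ : X → Type} [∀ x, Ring (R₀ x)] [∀ x, StarRing (R₀ x)] [∀ x, Algebra ℂ (R₀ x)]
    [∀ x, StarModule ℂ (R₀ x)]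
    {n₀ : Λ → Type} [∀ l, Fintype (n₀ l)] [∀ l, DecidableEq (n₀ l)]
    (Γ : Ctx F A R n) (Γ₀ : Ctx F A₀ R₀ n₀) (ι : A₀ →⋆ₐ[ℂ] A) : Prop :=
  ∀ x a b, Γ₀.π x a = Γ₀.π x b → Γ.π x (ι a) = Γ.π x (ι b)

section Over
variable {A₀ : Type} [Ring A₀] [StarRing A₀] [Algebra ℂ A₀] [StarModule ℂ A₀]
    {R₀ : X → Type} [∀ x, Ring (R₀ x)] [∀ x, StarRing (R₀ x)] [∀ x, Algebra ℂ (R₀ x)]
    [∀ x, StarModule ℂ (R₀ x)]
    {n₀ : Λ → Type} [∀ l, Fintype (n₀ l)] [∀ l, DecidableEq (n₀ l)]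
    {Γ : Ctx F A R n} {Γ₀ : Ctx F A₀ R₀ n₀} {ι : A₀ →⋆ₐ[ℂ] A}

lemma Over.zero (h : Γ.Over Γ₀ ι) {x : X} {a : A₀} (ha : Γ₀.π x a = 0) : Γ.π x (ι a) = 0 := by
  simpa using h x a 0 (by simpa using ha)

lemma Over.one (h : Γ.Over Γ₀ ι) {x : X} {a : A₀} (ha : Γ₀.π x a = 1) : Γ.π x (ι a) = 1 := by
  simpa using h x a 1 (by simpa using ha)

lemma Over.live (h : Γ.Over Γ₀ ι) {k : ℕ} {c : Fin k → Cut A₀} {x : X}
    (hx : Γ.Live (lift ι c) x) : Γ₀.Live c x := fun j h0 => hx j (h.zero h0)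

lemma Over.admW (h : Γ.Over Γ₀ ι) {k : ℕ} {c : Fin k → Cut A₀} (hc : Γ₀.AdmW c) :
    Γ.AdmW (lift ι c) := by
  refine ⟨fun j => ?_, fun x j => ?_⟩
  · obtain ⟨h1, h2, h3⟩ := hc.1 j
    refine ⟨?_, ?_, ?_⟩ <;> simp only [lift, Cut.map, ← map_star, h1, h2, h3]
  · rcases hc.2 x j with h1 | h1 | h1 | h1 | h1 | h1
    · exact Or.inl (h.zero h1)
    · exact Or.inr (Or.inl (h.one h1))
    · exact Or.inr (Or.inr (Or.inl (h.zero h1)))
    · exact Or.inr (Or.inr (Or.inr (Or.inl (h.one h1))))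
    · exact Or.inr (Or.inr (Or.inr (Or.inr (Or.inl (h.zero h1)))))
    · exact Or.inr (Or.inr (Or.inr (Or.inr (Or.inr (h.one h1)))))

lemma Over.adm (h : Γ.Over Γ₀ ι) {k : ℕ} {c : Fin k → Cut A₀} (hc : Γ₀.Adm c) :
    Γ.Adm (lift ι c) :=
  ⟨h.admW hc.1, fun j => by simp only [lift, Cut.map, ← map_mul, hc.2 j]⟩

lemma Over.trans {A₁ : Type} [Ring A₁] [StarRing A₁] [Algebra ℂ A₁] [StarModule ℂ A₁]
    {R₁ : X → Type} [∀ x, Ring (R₁ x)] [∀ x, StarRing (R₁ x)] [∀ x, Algebra ℂ (R₁ x)]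
    [∀ x, StarModule ℂ (R₁ x)]
    {n₁ : Λ → Type} [∀ l, Fintype (n₁ l)] [∀ l, DecidableEq (n₁ l)]
    {Γ₁ : Ctx F A₁ R₁ n₁} {ι₁ : A →⋆ₐ[ℂ] A₁} (h₁ : Γ₁.Over Γ ι₁) (h : Γ.Over Γ₀ ι) :
    Γ₁.Over Γ₀ (ι₁.comp ι) := fun x a b hab => h₁ x _ _ (h x a b hab)

end Over

lemma over_m2 (Γ : Ctx F A R n) : Γ.m2.Over Γ s2H := fun x a b h => by
  ext i j; fin_cases i <;> fin_cases j <;> simp [s2, h]

lemma over_mat (Γ : Ctx F A R n) (I : Type) [Fintype I] [DecidableEq I] :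
    (Γ.mat I).Over Γ (scH I) := fun x a b h => by
  ext i j
  by_cases hij : i = j
  · subst hij; simp [scH_apply, sc, h]
  · simp [scH_apply, sc, Matrix.diagonal_apply_ne _ hij]

lemma Adm.m2 {Γ : Ctx F A R n} {k : ℕ} {c : Fin k → Cut A} (hc : Γ.Adm c) :
    Γ.m2.Adm (lift s2 c) := Γ.over_m2.adm hc

lemma AdmW.m2 {Γ : Ctx F A R n} {k : ℕ} {c : Fin k → Cut A} (hc : Γ.AdmW c) :
    Γ.m2.AdmW (lift s2 c) := Γ.over_m2.admW hc

lemma Live.of_m2 {Γ : Ctx F A R n} {k : ℕ} {c : Fin k → Cut A} {x : X}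
    (hx : Γ.m2.Live (lift s2 c) x) : Γ.Live c x := Γ.over_m2.live hx

lemma Adm.mat {Γ : Ctx F A R n} {k : ℕ} {c : Fin k → Cut A} (hc : Γ.Adm c)
    (I : Type) [Fintype I] [DecidableEq I] : (Γ.mat I).Adm (lift (sc I) c) :=
  (Γ.over_mat I).adm hc

lemma Live.of_mat {Γ : Ctx F A R n} {k : ℕ} {c : Fin k → Cut A} {x : X}
    {I : Type} [Fintype I] [DecidableEq I]
    (hx : (Γ.mat I).Live (lift (sc I) c) x) : Γ.Live c x := (Γ.over_mat I).live hx

lemma AdmW.tail {Γ : Ctx F A R n} {k : ℕ} {c : Fin (k + 1) → Cut A} (hc : Γ.AdmW c) :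
    Γ.AdmW (Fin.tail c) := ⟨fun j => hc.1 j.succ, fun x j => hc.2 x j.succ⟩

lemma Adm.tail {Γ : Ctx F A R n} {k : ℕ} {c : Fin (k + 1) → Cut A} (hc : Γ.Adm c) :
    Γ.Adm (Fin.tail c) := ⟨hc.1.tail, fun j => hc.2 j.succ⟩

lemma live_succ {Γ : Ctx F A R n} {k : ℕ} {c : Fin (k + 1) → Cut A} {x : X}
    (hx : Γ.Live (Fin.tail c) x) (h0 : Γ.π x (c 0).C ≠ 0) : Γ.Live c x :=
  fun j => Fin.cases h0 (fun j => hx j) j

end Ctx

/-! Concrete contexts from labelled threads -/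

structure Lab {Λ : Type} (U : Ultrafilter Λ) (n : Λ → Type) (X : Type) where
  lab : (∀ l, n l) → X
  congr : ∀ u v, (∀ᶠ l in (U : Filter Λ), u l = v l) → lab u = lab v

lemma thread {Λ : Type} (U : Ultrafilter Λ) {α : Λ → Type} [∀ l, Nonempty (α l)]
    {P : ∀ l, α l → Prop} (h : ∀ θ : ∀ l, α l, ∀ᶠ l in (U : Filter Λ), P l (θ l)) :
    ∀ᶠ l in (U : Filter Λ), ∀ a, P l a := by
  classical
  by_contra hn
  have h1 : ∀ᶠ l in (U : Filter Λ), ∃ a, ¬ P l a := by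
    have := Ultrafilter.eventually_not.2 hn
    filter_upwards [this] with l hl
    exact not_forall.1 hl
  let θ : ∀ l, α l := fun l => if h : ∃ a, ¬ P l a then h.choose else Classical.arbitrary _
  obtain ⟨l, hl1, hl2⟩ := (h1.and (h θ)).exists
  have : θ l = hl1.choose := by simp only [θ]; rw [dif_pos hl1]
  exact hl1.choose_spec (this ▸ hl2)

namespace Lab
variable {Λ X : Type} {U : Ultrafilter Λ} {n : Λ → Type} [∀ l, Fintype (n l)]
  [∀ l, DecidableEq (n l)] [∀ l, Nonempty (n l)]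

lemma exists_mid (a b : ∀ l, Matrix (n l) (n l) ℂ) (u v : ∀ l, n l)
    (h : ∀ᶠ l in (U : Filter Λ), (a l * b l) (u l) (v l) ≠ 0) :
    ∃ m : ∀ l, n l, (∀ᶠ l in (U : Filter Λ), a l (u l) (m l) ≠ 0) ∧
      ∀ᶠ l in (U : Filter Λ), b l (m l) (v l) ≠ 0 := by
  by_contra hn
  have : ∀ᶠ l in (U : Filter Λ), ∀ m, a l (u l) m * b l m (v l) = 0 := by
    refine thread U fun m => ?_
    by_contra h1
    have h2 := Ultrafilter.eventually_not.2 h1
    exact hn ⟨m, h2.mono fun l hl => left_ne_zero_of_mul hl,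
      h2.mono fun l hl => right_ne_zero_of_mul hl⟩
  obtain ⟨l, h1, h2⟩ := (h.and this).exists
  exact h1 (by rw [Matrix.mul_apply]; exact Finset.sum_eq_zero fun m _ => h2 m)

/-- the controlled sequences of matrices -/
def ctrl (L : Lab U n X) : StarSubalgebra ℂ (∀ l, Matrix (n l) (n l) ℂ) where
  carrier := {a | ∀ u v : ∀ l, n l, (∀ᶠ l in (U : Filter Λ), a l (u l) (v l) ≠ 0) →
    L.lab u = L.lab v}
  mul_mem' := fun {a b} ha hb u v h => by
    obtain ⟨m, h1, h2⟩ := exists_mid a b u v h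
    exact (ha u m h1).trans (hb m v h2)
  add_mem' := fun {a b} ha hb u v h => by
    by_cases h1 : ∀ᶠ l in (U : Filter Λ), a l (u l) (v l) ≠ 0
    · exact ha u v h1
    · refine hb u v ?_
      filter_upwards [h, Ultrafilter.eventually_not.2 h1] with l h2 h3
      intro h4
      apply h2
      simp [not_not.1 h3, h4]
  algebraMap_mem' := fun r u v h => L.congr u v <| h.mono fun l hl => by
    by_contra h1
    apply hl
    simp [Matrix.algebraMap_matrix_apply, h1]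
  star_mem' := fun {a} ha u v h => (ha v u <| h.mono fun l hl h1 => hl (by
    simp [Matrix.star_apply, h1])).symm

lemma mem_ctrl (L : Lab U n X) (a : ∀ l, Matrix (n l) (n l) ℂ) :
    a ∈ L.ctrl ↔ ∀ u v : ∀ l, n l, (∀ᶠ l in (U : Filter Λ), a l (u l) (v l) ≠ 0) →
      L.lab u = L.lab v := Iff.rfl

def Van (L : Lab U n X) (x : X) (a : L.ctrl) : Prop :=
  ∀ u v : ∀ l, n l, L.lab v = x → ∀ᶠ l in (U : Filter Λ), a.1 l (u l) (v l) = 0

lemma Van.add {L : Lab U n X} {x : X} {a b : L.ctrl} (ha : L.Van x a) (hb : L.Van x b) :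
    L.Van x (a + b) := fun u v hv => by
  filter_upwards [ha u v hv, hb u v hv] with l h1 h2
  simp [h1, h2]

lemma Van.neg {L : Lab U n X} {x : X} {a : L.ctrl} (ha : L.Van x a) : L.Van x (-a) :=
  fun u v hv => by
    filter_upwards [ha u v hv] with l h1
    simp [h1]

lemma Van.mul_left {L : Lab U n X} {x : X} {a : L.ctrl} (ha : L.Van x a) (b : L.ctrl) :
    L.Van x (b * a) := fun u v hv => by
  by_contra h
  obtain ⟨m, -, h2⟩ := exists_mid b.1 a.1 u v (Ultrafilter.eventually_not.2 h)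
  obtain ⟨l, h3, h4⟩ := (h2.and (ha m v hv)).exists
  exact h3 h4

lemma Van.mul_right {L : Lab U n X} {x : X} {a : L.ctrl} (ha : L.Van x a) (b : L.ctrl) :
    L.Van x (a * b) := fun u v hv => by
  by_contra h
  obtain ⟨m, h1, h2⟩ := exists_mid a.1 b.1 u v (Ultrafilter.eventually_not.2 h)
  obtain ⟨l, h3, h4⟩ := (h1.and (ha u m ((b.2 m v h2).trans hv))).exists
  exact h3 h4

lemma Van.star {L : Lab U n X} {x : X} {a : L.ctrl} (ha : L.Van x a) : L.Van x (star a) :=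
  fun u v hv => by
    by_contra h
    have h1 : ∀ᶠ l in (U : Filter Λ), a.1 l (v l) (u l) ≠ 0 :=
      (Ultrafilter.eventually_not.2 h).mono fun l hl h2 => hl (by
        show (Star.star a.1) l (u l) (v l) = 0
        simp [Matrix.star_apply, h2])
    obtain ⟨l, h3, h4⟩ := (h1.and (ha v u ((a.2 v u h1).symm.trans hv))).exists
    exact h3 h4

def con (L : Lab U n X) (x : X) : SCon L.ctrl where
  r a b := L.Van x (a - b)
  iseqv := ⟨fun a u v _ => by simp, fun {a b} h => by simpa using h.neg,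
    fun {a b c} h h' => by simpa using h.add h'⟩
  mul' := fun {a b c d} h h' => by
    have := (h.mul_right c).add (h'.mul_left b)
    have e : (a - b) * c + b * (c - d) = a * c - b * d := by
      rw [sub_mul, mul_sub]; abel
    rwa [e] at this
  add' := fun {a b c d} h h' => by
    have := h.add h'
    have e : a - b + (c - d) = a + c - (b + d) := by abel
    rwa [e] at this
  star' := fun {a b} h => by
    have := h.star
    rwa [star_sub] at this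

def ev (L : Lab U n X) (l : Λ) : L.ctrl →⋆ₐ[ℂ] Matrix (n l) (n l) ℂ :=
  (Pi.evalStarAlgHom ℂ (fun l => Matrix (n l) (n l) ℂ) l).comp L.ctrl.subtype

@[simp] lemma ev_apply (L : Lab U n X) (l : Λ) (a : L.ctrl) : L.ev l a = a.1 l := rfl

def ctx (L : Lab U n X) : Ctx (U : Filter Λ) L.ctrl (fun x => (L.con x).Q) n where
  π x := (L.con x).mkH
  ρ l := preRep (idRep (n l)) (L.ev l)
  fin a h := by
    have h1 : ∀ x, L.Van x a := fun x => by
      have := (SCon.mkH_eq _ a 0).1 ((h x).trans (map_zero _).symm)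
      simpa [con] using this
    have h2 : ∀ᶠ l in (U : Filter Λ), ∀ uv : n l × n l, a.1 l uv.1 uv.2 = 0 :=
      thread U fun θ => h1 _ (fun l => (θ l).1) (fun l => (θ l).2) rfl
    filter_upwards [h2] with l hl
    ext i j
    exact hl (i, j)

lemma ctx_ρ (L : Lab U n X) (l : Λ) : L.ctx.ρ l = preRep (idRep (n l)) (L.ev l) := rfl

lemma ctx_π_eq (L : Lab U n X) (x : X) (a b : L.ctrl) :
    L.ctx.π x a = L.ctx.π x b ↔
      ∀ u v : ∀ l, n l, L.lab v = x →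
        ∀ᶠ l in (U : Filter Λ), a.1 l (u l) (v l) = b.1 l (u l) (v l) := by
  refine (SCon.mkH_eq _ a b).trans ?_
  show L.Van x (a - b) ↔ _
  simp [Van, sub_eq_zero]

def dia (L : Lab U n X) (g : ∀ l, n l → ℂ) : L.ctrl :=
  ⟨fun l => Matrix.diagonal (g l), fun u v h => L.congr u v <| h.mono fun l hl => by
    by_contra h1
    exact hl (Matrix.diagonal_apply_ne _ h1)⟩

def cuts (L : Lab U n X) {k : ℕ} (g : ∀ l, n l → E k) (t : E k) (r : ℝ) :
    Fin k → Cut L.ctrl := fun j =>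
  ⟨L.dia fun l a => ind (g l a (j, false) ≤ t (j, false)),
   L.dia fun l a => ind (g l a (j, true) ≤ t (j, true)),
   L.dia fun l a => ind (|g l a (j, false) - t (j, false)| ≤ r ∧
     |g l a (j, true) - t (j, true)| ≤ r)⟩

lemma lift_ev_cuts (L : Lab U n X) {k : ℕ} (g : ∀ l, n l → E k) (t : E k) (r : ℝ) (l : Λ) :
    lift (L.ev l) (L.cuts g t r) = rawCuts (g l) t r := rfl

/-- `g` converges along every thread to a point depending only on the label -/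
def Pt (L : Lab U n X) {k : ℕ} (g : ∀ l, n l → E k) (pt : X → E k) : Prop :=
  ∀ θ : ∀ l, n l, Tendsto (fun l => g l (θ l)) (U : Filter Λ) (𝓝 (pt (L.lab θ)))

end Lab

/-- the signature of the form attached to finite data -/
def rawSig {k : ℕ} {n : Type} [Fintype n] [DecidableEq n] (v : n → Lat k) (g : n → E k)
    (e K L : Raw k n) : ℤ :=
  sigR k (matRep (Fin 2) (matRep (B k) (idRep n)))
    (lift s2 (lift (sc (B k)) (rawCuts g 0 (1 / 2))))
    (Bf (dM k (shiftM v)) (φM k (shiftM v)) (ψM k (shiftM v)) e K L)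
    (Bf' (dM k (shiftM v)) (φM k (shiftM v)) (ψM k (shiftM v)) e K L)

/-- finite data at one mesh size -/
structure Disc (k : ℕ) (ε : ℝ) where
  n : Type
  [fin : Fintype n]
  [dec : DecidableEq n]
  v : n → Lat k
  η : ℝ
  F : n → E k
  e : Bool → Raw k n
  K : Bool → Raw k n
  L : Bool → Raw k n
  N : Bool → Raw k n
  inj : Function.Injective v
  ηpos : 0 < η
  ηle : η ≤ ε
  surj : ∀ w : Lat k, ‖pos η w‖ ≤ 1 → ∃ a, v a = w
  hF : ∀ a, (‖pos η (v a)‖ ≤ 1 ∨ ‖F a‖ ≤ 1) → dist (F a) (pos η (v a)) ≤ ε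
  hz : ∀ a a' i, v a = v a' + Pi.single i 1 → dist (F a) (F a') ≤ ε
  ce : ∀ s b b' a a', e s b b' a a' ≠ 0 → dist (F a) (F a') ≤ ε
  cK : ∀ s b b' a a', K s b b' a a' ≠ 0 → dist (F a) (F a') ≤ ε
  cL : ∀ s b b' a a', L s b b' a a' ≠ 0 → dist (F a) (F a') ≤ ε
  cN : ∀ s b b' a a', N s b b' a a' ≠ 0 → dist (F a) (F a') ≤ ε
  r1 : ∀ s a, ‖F a‖ ≤ 3 / 4 → ColZero (dM k (shiftM v) * e s - e s * dM k (shiftM v)) a
  r2 : ∀ s a, ‖F a‖ ≤ 3 / 4 →
    ColZero (e s * e s - e s - (dM k (shiftM v) * K s + K s * dM k (shiftM v))) a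
  r3 : ∀ s a, ‖F a‖ ≤ 3 / 4 →
    ColZero (ψM k (shiftM v) * star (e s) * φM k (shiftM v) - e s -
      (dM k (shiftM v) * L s + L s * dM k (shiftM v))) a
  r4 : ∀ s a, ‖F a‖ ≤ 3 / 4 →
    ColZero (e s - (if s then 1 else 0) - (dM k (shiftM v) * N s + N s * dM k (shiftM v))) a
  sig : rawSig v F (e true) (K true) (L true) = rawSig v F (e false) (K false) (L false)

attribute [instance] Disc.fin Disc.dec

end Vale.Agent.P228
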