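import Vale.Agent.P228.OpsCt

set_option linter.unusedSectionVars false
noncomputable section
open Matrix Filter Topology
namespace Vale.Agent.P228

section Col
variable {k : ℕ} {n : Type} [Fintype n] [DecidableEq n] {a : n}

lemma dx_mul_left {Y : Raw k n} (h : ColZero Y a) (X : Raw k n) : ColZero (X * Y) a :=
  fun b b' u => by
    simp only [Matrix.mul_apply, Matrix.sum_apply, h _ _ _, mul_zero, Finset.sum_const_zero]

lemma dx_sub {X Y : Raw k n} (h : ColZero X a) (h' : ColZero Y a) : ColZero (X - Y) a :=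
  fun b b' u => by simp only [Matrix.sub_apply, h b b' u, h' b b' u, sub_zero]

lemma dx_right (X : Raw k n) (g : n → ℂ) (b b' : B k) (u w : n) :
    (X * sc (B k) (Matrix.diagonal g)) b b' u w = X b b' u w * g w := by
  simp only [sc, Matrix.mul_diagonal]

lemma dx_left (X : Raw k n) (g : n → ℂ) (b b' : B k) (u w : n) :
    (sc (B k) (Matrix.diagonal g) * X) b b' u w = g u * X b b' u w := by
  simp only [sc, Matrix.diagonal_mul]

lemma dx_cut {e d N : Raw k n} {g : n → ℂ} (h : ColZero (e - (d * N + N * d)) a) (h1 : g a = 1)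
    (h2 : ∀ b b' u, d b b' u a ≠ 0 → g u = 1) :
    ColZero (e - (d * (N * sc (B k) (Matrix.diagonal g)) + N * sc (B k) (Matrix.diagonal g) * d))
      a := by
  have k1 : ColZero (d * N * sc (B k) (Matrix.diagonal g) - d * N) a := fun b b' u => by
    rw [Matrix.sub_apply, Matrix.sub_apply, dx_right, h1, mul_one, sub_self]
  have k2 : ColZero (sc (B k) (Matrix.diagonal g) * d - d) a := fun b b' u => by
    rw [Matrix.sub_apply, Matrix.sub_apply, dx_left]
    by_cases h0 : d b b' u a = 0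
    · rw [h0, mul_zero, sub_zero]
    · rw [h2 b b' u h0, one_mul, sub_self]
  have := dx_sub (dx_sub h k1) (dx_mul_left k2 N)
  rwa [show e - (d * N + N * d) - (d * N * sc (B k) (Matrix.diagonal g) - d * N) -
    N * (sc (B k) (Matrix.diagonal g) * d - d) =
    e - (d * (N * sc (B k) (Matrix.diagonal g)) + N * sc (B k) (Matrix.diagonal g) * d) by
      noncomm_ring] at this

end Col

lemma dx_imp {P Q : ℕ → Prop}
    (h : (∀ᶠ l in (UU : Filter ℕ), P l) → ∀ᶠ l in (UU : Filter ℕ), Q l) :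
    ∀ᶠ l in (UU : Filter ℕ), P l → Q l := by
  by_cases hP : ∀ᶠ l in (UU : Filter ℕ), P l
  · exact (h hP).mono fun _ h _ => h
  · exact (Ultrafilter.eventually_not.2 hP).mono fun _ h h' => absurd h' h

namespace Config
variable {p : ℕ} [Fact p.Prime] {k : ℕ} {δ : ℝ} (c : Config p k δ)

lemma dx_fx (θ : ∀ l, c.G l) :
    Tendsto (fun l => c.fx l (θ l)) (UU : Filter ℕ) (𝓝 (c.f (c.lim θ))) := c.pt_fx θ

lemma dx_ctl (a : c.Lb.ctrl) {ε : ℝ} (hε : 0 < ε) : ∀ᶠ l in (UU : Filter ℕ), ∀ u w,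
    a.1 l u w ≠ 0 → dist (c.fx l u) (c.fx l w) ≤ ε := by
  have := thread UU (α := fun l => c.G l × c.G l)
    (P := fun l q => a.1 l q.1 q.2 ≠ 0 → dist (c.fx l q.1) (c.fx l q.2) ≤ ε) fun θ =>
      dx_imp fun h => by
        have h1 := a.2 (fun l => (θ l).1) (fun l => (θ l).2) h
        have h2 := (c.pt_fx fun l => (θ l).1).dist (c.pt_fx fun l => (θ l).2)
        rw [h1, dist_self] at h2
        exact (h2.eventually_lt_const hε).mono fun _ => le_of_lt
  exact this.mono fun l hl u w => hl (u, w)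

lemma dx_mat (Y : c.Mat) {ε : ℝ} (hε : 0 < ε) : ∀ᶠ l in (UU : Filter ℕ), ∀ b b' u w,
    c.lev l Y b b' u w ≠ 0 → dist (c.fx l u) (c.fx l w) ≤ ε :=
  eventually_all.2 fun b => eventually_all.2 fun b' => c.dx_ctl (Y b b') hε

lemma dx_lim (θ : ∀ l, c.G l) {r : ℝ} (h : ∀ᶠ l in (UU : Filter ℕ), ‖c.fx l (θ l)‖ ≤ r) :
    ‖c.f (c.lim θ)‖ ≤ r := le_of_tendsto (c.dx_fx θ).norm h

lemma dx_col (Y : c.Mat) (h : ∀ x : Set (E k) × E k, x.2 ∈ Metric.ball c.o c.R → c.Γ.π x Y = 0) :
    ∀ᶠ l in (UU : Filter ℕ), ∀ a, ‖c.fx l a‖ ≤ 3 / 4 → ColZero (c.lev l Y) a :=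
  thread UU (P := fun l a => ‖c.fx l a‖ ≤ 3 / 4 → ColZero (c.lev l Y) a) fun θ => dx_imp fun h1 =>
    c.Lb.colZero_of_π Y θ (h _ (c.unitO (mem_closedBall_zero_iff.2
      ((c.dx_lim θ h1).trans (by norm_num)))))

/-- the cut-off of the homotopy -/
def dxCut (l : ℕ) : Raw k (c.G l) := sc (B k) (Matrix.diagonal fun a => ind (‖c.fx l a‖ ≤ 7 / 8))

lemma dx_cN (hδ : δ ≤ 1 / 32) (O : c.Ops) {ε : ℝ} (hε : 3 * δ < ε) (s : ZMod p) (b b' : B k) :
    ∀ᶠ l in (UU : Filter ℕ), ∀ u w, (O.N s l * c.dxCut l) b b' u w ≠ 0 →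
      dist (c.fx l u) (c.fx l w) ≤ ε := by
  have := thread UU (α := fun l => c.G l × c.G l)
    (P := fun l q => (O.N s l * c.dxCut l) b b' q.1 q.2 ≠ 0 →
      dist (c.fx l q.1) (c.fx l q.2) ≤ ε) fun θ => dx_imp fun h => by
        simp only [dxCut, dx_right] at h
        have h1 := c.dx_lim (fun l => (θ l).2) (r := 7 / 8) (h.mono fun l hl => by
          by_contra h0
          exact hl (by simp only [ind, if_neg h0, mul_zero]))
        have h2 := O.cN s b b' (fun l => (θ l).1) (fun l => (θ l).2)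
          (h.mono fun l hl => left_ne_zero_of_mul hl) (h1.trans (by norm_num))
        have h3 := (c.small _ (c.lim_mem fun l => (θ l).2) (.inr (h1.trans (by norm_num)))).1
        have h4 : ‖c.lim fun l => (θ l).1‖ ≤ 1 := by
          rw [← dist_zero_right] at h1 ⊢
          have := dist_triangle4 (c.lim fun l => (θ l).1) (c.lim fun l => (θ l).2)
            (c.f (c.lim fun l => (θ l).2)) 0
          rw [dist_comm] at h3
          linarith
        have h5 := (c.small _ (c.lim_mem fun l => (θ l).1) (.inl h4)).1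
        have h6 := dist_triangle4 (c.f (c.lim fun l => (θ l).1)) (c.lim fun l => (θ l).1)
          (c.lim fun l => (θ l).2) (c.f (c.lim fun l => (θ l).2))
        rw [dist_comm] at h3
        exact (((c.dx_fx fun l => (θ l).1).dist (c.dx_fx fun l => (θ l).2)).eventually_lt_const
          (show _ < ε by linarith)).mono fun _ => le_of_lt
  exact this.mono fun l hl u w => hl (u, w)

lemma dx_r4 (O : c.Ops) (s : ZMod p) : ∀ᶠ l in (UU : Filter ℕ), ∀ a, ‖c.fx l a‖ ≤ 3 / 4 →
    ColZero (c.lev l (tw s O.e) - (if s = 0 then 1 else 0) -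
      (dM k (shiftM (c.v l)) * (O.N s l * c.dxCut l) +
        O.N s l * c.dxCut l * dM k (shiftM (c.v l)))) a := by
  have h1 := thread UU (P := fun l a => ‖c.fx l a‖ ≤ 3 / 4 →
    ColZero (c.lev l (tw s O.e) - (if s = 0 then 1 else 0) -
      (dM k (shiftM (c.v l)) * O.N s l + O.N s l * dM k (shiftM (c.v l)))) a) fun θ =>
      dx_imp fun h => O.rN s θ ((c.dx_lim θ h).trans (by norm_num))
  filter_upwards [h1, c.dx_mat (dM k c.z) (by norm_num : (0 : ℝ) < 1 / 8)] with l h2 h3 a ha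
  refine dx_cut (h2 a ha) (if_pos (ha.trans (by norm_num))) fun b b' u hu => if_pos ?_
  rw [c.lev_dM] at h3
  have h4 := h3 b b' u a hu
  rw [← dist_zero_right] at ha ⊢
  linarith [dist_triangle (c.fx l u) (c.fx l a) 0]

theorem exists_disc (hδ : δ ≤ 1 / 32) (O : c.Ops)
    (hs : ∀ᶠ l in (UU : Filter ℕ),
      rawSig (c.v l) (c.fx l) (c.lev l (tw 0 O.e)) (c.lev l (tw 0 O.K)) (c.lev l (tw 0 O.L)) =
        rawSig (c.v l) (c.fx l) (c.lev l (tw 1 O.e)) (c.lev l (tw 1 O.K)) (c.lev l (tw 1 O.L)))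
    {ε : ℝ} (hε : 3 * δ < ε) : Nonempty (Disc k ε) := by
  have δ0 : 0 ≤ δ :=
    dist_nonneg.trans (c.small 0 (interior_subset c.zero_mem_int) (.inl (by simp))).1
  have ε0 : 0 < ε := by linarith
  let sb : Bool → ZMod p := fun b => cond b 0 1
  have a1 := eta_tendsto.eventually_lt_const ε0
  have a2 := eventually_all.2 fun i => c.dx_ctl (c.z i) ε0
  have a3 := eventually_all.2 fun s => c.dx_mat (tw (sb s) O.e) ε0
  have a4 := eventually_all.2 fun s => c.dx_mat (tw (sb s) O.K) ε0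
  have a5 := eventually_all.2 fun s => c.dx_mat (tw (sb s) O.L) ε0
  have a6 := eventually_all.2 fun s => eventually_all.2 fun b => eventually_all.2 fun b' =>
    c.dx_cN hδ O hε (sb s) b b'
  have a7 := eventually_all.2 fun s => c.dx_col
    (dM k c.z * tw (sb s) O.e - tw (sb s) O.e * dM k c.z) fun x hx => by
      simp only [map_sub, map_mul]
      exact sub_eq_zero.2 (O.idem (sb s) x hx).1
  have a8 := eventually_all.2 fun s => c.dx_col
    (tw (sb s) O.e * tw (sb s) O.e - tw (sb s) O.e -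
      (dM k c.z * tw (sb s) O.K + tw (sb s) O.K * dM k c.z)) fun x hx => by
      simp only [map_sub, map_mul, map_add]
      exact sub_eq_zero.2 (O.idem (sb s) x hx).2.1
  have a9 := eventually_all.2 fun s => c.dx_col
    (ψM k c.z * star (tw (sb s) O.e) * φM k c.z - tw (sb s) O.e -
      (dM k c.z * tw (sb s) O.L + tw (sb s) O.L * dM k c.z)) fun x hx => by
      simp only [map_sub, map_mul, map_add, map_star]
      exact sub_eq_zero.2 (O.idem (sb s) x hx).2.2
  have a10 := eventually_all.2 fun s => c.dx_r4 O (sb s)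
  simp only [map_sub, map_mul, map_add, map_star, c.lev_dM, c.lev_φM, c.lev_ψM] at a7 a8 a9
  obtain ⟨l, ⟨⟨⟨b0, b1⟩, b2, b3⟩, ⟨b4, b5⟩, b6⟩, ⟨b7, b8⟩, b9, b10⟩ :=
    (((((hs.and a1).and (a2.and a3)).and ((a4.and a5).and a6))).and
      ((a7.and a8).and (a9.and a10))).exists
  exact ⟨{
    n := c.G l
    v := c.v l
    η := eta l
    F := c.fx l
    e := fun s => c.lev l (tw (sb s) O.e)
    K := fun s => c.lev l (tw (sb s) O.K)
    L := fun s => c.lev l (tw (sb s) O.L)
    N := fun s => O.N (sb s) l * c.dxCut l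
    inj := c.v_inj l
    ηpos := eta_pos l
    ηle := b1.le
    surj := fun w hw => (c.mem_range_v l w).2
      (interior_subset (c.unit_subset_int (mem_closedBall_zero_iff.2 hw)))
    hF := fun a h => (c.small _ (c.x_mem l a) h).1.trans (by linarith)
    hz := fun a a' i h => b2 i a a' (by
      change shiftM (c.v l) i a a' ≠ 0
      simp [shiftM, h])
    ce := b3
    cK := b4
    cL := b5
    cN := b6
    r1 := b7
    r2 := b8
    r3 := b9
    r4 := fun s a ha => by
      have := b10 s a ha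
      cases s
      · rwa [if_neg (show ¬sb false = 0 from one_ne_zero)] at this
      · rwa [if_pos (show sb true = 0 from rfl)] at this
    sig := b0 }⟩

end Config

end Vale.Agent.P228
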