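import Vale.Agent.P228.Nat

set_option linter.unusedSectionVars false
noncomputable section
open Matrix Filter Topology
namespace Vale.Agent.P228

lemma eta_pos (l : ℕ) : 0 < eta l := by unfold eta; positivity

lemma UU_le_atTop : (UU : Filter ℕ) ≤ atTop := by
  rw [← Nat.cofinite_eq_atTop]; exact Filter.hyperfilter_le_cofinite

lemma eta_tendsto : Tendsto eta (UU : Filter ℕ) (𝓝 0) :=
  tendsto_one_div_add_atTop_nhds_zero_nat.mono_left UU_le_atTop

/-- a lattice thread is asymptotically within `ρ` of `y` -/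
def Near {k : ℕ} (u : ℕ → Lat k) (y : E k) (ρ : ℝ) : Prop :=
  ∀ ε > 0, ∀ᶠ l in (UU : Filter ℕ), dist (pos (eta l) (u l)) y ≤ ρ + ε

def Conv {k : ℕ} (u : ℕ → Lat k) (y : E k) : Prop :=
  Tendsto (fun l => pos (eta l) (u l)) (UU : Filter ℕ) (𝓝 y)

/-- threads at `y` are sent into the ball of centre `y'` and radius `ρ` -/
def Ctl {k : ℕ} (O : ℕ → Op k) (y y' : E k) (ρ : ℝ) : Prop :=
  ∀ i j : ℕ → B k × Lat k, Conv (fun l => (j l).2) y →
    (∀ᶠ l in (UU : Filter ℕ), ent (O l) (i l) (j l) ≠ 0) → Near (fun l => (i l).2) y' ρ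

namespace Config
variable {p : ℕ} [Fact p.Prime] {k : ℕ} {δ : ℝ} (c : Config p k δ)

def G (l : ℕ) : Type := {v : Lat k // pos (eta l) v ∈ c.K}

instance (l : ℕ) : Finite (c.G l) := by
  obtain ⟨r, hr⟩ := c.Kc.isBounded.exists_norm_le
  obtain ⟨N, hN⟩ := exists_nat_ge (r / eta l)
  have h : {v : Lat k | pos (eta l) v ∈ c.K} ⊆ Set.pi Set.univ fun _ => Set.Icc (-(N : ℤ)) N := by
    intro v hv i _
    have h1 : |eta l * (v i : ℝ)| ≤ r := (norm_le_pi_norm (pos (eta l) v) i).trans (hr _ hv)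
    rw [abs_mul, abs_of_pos (eta_pos l)] at h1
    have h2 : |(v i : ℝ)| ≤ N := le_trans (by rw [le_div_iff₀ (eta_pos l)]; linarith) hN
    have h3 : |v i| ≤ (N : ℤ) := by exact_mod_cast h2
    exact abs_le.1 h3
  exact (Set.Finite.pi' fun _ => Set.finite_Icc _ _).subset fun v hv i => h hv i trivial

instance (l : ℕ) : Fintype (c.G l) := Fintype.ofFinite _
instance (l : ℕ) : DecidableEq (c.G l) := Classical.decEq _

lemma zero_mem_int : (0 : E k) ∈ interior c.K := by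
  have h1 : (0 : E k) ∈ Metric.closedBall c.b c.Rb :=
    Metric.ball_subset_closedBall (c.unitB (by simp))
  have := c.Kint 0 0 h1
  rwa [c.zero 0 (c.BΩ h1)] at this

instance (l : ℕ) : Nonempty (c.G l) := ⟨⟨0, by
  have : pos (eta l) (0 : Lat k) = 0 := by funext i; simp [pos]
  rw [this]; exact interior_subset c.zero_mem_int⟩⟩

/-- the lattice point of an index -/
def v (l : ℕ) : c.G l → Lat k := fun a => a.1

lemma v_inj (l : ℕ) : Function.Injective (c.v l) := Subtype.val_injective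

lemma mem_range_v (l : ℕ) (w : Lat k) : w ∈ Set.range (c.v l) ↔ pos (eta l) w ∈ c.K :=
  ⟨by rintro ⟨a, rfl⟩; exact a.2, fun h => ⟨⟨w, h⟩, rfl⟩⟩

/-- the position of an index -/
def x (l : ℕ) (a : c.G l) : E k := pos (eta l) (c.v l a)

lemma x_mem (l : ℕ) (a : c.G l) : c.x l a ∈ c.K := a.2

lemma exists_lim (θ : ∀ l, c.G l) :
    ∃ y ∈ c.K, Tendsto (fun l => c.x l (θ l)) (UU : Filter ℕ) (𝓝 y) := by
  obtain ⟨y, hy, h⟩ := c.Kc.ultrafilter_le_nhds (UU.map fun l => c.x l (θ l))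
    (by simp only [Ultrafilter.coe_map, Filter.le_principal_iff, Filter.mem_map]
        exact Filter.univ_mem' fun l => c.x_mem l _)
  exact ⟨y, hy, h⟩

def lim (θ : ∀ l, c.G l) : E k := (c.exists_lim θ).choose

lemma lim_mem (θ : ∀ l, c.G l) : c.lim θ ∈ c.K := (c.exists_lim θ).choose_spec.1

lemma lim_tendsto (θ : ∀ l, c.G l) :
    Tendsto (fun l => c.x l (θ l)) (UU : Filter ℕ) (𝓝 (c.lim θ)) := (c.exists_lim θ).choose_spec.2

lemma lim_conv (θ : ∀ l, c.G l) : Conv (fun l => c.v l (θ l)) (c.lim θ) := c.lim_tendsto θ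

lemma lim_eq {θ : ∀ l, c.G l} {y : E k} (h : Conv (fun l => c.v l (θ l)) y) : c.lim θ = y :=
  tendsto_nhds_unique (c.lim_conv θ) h

def orb (y : E k) : Set (E k) := Set.range fun h => c.act h y

lemma orb_act {y : E k} (hy : y ∈ c.Ω) (h : ℤ_[p]) : c.orb (c.act h y) = c.orb y := by
  ext w
  constructor
  · rintro ⟨g, rfl⟩; exact ⟨g + h, c.add g h y hy⟩
  · rintro ⟨g, rfl⟩; exact ⟨g - h, by show c.act (g - h) (c.act h y) = _; rw [← c.add _ _ y hy]; simp⟩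

lemma self_mem_orb {y : E k} (hy : y ∈ c.Ω) : y ∈ c.orb y := ⟨0, c.zero y hy⟩

/-- fine labels: the orbit of the limit point, with the value of `f` -/
def Lb : Lab UU c.G (Set (E k) × E k) where
  lab θ := (c.orb (c.lim θ), c.f (c.lim θ))
  congr u w h := by
    have : c.lim u = c.lim w := c.lim_eq ((c.lim_conv w).congr' (h.mono fun l hl => by
      simp only [hl]))
    rw [this]

lemma Lb_lab (θ : ∀ l, c.G l) : c.Lb.lab θ = (c.orb (c.lim θ), c.f (c.lim θ)) := rfl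

lemma lab_eq_of_act {u w : ∀ l, c.G l} {h : ℤ_[p]} (e : c.lim u = c.act h (c.lim w)) :
    c.Lb.lab u = c.Lb.lab w := by
  rw [Lb_lab, Lb_lab, e, c.orb_act (c.KΩ (c.lim_mem w)), c.finv h _ (c.KΩ (c.lim_mem w))]

lemma act_of_lab_eq {u w : ∀ l, c.G l} (e : c.Lb.lab u = c.Lb.lab w) :
    ∃ h, c.lim u = c.act h (c.lim w) := by
  have h1 : c.orb (c.lim u) = c.orb (c.lim w) := congrArg Prod.fst e
  have := c.self_mem_orb (c.KΩ (c.lim_mem u))
  rw [h1] at this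
  obtain ⟨h, hh⟩ := this
  exact ⟨h, hh.symm⟩

/-- the value of `f` at an index -/
def fx (l : ℕ) (a : c.G l) : E k := c.f (c.x l a)

lemma pt_fx : c.Lb.Pt c.fx Prod.snd := fun θ =>
  ((c.fcont.continuousAt (c.isOpen.mem_nhds (c.KΩ (c.lim_mem θ)))).tendsto).comp (c.lim_tendsto θ)

lemma conv_shift {u w : ℕ → Lat k} {y : E k} (N : ℕ) (hw : Conv w y)
    (h : ∀ᶠ l in (UU : Filter ℕ), ∀ i, |u l i - w l i| ≤ N) : Conv u y := by
  have h1 : Tendsto (fun l => eta l * N) (UU : Filter ℕ) (𝓝 0) := by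
    simpa using eta_tendsto.mul_const (N : ℝ)
  refine hw.congr_dist (squeeze_zero' (Eventually.of_forall fun _ => dist_nonneg) ?_ h1)
  filter_upwards [h] with l hl
  refine (dist_pi_le_iff (mul_nonneg (eta_pos l).le (Nat.cast_nonneg N))).2 fun i => ?_
  rw [Real.dist_eq, pos, pos, ← mul_sub, abs_mul, abs_of_pos (eta_pos l), abs_sub_comm]
  refine mul_le_mul_of_nonneg_left ?_ (eta_pos l).le
  exact_mod_cast hl i

/-- the compressed shifts -/
def z (i : Ix k) : c.Lb.ctrl := ⟨fun l => shiftM (c.v l) i, fun u w h => by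
  have : c.lim u = c.lim w := c.lim_eq (conv_shift 1 (c.lim_conv w) (h.mono fun l hl t => by
    have h1 : c.v l (u l) = c.v l (w l) + Pi.single i 1 := by
      by_contra h2
      exact hl (by simp [shiftM, h2])
    rw [h1]
    by_cases ht : t = i
    · subst ht; simp
    · simp [Pi.single_eq_of_ne ht]))
  exact c.lab_eq_of_act (h := 0) (by rw [this, c.zero _ (c.KΩ (c.lim_mem w))])⟩

abbrev Mat := Matrix (B k) (B k) c.Lb.ctrl

/-- the fine context -/
abbrev Γ := c.Lb.ctx.mat (B k)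

/-- evaluation at a level -/
abbrev lev (l : ℕ) : c.Mat →⋆ₐ[ℂ] Raw k (c.G l) := mapH (B k) (c.Lb.ev l)

/-- control by a group element -/
def Ct (O : ℕ → Op k) (h : ℤ_[p]) : Prop := ∀ y ∈ c.Ω, Ctl O y (c.act h y) 0

/-- graded control -/
def GCt (Y : ZMod p → c.Mat) : Prop :=
  ∀ g b b' (u w : ∀ l, c.G l), (∀ᶠ l in (UU : Filter ℕ), (Y g b b').1 l (u l) (w l) ≠ 0) →
    ∃ h, PadicInt.toZMod h = g ∧ c.lim u = c.act h (c.lim w)

/-- a family of chain maps approximating the action -/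
structure TFam (T : ℕ → ℤ_[p] → Op k) : Prop where
  chain : ∀ l h, dE k * T l h = T l h * dE k
  aug : ∀ l h y, aug k (T l h y) = aug k y
  deg : ∀ l h, DegPres (T l h)
  ct : ∀ (g : ℕ → ℤ_[p]) h, Tendsto g (UU : Filter ℕ) (𝓝 h) → c.Ct (fun l => T l (g l)) h

/-- a family of homotopy constructors -/
structure HFam (H : ℕ → ℤ_[p] → Op k → Op k) : Prop where
  hom : ∀ l h O (j : B k × Lat k),
    (∀ j', Nr j' j → dE k (O (Finsupp.single j' 1)) = O (dE k (Finsupp.single j' 1)) ∧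
      aug k (O (Finsupp.single j' 1)) = 0) →
    (dE k * H l h O + H l h O * dE k) (Finsupp.single j 1) = O (Finsupp.single j 1)
  ctl : ∀ (g : ℕ → ℤ_[p]) h (O : ℕ → Op k), Tendsto g (UU : Filter ℕ) (𝓝 h) →
    ∀ y ∈ c.Ω, ∀ y' ρ, dist (c.act h y) y' ≤ ρ → Ctl O y y' ρ →
      Ctl (fun l => H l (g l) (O l)) y y' ρ

/-- the dual of a compressed chain map -/
def sharp (l : ℕ) (O : Op k) : Op k :=
  ext (c.v l) (ψM k (shiftM (c.v l)) * star (cmp (c.v l) O) * φM k (shiftM (c.v l)))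

/-- the operators at the fine level -/
structure Ops where
  e : ZMod p → c.Mat
  K : ZMod p → c.Mat
  L : ZMod p → c.Mat
  N : ZMod p → ∀ l, Raw k (c.G l)
  ge : c.GCt e
  gK : c.GCt K
  gL : c.GCt L
  idem : ∀ s (x : Set (E k) × E k), x.2 ∈ Metric.ball c.o c.R →
    Idem (c.Γ.π x (dM k c.z)) (c.Γ.π x (φM k c.z)) (c.Γ.π x (ψM k c.z))
      (c.Γ.π x (tw s e)) (c.Γ.π x (tw s K)) (c.Γ.π x (tw s L))
  cN : ∀ s b b' (u w : ∀ l, c.G l), (∀ᶠ l in (UU : Filter ℕ), N s l b b' (u l) (w l) ≠ 0) →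
    ‖c.f (c.lim w)‖ ≤ 1 → dist (c.lim u) (c.lim w) ≤ δ
  rN : ∀ s (w : ∀ l, c.G l), ‖c.f (c.lim w)‖ ≤ 7 / 8 → ∀ᶠ l in (UU : Filter ℕ),
    ColZero (c.lev l (tw s e) - (if s = 0 then 1 else 0) -
      (dM k (shiftM (c.v l)) * N s l + N s l * dM k (shiftM (c.v l)))) (w l)

/-- a finite trivializing cover near the free fibre -/
structure Cov where
  r : ℝ
  m : ℕ
  W : Fin m → Set (E k)
  U : Fin m → Set (E k)
  μ : Fin m → E k → ℂ
  rpos : 0 < r
  sub : Metric.closedBall c.t r ⊆ Metric.ball c.o c.R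
  Wopen : ∀ i, IsOpen (W i)
  Winv : ∀ i h, ∀ y ∈ W i, c.act h y ∈ W i
  WU : ∀ i, closure (W i) ⊆ U i
  UΩ : ∀ i, U i ⊆ c.Ω
  Uinv : ∀ i h, ∀ y ∈ U i, c.act h y ∈ U i
  cover : ∀ y ∈ c.K, c.f y ∈ Metric.closedBall c.t r → ∃ i, y ∈ W i
  unit : ∀ i y, star (μ i y) * μ i y = 1
  loc : ∀ i, ∀ y ∈ U i, ∀ᶠ y' in 𝓝 y, μ i y' = μ i y
  equi : ∀ i h, ∀ y ∈ U i, μ i (c.act h y) * chi (PadicInt.toZMod h) = μ i y

end Config

end Vale.Agent.P228
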