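import Vale.Agent.P228.Fine

set_option linter.unusedSectionVars false
noncomputable section
open Matrix Filter Topology
namespace Vale.Agent.P228

variable {p : ℕ} [Fact p.Prime]

instance (l : ℕ) : NeZero (p ^ (l + 1)) := ⟨pow_ne_zero _ (Fact.out : p.Prime).ne_zero⟩

/-- the standard lift of a residue class -/
def wt (p : ℕ) [Fact p.Prime] (l : ℕ) (a : ZMod (p ^ (l + 1))) : ℤ_[p] := (a.val : ℤ_[p])

theorem chi_add (a b : ZMod p) : chi (a + b) = chi a * chi b := by
  exact AddChar.map_add_eq_mul _ a b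

theorem chi_zero : chi (0 : ZMod p) = 1 := by
  exact AddChar.map_zero_eq_one _

theorem star_chi (a : ZMod p) : star (chi a) = chi (-a) := by
  exact (AddChar.map_neg_eq_conj _ a).symm

/-- reduction modulo `p` -/
def cst (p : ℕ) [Fact p.Prime] (l : ℕ) : ZMod (p ^ (l + 1)) →+* ZMod p :=
  ZMod.castHom (dvd_pow_self p (Nat.succ_ne_zero l)) (ZMod p)

lemma toZMod_wt (l : ℕ) (a : ZMod (p ^ (l + 1))) : PadicInt.toZMod (wt p l a) = cst p l a := by
  rw [wt, map_natCast, cst, ZMod.castHom_apply, ZMod.natCast_val]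

lemma small_tendsto (m : ℕ → ℤ) (hm : ∀ l, (m l : ZMod (p ^ (l + 1))) = 0) :
    Tendsto (fun l => (m l : ℤ_[p])) (UU : Filter ℕ) (𝓝 0) := by
  have hp : (1 : ℝ) < p := by exact_mod_cast (Fact.out : p.Prime).one_lt
  have h1 : Tendsto (fun l : ℕ => ((p : ℝ)⁻¹) ^ (l + 1)) atTop (𝓝 0) :=
    (tendsto_pow_atTop_nhds_zero_of_lt_one (by positivity) (inv_lt_one_of_one_lt₀ hp)).comp
      (tendsto_add_atTop_nat 1)
  refine squeeze_zero_norm (fun l => ?_) (h1.mono_left UU_le_atTop)
  have h2 := (ZMod.intCast_zmod_eq_zero_iff_dvd _ _).1 (hm l)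
  have h3 := (PadicInt.norm_int_le_pow_iff_dvd (p := p) (k := m l) (n := l + 1)).2
    (by exact_mod_cast h2)
  rwa [_root_.zpow_neg, _root_.zpow_natCast, ← inv_pow] at h3

theorem toZMod_wt_add (l : ℕ) (a b : ZMod (p ^ (l + 1))) :
    PadicInt.toZMod (wt p l (a + b)) = PadicInt.toZMod (wt p l a + wt p l b) := by
  rw [map_add, toZMod_wt, toZMod_wt, toZMod_wt, map_add]

theorem toZMod_wt_neg (l : ℕ) (a : ZMod (p ^ (l + 1))) :
    PadicInt.toZMod (wt p l (-a)) = PadicInt.toZMod (-wt p l a) := by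
  rw [map_neg, toZMod_wt, toZMod_wt, map_neg]

theorem wt_add_tendsto {a b : ∀ l, ZMod (p ^ (l + 1))} {h h' : ℤ_[p]}
    (ha : Tendsto (fun l => wt p l (a l)) (UU : Filter ℕ) (𝓝 h))
    (hb : Tendsto (fun l => wt p l (b l)) (UU : Filter ℕ) (𝓝 h')) :
    Tendsto (fun l => wt p l (a l + b l)) (UU : Filter ℕ) (𝓝 (h + h')) := by
  have h1 := small_tendsto (p := p)
    (fun l => ((a l + b l).val : ℤ) - (a l).val - (b l).val) (fun l => by
      push_cast
      simp only [ZMod.natCast_zmod_val]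
      ring)
  have h2 := (ha.add hb).add h1
  rw [add_zero] at h2
  refine h2.congr fun l => ?_
  simp only [wt]
  push_cast
  ring

theorem wt_neg_tendsto {a : ∀ l, ZMod (p ^ (l + 1))} {h : ℤ_[p]}
    (ha : Tendsto (fun l => wt p l (a l)) (UU : Filter ℕ) (𝓝 h)) :
    Tendsto (fun l => wt p l (-a l)) (UU : Filter ℕ) (𝓝 (-h)) := by
  have h1 := small_tendsto (p := p)
    (fun l => ((-a l).val : ℤ) + (a l).val) (fun l => by
      push_cast
      simp only [ZMod.natCast_zmod_val]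
      ring)
  have h2 := ha.neg.add h1
  rw [add_zero] at h2
  refine h2.congr fun l => ?_
  simp only [wt]
  push_cast
  ring

section Avg
variable {R : Type} [Ring R] [StarRing R] [Algebra ℂ R] [StarModule ℂ R] (l : ℕ) (s : ZMod p)

/-- twisted averages -/
def avg1 (T : ZMod (p ^ (l + 1)) → R) : R :=
  ((p : ℂ) ^ (l + 1))⁻¹ • ∑ a, chi (s * PadicInt.toZMod (wt p l a)) • T a

def avg2 (K : ZMod (p ^ (l + 1)) × ZMod (p ^ (l + 1)) → R) : R :=
  (((p : ℂ) ^ (l + 1))⁻¹ * ((p : ℂ) ^ (l + 1))⁻¹) •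
    ∑ a, chi (s * PadicInt.toZMod (wt p l a.1 + wt p l a.2)) • K a

def avg3 (L : ZMod (p ^ (l + 1)) → R) : R :=
  ((p : ℂ) ^ (l + 1))⁻¹ • ∑ a, chi (s * PadicInt.toZMod (-wt p l a)) • L a

lemma q_ne : ((p : ℂ) ^ (l + 1)) ≠ 0 :=
  pow_ne_zero _ (Nat.cast_ne_zero.2 (Fact.out : p.Prime).ne_zero)

lemma avg_mul (T : ZMod (p ^ (l + 1)) → R) :
    avg1 l s T * avg1 l s T = avg2 l s fun a => T a.1 * T a.2 := by
  rw [avg1, avg2, smul_mul_smul_comm, Finset.sum_mul_sum, Fintype.sum_prod_type]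
  congr 1
  refine Finset.sum_congr rfl fun a _ => Finset.sum_congr rfl fun b _ => ?_
  rw [smul_mul_smul_comm, map_add, mul_add, chi_add]

lemma avg_add (T : ZMod (p ^ (l + 1)) → R) :
    avg1 l s T = avg2 l s fun a => T (a.1 + a.2) := by
  rw [avg1, avg2, Fintype.sum_prod_type]
  have h1 : ∀ a : ZMod (p ^ (l + 1)),
      ∑ b, chi (s * PadicInt.toZMod (wt p l a + wt p l b)) • T (a + b) =
        ∑ b, chi (s * PadicInt.toZMod (wt p l b)) • T b := by
    intro a
    rw [← Equiv.sum_comp (Equiv.addLeft a) fun b => chi (s * PadicInt.toZMod (wt p l b)) • T b]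
    refine Finset.sum_congr rfl fun b _ => ?_
    rw [Equiv.coe_addLeft, toZMod_wt_add]
  simp only [h1]
  rw [Finset.sum_const, Finset.card_univ, ZMod.card, ← Nat.cast_smul_eq_nsmul ℂ, smul_smul]
  congr 1
  push_cast
  rw [mul_assoc, inv_mul_cancel₀ (q_ne l), mul_one]

lemma avg_star (T : ZMod (p ^ (l + 1)) → R) :
    star (avg1 l s T) = avg3 l s fun a => star (T a) := by
  rw [avg1, avg3, star_smul, star_sum]
  congr 1
  · simp
  · refine Finset.sum_congr rfl fun a _ => ?_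
    rw [star_smul, star_chi, map_neg, mul_neg]

lemma avg_neg (T : ZMod (p ^ (l + 1)) → R) :
    avg1 l s T = avg3 l s fun a => T (-a) := by
  rw [avg1, avg3, ← Equiv.sum_comp (Equiv.neg _)]
  congr 1
  refine Finset.sum_congr rfl fun a _ => ?_
  rw [Equiv.neg_apply, toZMod_wt_neg]

lemma avg_one : avg1 l s (fun _ => (1 : R)) = if s = 0 then 1 else 0 := by
  rw [avg1, ← Finset.sum_smul]
  by_cases hs : s = 0
  · rw [if_pos hs]
    simp only [hs, zero_mul, chi_zero]
    rw [Finset.sum_const, Finset.card_univ, ZMod.card, smul_smul, nsmul_eq_mul, mul_one]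
    push_cast
    rw [inv_mul_cancel₀ (q_ne l), one_smul]
  · rw [if_neg hs]
    set S := ∑ a : ZMod (p ^ (l + 1)), chi (s * PadicInt.toZMod (wt p l a)) with hS
    have h1 : chi s * S = S := by
      rw [hS, Finset.mul_sum]
      rw [← Equiv.sum_comp (Equiv.addLeft (1 : ZMod (p ^ (l + 1))))
        fun b => chi (s * PadicInt.toZMod (wt p l b))]
      refine Finset.sum_congr rfl fun b _ => ?_
      rw [Equiv.coe_addLeft, toZMod_wt, toZMod_wt, map_add, map_one, mul_add, mul_one, chi_add]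
    have h2 : chi s ≠ 1 := fun h => hs (ZMod.injective_stdAddChar (h.trans chi_zero.symm))
    have h3 : S = 0 := by
      have : (chi s - 1) * S = 0 := by rw [sub_mul, h1, one_mul, sub_self]
      exact (mul_eq_zero.1 this).resolve_left (sub_ne_zero.2 h2)
    rw [h3, zero_smul, smul_zero]

theorem avg_r1 (d : R) (T : ZMod (p ^ (l + 1)) → R) :
    d * avg1 l s T - avg1 l s T * d = avg1 l s fun a => d * T a - T a * d := by
  simp only [avg1, mul_smul_comm, smul_mul_assoc, Finset.mul_sum, Finset.sum_mul, smul_sub,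
    Finset.sum_sub_distrib]

theorem avg_r2 (d : R) (T : ZMod (p ^ (l + 1)) → R)
    (K : ZMod (p ^ (l + 1)) × ZMod (p ^ (l + 1)) → R) :
    avg1 l s T * avg1 l s T - avg1 l s T - (d * avg2 l s K + avg2 l s K * d) =
      avg2 l s fun a => T a.1 * T a.2 - T (a.1 + a.2) - (d * K a + K a * d) := by
  rw [avg_mul, avg_add l s T]
  simp only [avg2, mul_smul_comm, smul_mul_assoc, Finset.mul_sum, Finset.sum_mul, smul_sub,
    smul_add, Finset.sum_sub_distrib, Finset.sum_add_distrib]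

theorem avg_r3 (d φ ψ : R) (T L : ZMod (p ^ (l + 1)) → R) :
    ψ * star (avg1 l s T) * φ - avg1 l s T - (d * avg3 l s L + avg3 l s L * d) =
      avg3 l s fun a => ψ * star (T a) * φ - T (-a) - (d * L a + L a * d) := by
  rw [avg_star, avg_neg l s T]
  simp only [avg3, mul_smul_comm, smul_mul_assoc, Finset.mul_sum, Finset.sum_mul, smul_sub,
    smul_add, Finset.sum_sub_distrib, Finset.sum_add_distrib]

theorem avg_r4 (d : R) (T N : ZMod (p ^ (l + 1)) → R) :
    avg1 l s T - (if s = 0 then 1 else 0) - (d * avg1 l s N + avg1 l s N * d) =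
      avg1 l s fun a => T a - 1 - (d * N a + N a * d) := by
  rw [← avg_one (R := R) l s]
  simp only [avg1, mul_smul_comm, smul_mul_assoc, Finset.mul_sum, Finset.sum_mul, smul_sub,
    smul_add, Finset.sum_sub_distrib, Finset.sum_add_distrib]

end Avg

end Vale.Agent.P228
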