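import Vale.Agent.P228.Lem

set_option linter.unusedSectionVars false
noncomputable section
open Matrix Filter Topology
namespace Vale.Agent.P228

namespace Ctx
variable {X Λ : Type} {F : Filter Λ}
  {A : Type} [Ring A] [StarRing A] [Algebra ℂ A] [StarModule ℂ A]
  {R : X → Type} [∀ x, Ring (R x)] [∀ x, StarRing (R x)] [∀ x, Algebra ℂ (R x)]
  [∀ x, StarModule ℂ (R x)]
  {n : Λ → Type} [∀ l, Fintype (n l)] [∀ l, DecidableEq (n l)]

theorem tstep_int {p : ℕ} [Fact p.Prime] (f : ZMod p → ℤ)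
    (h : ∀ s, f (s + 1 + 1) - f (s + 1) = f (s + 1) - f s) (s : ZMod p) : f (s + 1) = f s := by
  have h1 : ∀ j : ℕ, f ((j : ZMod p) + 1) - f j = f (0 + 1) - f 0 := fun j => by
    induction j with
    | zero => rw [Nat.cast_zero]
    | succ j ih => rw [Nat.cast_succ, h, ih]
  have h2 : ∀ t, f (t + 1) - f t = f (0 + 1) - f 0 := fun t => by
    rw [← h1 t.val, ZMod.natCast_zmod_val]
  have h3 : ∑ t, (f (t + 1) - f t) = 0 := by
    rw [Finset.sum_sub_distrib, sub_eq_zero]
    exact Equiv.sum_comp (Equiv.addRight (1 : ZMod p)) f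
  rw [Finset.sum_congr rfl fun t _ => h2 t, Finset.sum_const, Finset.card_univ, ZMod.card,
    smul_eq_zero, or_iff_right (Fact.out : p.Prime).ne_zero] at h3
  rw [← sub_eq_zero, h2, h3]

theorem tstep_conj {S : Type} [Ring S] [StarRing S] [Algebra ℂ S] [StarModule ℂ S]
    {u v w : S} (h1 : star u * u = 1) (h2 : u * star u = 1) (hv : Commute u v) (hw : Commute u w)
    (α α' β : S) : s2 u * diff (v * α * star v) (v * α' * star v) β w * star (s2 u) =
      diff (v * (u * α * star u) * star v) (v * (u * α' * star u) * star v) (u * β * star u) w := by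
  have k : ∀ y, Commute u y → conjH u h1 h2 y = y := fun y hy => by
    rw [conjH_apply, hy.eq, mul_assoc, h2, mul_one]
  have e : ∀ Y : M2 S, s2 u * Y * star (s2 u) = mapH (Fin 2) (conjH u h1 h2) Y := fun Y => by
    rw [Matrix.eta_fin_two Y, star_s2, s2_conj_m2, mapH_m2]
    rfl
  rw [e, mapH_diff, map_mul, map_mul, map_mul, map_mul, map_star, k v hv, k w hw]
  rfl

theorem tstep {p : ℕ} [Fact p.Prime] (m : ℕ) (Γ : Ctx F A R n) {k : ℕ} {c : Fin k → Cut A}
    (hc : Γ.Adm c) (M W : Fin m → A) (hM : ∀ i, star (M i) * M i = 1 ∧ M i * star (M i) = 1)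
    (hW : ∀ i, star (W i) = W i) (hMM : ∀ i j, Commute (M i) (M j))
    (hMW : ∀ i j, Commute (M i) (W j)) (a a' : ZMod p → A) (ha : ∀ s, Γ.ValOn c (a s) (a' s))
    (H1 : ∀ i x, Γ.Live c x → Γ.π x (W i) = 1 ∨
      ∀ s, Γ.π x (M i * a (s + 1) * star (M i)) = Γ.π x (a s))
    (H2 : ∀ x, Γ.Live c x → (∃ i, Γ.π x (W i) = 0) ∨
      ((∀ s, Γ.π x (a (s + 1)) = Γ.π x (a s)) ∧ ∀ i s, Γ.π x (M i * a s) = Γ.π x (a s * M i)))
    (s : ZMod p) : Γ.s k c (a (s + 1)) (a' (s + 1)) =ᶠ[F] Γ.s k c (a s) (a' s) := by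
  induction m generalizing A R n Γ c s with
  | zero =>
    refine Γ.loc hc.1 (ha _) (ha _) fun x hx => ?_
    rcases H2 x hx with ⟨i, -⟩ | h
    · exact i.elim0
    · exact h.1 s
  | succ m ih =>
    have hu : ∀ i x, star (Γ.π x (M i)) * Γ.π x (M i) = 1 ∧ Γ.π x (M i) * star (Γ.π x (M i)) = 1 :=
      fun i x => by
        rw [← map_star, ← map_mul, ← map_mul, (hM i).1, (hM i).2, map_one]
        exact ⟨rfl, rfl⟩
    have hg : ∀ x, Γ.Live c x → Γ.π x (M 0) * Γ.π x (star (M 0)) = 1 ∧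
        Γ.π x (star (M 0)) * Γ.π x (M 0) = 1 := fun x _ => by
      rw [map_star]
      exact (hu 0 x).symm
    have hb : ∀ s, Γ.ValOn c (M 0 * a s * star (M 0)) (M 0 * a' s * star (M 0)) := fun s => by
      have h := (ha s).conj hg
      rwa [star_star] at h
    have hd : ∀ s, Γ.m2.s k (lift s2 c)
        (diff (M 0 * a (s + 1) * star (M 0)) (M 0 * a' (s + 1) * star (M 0)) (a s) (W 0))
        (diff' (M 0 * a (s + 1) * star (M 0)) (M 0 * a' (s + 1) * star (M 0)) (a s) (a' s) (W 0))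
        =ᶠ[F] fun l => Γ.s k c (a (s + 1)) (a' (s + 1)) l - Γ.s k c (a s) (a' s) l := fun s => by
      have h := Γ.congr hc (ha (s + 1)) _ _ hg
      rw [star_star] at h
      filter_upwards [h, Γ.s_diff hc (hb (s + 1)) (ha s) (hW 0) fun x hx =>
        (H1 0 x hx).imp_right fun h => h s] with l h1 h2
      rw [h2, h1]
    have key : ∀ (i : Fin m) x, Γ.Live c x → ∀ (τ : ZMod p → ZMod p) (s t : ZMod p),
        (∀ s, Γ.π x (M i.succ) * Γ.π x (a (τ s)) * star (Γ.π x (M i.succ)) = Γ.π x (a s)) →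
        s2 (Γ.π x (M i.succ)) * diff (Γ.π x (M 0) * Γ.π x (a (τ s)) * star (Γ.π x (M 0)))
          (Γ.π x (M 0) * Γ.π x (a' (τ s)) * star (Γ.π x (M 0))) (Γ.π x (a (τ t))) (Γ.π x (W 0)) *
          star (s2 (Γ.π x (M i.succ))) =
        diff (Γ.π x (M 0) * Γ.π x (a s) * star (Γ.π x (M 0)))
          (Γ.π x (M 0) * Γ.π x (a' s) * star (Γ.π x (M 0))) (Γ.π x (a t)) (Γ.π x (W 0)) := by
      intro i x hx τ s t h
      have h3 := (ha (τ s) x hx).map (conjH _ (hu i.succ x).1 (hu i.succ x).2)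
      rw [conjH_apply, conjH_apply, h s] at h3
      rw [tstep_conj (hu i.succ x).1 (hu i.succ x).2 ((hMM _ _).map _) ((hMW _ _).map _), h s, h t,
        h3.unique (ha s x hx)]
    have hI := ih Γ.m2 hc.m2 (fun i => s2 (M i.succ)) (fun i => s2 (W i.succ))
      (fun i => by
        rw [star_s2, ← s2_mul, ← s2_mul, (hM _).1, (hM _).2, s2_one]
        exact ⟨rfl, rfl⟩)
      (fun i => by rw [star_s2, hW]) (fun i j => (hMM _ _).map s2H) (fun i j => (hMW _ _).map s2H)
      (fun s => diff (M 0 * a (s + 1) * star (M 0)) (M 0 * a' (s + 1) * star (M 0)) (a s) (W 0))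
      (fun s => diff' (M 0 * a (s + 1) * star (M 0)) (M 0 * a' (s + 1) * star (M 0)) (a s) (a' s)
        (W 0))
      (fun s x hx => by
        simp only [mat_π, mapH_diff, mapH_diff']
        refine diff_val (by rw [← map_star, hW]) (Or.inr ?_)
        exact (H1 0 x hx.of_m2).imp (fun h => ⟨h, hb _ x hx.of_m2, ha s x hx.of_m2⟩)
          fun h => ⟨h s, (hb _ x hx.of_m2).2.1⟩)
      (fun i x hx => by
        refine (H1 i.succ x hx.of_m2).imp (fun h => ?_) fun h s => ?_
        · rw [mat_π, mapH_s2, h, s2_one]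
        · simp only [mat_π, map_mul, map_star, mapH_diff, mapH_s2] at h ⊢
          exact key i x hx.of_m2 (· + 1) (s + 1) s h)
      (fun x hx => by
        rcases H2 x hx.of_m2 with ⟨i, h⟩ | ⟨h1, h2⟩
        · revert h
          refine Fin.cases (fun h => Or.inr ⟨fun s => ?_, fun i s => ?_⟩)
            (fun i h => Or.inl ⟨i, ?_⟩) i
          · simp only [mat_π, mapH_diff, h, diff_zero]
          · simp only [mat_π, map_mul, mapH_diff, mapH_s2, h, diff_zero]
            simp [s2, swp]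
          · rw [mat_π, mapH_s2, h, s2_zero]
        · have h3 : ∀ s, Γ.π x (a' (s + 1)) = Γ.π x (a' s) := fun s =>
            (h1 s ▸ ha (s + 1) x hx.of_m2).unique (ha s x hx.of_m2)
          refine Or.inr ⟨fun s => ?_, fun i s => ?_⟩
          · simp only [mat_π, map_mul, mapH_diff, h1, h3]
          · have h4 := key i x hx.of_m2 id (s + 1) s fun t => by
              rw [id, ← map_mul, h2, map_mul, mul_assoc, (hu _ x).2, mul_one]
            simp only [mat_π, map_mul, map_star, mapH_diff, mapH_s2]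
            refine Eq.trans ?_ (congrArg (· * s2 (Γ.π x (M i.succ))) h4)
            rw [mul_assoc _ (star (s2 _)), star_s2, ← s2_mul, (hu _ x).1, s2_one, mul_one]
            rfl)
    filter_upwards [Filter.eventually_all.2 hI, Filter.eventually_all.2 hd] with l h1 h2
    exact tstep_int (fun s => Γ.s k c (a s) (a' s) l)
      (fun s => ((h2 (s + 1)).symm.trans (h1 s)).trans (h2 s)) s

end Ctx

end Vale.Agent.P228
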