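import Vale.Agent.P228.OpsCt
import Vale.Agent.P228.OpsWt
import Vale.Agent.P228.Cover
import Vale.Agent.P228.TStep
import Vale.Agent.P228.PD

set_option linter.unusedSectionVars false
noncomputable section
open Matrix Filter Topology
namespace Vale.Agent.P228

section Alg
variable {R : Type} [Ring R] [StarRing R] [Algebra ℂ R] [StarModule ℂ R]

lemma fs_conj_m2 {m : R} (h1 : star m * m = 1) (h2 : m * star m = 1) (M : M2 R) :
    s2 m * M * star (s2 m) = mapH (Fin 2) (conjH m h1 h2) M := by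
  ext i j
  fin_cases i <;> fin_cases j <;>
    simp [s2, Matrix.mul_apply, Fin.sum_univ_two, Matrix.star_apply, Matrix.vecMul, dotProduct]

lemma fs_conj_Bf {m d φ ψ e K L e' K' L' : R} (h1 : star m * m = 1) (h2 : m * star m = 1)
    (hd : Commute m d) (hφ : Commute m φ) (hψ : Commute m ψ) (he : m * e * star m = e')
    (hK : m * K * star m = K') (hL : m * L * star m = L') :
    s2 m * Bf d φ ψ e K L * star (s2 m) = Bf d φ ψ e' K' L' := by
  have key : ∀ {y : R}, Commute m y → m * y * star m = y := fun h => by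
    rw [h.eq, mul_assoc, h2, mul_one]
  rw [fs_conj_m2 h1 h2, mapH_Bf]
  simp only [conjH_apply, key hd, key hφ, key hψ, he, hK, hL]

lemma fs_conj_map {S : Type} [Ring S] [StarRing S] [Algebra ℂ S] [StarModule ℂ S]
    (f : S →⋆ₐ[ℂ] R) {m d φ ψ e K L e' K' L' : S} {m' : R} (hm : f m = m')
    (h1 : star m' * m' = 1) (h2 : m' * star m' = 1)
    (hd : Commute m' (f d)) (hφ : Commute m' (f φ)) (hψ : Commute m' (f ψ))
    (he : m' * f e * star m' = f e') (hK : m' * f K * star m' = f K')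
    (hL : m' * f L * star m' = f L') :
    mapH (Fin 2) f (s2 m * Bf d φ ψ e K L * star (s2 m)) = mapH (Fin 2) f (Bf d φ ψ e' K' L') := by
  rw [map_mul, map_mul, map_star, mapH_s2, mapH_Bf, mapH_Bf, hm]
  exact fs_conj_Bf h1 h2 hd hφ hψ he hK hL

lemma fs_tw {p : ℕ} [Fact p.Prime] {S : Type} [Ring S] [StarRing S] [Algebra ℂ S] [StarModule ℂ S]
    (f : S →⋆ₐ[ℂ] R) (m : R) (Y : ZMod p → S)
    (h : ∀ g, m * f (Y g) * star m = chi (-g) • f (Y g)) (s : ZMod p) :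
    m * f (tw (s + 1) Y) * star m = f (tw s Y) := by
  simp only [tw, map_sum, map_smul, Finset.mul_sum, Finset.sum_mul, mul_smul_comm,
    smul_mul_assoc, h, smul_smul, ← chi_add]
  refine Finset.sum_congr rfl fun g _ => ?_
  congr 2
  ring

lemma fs_sc_conj {I : Type} [Fintype I] [DecidableEq I] (m : R) (Y : Matrix I I R) (i j : I) :
    (sc I m * Y * star (sc I m)) i j = m * Y i j * star m := by
  rw [star_sc]
  simp only [sc, Matrix.diagonal_mul, Matrix.mul_diagonal]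

end Alg

namespace Config
variable {p : ℕ} [Fact p.Prime] {k : ℕ} {δ : ℝ} (c : Config p k δ)

/-- the local unitary -/
def fsM (V : c.Cov) (i : Fin V.m) : c.Lb.ctrl := c.Lb.dia fun l a => V.μ i (c.x l a)

/-- the local cut-off -/
def fsW (V : c.Cov) (i : Fin V.m) : c.Lb.ctrl := c.Lb.dia fun l a => ind (c.x l a ∉ V.W i)

lemma fsM_unit (V : c.Cov) (i : Fin V.m) :
    star (c.fsM V i) * c.fsM V i = 1 ∧ c.fsM V i * star (c.fsM V i) = 1 := by
  unfold fsM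
  rw [Lab.dia_star, Lab.dia_mul, Lab.dia_mul, ← c.Lb.dia_one]
  constructor
  · congr 1
    funext l a
    exact V.unit i _
  · congr 1
    funext l a
    rw [mul_comm]
    exact V.unit i _

lemma fs_loc (V : c.Cov) {i : Fin V.m} {θ : ∀ l, c.G l} (h : c.lim θ ∈ V.U i) :
    ∀ᶠ l in (UU : Filter ℕ), V.μ i (c.x l (θ l)) = V.μ i (c.lim θ) :=
  (c.lim_tendsto θ).eventually (V.loc i _ h)

lemma fs_comm_z (V : c.Cov) {i : Fin V.m} {x : Set (E k) × E k}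
    (hU : ∀ θ, c.Lb.lab θ = x → c.lim θ ∈ V.U i) (j : Ix k) :
    Commute (c.Lb.ctx.π x (c.fsM V i)) (c.Lb.ctx.π x (c.z j)) := by
  refine (c.Lb.dia_commute_shift c.v (c.z j) j (fun _ => rfl) _ fun θ θ' hθ h => ?_).symm
  have e : c.lim θ' = c.lim θ := c.lim_eq (conv_shift 1 (c.lim_conv θ) (h.mono fun l hl t => by
    rw [hl]
    by_cases ht : t = j
    · subst ht; simp
    · simp [Pi.single_eq_of_ne ht]))
  filter_upwards [c.fs_loc V (hU θ hθ), c.fs_loc V (e ▸ hU θ hθ : c.lim θ' ∈ V.U i)] with l h1 h2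
  rw [h1, h2, e]

lemma fs_entry (V : c.Cov) {i : Fin V.m} {x : Set (E k) × E k}
    (hU : ∀ θ, c.Lb.lab θ = x → c.lim θ ∈ V.U i) {g : ZMod p} (y : c.Lb.ctrl)
    (hy : ∀ u w : ∀ l, c.G l, (∀ᶠ l in (UU : Filter ℕ), y.1 l (u l) (w l) ≠ 0) →
      ∃ h, PadicInt.toZMod h = g ∧ c.lim u = c.act h (c.lim w)) :
    c.Lb.ctx.π x (c.fsM V i) * c.Lb.ctx.π x y * star (c.Lb.ctx.π x (c.fsM V i)) =
      chi (-g) • c.Lb.ctx.π x y := by
  rw [← map_star, ← map_mul, ← map_mul, ← map_smul, Lab.ctx_π_eq]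
  intro u w hw
  have e : ∀ l, (c.fsM V i * y * star (c.fsM V i)).1 l (u l) (w l) =
      V.μ i (c.x l (u l)) * y.1 l (u l) (w l) * star (V.μ i (c.x l (w l))) := by
    intro l
    unfold fsM
    rw [Lab.dia_star]
    show (Matrix.diagonal (fun a => V.μ i (c.x l a)) * y.1 l *
      Matrix.diagonal (fun a => star (V.μ i (c.x l a))) : Matrix (c.G l) (c.G l) ℂ) (u l) (w l) = _
    rw [Matrix.mul_diagonal, Matrix.diagonal_mul]
  have e' : ∀ l, (chi (-g) • y).1 l (u l) (w l) = chi (-g) * y.1 l (u l) (w l) := fun l => rfl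
  simp only [e, e']
  by_cases h : ∀ᶠ l in (UU : Filter ℕ), y.1 l (u l) (w l) ≠ 0
  · obtain ⟨h0, hg, hu⟩ := hy u w h
    have hwU := hU w hw
    have huU : c.lim u ∈ V.U i := hu ▸ V.Uinv i h0 _ hwU
    have h1 := V.equi i h0 _ hwU
    rw [← hu, hg] at h1
    have h2 := V.unit i (c.lim w)
    have h3 : chi g * chi (-g) = 1 := by rw [← chi_add, add_neg_cancel, chi_zero]
    have h4 : V.μ i (c.lim u) * star (V.μ i (c.lim w)) = chi (-g) := by
      calc V.μ i (c.lim u) * star (V.μ i (c.lim w))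
          = (V.μ i (c.lim u) * chi g) * star (V.μ i (c.lim w)) * chi (-g) := by
            linear_combination (-(V.μ i (c.lim u) * star (V.μ i (c.lim w)))) * h3
        _ = chi (-g) := by rw [h1, mul_comm (V.μ i (c.lim w)), h2, one_mul]
    filter_upwards [c.fs_loc V huU, c.fs_loc V hwU] with l a1 a2
    rw [a1, a2, ← h4]
    ring
  · filter_upwards [Ultrafilter.eventually_not.2 h] with l hl
    rw [not_not.1 hl]
    simp

lemma fs_graded (V : c.Cov) {i : Fin V.m} {x : Set (E k) × E k}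
    (hU : ∀ θ, c.Lb.lab θ = x → c.lim θ ∈ V.U i) {Y : ZMod p → c.Mat} (hY : c.GCt Y)
    (s : ZMod p) :
    sc (B k) (c.Lb.ctx.π x (c.fsM V i)) * c.Γ.π x (tw (s + 1) Y) *
      star (sc (B k) (c.Lb.ctx.π x (c.fsM V i))) = c.Γ.π x (tw s Y) := by
  refine fs_tw (c.Γ.π x) _ Y (fun g => ?_) s
  refine Matrix.ext fun b b' => ?_
  rw [fs_sc_conj]
  exact c.fs_entry V hU (Y g b b') (hY g b b')

lemma fs_conj (O : c.Ops) (V : c.Cov) {i : Fin V.m} {x : Set (E k) × E k}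
    (hx : x.2 ∈ Metric.ball c.o c.R) (hU : ∀ θ, c.Lb.lab θ = x → c.lim θ ∈ V.U i) (s : ZMod p) :
    c.Γ.m2.π x (s2 (sc (B k) (c.fsM V i)) *
      Bf (dM k c.z) (φM k c.z) (ψM k c.z) (tw (s + 1) O.e) (tw (s + 1) O.K) (tw (s + 1) O.L) *
        star (s2 (sc (B k) (c.fsM V i)))) =
      c.Γ.m2.π x (Bf (dM k c.z) (φM k c.z) (ψM k c.z) (tw s O.e) (tw s O.K) (tw s O.L)) := by
  have hcu : CU fun j => c.Lb.ctx.π x (c.z j) := c.z_cu fun θ hθ => by
    have h1 := (c.lim_int_of_ball hx θ hθ).2 0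
    rwa [c.zero _ (c.KΩ (c.lim_mem θ))] at h1
  have hz := c.fs_comm_z V hU
  have hz' : ∀ j, Commute (c.Lb.ctx.π x (c.fsM V i)) (c.Lb.ctx.π x (c.z j)) ∧
      Commute (c.Lb.ctx.π x (c.fsM V i)) (star (c.Lb.ctx.π x (c.z j))) :=
    fun j => ⟨hz j, hcu.commute_star (hz j)⟩
  have hu : star (c.Lb.ctx.π x (c.fsM V i)) * c.Lb.ctx.π x (c.fsM V i) = 1 ∧
      c.Lb.ctx.π x (c.fsM V i) * star (c.Lb.ctx.π x (c.fsM V i)) = 1 := by
    rw [← map_star, ← map_mul, ← map_mul, (c.fsM_unit V i).1, (c.fsM_unit V i).2, map_one]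
    exact ⟨rfl, rfl⟩
  have hu' := sc_unit (B k) hu
  have em : c.Γ.π x (sc (B k) (c.fsM V i)) = sc (B k) (c.Lb.ctx.π x (c.fsM V i)) :=
    mapH_sc _ _ _
  have ed : c.Γ.π x (dM k c.z) = dM k fun j => c.Lb.ctx.π x (c.z j) := mapH_dM _ _ _
  have eφ : c.Γ.π x (φM k c.z) = φM k fun j => c.Lb.ctx.π x (c.z j) := mapH_φM _ _ _
  have eψ : c.Γ.π x (ψM k c.z) = ψM k fun j => c.Lb.ctx.π x (c.z j) := mapH_ψM _ _ _
  exact fs_conj_map (c.Γ.π x) em hu'.1 hu'.2 (ed ▸ commute_sc (dM_commute hz))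
    (eφ ▸ commute_sc (φM_commute hz')) (eψ ▸ commute_sc (ψM_commute hz'))
    (c.fs_graded V hU O.ge s) (c.fs_graded V hU O.gK s) (c.fs_graded V hU O.gL s)

lemma fsW_one (V : c.Cov) {i : Fin V.m} {x : Set (E k) × E k}
    (h : ¬ ∃ θ, c.Lb.lab θ = x ∧ c.lim θ ∈ closure (V.W i)) : c.Lb.ctx.π x (c.fsW V i) = 1 := by
  rw [← map_one (c.Lb.ctx.π x), ← c.Lb.dia_one]
  refine c.Lb.π_dia_eq fun θ hθ => ?_
  have h1 : c.lim θ ∈ (closure (V.W i))ᶜ := fun h2 => h ⟨θ, hθ, h2⟩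
  filter_upwards [(c.lim_tendsto θ).eventually (isClosed_closure.isOpen_compl.mem_nhds h1)]
    with l hl
  exact if_pos fun h3 => hl (subset_closure h3)

lemma fsW_zero (V : c.Cov) {i : Fin V.m} {θ0 : ∀ l, c.G l} (h : c.lim θ0 ∈ V.W i) :
    c.Lb.ctx.π (c.Lb.lab θ0) (c.fsW V i) = 0 := by
  rw [← map_zero (c.Lb.ctx.π _), ← c.Lb.dia_zero]
  refine c.Lb.π_dia_eq fun θ hθ => ?_
  obtain ⟨g, hg⟩ := c.act_of_lab_eq hθ
  have h1 : c.lim θ ∈ V.W i := hg ▸ V.Winv i g _ h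
  filter_upwards [(c.lim_tendsto θ).eventually ((V.Wopen i).mem_nhds h1)] with l hl
  exact if_neg fun h3 => h3 hl

lemma fs_vac {x : Set (E k) × E k} (h : ¬ ∃ θ, c.Lb.lab θ = x) (A A' : M2 c.Mat) :
    c.Γ.m2.π x A = c.Γ.m2.π x A' :=
  Matrix.ext fun i j => Matrix.ext fun b b' =>
    (c.Lb.ctx_π_eq x (A i j b b') (A' i j b b')).2 fun _ w hw => (h ⟨w, hw⟩).elim

theorem fine_sig (O : c.Ops) : ∀ᶠ l in (UU : Filter ℕ),
    rawSig (c.v l) (c.fx l) (c.lev l (tw 0 O.e)) (c.lev l (tw 0 O.K)) (c.lev l (tw 0 O.L)) =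
      rawSig (c.v l) (c.fx l) (c.lev l (tw 1 O.e)) (c.lev l (tw 1 O.K)) (c.lev l (tw 1 O.L)) := by
  obtain ⟨V⟩ := c.exists_cov
  let ι : c.Lb.ctrl →⋆ₐ[ℂ] M2 c.Mat := s2H.comp (scH (B k))
  have hι : c.Γ.m2.Over c.Lb.ctx ι := c.Γ.over_m2.trans (c.Lb.ctx.over_mat (B k))
  let a : ZMod p → M2 c.Mat := fun s =>
    Bf (dM k c.z) (φM k c.z) (ψM k c.z) (tw s O.e) (tw s O.K) (tw s O.L)
  let a' : ZMod p → M2 c.Mat := fun s =>
    Bf' (dM k c.z) (φM k c.z) (ψM k c.z) (tw s O.e) (tw s O.K) (tw s O.L)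
  have hval : ∀ s (x : Set (E k) × E k), x.2 ∈ Metric.ball c.o c.R →
      Val (c.Γ.m2.π x (a s)) (c.Γ.m2.π x (a' s)) := by
    intro s x hx
    simp only [a, a']
    rw [Ctx.mat_π, mapH_Bf, mapH_Bf']
    exact Bf_val (c.strict_of_ball hx) (O.idem s x hx)
  have hlive : ∀ x, c.Γ.m2.Live (lift ι (c.Lb.cuts c.fx c.t V.r)) x →
      x.2 ∈ Metric.closedBall c.t V.r := fun x hx =>
    c.Lb.cuts_live c.pt_fx V.rpos.le (hι.live hx)
  have ht := Ctx.tstep V.m c.Γ.m2 (hι.adm (c.Lb.cuts_adm c.pt_fx c.t V.rpos))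
    (fun i => ι (c.fsM V i)) (fun i => ι (c.fsW V i))
    (fun i => by
      rw [← map_star, ← map_mul, ← map_mul, (c.fsM_unit V i).1, (c.fsM_unit V i).2, map_one]
      exact ⟨rfl, rfl⟩)
    (fun i => by
      rw [← map_star]
      exact congrArg ι (c.Lb.dia_ind_proj _).1)
    (fun i j => (c.Lb.dia_commute _ _).map ι) (fun i j => (c.Lb.dia_commute _ _).map ι)
    a a' (fun s x hx => hval s x (V.sub (hlive x hx)))
    (fun i x hx => by
      by_cases h : ∃ θ, c.Lb.lab θ = x ∧ c.lim θ ∈ closure (V.W i)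
      · obtain ⟨θ0, h0, h1⟩ := h
        refine Or.inr fun s => c.fs_conj O V (V.sub (hlive x hx)) (fun θ hθ => ?_) s
        obtain ⟨g, hg⟩ := c.act_of_lab_eq (hθ.trans h0.symm)
        exact hg ▸ V.Uinv i g _ (V.WU i h1)
      · exact Or.inl (hι.one (c.fsW_one V h)))
    (fun x hx => by
      by_cases h : ∃ θ, c.Lb.lab θ = x
      · obtain ⟨θ0, rfl⟩ := h
        obtain ⟨i, hi⟩ := V.cover _ (c.lim_mem θ0) (hlive _ hx)
        exact Or.inl ⟨i, hι.zero (c.fsW_zero V hi)⟩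
      · exact Or.inr ⟨fun s => c.fs_vac h _ _, fun i s => c.fs_vac h _ _⟩) 0
  rw [zero_add] at ht
  have h0 := c.Lb.chain c.Γ.m2 ι hι c.pt_fx V.rpos V.sub c.unitO (hval 0)
  have h1 := c.Lb.chain c.Γ.m2 ι hι c.pt_fx V.rpos V.sub c.unitO (hval 1)
  filter_upwards [ht, h0, h1] with l e1 e2 e3
  have r0 := c.Lb.s_eq_rawSig c.v c.z (fun _ _ => rfl) c.fx (tw 0 O.e) (tw 0 O.K) (tw 0 O.L) l
  have r1 := c.Lb.s_eq_rawSig c.v c.z (fun _ _ => rfl) c.fx (tw 1 O.e) (tw 1 O.K) (tw 1 O.L) l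
  exact r0.symm.trans (e2.symm.trans (e1.symm.trans (e3.trans r1)))

end Config

end Vale.Agent.P228
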