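import Vale.Agent.P228.Defs

set_option linter.unusedSectionVars false
noncomputable section
open Matrix Filter Topology
namespace Vale.Agent.P228

/-- a continuous action of the p-adic integers -/
structure GAct (p : ℕ) [Fact p.Prime] (M : Type*) [TopologicalSpace M] where
  a : ℤ_[p] → M → M
  cont : Continuous fun q : ℤ_[p] × M => a q.1 q.2
  zero : ∀ x, a 0 x = x
  add : ∀ h h' x, a (h + h') x = a h (a h' x)

variable {p : ℕ} [Fact p.Prime] {M : Type*} [TopologicalSpace M]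

/-- restriction to the subgroup of index `p ^ j` -/
def GAct.pow (G : GAct p M) (j : ℕ) : GAct p M where
  a h := G.a ((p : ℤ_[p]) ^ j * h)
  cont := G.cont.comp ((continuous_const.mul continuous_fst).prodMk continuous_snd)
  zero x := by simp [G.zero]
  add h h' x := by rw [mul_add, G.add]

def GAct.Fix (G : GAct p M) : Set M := {x | ∀ h, G.a h x = x}

def HasCharts (M : Type*) [TopologicalSpace M] (k : ℕ) : Prop :=
  ∀ x : M, ∃ e : OpenPartialHomeomorph M (E k), x ∈ e.source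

/-- a configuration before normalising the unit ball -/
structure PreConfig (p : ℕ) [Fact p.Prime] (k : ℕ) (δ : ℝ) extends LocAct p k where
  f : E k → E k
  K : Set (E k)
  o : E k
  b : E k
  t : E k
  R : ℝ
  Rb : ℝ
  a₀ : E k
  s : ℝ
  spos : 0 < s
  fcont : ContinuousOn f Ω
  finv : ∀ h, ∀ x ∈ Ω, f (act h x) = f x
  Kc : IsCompact K
  KΩ : K ⊆ Ω
  BΩ : Metric.closedBall b Rb ⊆ Ω
  Kint : ∀ h, ∀ x ∈ Metric.closedBall b Rb, act h x ∈ interior K
  back : ∀ x ∈ K, f x ∈ Metric.ball o R → x ∈ Metric.ball b Rb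
  unitO : Metric.closedBall a₀ s ⊆ Metric.ball o R
  unitB : Metric.closedBall a₀ s ⊆ Metric.ball b Rb
  tO : t ∈ Metric.ball o R
  free : ∀ x ∈ K, f x = t → ∃ h, act h x ≠ x
  small : ∀ x ∈ K, (dist x a₀ ≤ s ∨ dist (f x) a₀ ≤ s) →
    dist (f x) x ≤ δ * s ∧ ∀ h, dist (act h x) x ≤ δ * s

/-- a local action which is trivial outside an open convex set, seen at a boundary point -/
structure Edge (p : ℕ) [Fact p.Prime] (k : ℕ) extends LocAct p k where
  x : E k
  D : Set (E k)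
  xΩ : x ∈ Ω
  xD : x ∉ D
  Dopen : IsOpen D
  Dconv : Convex ℝ D
  fix : ∀ y ∈ Ω, y ∉ D → ∀ h, act h y = y
  moved : ∀ ε > 0, ∃ y ∈ Ω, dist y x < ε ∧ ∃ h, act h y ≠ y
  room : ∀ ε > 0, ∃ a s, 0 < s ∧ Metric.closedBall a s ⊆ Metric.ball x ε ∧
    ∀ y ∈ Metric.closedBall a s, y ∉ D

end Vale.Agent.P228
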