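import Vale.Agent.P228.Geom0

set_option linter.unusedSectionVars false
noncomputable section
open Matrix Filter Topology
namespace Vale.Agent.P228

variable {p : ℕ} [Fact p.Prime] {k : ℕ} {M : Type*} [TopologicalSpace M] (G : GAct p M)

theorem GAct.chart_neg (h : ℤ_[p]) (x : M) : G.a (-h) (G.a h x) = x := by
  rw [← G.add, neg_add_cancel, G.zero]

theorem GAct.exists_locAct (e : OpenPartialHomeomorph M (E k)) {U : Set M} (hU : IsOpen U)
    (hs : U ⊆ e.source) (hinv : ∀ h, ∀ x ∈ U, G.a h x ∈ U) :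
    ∃ A : LocAct p k, A.Ω = e '' U ∧ ∀ h, ∀ x ∈ U, A.act h (e x) = e (G.a h x) := by
  have h1 : ∀ y ∈ e '' U, e.symm y ∈ U := by
    rintro _ ⟨x, hx, rfl⟩
    rwa [e.left_inv (hs hx)]
  have h2 : e '' U ⊆ e.target := by
    rintro _ ⟨x, hx, rfl⟩
    exact e.map_source (hs hx)
  exact ⟨⟨e '' U, fun h y => e (G.a h (e.symm y)), e.isOpen_image_of_subset_source hU hs,
    e.continuousOn.comp (G.cont.comp_continuousOn (f := fun q : ℤ_[p] × E k => (q.1, e.symm q.2))
      (continuousOn_fst.prodMk (e.continuousOn_symm.comp continuousOn_snd fun q hq => h2 hq.2)))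
      fun q hq => hs (hinv _ _ (h1 _ hq.2)),
    fun h y hy => ⟨_, hinv h _ (h1 y hy), rfl⟩, fun y hy => by rw [G.zero, e.right_inv (h2 hy)],
    fun h h' y hy => by rw [G.add, e.left_inv (hs (hinv _ _ (h1 y hy)))]⟩, rfl,
    fun h x hx => by simp only [e.left_inv (hs hx)]⟩

theorem GAct.isOpen_sat {W : Set M} (hW : IsOpen W) : IsOpen {y | ∃ h, ∃ x ∈ W, y = G.a h x} := by
  have : {y | ∃ h, ∃ x ∈ W, y = G.a h x} = ⋃ h, G.a h ⁻¹' W := by
    ext y
    refine ⟨?_, fun hy => ?_⟩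
    · rintro ⟨h, x, hx, rfl⟩
      exact Set.mem_iUnion.2 ⟨-h, Set.mem_of_eq_of_mem (s := W) (G.chart_neg h x) hx⟩
    · obtain ⟨h, h1⟩ := Set.mem_iUnion.1 hy
      exact ⟨-h, _, h1, (G.chart_neg h y).symm⟩
  rw [this]
  exact isOpen_iUnion fun h => hW.preimage (G.cont.comp (Continuous.prodMk_right h))

theorem GAct.tube_fix {x : M} (hx : x ∈ G.Fix) {N : Set M} (hN : N ∈ 𝓝 x) :
    ∃ W, IsOpen W ∧ x ∈ W ∧ ∀ h, ∀ y ∈ W, G.a h y ∈ N := by
  obtain ⟨W, h1, h2, h3⟩ := mem_nhds_iff.1 (isCompact_univ.eventually_forall_of_forall_eventually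
    (x₀ := x) (P := fun y h => G.a h y ∈ N) fun h _ =>
      (G.cont.comp continuous_swap).continuousAt (x := (x, h)) (by simpa [hx h] using hN))
  exact ⟨W, h2, h3, fun h y hy => h1 hy h trivial⟩

theorem GAct.tube_pow {K : Set M} (hK : IsCompact K) {V : Set (M × M)} (hV : IsOpen V)
    (hd : ∀ x ∈ K, (x, x) ∈ V) : ∃ j, ∀ h, ∀ x ∈ K, ((G.pow j).a h x, x) ∈ V := by
  obtain ⟨ε, hε, h1⟩ := Metric.eventually_nhds_iff.1 (hK.eventually_forall_of_forall_eventually
    (x₀ := (0 : ℤ_[p])) (P := fun h y => (G.a h y, y) ∈ V) fun y hy =>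
      (G.cont.prodMk continuous_snd).continuousAt (x := (0, y))
        (hV.mem_nhds (by simpa [G.zero] using hd y hy)))
  obtain ⟨j, hj⟩ := exists_pow_lt_of_lt_one hε (y := ‖(p : ℤ_[p])‖)
    (Padic.norm_p_lt_one (p := p))
  refine ⟨j, fun h => h1 ?_⟩
  rw [dist_zero_right, norm_mul, norm_pow]
  exact (mul_le_of_le_one_right (by positivity) h.norm_le_one).trans_lt hj

theorem GAct.isClosed_fix [T2Space M] : IsClosed G.Fix := by
  rw [GAct.Fix, Set.setOf_forall]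
  exact isClosed_iInter fun h => isClosed_eq (G.cont.comp (Continuous.prodMk_right h)) continuous_id

end Vale.Agent.P228
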