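import Vale.Agent.P228.GeomAvg
import Vale.Agent.P228.GeomChart

set_option linter.unusedSectionVars false
noncomputable section
open Matrix Filter Topology
namespace Vale.Agent.P228

variable {p : ℕ} [Fact p.Prime] {k : ℕ} {M : Type*} [TopologicalSpace M]

theorem geomA [Nonempty M] (G : GAct p M) (hM : HasCharts M k)
    (h : ∀ j, interior (G.pow j).Fix = ∅) {δ : ℝ} (hδ : 0 < δ) : Nonempty (Config p k δ) := by
  obtain ⟨x₀⟩ := ‹Nonempty M›
  obtain ⟨e, hx₀⟩ := hM x₀
  obtain ⟨r, hr, h1⟩ := Metric.isOpen_iff.1 e.open_target _ (e.map_source hx₀)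
  obtain ⟨s, rfl⟩ : ∃ s, r = 10 * s := ⟨r / 10, by ring⟩
  have hs : 0 < s := by linarith
  obtain ⟨η, hη, hη1, hη2⟩ : ∃ η, 0 < η ∧ η ≤ s ∧ η ≤ δ * s :=
    ⟨min s (δ * s), by positivity, min_le_left _ _, min_le_right _ _⟩
  have h2 : Metric.closedBall (e x₀) (9 * s) ⊆ e.target :=
    (Metric.closedBall_subset_ball (by linarith)).trans h1
  obtain ⟨j, hj⟩ := G.tube_pow ((isCompact_closedBall (e x₀) (9 * s)).image_of_continuousOn
    (e.continuousOn_symm.mono h2)) (ContinuousOn.isOpen_inter_preimage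
      (f := fun q : M × M => dist (e q.1) (e q.2)) (continuous_dist.comp_continuousOn
        ((e.continuousOn.comp continuousOn_fst fun q hq => hq.1).prodMk
          (e.continuousOn.comp continuousOn_snd fun q hq => hq.2)))
      (e.open_source.prod e.open_source) (isOpen_Iio (a := η))) (by
      rintro _ ⟨y, hy, rfl⟩
      exact ⟨⟨e.map_target (h2 hy), e.map_target (h2 hy)⟩, by simpa using hη⟩)
  replace h := h j
  generalize G.pow j = G at h hj
  have h3 : ∀ x ∈ e.source, dist (e x) (e x₀) ≤ 9 * s → ∀ g,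
      G.a g x ∈ e.source ∧ dist (e (G.a g x)) (e x) < η := fun x hx h g =>
    have := hj g x ⟨e x, h, e.left_inv hx⟩
    ⟨this.1.1, this.2⟩
  have hW := fun t => e.isOpen_inter_preimage (Metric.isOpen_ball (x := e x₀) (ε := t))
  have h4 : ∀ x ∈ {y | ∃ g, ∃ x ∈ e.source ∩ e ⁻¹' Metric.ball (e x₀) (8 * s), y = G.a g x},
      x ∈ e.source ∧ dist (e x) (e x₀) ≤ 9 * s := by
    rintro _ ⟨g, x, hx, rfl⟩
    have h5 := Metric.mem_ball.1 hx.2
    obtain ⟨h6, h7⟩ := h3 x hx.1 (by linarith) g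
    exact ⟨h6, by linarith [dist_triangle (e (G.a g x)) (e x) (e x₀)]⟩
  obtain ⟨A, h5, h6⟩ := G.exists_locAct e (G.isOpen_sat (hW (8 * s))) (fun x hx => (h4 x hx).1) (by
    rintro g _ ⟨g', x, hx, rfl⟩
    exact ⟨g + g', x, hx, (G.add _ _ _).symm⟩)
  have h7 : ∀ y ∈ A.Ω, ∀ g, dist (A.act g y) y ≤ η := by
    rw [h5]
    rintro _ ⟨x, hx, rfl⟩ g
    rw [h6 g x hx]
    exact (h3 x (h4 x hx).1 (h4 x hx).2 g).2.le
  have h8 : ∀ t, t < 8 * s → Metric.closedBall (e x₀) t ⊆ A.Ω := fun t ht y hy => by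
    have h8 := hy.trans_lt ht
    have h9 : y ∈ e.target := h1 (h8.trans (by linarith))
    rw [h5]
    exact ⟨e.symm y, ⟨0, _, ⟨e.map_target h9, by rwa [Set.mem_preimage, e.right_inv h9]⟩,
      (G.zero _).symm⟩, e.right_inv h9⟩
  obtain ⟨f, f1, f2, f3⟩ := A.exists_avg
  have h9 : ∀ y ∈ A.Ω, dist (f y) y ≤ η := fun y hy =>
    f3 y hy _ (convex_closedBall y η) (Or.inr Metric.isClosed_closedBall) (h7 y hy)
  obtain ⟨z, hz, hz'⟩ : ∃ z ∈ e.source ∩ e ⁻¹' Metric.ball (e x₀) (2 * s), z ∉ G.Fix := by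
    by_contra! h10
    exact h.subset (interior_maximal h10 (hW _) ⟨hx₀, Metric.mem_ball_self (by linarith)⟩)
  have h10 := h8 (6 * s) (by linarith)
  exact PreConfig.toConfig {
    toLocAct := A
    f := f
    K := Metric.closedBall (e x₀) (6 * s)
    o := e x₀
    b := e x₀
    t := e z
    R := 2 * s
    Rb := 4 * s
    a₀ := e x₀
    s := s
    spos := hs
    fcont := f1
    finv := f2
    Kc := isCompact_closedBall _ _
    KΩ := h10
    BΩ := h8 _ (by linarith)
    Kint := fun g x hx => Metric.ball_subset_interior_closedBall (Metric.mem_ball.2 (by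
      linarith [h7 x (h8 _ (by linarith) hx) g, Metric.mem_closedBall.1 hx,
        dist_triangle (A.act g x) x (e x₀)]))
    back := fun x hx h => Metric.mem_ball.2 (by
      linarith [h9 x (h10 hx), Metric.mem_ball.1 h, dist_triangle_left x (e x₀) (f x)])
    unitO := Metric.closedBall_subset_ball (by linarith)
    unitB := Metric.closedBall_subset_ball (by linarith)
    tO := hz.2
    free := fun x hx h => by
      by_contra! h11
      obtain rfl : x = e z :=
        (f3 x (h10 hx) {x} (convex_singleton x) (Or.inr isClosed_singleton) h11).symm.trans h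
      have h12 := Metric.mem_ball.1 hz.2
      refine hz' fun g => e.injOn (h3 z hz.1 (by linarith) g).1 hz.1 ((h6 g z ⟨0, z, ⟨hz.1,
        Metric.mem_ball.2 (by linarith)⟩, (G.zero z).symm⟩).symm.trans (h11 g))
    small := fun x hx _ => ⟨(h9 x (h10 hx)).trans hη2, fun g => (h7 x (h10 hx) g).trans hη2⟩ }

end Vale.Agent.P228
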