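import Vale.Agent.P228.Geom0

set_option linter.unusedSectionVars false
noncomputable section
open Matrix Filter Topology
namespace Vale.Agent.P228

variable {p : ℕ} [Fact p.Prime] {k : ℕ}

theorem LocAct.avg_cont (A : LocAct p k) {x : E k} (hx : x ∈ A.Ω) :
    Continuous fun h => A.act h x :=
  A.cont.comp_continuous (f := fun h => (h, x)) (by fun_prop) fun _ => ⟨trivial, hx⟩

theorem LocAct.avg_neg (A : LocAct p k) (h : ℤ_[p]) {x : E k} (hx : x ∈ A.Ω) :
    A.act (-h) (A.act h x) = x := by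
  rw [← A.add _ _ x hx, neg_add_cancel, A.zero x hx]

/-- the Haar average over orbits -/
theorem LocAct.exists_avg (A : LocAct p k) : ∃ f : E k → E k, ContinuousOn f A.Ω ∧
    (∀ h, ∀ x ∈ A.Ω, f (A.act h x) = f x) ∧
    ∀ x ∈ A.Ω, ∀ S : Set (E k), Convex ℝ S → (IsOpen S ∨ IsClosed S) → (∀ h, A.act h x ∈ S) →
      f x ∈ S := by
  borelize ℤ_[p]
  obtain ⟨μ, hμ⟩ : ∃ μ, μ = MeasureTheory.Measure.addHaarMeasure
    (⊤ : TopologicalSpace.PositiveCompacts ℤ_[p]) := ⟨_, rfl⟩
  have h1 : μ.IsAddHaarMeasure := hμ ▸ inferInstance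
  have h2 : MeasureTheory.IsProbabilityMeasure μ :=
    ⟨hμ ▸ MeasureTheory.Measure.addHaarMeasure_self⟩
  have hi : ∀ x ∈ A.Ω, MeasureTheory.Integrable (fun h => A.act h x) μ := fun x hx =>
    (A.avg_cont hx).integrable_of_hasCompactSupport (HasCompactSupport.of_compactSpace _)
  refine ⟨fun x => ∫ h, A.act h x ∂μ, continuousOn_integral_of_compact_support isCompact_univ
    (A.cont.comp continuous_swap.continuousOn fun q hq => ⟨trivial, hq.1⟩) (by simp),
    fun h x hx => ?_, fun x hx S hS hS' h => ?_⟩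
  · simp only [← A.add _ h x hx, add_comm _ h]
    exact MeasureTheory.integral_add_left_eq_self (fun h => A.act h x) h
  · rcases hS' with h3 | h3
    · by_contra h4
      obtain ⟨l, hl⟩ := geometric_hahn_banach_open_point hS h3 h4
      have h5 := Continuous.integral_pos_of_hasCompactSupport_nonneg_nonzero (μ := μ) (x := 0)
        (f := fun g => l (∫ h, A.act h x ∂μ) - l (A.act g x))
        (continuous_const.sub (l.continuous.comp (A.avg_cont hx)))
        (HasCompactSupport.of_compactSpace _) (fun g => (sub_pos.2 (hl _ (h g))).le)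
        (sub_pos.2 (hl _ (h 0))).ne'
      rw [MeasureTheory.integral_sub (MeasureTheory.integrable_const _)
        (l.integrable_comp (hi x hx)), l.integral_comp_comm (hi x hx)] at h5
      simp at h5
    · exact hS.integral_mem h3 (MeasureTheory.ae_of_all _ h) (hi x hx)

theorem PreConfig.toConfig {δ : ℝ} (c : PreConfig p k δ) : Nonempty (Config p k δ) := by
  have hs := c.spos
  obtain ⟨ψ, h0, h1⟩ : ∃ ψ : E k ≃ₜ E k, ψ 0 = c.a₀ ∧ ∀ x y, dist (ψ x) (ψ y) = dist x y * c.s :=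
    ⟨(Homeomorph.smulOfNeZero c.s hs.ne').trans (Homeomorph.addLeft c.a₀), by simp, fun x y => by
      simp [dist_smul₀, abs_of_pos hs, mul_comm]⟩
  have h2 : ∀ x y, dist x (ψ.symm y) = dist (ψ x) y / c.s := fun x y => by
    rw [eq_div_iff hs.ne', ← h1, ψ.apply_symm_apply]
  have h3 : ∀ x y r, x ∈ Metric.ball (ψ.symm y) (r / c.s) ↔ ψ x ∈ Metric.ball y r := fun x y r => by
    rw [Metric.mem_ball, h2, div_lt_div_iff_of_pos_right hs, Metric.mem_ball]
  have h4 : ∀ x y r, x ∈ Metric.closedBall (ψ.symm y) (r / c.s) → ψ x ∈ Metric.closedBall y r :=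
    fun x y r h => by rwa [Metric.mem_closedBall, h2, div_le_div_iff_of_pos_right hs] at h
  have h5 : ∀ x, ‖x‖ ≤ 1 → dist (ψ x) c.a₀ ≤ c.s := fun x h => by
    rw [← h0, h1, dist_zero_right]
    exact mul_le_of_le_one_left hs.le h
  have h6 : ∀ x y, dist y (ψ x) ≤ δ * c.s → dist (ψ.symm y) x ≤ δ := fun x y h => by
    rwa [dist_comm, h2, div_le_iff₀ hs, dist_comm]
  exact ⟨{
    Ω := ψ ⁻¹' c.Ω
    act := fun h x => ψ.symm (c.act h (ψ x))
    isOpen := c.isOpen.preimage ψ.continuous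
    cont := ψ.symm.continuous.comp_continuousOn (c.cont.comp
      (f := fun q : ℤ_[p] × E k => (q.1, ψ q.2)) (by fun_prop) fun q hq => ⟨trivial, hq.2⟩)
    mem := fun h x hx => by simpa using c.mem h _ hx
    zero := fun x hx => by rw [c.zero _ hx, ψ.symm_apply_apply]
    add := fun h h' x hx => by rw [c.add _ _ _ hx, ψ.apply_symm_apply]
    f := fun x => ψ.symm (c.f (ψ x))
    K := ψ ⁻¹' c.K
    o := ψ.symm c.o
    b := ψ.symm c.b
    t := ψ.symm c.t
    R := c.R / c.s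
    Rb := c.Rb / c.s
    fcont := ψ.symm.continuous.comp_continuousOn
      (c.fcont.comp ψ.continuous.continuousOn fun _ h => h)
    finv := fun h x hx => by rw [ψ.apply_symm_apply, c.finv h _ hx]
    Kc := ψ.isCompact_preimage.2 c.Kc
    KΩ := Set.preimage_mono c.KΩ
    BΩ := fun x hx => c.BΩ (h4 _ _ _ hx)
    Kint := fun h x hx => by
      rw [← ψ.preimage_interior]
      simpa using c.Kint h _ (h4 _ _ _ hx)
    back := fun x hx h => (h3 _ _ _).2 (c.back _ hx (by simpa using (h3 _ _ _).1 h))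
    unitO := fun x hx => (h3 _ _ _).2 (c.unitO (h5 x (by simpa using hx)))
    unitB := fun x hx => (h3 _ _ _).2 (c.unitB (h5 x (by simpa using hx)))
    tO := (h3 _ _ _).2 (by simpa using c.tO)
    free := fun x hx h => (c.free _ hx (ψ.symm.injective h)).imp fun g hg h' =>
      hg (ψ.symm_apply_eq.1 h')
    small := fun x hx h =>
      have := c.small _ hx (h.imp (h5 x) fun h => by simpa using h5 _ h)
      ⟨h6 _ _ this.1, fun g => h6 _ _ (this.2 g)⟩ }⟩

theorem LocAct.isOpen_sat (A : LocAct p k) {W : Set (E k)} (hW : IsOpen W) (hΩ : W ⊆ A.Ω) :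
    IsOpen {y | ∃ h, ∃ x ∈ W, y = A.act h x} := by
  have : {y | ∃ h, ∃ x ∈ W, y = A.act h x} = ⋃ h, A.Ω ∩ A.act h ⁻¹' W := by
    ext y
    refine ⟨?_, fun hy => ?_⟩
    · rintro ⟨h, x, hx, rfl⟩
      exact Set.mem_iUnion.2 ⟨-h, A.mem h x (hΩ hx),
        Set.mem_of_eq_of_mem (s := W) (A.avg_neg h (hΩ hx)) hx⟩
    · obtain ⟨h, h1, h2⟩ := Set.mem_iUnion.1 hy
      exact ⟨-h, _, h2, (A.avg_neg h h1).symm⟩
  rw [this]
  exact isOpen_iUnion fun h => ContinuousOn.isOpen_inter_preimage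
    (A.cont.comp (f := fun x => (h, x)) (by fun_prop) fun x hx => ⟨trivial, hx⟩) A.isOpen hW

theorem LocAct.isCompact_sat (A : LocAct p k) {W : Set (E k)} (hW : IsCompact W) (hΩ : W ⊆ A.Ω) :
    IsCompact {y | ∃ h, ∃ x ∈ W, y = A.act h x} := by
  refine Set.mem_of_eq_of_mem (s := {K | IsCompact K}) (Set.ext fun y => ?_)
    ((isCompact_univ.prod hW).image_of_continuousOn (A.cont.mono (Set.prod_mono le_rfl hΩ)))
  exact ⟨fun ⟨h, x, hx, h1⟩ => ⟨(h, x), ⟨trivial, hx⟩, h1.symm⟩,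
    fun ⟨q, hq, h1⟩ => ⟨q.1, q.2, hq.2, h1.symm⟩⟩

end Vale.Agent.P228
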