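import Vale.Agent.P228.GeomChart

set_option linter.unusedSectionVars false
noncomputable section
open Matrix Filter Topology
namespace Vale.Agent.P228

variable {p : ℕ} [Fact p.Prime] {k : ℕ} {M : Type*} [TopologicalSpace M]

theorem b1_ball {V : Type} [NormedAddCommGroup V] [NormedSpace ℝ V] [ProperSpace V] {F : Set M}
    (hF : IsClosed F) (φ : OpenPartialHomeomorph M V) {x₁ : M} (h1 : x₁ ∈ φ.source)
    (h2 : x₁ ∈ frontier (interior F)) : ∃ a r x₂, 0 < r ∧ x₂ ∈ φ.source ∧ dist (φ x₂) a = r ∧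
      x₂ ∉ interior F ∧ ∀ z ∈ φ.source, dist (φ z) a ≤ r → z ∈ F := by
  obtain ⟨ρ, hρ, h3⟩ := Metric.isOpen_iff.1 φ.open_target _ (φ.map_source h1)
  obtain ⟨v, hv, hv'⟩ := mem_closure_iff.1 h2.1 _ (φ.isOpen_inter_preimage
    (Metric.isOpen_ball (x := φ x₁) (ε := ρ / 2))) ⟨h1, Metric.mem_ball_self (half_pos hρ)⟩
  have h4 : φ x₁ ∈ (φ.target ∩ φ.symm ⁻¹' interior F)ᶜ := fun h =>
    h2.2 (by simpa [φ.left_inv h1] using h.2)
  obtain ⟨y, hy, h5⟩ := (φ.isOpen_inter_preimage_symm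
    (isOpen_interior (s := F))).isClosed_compl.exists_infDist_eq_dist ⟨_, h4⟩ (φ v)
  have h6 := Metric.infDist_le_dist_of_mem (x := φ v) h4
  have h7 := Metric.ball_infDist_subset_compl (x := φ v) (s := (φ.target ∩ φ.symm ⁻¹' interior F)ᶜ)
  rw [h5] at h6 h7
  have h8 : Metric.closedBall (φ v) (dist (φ v) y) ⊆ φ.target :=
    (Metric.closedBall_subset_ball' (by linarith [Metric.mem_ball.1 hv.2])).trans h3
  have h9 : 0 < dist (φ v) y := dist_pos.2 fun h =>
    hy (h ▸ ⟨φ.map_source hv.1, by simpa [φ.left_inv hv.1] using hv'⟩)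
  have h10 := h8 (Metric.mem_closedBall'.2 le_rfl)
  refine ⟨φ v, _, φ.symm y, h9, φ.map_target h10, by rw [φ.right_inv h10, dist_comm],
    fun h => hy ⟨h10, h⟩, fun z hz h => ?_⟩
  rw [← closure_ball _ h9.ne'] at h8
  have h11 := Set.MapsTo.closure_of_continuousOn (t := F)
    (fun w hw => interior_subset (not_not.1 (h7 hw)).2) (φ.continuousOn_symm.mono h8)
  rw [closure_ball _ h9.ne', hF.closure_eq] at h11
  exact φ.left_inv hz ▸ h11 h

open EuclideanGeometry in
/-- inversion in a sphere -/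
def b1_inv {V : Type} [NormedAddCommGroup V] [InnerProductSpace ℝ V] (a : V) {r : ℝ} (hr : r ≠ 0) :
    OpenPartialHomeomorph V V where
  toFun := inversion a r
  invFun := inversion a r
  source := {a}ᶜ
  target := {a}ᶜ
  map_source' _ h := fun h' => h ((inversion_eq_center hr).1 h')
  map_target' _ h := fun h' => h ((inversion_eq_center hr).1 h')
  left_inv' x _ := inversion_inversion a hr x
  right_inv' x _ := inversion_inversion a hr x
  open_source := isOpen_compl_singleton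
  open_target := isOpen_compl_singleton
  continuousOn_toFun :=
    ContinuousOn.inversion continuousOn_const continuousOn_const continuousOn_id fun _ h => h
  continuousOn_invFun :=
    ContinuousOn.inversion continuousOn_const continuousOn_const continuousOn_id fun _ h => h

theorem exists_edge [T2Space M] [ConnectedSpace M] (G : GAct p M) (hM : HasCharts M k)
    (h1 : (interior G.Fix).Nonempty) (h2 : interior G.Fix ≠ Set.univ) : Nonempty (Edge p k) := by
  obtain ⟨x₁, h3⟩ := nonempty_frontier_iff.2 ⟨h1, h2⟩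
  obtain ⟨e₀, h4⟩ := hM x₁
  obtain ⟨L⟩ : Nonempty (EuclideanSpace ℝ (Ix k) ≃L[ℝ] E k) := ⟨EuclideanSpace.equiv _ _⟩
  obtain ⟨φ, h5⟩ : ∃ φ : OpenPartialHomeomorph M (EuclideanSpace ℝ (Ix k)), x₁ ∈ φ.source :=
    ⟨e₀.transHomeomorph L.symm.toHomeomorph, h4⟩
  obtain ⟨a, r, x, hr, hx, h6, h7, h8⟩ := b1_ball G.isClosed_fix φ h5 h3
  obtain ⟨e, h9, h10⟩ : ∃ e : OpenPartialHomeomorph M (E k), e.source = φ.source ∩ φ ⁻¹' {a}ᶜ ∧
      ∀ z, e z = L (EuclideanGeometry.inversion a r (φ z)) :=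
    ⟨(φ.trans (b1_inv a hr.ne')).transHomeomorph L.toHomeomorph, φ.trans_source _, fun _ => rfl⟩
  have h11 : e x = L (φ x) := by rw [h10, EuclideanGeometry.inversion_of_mem_sphere h6]
  obtain ⟨W, hW, hxW, h12⟩ := G.tube_fix (h8 x hx h6.le) (e.open_source.mem_nhds
    (h9.superset ⟨hx, dist_pos.1 (hr.trans_eq h6.symm)⟩))
  have hU := G.isOpen_sat hW
  obtain ⟨U, hU'⟩ : ∃ U, U = {y | ∃ h, ∃ x ∈ W, y = G.a h x} := ⟨_, rfl⟩
  have h13 : U ⊆ e.source := by
    rw [hU']
    rintro _ ⟨g, y, hy, rfl⟩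
    exact h12 g y hy
  have h14 : ∀ g, ∀ y ∈ U, G.a g y ∈ U := by
    rw [hU']
    rintro g _ ⟨g', y, hy, rfl⟩
    exact ⟨g + g', y, hy, (G.add _ _ _).symm⟩
  have h15 : x ∈ U := by
    rw [hU']
    exact ⟨0, x, hxW, (G.zero x).symm⟩
  rw [← hU'] at hU
  obtain ⟨A, h16, h17⟩ := G.exists_locAct e hU h13 h14
  refine ⟨{
    toLocAct := A
    x := e x
    D := L.symm ⁻¹' Metric.ball a r
    xΩ := h16.superset ⟨x, h15, rfl⟩
    xD := by simp [h11, h6]
    Dopen := Metric.isOpen_ball.preimage L.symm.continuous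
    Dconv := (convex_ball a r).is_linear_preimage ⟨map_add L.symm, map_smul L.symm⟩
    fix := ?_
    moved := fun ε hε => ?_
    room := fun ε hε => ?_ }⟩
  · rw [h16]
    rintro _ ⟨z, hz, rfl⟩ h g
    obtain ⟨h18, h19⟩ : z ∈ φ.source ∩ φ ⁻¹' {a}ᶜ := h9.subset (h13 hz)
    rw [h10, Set.mem_preimage, L.symm_apply_apply, Metric.mem_ball, not_lt,
      EuclideanGeometry.dist_inversion_center, le_div_iff₀ (dist_pos.2 h19), sq,
      mul_le_mul_iff_right₀ hr] at h
    rw [h17 g z hz, h8 z h18 h g]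
  · by_contra! h
    refine h7 (interior_maximal (fun z hz g => ?_) (hU.inter (e.isOpen_inter_preimage
      (Metric.isOpen_ball (x := e x) (ε := ε)))) ⟨h15, h13 h15, Metric.mem_ball_self hε⟩)
    exact e.injOn (h13 (h14 g z hz.1)) hz.2.1
      ((h17 g z hz.1).symm.trans (h _ (h16.superset ⟨z, hz.1, rfl⟩) hz.2.2 g))
  · have h18 : φ x ∈ frontier (Metric.closedBall a r) := by rwa [frontier_closedBall a hr.ne']
    rw [frontier_eq_closure_inter_closure] at h18
    obtain ⟨w, h19, h20⟩ := mem_closure_iff.1 h18.2 _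
      ((Metric.isOpen_ball (x := e x) (ε := ε)).preimage L.continuous) (by simpa [h11] using hε)
    obtain ⟨s, hs, h21⟩ := Metric.nhds_basis_closedBall.mem_iff.1 ((Metric.isOpen_ball.inter
      ((Metric.isClosed_closedBall (x := a) (ε := r)).isOpen_compl.preimage
        L.symm.continuous)).mem_nhds (x := L w) ⟨h19, by simpa using h20⟩)
    exact ⟨_, s, hs, fun y hy => (h21 hy).1, fun y hy h =>
      (h21 hy).2 (Metric.ball_subset_closedBall h)⟩

end Vale.Agent.P228
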