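import Vale.Agent.P228.GeomAvg

set_option linter.unusedSectionVars false
noncomputable section
open Matrix Filter Topology
namespace Vale.Agent.P228

variable {p : ℕ} [Fact p.Prime] {k : ℕ}

theorem Edge.toConfig (e : Edge p k) {δ : ℝ} (hδ : 0 ≤ δ) : Nonempty (Config p k δ) := by
  obtain ⟨f, f1, f2, f3⟩ := e.toLocAct.exists_avg
  have h1 : ∀ y ∈ e.Ω, (∀ h, e.act h y = y) → f y = y := fun y hy h =>
    f3 y hy {y} (convex_singleton y) (Or.inr isClosed_singleton) h
  have h2 : ∀ y ∈ e.Ω, f y ∉ e.D → y ∉ e.D := fun y hy h h' => h (f3 y hy _ e.Dconv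
    (Or.inl e.Dopen) fun g => not_not.1 fun h3 => h3 (Set.mem_of_eq_of_mem
      ((e.fix _ (e.mem g y hy) h3 (-g)).symm.trans (e.toLocAct.avg_neg g hy)) h'))
  obtain ⟨ρ, hρ, h3⟩ := Metric.nhds_basis_closedBall.mem_iff.1 (e.isOpen.mem_nhds e.xΩ)
  have hK := e.toLocAct.isCompact_sat (isCompact_closedBall e.x ρ) h3
  have hO := e.toLocAct.isOpen_sat Metric.isOpen_ball (Metric.ball_subset_closedBall.trans h3)
  obtain ⟨K, hK'⟩ : ∃ K, K = {y | ∃ h, ∃ x ∈ Metric.closedBall e.x ρ, y = e.act h x} := ⟨_, rfl⟩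
  rw [← hK'] at hK
  have h4 : K ⊆ e.Ω := by
    rw [hK']
    rintro _ ⟨g, y, hy, rfl⟩
    exact e.mem g y (h3 hy)
  obtain ⟨R', hR', h5⟩ := Metric.isOpen_iff.1 ((hK.diff (Metric.isOpen_ball (x := e.x)
    (ε := ρ / 2))).image_of_continuousOn
      (f1.mono (Set.diff_subset.trans h4))).isClosed.isOpen_compl e.x (by
    rintro ⟨y, hy, h⟩
    have h5 := h4 hy.1
    rw [h1 y h5 (e.fix y h5 (h2 y h5 (h ▸ e.xD)))] at h
    exact hy.2 (h ▸ Metric.mem_ball_self (half_pos hρ)))
  have hR := lt_min hR' (half_pos hρ)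
  obtain ⟨t, ht, h6, g, h7⟩ := e.moved _ hR
  obtain ⟨a, s, hs, h8, h9⟩ := e.room _ hR
  exact PreConfig.toConfig {
    toLocAct := e.toLocAct
    f := f
    K := K
    o := e.x
    b := e.x
    t := t
    R := min R' (ρ / 2)
    Rb := ρ / 2
    a₀ := a
    s := s
    spos := hs
    fcont := f1
    finv := f2
    Kc := hK
    KΩ := h4
    BΩ := (Metric.closedBall_subset_closedBall (half_le_self hρ.le)).trans h3
    Kint := fun g y hy => interior_maximal
      (by rw [hK']; exact fun z ⟨g, y, hy, h⟩ => ⟨g, y, Metric.ball_subset_closedBall hy, h⟩) hO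
      ⟨g, y, Metric.closedBall_subset_ball (half_lt_self hρ) hy, rfl⟩
    back := fun y hy h => not_not.1 fun h' =>
      h5 (Metric.ball_subset_ball (min_le_left _ _) h) ⟨y, ⟨hy, h'⟩, rfl⟩
    unitO := h8
    unitB := h8.trans (Metric.ball_subset_ball (min_le_right _ _))
    tO := h6
    free := fun y hy h => by
      by_contra! h10
      rw [h1 y (h4 hy) h10] at h
      exact h7 (h ▸ h10 g)
    small := fun y hy h => by
      have h10 := e.fix y (h4 hy) (h.elim (h9 y) fun h => h2 y (h4 hy) (h9 _ h))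
      simp only [h1 y (h4 hy) h10, h10, dist_self]
      exact ⟨mul_nonneg hδ hs.le, fun _ => mul_nonneg hδ hs.le⟩ }

end Vale.Agent.P228
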