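import Vale.Agent.P228.Nat
import Vale.Agent.P228.Sgn
import Vale.Agent.P228.AlgVal

set_option linter.unusedSectionVars false
noncomputable section
open Matrix Filter Topology
namespace Vale.Agent.P228

section Fam
variable {R S : Type} [Ring R] [StarRing R] [Algebra ℂ R] [StarModule ℂ R]
  [Ring S] [StarRing S] [Algebra ℂ S] [StarModule ℂ S]

lemma ht_gen {c : ℝ → ℂ} (hc : Continuous c) (a : R) : IsFam fun t => c t • a :=
  Submodule.subset_span ⟨c, a, hc, rfl⟩

lemma ht_ind {p : (ℝ → R) → Prop} {G : ℝ → R} (hG : IsFam G)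
    (h1 : ∀ (c : ℝ → ℂ) (a : R), Continuous c → p fun t => c t • a) (h0 : p fun _ => 0)
    (h2 : ∀ G H, p G → p H → p fun t => G t + H t) : p G := by
  have : ∀ r : ℂ, p fun t => r • G t := by
    unfold IsFam at hG
    induction hG using Submodule.span_induction with
    | mem G hG =>
      obtain ⟨c, a, hc, rfl⟩ := hG
      intro r
      simpa only [smul_smul] using h1 (fun t => r * c t) a (continuous_const.mul hc)
    | zero => intro r; simpa using h0
    | add G H _ _ hG hH =>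
      intro r
      simpa only [Pi.add_apply, smul_add] using h2 _ _ (hG r) (hH r)
    | smul s G _ hG =>
      intro r
      simpa only [Pi.smul_apply, smul_smul] using hG (r * s)
  simpa only [one_smul] using this 1

lemma ht_zero : IsFam fun _ : ℝ => (0 : R) := Submodule.zero_mem _

theorem IsFam.const (a : R) : IsFam fun _ => a := by
  simpa only [one_smul] using ht_gen (c := fun _ => 1) continuous_const a

theorem IsFam.add {G H : ℝ → R} (hG : IsFam G) (hH : IsFam H) : IsFam fun t => G t + H t := by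
  exact Submodule.add_mem _ hG hH

theorem IsFam.neg {G : ℝ → R} (hG : IsFam G) : IsFam fun t => -G t := by
  exact Submodule.neg_mem _ hG

theorem IsFam.sub {G H : ℝ → R} (hG : IsFam G) (hH : IsFam H) : IsFam fun t => G t - H t := by
  exact Submodule.sub_mem _ hG hH

theorem IsFam.mul {G H : ℝ → R} (hG : IsFam G) (hH : IsFam H) : IsFam fun t => G t * H t := by
  refine ht_ind (p := fun G => IsFam fun t => G t * H t) hG (fun c a hc => ?_) ?_ ?_
  · refine ht_ind (p := fun H => IsFam fun t => (c t • a) * H t) hH (fun d b hd => ?_) ?_ ?_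
    · simpa only [smul_mul_smul_comm, Pi.mul_apply] using ht_gen (hc.mul hd) (a * b)
    · simpa only [mul_zero] using ht_zero
    · intro H H' h h'
      simpa only [mul_add] using h.add h'
  · simpa only [zero_mul] using ht_zero
  · intro G G' h h'
    simpa only [add_mul] using h.add h'

theorem IsFam.star {G : ℝ → R} (hG : IsFam G) : IsFam fun t => star (G t) := by
  refine ht_ind (p := fun G => IsFam fun t => Star.star (G t)) hG (fun c a hc => ?_) ?_ ?_
  · simpa only [star_smul] using ht_gen hc.star (Star.star a)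
  · simpa only [star_zero] using ht_zero
  · intro G G' h h'
    simpa only [star_add] using h.add h'

theorem IsFam.smul {G : ℝ → R} (hG : IsFam G) {c : ℝ → ℂ} (hc : Continuous c) :
    IsFam fun t => c t • G t := by
  refine ht_ind (p := fun G => IsFam fun t => c t • G t) hG (fun d a hd => ?_) ?_ ?_
  · simpa only [smul_smul, Pi.mul_apply] using ht_gen (hc.mul hd) a
  · simpa only [smul_zero] using ht_zero
  · intro G G' h h'
    simpa only [smul_add] using h.add h'

theorem IsFam.lin {G : ℝ → R} (hG : IsFam G) (L : R →ₗ[ℂ] S) : IsFam fun t => L (G t) := by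
  refine ht_ind (p := fun G => IsFam fun t => L (G t)) hG (fun d a hd => ?_) ?_ ?_
  · simpa only [map_smul] using ht_gen hd (L a)
  · simpa only [map_zero] using ht_zero
  · intro G G' h h'
    simpa only [map_add] using h.add h'

theorem IsFam.hom {G : ℝ → R} (hG : IsFam G) (f : R →⋆ₐ[ℂ] S) : IsFam fun t => f (G t) := by
  exact hG.lin (f : R →ₐ[ℂ] S).toLinearMap

theorem IsFam.cvx {G H : ℝ → R} (hG : IsFam G) (hH : IsFam H) :
    IsFam fun t => cvx t (G t) (H t) := by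
  exact (hG.smul (Complex.continuous_ofReal.comp (continuous_const.sub continuous_id))).add
    (hH.smul Complex.continuous_ofReal)

theorem isFam_cvx (a b : R) : IsFam fun t => cvx t a b := by
  exact (IsFam.const a).cvx (IsFam.const b)

theorem IsFam.matrix {I : Type} [Fintype I] [DecidableEq I] {G : ℝ → Matrix I I R}
    (h : ∀ i j, IsFam fun t => G t i j) : IsFam G := by
  have e : G = ∑ i, ∑ j, fun t => Matrix.single i j (G t i j) := by
    funext t
    simp only [Finset.sum_apply]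
    exact Matrix.matrix_eq_sum_single (G t)
  rw [e]
  refine Submodule.sum_mem _ fun i _ => Submodule.sum_mem _ fun j _ => ?_
  exact (h i j).lin (Matrix.singleLinearMap ℂ i j)

theorem IsFam.m2 {a b c d : ℝ → R} (ha : IsFam a) (hb : IsFam b) (hc : IsFam c) (hd : IsFam d) :
    IsFam fun t => (!![a t, b t; c t, d t] : M2 R) := by
  refine IsFam.matrix fun i j => ?_
  fin_cases i <;> fin_cases j
  · exact ha
  · exact hb
  · exact hc
  · exact hd

theorem IsFam.s2 {a : ℝ → R} (ha : IsFam a) : IsFam fun t => s2 (a t) := by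
  exact ha.hom s2H

theorem IsFam.dg {a b : ℝ → R} (ha : IsFam a) (hb : IsFam b) : IsFam fun t => dg (a t) (b t) := by
  exact ha.m2 ht_zero ht_zero hb

lemma ht_sh {a : ℝ → R} (ha : IsFam a) : IsFam fun t => sh (a t) :=
  (IsFam.const 1).m2 ha ht_zero (IsFam.const 1)

lemma ht_th {a : ℝ → R} (ha : IsFam a) : IsFam fun t => th (a t) :=
  (IsFam.const 1).m2 ht_zero ha (IsFam.const 1)

theorem IsFam.el {a b : ℝ → R} (ha : IsFam a) (hb : IsFam b) : IsFam fun t => el (a t) (b t) := by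
  exact ((ht_sh hb.neg).mul (ht_th ha)).mul (ht_sh hb.neg)

theorem IsFam.elInv {a b : ℝ → R} (ha : IsFam a) (hb : IsFam b) :
    IsFam fun t => elInv (a t) (b t) := by
  exact ((ht_sh hb).mul (ht_th ha.neg)).mul (ht_sh hb)

theorem IsFam.diff {a b c d : ℝ → R} (ha : IsFam a) (hb : IsFam b) (hc : IsFam c) (hd : IsFam d) :
    IsFam fun t => diff (a t) (b t) (c t) (d t) := by
  exact ((hd.mul (ha.sub hc)).mul hd).m2 (IsFam.const 1) (IsFam.const 1) ((hd.mul hb).mul hd)

theorem IsFam.diff' {a b c d e : ℝ → R} (ha : IsFam a) (hb : IsFam b) (hc : IsFam c)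
    (hd : IsFam d) (he : IsFam e) : IsFam fun t => diff' (a t) (b t) (c t) (d t) (e t) := by
  have h1 := (he.mul (ha.sub hc)).mul he
  have h2 := (IsFam.const 1).add (h1.mul hd)
  exact (((he.mul hb).mul he).mul h2).neg.m2 h2.star h2 (h2.mul h1).neg

lemma ht_dA1 {a b : ℝ → R} (ha : IsFam a) (hb : IsFam b) : IsFam fun t => dA1 (a t) (b t) := by
  have h1 := hb.smul (c := fun _ => Complex.I) continuous_const
  have h2 := h1.el h1.neg
  exact (h2.star.mul ha.s2).mul h2

lemma ht_dA1' {a b : ℝ → R} (ha : IsFam a) (hb : IsFam b) : IsFam fun t => dA1' (a t) (b t) := by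
  have h1 := hb.smul (c := fun _ => Complex.I) continuous_const
  have h2 := h1.elInv h1.neg
  exact (h2.mul ha.s2).mul h2.star

theorem IsFam.defo {a b c d : ℝ → R} (ha : IsFam a) (hb : IsFam b) (hc : IsFam c) (hd : IsFam d) :
    IsFam fun t => defo (a t) (b t) (c t) (d t) := by
  exact (ht_dA1 ha hc).diff (ht_dA1' hb hc) ha.s2.neg hd.s2

theorem IsFam.defo' {a b c d : ℝ → R} (ha : IsFam a) (hb : IsFam b) (hc : IsFam c)
    (hd : IsFam d) : IsFam fun t => defo' (a t) (b t) (c t) (d t) := by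
  exact (ht_dA1 ha hc).diff' (ht_dA1' hb hc) ha.s2.neg hb.s2.neg hd.s2

lemma ht_Jof {a b : ℝ → R} (ha : IsFam a) (hb : IsFam b) : IsFam fun t => Jof (a t) (b t) :=
  ((ha.el hb).mul (IsFam.const J1)).mul (ha.elInv hb)

lemma ht_bottJ {c : ℝ → Cut R} {a a' : ℝ → R} (hP : IsFam fun t => (c t).P)
    (hQ : IsFam fun t => (c t).Q) (ha : IsFam a) (ha' : IsFam a') :
    IsFam fun t => bottJ (c t) (a t) (a' t) := by
  have h1 := ht_Jof (hQ.mul hQ) (hQ.mul hQ)
  have h2 := ht_Jof ((hQ.mul ha).mul hQ) ((hQ.mul ha').mul hQ)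
  exact h1.add (hP.s2.mul (h2.sub h1))

theorem IsFam.bott {c : ℝ → Cut R} {a a' : ℝ → R} (hP : IsFam fun t => (c t).P)
    (hQ : IsFam fun t => (c t).Q) (hC : IsFam fun t => (c t).C) (ha : IsFam a) (ha' : IsFam a') :
    IsFam fun t => bott (c t) (a t) (a' t) := by
  exact (IsFam.const sig).defo (IsFam.const sig) (ht_bottJ hP hQ ha ha') hC.s2

theorem IsFam.bott' {c : ℝ → Cut R} {a a' : ℝ → R} (hP : IsFam fun t => (c t).P)
    (hQ : IsFam fun t => (c t).Q) (hC : IsFam fun t => (c t).C) (ha : IsFam a) (ha' : IsFam a') :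
    IsFam fun t => bott' (c t) (a t) (a' t) := by
  exact (IsFam.const sig).defo' (IsFam.const sig) (ht_bottJ hP hQ ha ha') hC.s2

end Fam

namespace Ctx
variable {X Λ : Type} {F : Filter Λ}
  {A : Type} [Ring A] [StarRing A] [Algebra ℂ A] [StarModule ℂ A]
  {R : X → Type} [∀ x, Ring (R x)] [∀ x, StarRing (R x)] [∀ x, Algebra ℂ (R x)]
  [∀ x, StarModule ℂ (R x)]
  {n : Λ → Type} [∀ l, Fintype (n l)] [∀ l, DecidableEq (n l)]

/-- validity is passed to the next stage -/
theorem valOn_bott (Γ : Ctx F A R n) {k : ℕ} {c : Fin (k + 1) → Cut A} (hc : Γ.AdmW c) {a a' : A}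
    (h : Γ.ValOn c a a') :
    Γ.m2.m2.m2.ValOn (lift s2 (lift s2 (lift s2 (Fin.tail c)))) (bott (c 0) a a')
      (bott' (c 0) a a') := by
  intro x hx
  have h1 : Γ.Live (Fin.tail c) x := hx.of_m2.of_m2.of_m2
  rw [mat_π, mat_π, mat_π, mapH_bott, mapH_bott']
  refine bott_val ?_ ?_
  · obtain ⟨a1, a2, a3⟩ := hc.1 0
    refine ⟨?_, ?_, ?_⟩ <;> simp only [Cut.map, ← map_star, a1, a2, a3]
  · by_cases h0 : Γ.π x (c 0).C = 0
    · exact Or.inl h0
    · exact Or.inr ⟨h x (live_succ h1 h0), hc.2 x 0⟩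

lemma ht_fin (Γ : Ctx F A R n) {u : ℝ → A} (hu : IsFam u) {s : Set ℝ}
    (h : ∀ t ∈ s, ∀ x, Γ.π x (u t) = 0) : ∀ᶠ l in F, ∀ t ∈ s, Γ.ρ l (u t) = 0 := by
  obtain ⟨V, hV, hm⟩ : ∃ V : Submodule ℂ A, V.FG ∧ ∀ t, u t ∈ V := by
    refine ht_ind (p := fun u => ∃ V : Submodule ℂ A, V.FG ∧ ∀ t, u t ∈ V) hu
      (fun c a _ => ?_) ⟨⊥, Submodule.fg_bot, fun _ => Submodule.zero_mem _⟩ ?_
    · exact ⟨Submodule.span ℂ {a}, Submodule.fg_span_singleton a,
        fun t => Submodule.smul_mem _ _ (Submodule.mem_span_singleton_self a)⟩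
    · rintro G H ⟨V, hV, hG⟩ ⟨W, hW, hH⟩
      exact ⟨V ⊔ W, hV.sup hW, fun t => Submodule.add_mem_sup (hG t) (hH t)⟩
  have hfg : (Submodule.span ℂ (u '' s)).FG :=
    hV.of_le (Submodule.span_le.2 (by rintro _ ⟨t, -, rfl⟩; exact hm t))
  obtain ⟨T, hT, hTs⟩ := (Submodule.fg_span_iff_fg_span_finset_subset _).1 hfg
  have h1 : ∀ b ∈ T, ∀ᶠ l in F, Γ.ρ l b = 0 := fun b hb => by
    obtain ⟨t, ht, rfl⟩ := hT hb
    exact Γ.fin _ (h t ht)
  filter_upwards [(Filter.eventually_all_finset T).2 h1] with l hl t ht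
  have h2 : u t ∈ Submodule.span ℂ (T : Set A) := hTs ▸ Submodule.subset_span ⟨t, ht, rfl⟩
  generalize u t = b at h2
  induction h2 using Submodule.span_induction with
  | mem b hb => exact hl b hb
  | zero => exact map_zero _
  | add b b' _ _ hb hb' => rw [map_add, hb, hb', add_zero]
  | smul r b _ hb => rw [map_smul, hb, smul_zero]

lemma ht_cont {m : Type} [Fintype m] [DecidableEq m] (ρ : A →⋆ₙₐ[ℂ] Matrix m m ℂ) {u : ℝ → A}
    (hu : IsFam u) : Continuous fun t => ρ (u t) := by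
  refine ht_ind (p := fun u => Continuous fun t => ρ (u t)) hu (fun c a hc => ?_)
    continuous_const ?_
  · simp only [map_smul]
    exact hc.smul continuous_const
  · intro G H hG hH
    simp only [map_add]
    exact hG.add hH

lemma ht_main (k : ℕ) : ∀ {A : Type} [Ring A] [StarRing A] [Algebra ℂ A] [StarModule ℂ A]
    {R : X → Type} [∀ x, Ring (R x)] [∀ x, StarRing (R x)] [∀ x, Algebra ℂ (R x)]
    [∀ x, StarModule ℂ (R x)]
    {n : Λ → Type} [∀ l, Fintype (n l)] [∀ l, DecidableEq (n l)]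
    (Γ : Ctx F A R n) (c : ℝ → Fin k → Cut A) (a a' : ℝ → A)
    (_ : ∀ j, (IsFam fun t => (c t j).P) ∧ (IsFam fun t => (c t j).Q) ∧ IsFam fun t => (c t j).C)
    (_ : IsFam a) (_ : IsFam a') (_ : ∀ t ∈ Set.Icc (0 : ℝ) 1, Γ.AdmW (c t))
    (_ : ∀ t ∈ Set.Icc (0 : ℝ) 1, Γ.ValOn (c t) (a t) (a' t)),
    Γ.s k (c 0) (a 0) (a' 0) =ᶠ[F] Γ.s k (c 1) (a 1) (a' 1) := by
  induction k with
  | zero =>
    intro A _ _ _ _ R _ _ _ _ n _ _ Γ c a a' hc ha ha' hadm hval
    have hv : ∀ t ∈ Set.Icc (0 : ℝ) 1, ∀ x, Val (Γ.π x (a t)) (Γ.π x (a' t)) :=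
      fun t ht x => hval t ht x fun j => j.elim0
    have h1 := Γ.ht_fin (ha.star.sub ha) (s := Set.Icc 0 1) fun t ht x => by
      rw [map_sub, map_star, (hv t ht x).1, sub_self]
    have h2 := Γ.ht_fin ((ha.mul ha').sub (IsFam.const 1)) (s := Set.Icc 0 1) fun t ht x => by
      rw [map_sub, map_mul, (hv t ht x).2.2.1, map_one, sub_self]
    filter_upwards [h1, h2] with l b1 b2
    refine sgn_homotopy (fun t => Γ.ρ l (a t)) (fun t => Γ.ρ l (a' t)) (Γ.ρ l 1)
      (by rw [← map_star, star_one]) (ht_cont _ ha) fun t ht => ⟨?_, ?_, ?_⟩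
    · have := b1 t ht
      rwa [map_sub, map_star, sub_eq_zero] at this
    · have := b2 t ht
      rwa [map_sub, map_mul, sub_eq_zero] at this
    · rw [← map_mul, one_mul]
  | succ k ih =>
    intro A _ _ _ _ R _ _ _ _ n _ _ Γ c a a' hc ha ha' hadm hval
    rw [s_succ, s_succ]
    have h1 := IsFam.bott (c := fun t => c t 0) (hc 0).1 (hc 0).2.1 (hc 0).2.2 ha ha'
    have h2 := IsFam.bott' (c := fun t => c t 0) (hc 0).1 (hc 0).2.1 (hc 0).2.2 ha ha'
    exact ih Γ.m2.m2.m2 (fun t => lift s2 (lift s2 (lift s2 (Fin.tail (c t)))))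
      (fun t => bott (c t 0) (a t) (a' t)) (fun t => bott' (c t 0) (a t) (a' t))
      (fun j => ⟨(hc j.succ).1.s2.s2.s2, (hc j.succ).2.1.s2.s2.s2, (hc j.succ).2.2.s2.s2.s2⟩)
      h1 h2 (fun t ht => (hadm t ht).tail.m2.m2.m2)
      (fun t ht => Γ.valOn_bott (hadm t ht) (hval t ht))

theorem homotopy (Γ : Ctx F A R n) (k : ℕ) (c : ℝ → Fin k → Cut A) (a a' : ℝ → A)
    (hc : ∀ j, (IsFam fun t => (c t j).P) ∧ (IsFam fun t => (c t j).Q) ∧ IsFam fun t => (c t j).C)
    (ha : IsFam a) (ha' : IsFam a') (hadm : ∀ t ∈ Set.Icc (0 : ℝ) 1, Γ.AdmW (c t))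
    (hval : ∀ t ∈ Set.Icc (0 : ℝ) 1, Γ.ValOn (c t) (a t) (a' t)) :
    Γ.s k (c 0) (a 0) (a' 0) =ᶠ[F] Γ.s k (c 1) (a 1) (a' 1) := by
  exact ht_main k Γ c a a' hc ha ha' hadm hval

theorem homotopy' (Γ : Ctx F A R n) {k : ℕ} {c : Fin k → Cut A} (hc : Γ.AdmW c) (a a' : ℝ → A)
    (ha : IsFam a) (ha' : IsFam a')
    (hval : ∀ t ∈ Set.Icc (0 : ℝ) 1, Γ.ValOn c (a t) (a' t)) :
    Γ.s k c (a 0) (a' 0) =ᶠ[F] Γ.s k c (a 1) (a' 1) := by
  exact Γ.homotopy k (fun _ => c) a a'
    (fun j => ⟨IsFam.const _, IsFam.const _, IsFam.const _⟩) ha ha' (fun _ _ => hc) hval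

theorem cvx_homotopy (Γ : Ctx F A R n) {k : ℕ} {c : Fin k → Cut A} (hc : Γ.AdmW c)
    {a a' b b' : A}
    (h : ∀ x, Γ.Live c x → ∀ t ∈ Set.Icc (0 : ℝ) 1,
      Val (cvx t (Γ.π x a) (Γ.π x b)) (cvx t (Γ.π x a') (Γ.π x b'))) :
    Γ.s k c a a' =ᶠ[F] Γ.s k c b b' := by
  have := Γ.homotopy' hc (fun t => cvx t a b) (fun t => cvx t a' b') (isFam_cvx a b)
    (isFam_cvx a' b') fun t ht x hx => by
      rw [map_cvx, map_cvx]; exact h x hx t ht
  simpa only [cvx_zero, cvx_one] using this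

theorem loc (Γ : Ctx F A R n) {k : ℕ} {c : Fin k → Cut A} (hc : Γ.AdmW c) {a a' b b' : A}
    (ha : Γ.ValOn c a a') (hb : Γ.ValOn c b b') (h : ∀ x, Γ.Live c x → Γ.π x a = Γ.π x b) :
    Γ.s k c a a' =ᶠ[F] Γ.s k c b b' := by
  refine Γ.cvx_homotopy hc fun x hx t _ => ?_
  have h1 := ha x hx
  have h2 := hb x hx
  rw [← h x hx] at h2 ⊢
  rw [← h1.unique h2, cvx_self, cvx_self]
  exact h1

end Ctx

end Vale.Agent.P228
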