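import Vale.Agent.P228.Std

set_option linter.unusedSectionVars false
noncomputable section
open Matrix Filter Topology
namespace Vale.Agent.P228

variable {k : ℕ}

theorem op_ext {O O' : Op k} (h : ∀ i j, ent O i j = ent O' i j) : O = O' := by
  refine Finsupp.lhom_ext' fun j => LinearMap.ext_ring ?_
  ext i
  exact h i j

lemma lb_apply (O : Op k) (y : CC k) (i : B k × Lat k) :
    O y i = y.sum fun m a => ent O i m * a := by
  conv_lhs => rw [← Finsupp.sum_single y]
  rw [Finsupp.sum, Finsupp.sum, map_sum, Finsupp.finset_sum_apply]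
  refine Finset.sum_congr rfl fun m _ => ?_
  rw [← Finsupp.smul_single_one, map_smul, Finsupp.smul_apply, smul_eq_mul, mul_comm, ent]

lemma lb_lift {M : Type} [AddCommGroup M] [Module ℂ M] {ι : Type} (g : ι → M) (j : ι) :
    Finsupp.lift M ℂ ι g (Finsupp.single j 1) = g j := by
  simp [Finsupp.lift_apply]

theorem ent_mul (O O' : Op k) (i j : B k × Lat k) :
    ent (O * O') i j = (O' (Finsupp.single j 1)).sum fun m a => ent O i m * a := by
  exact lb_apply O _ i

theorem ent_mul_ne {O O' : Op k} {i j : B k × Lat k} (h : ent (O * O') i j ≠ 0) :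
    ∃ m, ent O i m ≠ 0 ∧ ent O' m j ≠ 0 := by
  rw [ent_mul, Finsupp.sum] at h
  obtain ⟨m, -, hm⟩ := Finset.exists_ne_zero_of_sum_ne_zero h
  exact ⟨m, left_ne_zero_of_mul hm, right_ne_zero_of_mul hm⟩

theorem apply_ne {O : Op k} {y : CC k} {i : B k × Lat k} (h : O y i ≠ 0) :
    ∃ m, ent O i m ≠ 0 ∧ y m ≠ 0 := by
  rw [lb_apply, Finsupp.sum] at h
  obtain ⟨m, -, hm⟩ := Finset.exists_ne_zero_of_sum_ne_zero h
  exact ⟨m, left_ne_zero_of_mul hm, right_ne_zero_of_mul hm⟩

theorem ent_one (i j : B k × Lat k) : ent (1 : Op k) i j = if i = j then 1 else 0 := by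
  rw [ent, Module.End.one_apply, Finsupp.single_apply]
  simp only [eq_comm]

theorem dE_ent (b b' : B k) (u v : Lat k) :
    ent (dE k) (b, u) (b', v) = ∑ i, dC k i b b' *
      ((if u = v + Pi.single i 1 then 1 else 0) - if u = v then 1 else 0) := by
  rw [ent, dE, lb_lift, Finsupp.finset_sum_apply]
  refine Finset.sum_congr rfl fun i _ => ?_
  rw [Finsupp.finset_sum_apply, Finset.sum_eq_single b]
  · simp only [Finsupp.smul_apply, Finsupp.sub_apply, Finsupp.single_apply, smul_eq_mul,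
      Prod.mk.injEq, true_and, eq_comm]
  · intro b'' _ hb
    simp [Finsupp.single_apply, hb]
  · simp

theorem dE_ne {i j : B k × Lat k} (h : ent (dE k) i j ≠ 0) :
    deg i.1 + 1 = deg j.1 ∧ (i.2 = j.2 ∨ ∃ t, i.2 = j.2 + Pi.single t 1) := by
  obtain ⟨b, u⟩ := i
  obtain ⟨b', v⟩ := j
  rw [dE_ent] at h
  obtain ⟨t, -, ht⟩ := Finset.exists_ne_zero_of_sum_ne_zero h
  refine ⟨dC_deg (left_ne_zero_of_mul ht), ?_⟩
  have h2 := right_ne_zero_of_mul ht
  by_cases h3 : u = v
  · exact Or.inl h3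
  · refine Or.inr ⟨t, ?_⟩
    by_contra h4
    exact h2 (by rw [if_neg h3, if_neg h4, sub_self])

theorem aug_single (j : B k × Lat k) :
    aug k (Finsupp.single j 1) = if j.1 = b0 k then 1 else 0 := by
  rw [aug, lb_lift]

theorem aug_dE (y : CC k) : aug k (dE k y) = 0 := by
  have : aug k ∘ₗ dE k = 0 := by
    refine Finsupp.lhom_ext' fun j => LinearMap.ext_ring ?_
    show aug k (dE k (Finsupp.single j 1)) = 0
    rw [dE, lb_lift]
    simp only [map_sum, map_smul, map_sub, aug_single, sub_self, smul_zero, Finset.sum_const_zero]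
  exact LinearMap.congr_fun this y

/-- the boundary of the fundamental chain of a finite set lives near its boundary -/
theorem dE_fund (D : Finset (Lat k)) (b : B k) {i : B k × Lat k}
    (h : dE k (∑ u ∈ D, Finsupp.single (b, u) 1) i ≠ 0) :
    ∃ t, ¬(i.2 ∈ D ↔ i.2 - Pi.single t 1 ∈ D) := by
  obtain ⟨b', w⟩ := i
  by_contra hn
  apply h
  rw [map_sum, Finsupp.finset_sum_apply]
  have e : ∀ u, dE k (Finsupp.single (b, u) 1) (b', w) = ∑ i, dC k i b' b *
      ((if w = u + Pi.single i 1 then 1 else 0) - if w = u then 1 else 0) := fun u =>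
    dE_ent b' b w u
  simp only [e]
  rw [Finset.sum_comm]
  refine Finset.sum_eq_zero fun t _ => ?_
  rw [← Finset.mul_sum, Finset.sum_sub_distrib]
  have h1 : w ∈ D ↔ w - Pi.single t 1 ∈ D := by
    by_contra h1
    exact hn ⟨t, h1⟩
  simp only [← sub_eq_iff_eq_add, Finset.sum_ite_eq, h1, sub_self, mul_zero]

section Raw
variable {n : Type} [Fintype n] [DecidableEq n] (v : n → Lat k)

lemma lb_cmp (O : Op k) (b b' : B k) (a a' : n) :
    cmp v O b b' a a' = ent O (b, v a) (b', v a') := rfl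

theorem cmp_add (O O' : Op k) : cmp v (O + O') = cmp v O + cmp v O' := by
  ext b b' a a'; rfl

theorem cmp_sub (O O' : Op k) : cmp v (O - O') = cmp v O - cmp v O' := by
  ext b b' a a'; rfl

theorem cmp_smul (r : ℂ) (O : Op k) : cmp v (r • O) = r • cmp v O := by
  ext b b' a a'; rfl

theorem cmp_one (hv : Function.Injective v) : cmp v (1 : Op k) = 1 := by
  ext b b' a a'
  rw [lb_cmp, ent_one]
  by_cases h1 : b = b'
  · subst h1; simp [Matrix.one_apply, hv.eq_iff]
  · simp [h1]

theorem cmp_dE (hv : Function.Injective v) : cmp v (dE k) = dM k (shiftM v) := by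
  ext b b' a a'
  rw [lb_cmp, dE_ent, dM_eq_sum, Matrix.sum_apply]
  refine Finset.sum_congr rfl fun i _ => ?_
  simp [shiftM, Matrix.one_apply, hv.eq_iff]

lemma lb_ext (Y : Raw k n) (j : B k × Lat k) : ext v Y (Finsupp.single j 1) =
    ∑ a' : n, if v a' = j.2 then
      ∑ b : B k, ∑ a : n, Y b j.1 a a' • Finsupp.single (b, v a) (1 : ℂ) else 0 := by
  rw [ext, lb_lift]

lemma lb_ext' (hv : Function.Injective v) (Y : Raw k n) (b' : B k) (a' : n) :
    ext v Y (Finsupp.single (b', v a') 1) =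
      ∑ b : B k, ∑ a : n, Y b b' a a' • Finsupp.single (b, v a) (1 : ℂ) := by
  rw [lb_ext]
  simp only [hv.eq_iff, Finset.sum_ite_eq', Finset.mem_univ, if_true]

theorem cmp_ext (hv : Function.Injective v) (Y : Raw k n) : cmp v (ext v Y) = Y := by
  ext b b' a a'
  rw [lb_cmp, ent, lb_ext' v hv]
  simp [Finsupp.finset_sum_apply, Finsupp.single_apply, hv.eq_iff, ite_and]

theorem ent_ext_ne (Y : Raw k n) {i j : B k × Lat k} (h : ent (ext v Y) i j ≠ 0) :
    ∃ a a', v a = i.2 ∧ v a' = j.2 ∧ Y i.1 j.1 a a' ≠ 0 := by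
  rw [ent, lb_ext, Finsupp.finset_sum_apply] at h
  obtain ⟨a', -, h1⟩ := Finset.exists_ne_zero_of_sum_ne_zero h
  by_cases h2 : v a' = j.2
  · rw [if_pos h2, Finsupp.finset_sum_apply] at h1
    obtain ⟨b, -, h3⟩ := Finset.exists_ne_zero_of_sum_ne_zero h1
    rw [Finsupp.finset_sum_apply] at h3
    obtain ⟨a, -, h4⟩ := Finset.exists_ne_zero_of_sum_ne_zero h3
    rw [Finsupp.smul_apply, smul_eq_mul] at h4
    have h5 : (b, v a) = i := by
      by_contra h5
      exact right_ne_zero_of_mul h4 (Finsupp.single_eq_of_ne' h5)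
    subst h5
    exact ⟨a, a', rfl, h2, left_ne_zero_of_mul h4⟩
  · rw [if_neg h2] at h1
    exact absurd rfl h1

theorem aug_ext (hv : Function.Injective v) (Y : Raw k n) (b : B k) (a' : n) :
    aug k (ext v Y (Finsupp.single (b, v a') 1)) = ∑ a, Y (b0 k) b a a' := by
  rw [lb_ext' v hv]
  simp only [map_sum, map_smul, aug_single, smul_eq_mul, mul_ite, mul_one, mul_zero]
  rw [Finset.sum_eq_single (b0 k)]
  · simp
  · intro b' _ hb; simp [hb]
  · simp

/-- compression is multiplicative on a column whose image stays inside -/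
theorem cmp_mul_col (hv : Function.Injective v) (O O' : Op k) (a : n)
    (h : ∀ b i, ent O' i (b, v a) ≠ 0 → i.2 ∈ Set.range v) :
    ColZero (cmp v (O * O') - cmp v O * cmp v O') a := by
  classical
  intro b b' u
  rw [Matrix.sub_apply, Matrix.sub_apply, sub_eq_zero, lb_cmp, ent_mul, Matrix.mul_apply,
    Matrix.sum_apply]
  simp only [Matrix.mul_apply, lb_cmp]
  rw [← Fintype.sum_prod_type' (fun (b'' : B k) (m : n) =>
    ent O (b, v u) (b'', v m) * ent O' (b'', v m) (b', v a))]
  have hinj : Function.Injective fun p : B k × n => (p.1, v p.2) :=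
    Function.Injective.prodMap Function.injective_id hv
  rw [Finsupp.sum_of_support_subset _ (s := Finset.univ.image fun p : B k × n => (p.1, v p.2)),
    Finset.sum_image fun x _ y _ hxy => hinj hxy]
  · rfl
  · intro i hi
    obtain ⟨m, hm⟩ := h b' i (Finsupp.mem_support_iff.1 hi)
    exact Finset.mem_image.2 ⟨(i.1, m), Finset.mem_univ _, Prod.ext rfl hm⟩
  · intro i _; exact mul_zero _

theorem ColZero.add {Y Y' : Raw k n} {a : n} (h : ColZero Y a) (h' : ColZero Y' a) :
    ColZero (Y + Y') a := by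
  intro b b' u
  rw [Matrix.add_apply, Matrix.add_apply, h, h', add_zero]

theorem ColZero.sub {Y Y' : Raw k n} {a : n} (h : ColZero Y a) (h' : ColZero Y' a) :
    ColZero (Y - Y') a := by
  intro b b' u
  rw [Matrix.sub_apply, Matrix.sub_apply, h, h', sub_zero]

theorem ColZero.smul {Y : Raw k n} {a : n} (h : ColZero Y a) (r : ℂ) : ColZero (r • Y) a := by
  intro b b' u
  rw [Matrix.smul_apply, Matrix.smul_apply, h, smul_zero]

theorem ColZero.mul_left {Y : Raw k n} {a : n} (h : ColZero Y a) (Y' : Raw k n) :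
    ColZero (Y' * Y) a := by
  intro b b' u
  rw [Matrix.mul_apply, Matrix.sum_apply]
  refine Finset.sum_eq_zero fun b'' _ => ?_
  rw [Matrix.mul_apply]
  refine Finset.sum_eq_zero fun m _ => ?_
  rw [h, mul_zero]

theorem ColZero.sum {ι : Type} {s : Finset ι} {Y : ι → Raw k n} {a : n}
    (h : ∀ i ∈ s, ColZero (Y i) a) : ColZero (∑ i ∈ s, Y i) a := by
  intro b b' u
  rw [Matrix.sum_apply, Matrix.sum_apply]
  exact Finset.sum_eq_zero fun i hi => h i hi b b' u

theorem colZero_cmp {O : Op k} {a : n} (h : ∀ b, O (Finsupp.single (b, v a) 1) = 0) :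
    ColZero (cmp v O) a := by
  intro b b' u
  rw [lb_cmp, ent, h]; rfl

end Raw

end Vale.Agent.P228
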