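import Vale.Agent.P228.LatB

set_option linter.unusedSectionVars false
noncomputable section
open Matrix Filter Topology
namespace Vale.Agent.P228

variable {k : ℕ}

section Abs
variable {T : Type} [Ring T] [Algebra ℂ T]

def lcStep (X Y Z W : T) : M2 (M2 T) :=
  !![!![X, 0; 0, 0], !![0, 0; 0, Y]; !![Z, 0; W, 0], !![0, 0; 0, 0]]

lemma lc_step {z w D H P p q i j : T} (h : D * H + H * D = 1 - P)
    (r1 : (z - 1) * i = 1 - p) (r2 : i * (z - 1) = 1) (s1 : (w - 1) * j = 1 - q)
    (s2 : j * (w - 1) = 1) (c1 : Commute D p) (c2 : Commute D q) (c3 : Commute D i)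
    (c4 : Commute D j) (c5 : Commute z H) (c6 : Commute w H) (c7 : Commute z q)
    (c8 : Commute z j) (c9 : Commute w p) (c10 : Commute w i) :
    dstep z w D * lcStep (p * q * H) (-(Complex.I • i)) i (p * j) +
      lcStep (p * q * H) (-(Complex.I • i)) i (p * j) * dstep z w D =
      1 - dg (dg (p * q * P) 0) 0 := by
  have d5 := c5.sub_left (Commute.one_left H)
  have d6 := c6.sub_left (Commute.one_left H)
  have d7 := c7.sub_left (Commute.one_left q)
  have d8 := c8.sub_left (Commute.one_left j)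
  have d9 := c9.sub_left (Commute.one_left p)
  have d10 := c10.sub_left (Commute.one_left i)
  rw [dstep]
  generalize z - 1 = a at *
  generalize w - 1 = b at *
  have r3 : p * a = 0 := by
    have : p = 1 - a * i := by rw [r1, sub_sub_cancel]
    rw [this, sub_mul, mul_assoc, r2, one_mul, mul_one, sub_self]
  have s3 : q * b = 0 := by
    have : q = 1 - b * j := by rw [s1, sub_sub_cancel]
    rw [this, sub_mul, mul_assoc, s2, one_mul, mul_one, sub_self]
  have II : ∀ x : T, Complex.I • Complex.I • x = -x := fun x => by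
    rw [smul_smul, Complex.I_mul_I, neg_one_smul]
  have e1 : D * (p * q * H) + (a * i + b * (p * j)) + p * q * H * D = 1 - p * q * P := by
    have a1 : D * (p * q * H) = p * q * (D * H) := by
      rw [← mul_assoc, (c1.mul_right c2).eq, mul_assoc]
    have a2 : b * (p * j) = p - p * q := by
      rw [← mul_assoc, d9.eq, mul_assoc, s1, mul_sub, mul_one]
    have a3 : p * q * (D * H) + p * q * (H * D) = p * q - p * q * P := by
      rw [← mul_add, h, mul_sub, mul_one]
    rw [a1, a2, r1, mul_assoc (p * q) H, eq_sub_of_add_eq a3]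
    abel
  have e2 : p * q * H * a = 0 := by
    rw [mul_assoc, ← d5.eq, ← mul_assoc, mul_assoc p, ← d7.eq, ← mul_assoc, r3, zero_mul, zero_mul]
  have e3 : p * q * H * b = 0 := by
    rw [mul_assoc, ← d6.eq, ← mul_assoc, mul_assoc p, s3, mul_zero, zero_mul]
  have e4 : p * j * a = 0 := by rw [mul_assoc, ← d8.eq, ← mul_assoc, r3, zero_mul]
  have e5 : p * j * b = p := by rw [mul_assoc, s2, mul_one]
  have e6 : p * j * D = D * (p * j) := (c1.mul_right c4).eq.symm
  have e7 : i * D = D * i := c3.eq.symm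
  have e8 : i * b = b * i := d10.eq.symm
  rw [r1] at e1
  rw [lcStep, dg, dg, one_m2, one_m2, zero_m2]
  simp only [Matrix.mul_fin_two, add_m2, sub_m2, mul_zero, zero_mul, add_zero, zero_add, mul_neg,
    neg_mul, mul_smul_comm, smul_mul_assoc, neg_zero, add_neg_cancel, neg_add_cancel,
    neg_neg, smul_zero, smul_neg, II, e1, e2, e3, e4, e5, e6, e7, e8, r1, r2, sub_zero,
    sub_add_cancel]

def lcP : (k : ℕ) → (Ix k → T) → T
  | 0, _ => 1
  | k + 1, p => p (0, false) * p (0, true) * lcP k (tl p)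

def lcPM : (k : ℕ) → (Ix k → T) → Matrix (B k) (B k) T
  | 0, _ => 1
  | k + 1, p => cmp2 (dg (dg (sc (B k) (p (0, false)) * sc (B k) (p (0, true)) * lcPM k (tl p)) 0) 0)

def lcH : (k : ℕ) → (Ix k → T) → (Ix k → T) → Matrix (B k) (B k) T
  | 0, _, _ => 0
  | k + 1, p, i => cmp2 (lcStep (sc (B k) (p (0, false)) * sc (B k) (p (0, true)) * lcH k (tl p) (tl i))
      (-(Complex.I • sc (B k) (i (0, false)))) (sc (B k) (i (0, false)))
      (sc (B k) (p (0, false)) * sc (B k) (i (0, true))))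

lemma lcPM_apply : ∀ (k : ℕ) (p : Ix k → T) (b b' : B k),
    lcPM k p b b' = if b = b0 k ∧ b' = b0 k then lcP k p else 0
  | 0, _, b, b' => by
    rw [if_pos ⟨Subsingleton.elim _ _, Subsingleton.elim _ _⟩, Subsingleton.elim b b', lcPM,
      Matrix.one_apply_eq, lcP]
  | k + 1, p, b, b' => by
    have ih := lcPM_apply k (tl p) (Fin.tail b) (Fin.tail b')
    simp only [lcPM, cmp2_apply, eq_b0_iff b, eq_b0_iff b', ← sc_mul, lcP]
    generalize (b 0).1 = i1
    generalize (b' 0).1 = i2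
    generalize (b 0).2 = j1
    generalize (b' 0).2 = j2
    fin_cases i1 <;> fin_cases i2 <;> fin_cases j1 <;> fin_cases j2 <;>
      simp [dg, sc, Matrix.diagonal_mul, ih]

lemma lcStep_cases (X Y Z W : T) (i i' j j' : Fin 2) : lcStep X Y Z W i i' j j' = 0 ∨
    (deg1 (i, j) = deg1 (i', j') ∧ lcStep X Y Z W i i' j j' = X) ∨
    (deg1 (i, j) = deg1 (i', j') + 1 ∧ (lcStep X Y Z W i i' j j' = Y ∨
      lcStep X Y Z W i i' j j' = Z ∨ lcStep X Y Z W i i' j j' = W)) := by
  fin_cases i <;> fin_cases i' <;> fin_cases j <;> fin_cases j' <;> simp [lcStep, deg1]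

lemma lc_sc_apply {I : Type} [DecidableEq I] (a : T) (x y : I) :
    sc I a x y = if x = y then a else 0 := Matrix.diagonal_apply _ _ _

lemma lcH_mem (S : Subalgebra ℂ T) : ∀ (k : ℕ) (p i : Ix k → T), (∀ t, p t ∈ S) →
    (∀ t, i t ∈ S) → ∀ b b', lcH k p i b b' ∈ S
  | 0, _, _, _, _, _, _ => S.zero_mem
  | k + 1, p, i, hp, hi, b, b' => by
    have ih := lcH_mem S k (tl p) (tl i) (fun t => hp _) (fun t => hi _) (Fin.tail b) (Fin.tail b')
    have hs : ∀ a ∈ S, sc (B k) a (Fin.tail b) (Fin.tail b') ∈ S := fun a ha => by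
      rw [lc_sc_apply]; split_ifs
      · exact ha
      · exact S.zero_mem
    rw [lcH, cmp2_apply]
    rcases lcStep_cases (sc (B k) (p (0, false)) * sc (B k) (p (0, true)) * lcH k (tl p) (tl i))
      (-(Complex.I • sc (B k) (i (0, false)))) (sc (B k) (i (0, false)))
      (sc (B k) (p (0, false)) * sc (B k) (i (0, true))) (b 0).1 (b' 0).1 (b 0).2 (b' 0).2 with
      h | ⟨-, h⟩ | ⟨-, h | h | h⟩ <;> rw [h]
    · exact S.zero_mem
    · rw [← sc_mul, sc, Matrix.diagonal_mul]
      exact S.mul_mem (S.mul_mem (hp _) (hp _)) ih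
    · exact S.neg_mem (S.smul_mem (hs _ (hi _)) _)
    · exact hs _ (hi _)
    · rw [← sc_mul]; exact hs _ (S.mul_mem (hp _) (hi _))

lemma lcH_deg : ∀ (k : ℕ) (p i : Ix k → T) (b b' : B k), lcH k p i b b' ≠ 0 → deg b = deg b' + 1
  | 0, _, _, _, _, h => absurd rfl h
  | k + 1, p, i, b, b', h => by
    have ih := lcH_deg k (tl p) (tl i) (Fin.tail b) (Fin.tail b')
    have hs : ∀ a : T, sc (B k) a (Fin.tail b) (Fin.tail b') ≠ 0 →
        deg (Fin.tail b) = deg (Fin.tail b') := fun a ha => by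
      rw [lc_sc_apply] at ha
      by_cases h : Fin.tail b = Fin.tail b'
      · rw [h]
      · exact absurd (if_neg h) ha
    rw [lcH, cmp2_apply] at h
    rw [deg_succ, deg_succ]
    rcases lcStep_cases (sc (B k) (p (0, false)) * sc (B k) (p (0, true)) * lcH k (tl p) (tl i))
      (-(Complex.I • sc (B k) (i (0, false)))) (sc (B k) (i (0, false)))
      (sc (B k) (p (0, false)) * sc (B k) (i (0, true))) (b 0).1 (b' 0).1 (b 0).2 (b' 0).2 with
      h1 | ⟨h0, h1⟩ | ⟨h0, h1 | h1 | h1⟩ <;> rw [h1] at h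
    · exact absurd rfl h
    · rw [← sc_mul, sc, Matrix.diagonal_mul] at h
      have := ih fun h2 => h (by rw [h2, mul_zero])
      have e : deg1 (b 0) = deg1 (b' 0) := h0
      omega
    · have := hs (i (0, false)) fun h2 => h (by
        rw [Matrix.neg_apply, Matrix.smul_apply, h2, smul_zero, neg_zero])
      have e : deg1 (b 0) = deg1 (b' 0) + 1 := h0
      omega
    · have := hs _ h
      have e : deg1 (b 0) = deg1 (b' 0) + 1 := h0
      omega
    · rw [← sc_mul] at h
      have := hs _ h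
      have e : deg1 (b 0) = deg1 (b' 0) + 1 := h0
      omega

lemma lcH_commute {k : ℕ} {p i : Ix k → T} {y : T} (hp : ∀ t, Commute y (p t))
    (hi : ∀ t, Commute y (i t)) : Commute (sc (B k) y) (lcH k p i) :=
  commute_sc fun b b' => by
    have := lcH_mem (Subalgebra.centralizer ℂ {y}) k p i
      (fun t => (Subalgebra.mem_centralizer_iff ℂ).2 (by rintro _ rfl; exact hp t))
      (fun t => (Subalgebra.mem_centralizer_iff ℂ).2 (by rintro _ rfl; exact hi t)) b b'
    exact (Subalgebra.mem_centralizer_iff ℂ).1 this y rfl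

lemma lc_sc_sub (I : Type) [Fintype I] [DecidableEq I] (a b : T) :
    sc I (a - b) = sc I a - sc I b := by
  simp only [sc, Matrix.diagonal_sub]

lemma lc_contr : ∀ (k : ℕ) (z p i : Ix k → T), (∀ t, (z t - 1) * i t = 1 - p t) →
    (∀ t, i t * (z t - 1) = 1) → (∀ t t', t ≠ t' → Commute (z t) (p t')) →
    (∀ t t', t ≠ t' → Commute (z t) (i t')) →
    dM k z * lcH k p i + lcH k p i * dM k z = 1 - lcPM k p
  | 0, _, _, _, _, _, _, _ => by simp [dM, lcH, lcPM]
  | k + 1, z, p, i, r1, r2, c1, c2 => by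
    have ne : ∀ (t : Ix k) (s : Bool), ((t.1.succ, t.2) : Ix (k + 1)) ≠ (0, s) := fun t s h =>
      Fin.succ_ne_zero _ (Prod.ext_iff.1 h).1
    have ne2 : ∀ t t' : Ix k, t ≠ t' → ((t.1.succ, t.2) : Ix (k + 1)) ≠ (t'.1.succ, t'.2) :=
      fun t t' h h' => h (Prod.ext (Fin.succ_injective _ (Prod.ext_iff.1 h').1)
        (Prod.ext_iff.1 h').2)
    have ne3 : ((0, false) : Ix (k + 1)) ≠ (0, true) := by simp
    have ih := lc_contr k (tl z) (tl p) (tl i) (fun t => r1 _) (fun t => r2 _)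
      (fun t t' h => c1 _ _ (ne2 t t' h)) (fun t t' h => c2 _ _ (ne2 t t' h))
    have q1 : ∀ t, (sc (B k) (z t) - 1) * sc (B k) (i t) = 1 - sc (B k) (p t) := fun t => by
      rw [← sc_one, ← lc_sc_sub, ← lc_sc_sub, ← sc_mul, r1]
    have q2 : ∀ t, sc (B k) (i t) * (sc (B k) (z t) - 1) = 1 := fun t => by
      rw [← sc_one, ← lc_sc_sub, ← sc_mul, r2]
    have q3 : ∀ s, Commute (dM k (tl z)) (sc (B k) (p (0, s))) := fun s =>
      (commute_sc (dM_commute fun t => (c1 _ _ (ne t s)).symm)).symm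
    have q4 : ∀ s, Commute (dM k (tl z)) (sc (B k) (i (0, s))) := fun s =>
      (commute_sc (dM_commute fun t => (c2 _ _ (ne t s)).symm)).symm
    have q5 : ∀ s, Commute (sc (B k) (z (0, s))) (lcH k (tl p) (tl i)) := fun s =>
      lcH_commute (fun t => c1 _ _ (ne t s).symm) (fun t => c2 _ _ (ne t s).symm)
    rw [dM, lcH, lcPM, ← cmp2_mul, ← cmp2_mul, ← cmp2_add, ← cmp2_one, ← cmp2_sub,
      lc_step ih (q1 _) (q2 _) (q1 _) (q2 _) (q3 _) (q3 _) (q4 _) (q4 _) (q5 _) (q5 _)
        (commute_sc_sc _ (c1 _ _ ne3)) (commute_sc_sc _ (c2 _ _ ne3))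
        (commute_sc_sc _ (c1 _ _ ne3.symm)) (commute_sc_sc _ (c2 _ _ ne3.symm))]

lemma lc_contr' (k : ℕ) (z p i : Ix k → T) (r1 : ∀ t, (z t - 1) * i t = 1 - p t)
    (r2 : ∀ t, i t * (z t - 1) = 1) (c1 : ∀ t t', t ≠ t' → Commute (z t) (p t'))
    (c2 : ∀ t t', t ≠ t' → Commute (z t) (i t')) :
    dM k z * lcH k p i + lcH k p i * dM k z + lcPM k p = 1 :=
  add_eq_of_eq_sub (lc_contr k z p i r1 r2 c1 c2)

end Abs

section Itv
variable {M : Type} [AddCommGroup M]

/-- signed sum over an integer interval -/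
def lcJ (g : ℤ → M) (a v : ℤ) : M := ∑ m ∈ Finset.Ico a v, g m - ∑ m ∈ Finset.Ico v a, g m

lemma lcJ_self (g : ℤ → M) (a : ℤ) : lcJ g a a = 0 := sub_self _

lemma lcJ_succ (g : ℤ → M) (a v : ℤ) : lcJ g a (v + 1) = lcJ g a v + g v := by
  unfold lcJ
  rcases le_or_gt a v with h | h
  · have e : Finset.Ico a (v + 1) = insert v (Finset.Ico a v) := by
      ext m; simp only [Finset.mem_Ico, Finset.mem_insert]; omega
    rw [e, Finset.sum_insert (by simp), Finset.Ico_eq_empty_of_le h,
      Finset.Ico_eq_empty_of_le (by omega : a ≤ v + 1)]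
    abel
  · have e : Finset.Ico v a = insert v (Finset.Ico (v + 1) a) := by
      ext m; simp only [Finset.mem_Ico, Finset.mem_insert]; omega
    rw [e, Finset.sum_insert (by simp), Finset.Ico_eq_empty_of_le h.le,
      Finset.Ico_eq_empty_of_le (by omega : v + 1 ≤ a)]
    abel

lemma lcJ_tel (g : ℤ → M) (a v : ℤ) : lcJ (fun m => g (m + 1) - g m) a v = g v - g a := by
  induction v using Int.inductionOn' (b := a) with
  | zero => rw [lcJ_self, sub_self]
  | succ v _ ih => rw [lcJ_succ, ih]; abel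
  | pred v _ ih =>
    have := lcJ_succ (fun m => g (m + 1) - g m) a (v - 1)
    simp only [sub_add_cancel] at this
    rw [ih] at this
    rw [eq_sub_of_add_eq this.symm]; abel

end Itv

abbrev lcV (k : ℕ) := Lat k →₀ ℂ
abbrev lcT (k : ℕ) := Module.End ℂ (lcV k)

def lcE (k : ℕ) : CC k ≃ₗ[ℂ] (B k → lcV k) :=
  (Finsupp.curryLinearEquiv ℂ).trans (Finsupp.linearEquivFunOnFinite ℂ (lcV k) (B k))

lemma lcE_symm (f : B k → lcV k) (i : B k × Lat k) : (lcE k).symm f i = f i.1 i.2 := rfl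

lemma lcE_single (b : B k) (v : Lat k) :
    lcE k (Finsupp.single (b, v) 1) = Pi.single b (Finsupp.single v 1) := by
  rw [← LinearEquiv.eq_symm_apply]
  ext ⟨b', v'⟩
  rw [lcE_symm]
  by_cases h : b' = b
  · subst h; simp [Finsupp.single_apply]
  · simp [h, Ne.symm h]

def lcΦ (k : ℕ) : Matrix (B k) (B k) (lcT k) ≃ₐ[ℂ] Op k :=
  (endVecAlgEquivMatrixEnd (B k) ℂ ℂ (lcV k)).symm.trans ((lcE k).symm.conjAlgEquiv ℂ)

lemma lcΦ_ent (M : Matrix (B k) (B k) (lcT k)) (i j : B k × Lat k) :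
    ent (lcΦ k M) i j = M i.1 j.1 (Finsupp.single j.2 1) i.2 := by
  obtain ⟨b', v⟩ := j
  show (∑ b'', M i.1 b'' (lcE k (Finsupp.single (b', v) 1) b'')) i.2 = _
  rw [lcE_single, Finset.sum_eq_single b']
  · rw [Pi.single_eq_same]
  · intro b'' _ h; rw [Pi.single_eq_of_ne h, map_zero]
  · simp

def lcS (t : Ix k) : lcT k := Finsupp.lmapDomain ℂ ℂ fun v => v + Pi.single t 1

def lcπ (a : Lat k) (t : Ix k) : lcT k := Finsupp.lmapDomain ℂ ℂ fun v => Function.update v t (a t)

def lcI (a : Lat k) (t : Ix k) : lcT k := Finsupp.lift (lcV k) ℂ (Lat k) fun v =>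
  lcJ (fun m => Finsupp.single (Function.update v t m) (1 : ℂ)) (a t) (v t)

lemma lcS_single (t : Ix k) (v : Lat k) :
    lcS t (Finsupp.single v 1) = Finsupp.single (v + Pi.single t 1) 1 := by
  rw [lcS, Finsupp.lmapDomain_apply, Finsupp.mapDomain_single]

lemma lcπ_single (a : Lat k) (t : Ix k) (v : Lat k) :
    lcπ a t (Finsupp.single v 1) = Finsupp.single (Function.update v t (a t)) 1 := by
  rw [lcπ, Finsupp.lmapDomain_apply, Finsupp.mapDomain_single]

lemma lcI_single (a : Lat k) (t : Ix k) (v : Lat k) : lcI a t (Finsupp.single v 1) =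
    lcJ (fun m => Finsupp.single (Function.update v t m) (1 : ℂ)) (a t) (v t) := by
  rw [lcI, lb_lift]

lemma lcT_ext {O O' : lcT k} (h : ∀ v, O (Finsupp.single v 1) = O' (Finsupp.single v 1)) :
    O = O' := Finsupp.lhom_ext' fun v => LinearMap.ext_ring (h v)

lemma lcJ_map (O : lcT k) (g : ℤ → lcV k) (a v : ℤ) :
    O (lcJ g a v) = lcJ (fun m => O (g m)) a v := by
  simp only [lcJ, map_sub, map_sum]

lemma lcΦ_dM : lcΦ k (dM k lcS) = dE k := by
  refine op_ext fun i j => ?_
  obtain ⟨b, u⟩ := i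
  obtain ⟨b', v⟩ := j
  rw [lcΦ_ent, dE_ent, dM_eq_sum, LinearMap.sum_apply, Finsupp.finset_sum_apply]
  refine Finset.sum_congr rfl fun t _ => ?_
  simp only [LinearMap.smul_apply, LinearMap.sub_apply, lcS_single, Module.End.one_apply,
    Finsupp.smul_apply, Finsupp.sub_apply, Finsupp.single_apply, smul_eq_mul, eq_comm]

lemma lc_upd1 (v : Lat k) (t : Ix k) (m : ℤ) :
    Function.update v t m + Pi.single t 1 = Function.update v t (m + 1) := by
  funext s
  by_cases h : s = t
  · subst h; simp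
  · simp [h]

lemma lc_upd2 (v : Lat k) (t : Ix k) (m : ℤ) :
    Function.update (v + Pi.single t 1) t m = Function.update v t m := by
  funext s
  by_cases h : s = t
  · subst h; simp
  · simp [h]

lemma lc_upd3 (v : Lat k) {t t' : Ix k} (h : t ≠ t') (m : ℤ) :
    Function.update v t' m + Pi.single t 1 = Function.update (v + Pi.single t 1) t' m := by
  funext s
  by_cases h1 : s = t'
  · subst h1; simp [h.symm]
  · simp [h1]

lemma lc_r1 (a : Lat k) (t : Ix k) : (lcS t - 1) * lcI a t = 1 - lcπ a t := by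
  refine lcT_ext fun v => ?_
  rw [Module.End.mul_apply, lcI_single, lcJ_map]
  simp only [LinearMap.sub_apply, lcS_single, Module.End.one_apply, lc_upd1, lcπ_single]
  rw [lcJ_tel (fun m => Finsupp.single (Function.update v t m) (1 : ℂ)), Function.update_eq_self]

lemma lc_r2 (a : Lat k) (t : Ix k) : lcI a t * (lcS t - 1) = 1 := by
  refine lcT_ext fun v => ?_
  rw [Module.End.mul_apply, LinearMap.sub_apply, lcS_single, Module.End.one_apply, map_sub,
    lcI_single, lcI_single]
  simp only [lc_upd2, Pi.add_apply, Pi.single_eq_same, lcJ_succ, Function.update_eq_self,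
    add_sub_cancel_left]

lemma lc_c1 (a : Lat k) (t t' : Ix k) (h : t ≠ t') : Commute (lcS t) (lcπ a t') := by
  refine lcT_ext fun v => ?_
  simp only [Module.End.mul_apply, lcS_single, lcπ_single, lc_upd3 v h]

lemma lc_c2 (a : Lat k) (t t' : Ix k) (h : t ≠ t') : Commute (lcS t) (lcI a t') := by
  refine lcT_ext fun v => ?_
  simp only [Module.End.mul_apply, lcS_single, lcI_single, lcJ_map, lc_upd3 v h, Pi.add_apply,
    Pi.single_eq_of_ne h.symm, add_zero]

lemma lcP_single (a : Lat k) : ∀ (l : ℕ) (τ : Ix l → Ix k) (v : Lat k), ∃ w : Lat k,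
    lcP l (fun i => lcπ a (τ i)) (Finsupp.single v 1) = Finsupp.single w 1 ∧
      ∀ i, w (τ i) = a (τ i)
  | 0, _, v => ⟨v, rfl, fun i => i.1.elim0⟩
  | l + 1, τ, v => by
    obtain ⟨w, h1, h2⟩ := lcP_single a l (tl τ) v
    have u1 : ∀ (w : Lat k) (s t : Ix k), w s = a s → Function.update w t (a t) s = a s :=
      fun w s t h => by
        by_cases h' : s = t
        · subst h'; simp
        · rw [Function.update_of_ne h', h]
    refine ⟨Function.update (Function.update w (τ (0, true)) (a (τ (0, true)))) (τ (0, false))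
      (a (τ (0, false))), ?_, ?_⟩
    · rw [← lcπ_single, ← lcπ_single, ← h1]; rfl
    · rintro ⟨j, s⟩
      refine Fin.cases ?_ (fun j => ?_) j
      · cases s
        · exact Function.update_self _ _ _
        · exact u1 _ _ _ (Function.update_self _ _ _)
      · exact u1 _ _ _ (u1 _ _ _ (h2 (j, s)))

lemma lcΦ_PM (a : Lat k) :
    lcΦ k (lcPM k (lcπ a)) = (aug k).smulRight (Finsupp.single (b0 k, a) (1 : ℂ)) := by
  refine op_ext fun i j => ?_
  obtain ⟨w, h1, h2⟩ := lcP_single a k id j.2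
  obtain rfl : w = a := funext h2
  have h3 : lcP k (lcπ w) (Finsupp.single j.2 1) = Finsupp.single w 1 := h1
  rw [lcΦ_ent, lcPM_apply, ent, LinearMap.smulRight_apply, aug_single]
  obtain ⟨b, u⟩ := i
  by_cases h4 : j.1 = b0 k
  · by_cases h5 : b = b0 k
    · simp [h3, h4, h5, Finsupp.single_apply]
    · simp [h4, h5, Ne.symm h5]
  · simp [h4]

/-- operators moving vertices towards `a` -/
def lcSup (a : Lat k) : Subalgebra ℂ (lcT k) where
  carrier := {O | ∀ v u, O (Finsupp.single v 1) u ≠ 0 → ∀ t, u t ∈ Set.uIcc (a t) (v t)}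
  mul_mem' := fun {O O'} hO hO' v u h t => by
    rw [Module.End.mul_apply, ← Finsupp.sum_single (O' (Finsupp.single v 1)), Finsupp.sum,
      map_sum, Finsupp.finset_sum_apply] at h
    obtain ⟨m, hm, h1⟩ := Finset.exists_ne_zero_of_sum_ne_zero h
    rw [← Finsupp.smul_single_one, map_smul, Finsupp.smul_apply, smul_eq_mul] at h1
    exact Set.uIcc_subset_uIcc_left (hO' v m (Finsupp.mem_support_iff.1 hm) t)
      (hO m u (right_ne_zero_of_mul h1) t)
  add_mem' := fun {O O'} hO hO' v u h => by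
    by_cases h1 : O (Finsupp.single v 1) u = 0
    · exact hO' v u fun h2 => h (by rw [LinearMap.add_apply, Finsupp.add_apply, h1, h2, add_zero])
    · exact hO v u h1
  algebraMap_mem' := fun r v u h t => by
    have : v = u := by
      by_contra h1
      exact h (by simp [Module.algebraMap_end_apply, h1])
    rw [this]; exact Set.right_mem_uIcc

lemma lcπ_sup (a : Lat k) (t : Ix k) : lcπ a t ∈ lcSup a := fun v u h s => by
  rw [lcπ_single] at h
  have : Function.update v t (a t) = u := by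
    by_contra h1
    exact h (Finsupp.single_eq_of_ne' h1)
  rw [← this]
  by_cases h1 : s = t
  · subst h1; rw [Function.update_self]; exact Set.left_mem_uIcc
  · rw [Function.update_of_ne h1]; exact Set.right_mem_uIcc

lemma lcI_sup (a : Lat k) (t : Ix k) : lcI a t ∈ lcSup a := fun v u h s => by
  rw [lcI_single, lcJ, Finsupp.sub_apply, Finsupp.finset_sum_apply, Finsupp.finset_sum_apply] at h
  have key : ∀ m ∈ Set.uIcc (a t) (v t), Finsupp.single (Function.update v t m) (1 : ℂ) u ≠ 0 →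
      u s ∈ Set.uIcc (a s) (v s) := fun m hm h0 => by
    have : Function.update v t m = u := by
      by_contra h1
      exact h0 (Finsupp.single_eq_of_ne' h1)
    rw [← this]
    by_cases h1 : s = t
    · subst h1; rwa [Function.update_self]
    · rw [Function.update_of_ne h1]; exact Set.right_mem_uIcc
  by_contra hn
  apply h
  rw [Finset.sum_eq_zero, Finset.sum_eq_zero, sub_self]
  · intro m hm
    by_contra h0
    rw [Finset.mem_Ico] at hm
    exact hn (key m (Set.mem_uIcc.2 (Or.inr ⟨hm.1, hm.2.le⟩)) h0)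
  · intro m hm
    by_contra h0
    rw [Finset.mem_Ico] at hm
    exact hn (key m (Set.mem_uIcc.2 (Or.inl ⟨hm.1, hm.2.le⟩)) h0)

theorem dE_sq : dE k * dE k = 0 := by
  rw [← lcΦ_dM, ← map_mul, dM_sq, map_zero]
  intro i i'
  refine lcT_ext fun v => ?_
  simp only [Module.End.mul_apply, lcS_single, add_right_comm]

theorem exists_contr (k : ℕ) : ∃ h : Lat k → Op k,
    (∀ a, dE k * h a + h a * dE k =
      1 - (aug k).smulRight (Finsupp.single (b0 k, a) (1 : ℂ))) ∧
    ∀ a i j, ent (h a) i j ≠ 0 → deg i.1 = deg j.1 + 1 ∧ ∀ t, i.2 t ∈ Set.uIcc (a t) (j.2 t) := by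
  refine ⟨fun a => lcΦ k (lcH k (lcπ a) (lcI a)), fun a => ?_, fun a i j h => ?_⟩
  · have h := lc_contr' (T := lcT k) k lcS (lcπ a) (lcI a) (lc_r1 a) (lc_r2 a) (lc_c1 a) (lc_c2 a)
    have h2 := congrArg (lcΦ k) h
    rw [map_one, map_add, map_add, map_mul, map_mul, lcΦ_dM, lcΦ_PM] at h2
    rw [← h2]
    abel
  · rw [lcΦ_ent] at h
    have h1 := lcH_mem (T := lcT k) (lcSup a) k (lcπ a) (lcI a) (lcπ_sup a) (lcI_sup a) i.1 j.1
    exact ⟨lcH_deg k (lcπ a) (lcI a) _ _ fun h0 => h (by rw [h0]; rfl), h1 _ _ h⟩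

end Vale.Agent.P228
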