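import Vale.Agent.P228.Homotopy
import Vale.Agent.P228.SigExact

set_option linter.unusedSectionVars false
set_option linter.unusedSimpArgs false
set_option linter.unusedVariables false
noncomputable section
open Matrix Filter Topology
namespace Vale.Agent.P228

section Alg
variable {R : Type} [Ring R] [StarRing R] [Algebra ℂ R] [StarModule ℂ R]

lemma congr_end {a a' g g' : R} (h1 : g * g' = 1) (h2 : g' * g = 1) :
    el g g' * dg a (-(g * a * star g)) * star (el g g') = dg (-a) (g * a * star g) := by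
  have h3 : star g * star g' = 1 := by rw [← star_mul, h2, star_one]
  rw [el_of_inv h1 h2, star_m2, dg, dg]
  simp only [Matrix.mul_fin_two, star_zero, star_neg, mul_zero, zero_mul, add_zero, zero_add,
    neg_mul, mul_neg, neg_neg, neg_zero]
  refine m2_ext ?_ rfl rfl rfl
  rw [← mul_assoc, ← mul_assoc, h2, one_mul, mul_assoc, h3, mul_one]

lemma diff_one_eq {a a' b : R} (h : Val a a') :
    sh a * dg (-b) a' * star (sh a) = diff a a' b 1 := by
  rw [star_sh', h.1, sh, th, dg, diff]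
  simp only [Matrix.mul_fin_two, mul_zero, zero_mul, add_zero, zero_add, mul_one, one_mul,
    h.2.2.1, h.2.2.2]
  refine m2_ext ?_ rfl rfl rfl
  abel

lemma two_eq (Y Y' : R) :
    two Y Y' = diff (((1 / 4 : ℝ) : ℂ) • Y) ((((1 / 4 : ℝ)⁻¹ : ℝ) : ℂ) • Y')
      (-(((1 / 4 : ℝ) : ℂ) • Y)) 1 := by
  rw [two, diff]
  simp only [one_mul, mul_one]
  refine m2_ext ?_ rfl rfl ?_
  · push_cast; module
  · congr 1; push_cast; norm_num

lemma hyp_cvx {Y Y₁ : R} (h : star Y = Y) (h₁ : star Y₁ = Y₁) {M M₁ : M2 R}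
    (hM : Val !![0, 1; 1, Y] M) (hM₁ : Val !![0, 1; 1, Y₁] M₁) (t : ℝ) :
    Val (cvx t (!![0, 1; 1, Y] : M2 R) !![0, 1; 1, Y₁]) (cvx t M M₁) := by
  rw [hM.unique (val_hyp h), hM₁.unique (val_hyp h₁), cvx_m2, cvx_m2]
  simp only [cvx_self]
  have : cvx t (-Y) (-Y₁) = -cvx t Y Y₁ := by simp only [cvx, smul_neg, neg_add]
  rw [this]
  exact val_hyp (by rw [star_cvx, h, h₁])

lemma defo_conj_alg {T T' J T₁ T₁' J₁ C g g' : R} (hC : star C = C) (h1 : g * g' = 1)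
    (h2 : g' * g = 1)
    (h : C = 0 ∨ (C = 1 ∧ Val T T' ∧ T₁ = star g * T * g ∧ T₁' = g' * T' * star g' ∧
      J₁ = g' * J * g) ∨ (Inv T T' J ∧ Inv T₁ T₁' J₁)) (t : ℝ) :
    Val (cvx t (dg (star (s2 g)) (s2 g') * defo T T' J C * star (dg (star (s2 g)) (s2 g')))
        (defo T₁ T₁' J₁ C))
      (cvx t (star (dg (star (s2 g')) (s2 g)) * defo' T T' J C * dg (star (s2 g')) (s2 g))
        (defo' T₁ T₁' J₁ C)) := by
  have e1 : s2 g * s2 g' = 1 := by rw [← s2_mul, h1, s2_one]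
  have e2 : s2 g' * s2 g = 1 := by rw [← s2_mul, h2, s2_one]
  have e3 : star (s2 g) * star (s2 g') = 1 := by rw [← star_mul, e2, star_one]
  have e4 : star (s2 g') * star (s2 g) = 1 := by rw [← star_mul, e1, star_one]
  have G1 : dg (star (s2 g)) (s2 g') * dg (star (s2 g')) (s2 g) = 1 := by
    rw [dg_mul, e3, e2]; exact s2_one
  have G2 : dg (star (s2 g')) (s2 g) * dg (star (s2 g)) (s2 g') = 1 := by
    rw [dg_mul, e4, e1]; exact s2_one
  have v0 : Val (defo T T' J C) (defo' T T' J C) := defo_val hC (by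
    rcases h with h | h | h
    · exact Or.inl h
    · exact Or.inr (Or.inl ⟨h.1, h.2.1⟩)
    · exact Or.inr (Or.inr h.1))
  have v := v0.conj G1 G2
  have cj : ∀ D Y : M2 R, dg (star (s2 g)) (s2 g') * !![D, 1; 1, Y] *
      star (dg (star (s2 g)) (s2 g')) =
      !![star (s2 g) * D * s2 g, 1; 1, s2 g' * Y * star (s2 g')] := fun D Y => by
    rw [star_dg, star_star, dg, dg]
    simp only [Matrix.mul_fin_two, mul_zero, zero_mul, add_zero, zero_add, mul_one, e2, e3]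
  have same : ∀ {a a' b b' : M2 (M2 R)}, Val a a' → Val b b' → a = b → Val (cvx t a b) (cvx t a' b') := by
    intro a a' b b' ha hb hab
    subst hab
    rw [ha.unique hb, cvx_self, cvx_self]; exact hb
  rcases h with rfl | ⟨rfl, hv, rfl, rfl, rfl⟩ | ⟨i1, i2⟩
  · refine same v (defo_val hC (Or.inl rfl)) ?_
    simp only [defo, s2_zero, diff_zero]
    rw [swp, cj]; simp only [mul_zero, zero_mul]
  · have hv' := hv.conj (g := star g) (g' := star g') (by rw [← star_mul, h2, star_one])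
      (by rw [← star_mul, h1, star_one])
    rw [star_star, star_star] at hv'
    refine same v (defo_val hC (Or.inr (Or.inl ⟨rfl, hv'⟩))) ?_
    rw [defo, defo, diff, diff, cj, dA1_conj h1 h2, dA1'_conj h1 h2, s2_one, s2_mul, s2_mul, star_s2]
    simp only [one_mul, mul_one, mul_sub, sub_mul, mul_neg, neg_mul]
  · have v1 := defo_val hC (Or.inr (Or.inr i2))
    have a1 : defo T T' J C = !![0, 1; 1, s2 C * dA1' T' J * s2 C] := by
      rw [defo, dA1_of_inv i1, diff_self]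
    have a2 : defo T₁ T₁' J₁ C = !![0, 1; 1, s2 C * dA1' T₁' J₁ * s2 C] := by
      rw [defo, dA1_of_inv i2, diff_self]
    rw [a1, cj, mul_zero, zero_mul] at v
    rw [a2] at v1
    rw [a1, cj, mul_zero, zero_mul, a2]
    refine hyp_cvx ?_ ?_ v v1 t
    · simp only [star_mul, star_star, star_s2, hC, (dA1_val i1.1 J).2.1, mul_assoc]
    · simp only [star_mul, star_s2, hC, (dA1_val i2.1 J₁).2.1, mul_assoc]

end Alg

namespace Ctx
variable {X Λ : Type} {F : Filter Λ}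
  {A : Type} [Ring A] [StarRing A] [Algebra ℂ A] [StarModule ℂ A]
  {R : X → Type} [∀ x, Ring (R x)] [∀ x, StarRing (R x)] [∀ x, Algebra ℂ (R x)]
  [∀ x, StarModule ℂ (R x)]
  {n : Λ → Type} [∀ l, Fintype (n l)] [∀ l, DecidableEq (n l)]

variable (Γ : Ctx F A R n) {k : ℕ} {c : Fin k → Cut A}

lemma s_dg (c : Fin k → Cut A) (a a' b b' : A) (l : Λ) :
    Γ.m2.s k (lift s2 c) (dg a b) (dg a' b') l = Γ.s k c a a' l + Γ.s k c b b' l :=
  sigR_dg k (Γ.ρ l) c a a' b b'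

lemma s_neg (hc : Γ.Adm c) (a a' : A) (l : Λ) : Γ.s k c (-a) (-a') l = -Γ.s k c a a' l :=
  sigR_neg k (Γ.ρ l) c hc.2 a a'

lemma ValOn.dg {Γ : Ctx F A R n} {a a' b b' : A} (ha : Γ.ValOn c a a') (hb : Γ.ValOn c b b') :
    Γ.m2.ValOn (lift s2 c) (dg a b) (dg a' b') := fun x hx => by
  simp only [mat_π, mapH_dg]
  exact (ha x hx.of_m2).dg (hb x hx.of_m2)

lemma ValOn.neg {Γ : Ctx F A R n} {a a' : A} (ha : Γ.ValOn c a a') : Γ.ValOn c (-a) (-a') :=
  fun x hx => by simpa only [map_neg] using (ha x hx).neg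

lemma ValOn.symm {Γ : Ctx F A R n} {a a' : A} (ha : Γ.ValOn c a a') : Γ.ValOn c a' a :=
  fun x hx => (ha x hx).symm

lemma ValOn.conj {Γ : Ctx F A R n} {a a' : A} (ha : Γ.ValOn c a a') {g g' : A}
    (hg : ∀ x, Γ.Live c x → Γ.π x g * Γ.π x g' = 1 ∧ Γ.π x g' * Γ.π x g = 1) :
    Γ.ValOn c (g * a * star g) (star g' * a' * g') := fun x hx => by
  simp only [map_mul, map_star]
  exact (ha x hx).conj (hg x hx).1 (hg x hx).2

theorem congr (hc : Γ.Adm c) {a a' : A} (ha : Γ.ValOn c a a') (g g' : A)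
    (hg : ∀ x, Γ.Live c x → Γ.π x g * Γ.π x g' = 1 ∧ Γ.π x g' * Γ.π x g = 1) :
    Γ.s k c (g * a * star g) (star g' * a' * g') =ᶠ[F] Γ.s k c a a' := by
  have hb := ha.conj hg
  have hD := ha.dg hb.neg
  have cs : Continuous fun t : ℝ => (t : ℂ) := Complex.continuous_ofReal
  have f1 : IsFam fun t : ℝ => el ((t : ℂ) • g) ((t : ℂ) • g') :=
    ((IsFam.const g).smul cs).el ((IsFam.const g').smul cs)
  have f2 : IsFam fun t : ℝ => elInv ((t : ℂ) • g) ((t : ℂ) • g') :=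
    ((IsFam.const g).smul cs).elInv ((IsFam.const g').smul cs)
  have hv : ∀ t : ℝ, Γ.m2.ValOn (lift s2 c)
      (el ((t : ℂ) • g) ((t : ℂ) • g') * dg a (-(g * a * star g)) *
        star (el ((t : ℂ) • g) ((t : ℂ) • g')))
      (star (elInv ((t : ℂ) • g) ((t : ℂ) • g')) * dg a' (-(star g' * a' * g')) *
        elInv ((t : ℂ) • g) ((t : ℂ) • g')) := fun t =>
    hD.conj fun x _ => by
      rw [← map_mul, ← map_mul, el_mul_elInv, elInv_mul_el, map_one]; exact ⟨rfl, rfl⟩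
  have h1 := Γ.m2.homotopy' hc.1.m2 _ _ ((f1.mul (IsFam.const _)).mul f1.star)
    ((f2.star.mul (IsFam.const _)).mul f2) fun t _ => hv t
  have h2 := Γ.m2.loc hc.1.m2 (hv 1) (ha.neg.dg hb) fun x hx => by
    simp only [Complex.ofReal_one, one_smul, mat_π, map_mul, map_star, mapH_el, mapH_dg, map_neg]
    exact congr_end (a' := Γ.π x a) (hg x hx.of_m2).1 (hg x hx.of_m2).2
  have e0 : el (0 : A) 0 = 1 := by simp [el, sh_zero, th_zero]
  have e0' : elInv (0 : A) 0 = 1 := by simp [elInv, sh_zero, th_zero]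
  filter_upwards [h1, h2] with l h1 h2
  simp only [Complex.ofReal_zero, zero_smul, e0, e0', star_one, one_mul, mul_one] at h1
  rw [h2, s_dg, s_dg, s_neg _ hc, s_neg _ hc] at h1
  omega

theorem s_inv (hc : Γ.Adm c) {a a' : A} (ha : Γ.ValOn c a a') :
    Γ.s k c a' a =ᶠ[F] Γ.s k c a a' := by
  have hg : ∀ x, Γ.Live c x → Γ.π x a' * Γ.π x a = 1 ∧ Γ.π x a * Γ.π x a' = 1 :=
    fun x hx => ⟨(ha x hx).2.2.2, (ha x hx).2.2.1⟩
  refine (Γ.loc hc.1 ha.symm (ha.conj hg) fun x hx => ?_).trans (Γ.congr hc ha a' a hg)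
  simp only [map_mul, map_star]
  rw [(ha x hx).2.2.2, one_mul, (ha x hx).2.1]

theorem s_smul (hc : Γ.Adm c) {a a' : A} (ha : Γ.ValOn c a a') {r : ℝ} (hr : 0 < r) :
    Γ.s k c ((r : ℂ) • a) (((r⁻¹ : ℝ) : ℂ) • a') =ᶠ[F] Γ.s k c a a' := by
  have hs : 0 < √r := Real.sqrt_pos.2 hr
  have hg : ∀ x, Γ.Live c x →
      Γ.π x (((√r : ℝ) : ℂ) • 1) * Γ.π x ((((√r)⁻¹ : ℝ) : ℂ) • 1) = 1 ∧
      Γ.π x ((((√r)⁻¹ : ℝ) : ℂ) • 1) * Γ.π x (((√r : ℝ) : ℂ) • 1) = 1 := fun x _ => by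
    simp only [map_smul, map_one, smul_mul_smul_comm, mul_one, ← Complex.ofReal_mul,
      mul_inv_cancel₀ hs.ne', inv_mul_cancel₀ hs.ne', Complex.ofReal_one, one_smul, and_self]
  refine (Γ.loc hc.1 (fun x hx => ?_) (ha.conj hg) fun x hx => ?_).trans (Γ.congr hc ha _ _ hg)
  · simp only [map_smul]
    exact (ha x hx).smul hr.ne'
  · congr 1
    simp only [star_smul, star_one, Complex.star_def, Complex.conj_ofReal, smul_mul_assoc,
      mul_smul_comm, one_mul, mul_one, smul_smul, ← Complex.ofReal_mul, Real.mul_self_sqrt hr.le]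

theorem s_hyp (hc : Γ.Adm c) {M M' : M2 A} (hM : Γ.m2.ValOn (lift s2 c) M M')
    (h : ∀ x, Γ.Live c x → Γ.π x (M 0 0) = 0 ∧ Γ.π x (M 0 1) = 1 ∧ Γ.π x (M 1 0) = 1) :
    Γ.m2.s k (lift s2 c) M M' =ᶠ[F] fun _ => 0 := by
  have h1 := Γ.m2.cvx_homotopy hc.1.m2 (a := M) (a' := M') (b := swp) (b' := swp) fun x hx t _ => by
    have hv := hM x hx
    obtain ⟨a1, a2, a3⟩ := h x hx.of_m2
    have e : Γ.m2.π x M = !![0, 1; 1, Γ.π x (M 1 1)] := by
      rw [← a1]; nth_rewrite 1 [← a2]; rw [← a3]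
      ext i j; fin_cases i <;> fin_cases j <;> rfl
    have hY : star (Γ.π x (M 1 1)) = Γ.π x (M 1 1) := congrFun (congrFun hv.1 1) 1
    rw [e] at hv ⊢
    simp only [mat_π, mapH_swp]
    exact hyp_cvx hY (star_zero _) hv val_swp t
  filter_upwards [h1] with l h1
  rw [h1]
  exact sigR_swp k (Γ.ρ l) c hc.2

theorem s_diff (hc : Γ.Adm c) {a a' b b' C : A} (ha : Γ.ValOn c a a') (hb : Γ.ValOn c b b')
    (hC : star C = C) (h : ∀ x, Γ.Live c x → Γ.π x C = 1 ∨ Γ.π x a = Γ.π x b) :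
    Γ.m2.s k (lift s2 c) (diff a a' b C) (diff' a a' b b' C) =ᶠ[F]
      fun l => Γ.s k c a a' l - Γ.s k c b b' l := by
  have hv : ∀ t : ℝ, Γ.m2.ValOn (lift s2 c) (diff a a' b (cvx t C 1)) (diff' a a' b b' (cvx t C 1)) :=
    fun t x hx => by
      simp only [mat_π, mapH_diff, mapH_diff', map_cvx, map_one]
      refine diff_val (by rw [star_cvx, star_one, ← map_star, hC]) ?_
      rcases h x hx.of_m2 with h1 | h1
      · exact Or.inr (Or.inl ⟨by rw [h1, cvx_self], ha x hx.of_m2, hb x hx.of_m2⟩)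
      · exact Or.inr (Or.inr ⟨h1, (ha x hx.of_m2).2.1⟩)
  have h1 := Γ.m2.homotopy' hc.1.m2 _ _
    ((IsFam.const a).diff (IsFam.const a') (IsFam.const b) (isFam_cvx C 1))
    ((IsFam.const a).diff' (IsFam.const a') (IsFam.const b) (IsFam.const b') (isFam_cvx C 1))
    fun t _ => hv t
  have hg : ∀ x, Γ.m2.Live (lift s2 c) x → Γ.m2.π x (sh a) * Γ.m2.π x (sh (-a)) = 1 ∧
      Γ.m2.π x (sh (-a)) * Γ.m2.π x (sh a) = 1 := fun x _ => by
    rw [← map_mul, ← map_mul, sh_add, sh_add, add_neg_cancel, neg_add_cancel, sh_zero, map_one]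
    exact ⟨rfl, rfl⟩
  have hD := hb.neg.dg ha.symm
  have h2 := Γ.m2.loc hc.1.m2 (hv 1) (hD.conj hg) fun x hx => by
    simp only [cvx_one, mat_π, map_mul, map_star, mapH_diff, mapH_sh, mapH_dg, map_neg, map_one]
    exact (diff_one_eq (ha x hx.of_m2)).symm
  filter_upwards [h1, h2, Γ.m2.congr hc.m2 hD _ _ hg, Γ.s_inv hc ha] with l h1 h2 h3 h4
  simp only [cvx_zero] at h1
  rw [h1, h2, h3, s_dg, s_neg _ hc, h4]
  omega

theorem s_two (hc : Γ.Adm c) {Y Y' : A} (h : Γ.ValOn c Y Y') :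
    Γ.m2.s k (lift s2 c) (two Y Y') (two' Y Y') =ᶠ[F] fun l => 2 * Γ.s k c Y Y' l := by
  have hr : (0 : ℝ) < 1 / 4 := by norm_num
  have ha : Γ.ValOn c (((1 / 4 : ℝ) : ℂ) • Y) ((((1 / 4 : ℝ)⁻¹ : ℝ) : ℂ) • Y') := fun x hx => by
    simp only [map_smul]
    exact (h x hx).smul hr.ne'
  have h1 := Γ.s_diff hc ha ha.neg (star_one _) fun x _ => Or.inl (map_one _)
  have h2 := Γ.m2.loc hc.1.m2 (a := two Y Y') (a' := two' Y Y') (fun x hx => by
      simp only [mat_π, mapH_two, mapH_two']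
      exact val_two (h x hx.of_m2))
    (b := diff _ _ _ 1) (b' := diff' _ _ _ _ 1) (fun x hx => by
      simp only [mat_π, mapH_diff, mapH_diff', map_one]
      exact diff_val_one (ha x hx.of_m2) (ha.neg x hx.of_m2))
    fun x hx => by rw [two_eq]
  filter_upwards [h1, h2, Γ.s_smul hc h hr] with l h1 h2 h3
  rw [h2, h1, s_neg _ hc, h3]
  omega

theorem defo_conj (hc : Γ.Adm c) {T T' J T₁ T₁' J₁ C : A} (hC : star C = C) (g g' : A)
    (h : ∀ x, Γ.Live c x → Γ.π x g * Γ.π x g' = 1 ∧ Γ.π x g' * Γ.π x g = 1 ∧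
      (Γ.π x C = 0 ∨
        (Γ.π x C = 1 ∧ Val (Γ.π x T) (Γ.π x T') ∧ Γ.π x T₁ = Γ.π x (star g * T * g) ∧
          Γ.π x T₁' = Γ.π x (g' * T' * star g') ∧ Γ.π x J₁ = Γ.π x (g' * J * g)) ∨
        (Inv (Γ.π x T) (Γ.π x T') (Γ.π x J) ∧ Inv (Γ.π x T₁) (Γ.π x T₁') (Γ.π x J₁)))) :
    Γ.m2.m2.s k (lift s2 (lift s2 c)) (defo T T' J C) (defo' T T' J C) =ᶠ[F]
      Γ.m2.m2.s k (lift s2 (lift s2 c)) (defo T₁ T₁' J₁ C) (defo' T₁ T₁' J₁ C) := by
  have hC' : ∀ x, star (Γ.π x C) = Γ.π x C := fun x => by rw [← map_star, hC]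
  have hv : Γ.m2.m2.ValOn (lift s2 (lift s2 c)) (defo T T' J C) (defo' T T' J C) := fun x hx => by
    simp only [mat_π, mapH_defo, mapH_defo']
    refine defo_val (hC' x) ?_
    rcases (h x hx.of_m2.of_m2).2.2 with h | h | h
    · exact Or.inl h
    · exact Or.inr (Or.inl ⟨h.1, h.2.1⟩)
    · exact Or.inr (Or.inr h.1)
  have h1 := Γ.m2.m2.congr hc.m2.m2 hv (dg (star (s2 g)) (s2 g')) (dg (star (s2 g')) (s2 g))
    fun x hx => by
      obtain ⟨a1, a2, -⟩ := h x hx.of_m2.of_m2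
      simp only [mat_π, mapH_dg, map_star, mapH_s2, dg_mul, ← star_mul, ← s2_mul, a1, a2, s2_one,
        star_one]
      exact ⟨s2_one, s2_one⟩
  refine h1.symm.trans (Γ.m2.m2.cvx_homotopy hc.1.m2.m2 fun x hx t _ => ?_)
  obtain ⟨a1, a2, a3⟩ := h x hx.of_m2.of_m2
  simp only [mat_π, map_mul, map_star, mapH_dg, mapH_s2, mapH_defo, mapH_defo'] at a3 ⊢
  exact defo_conj_alg (hC' x) a1 a2 a3 t

theorem defo_cvx (hc : Γ.Adm c) {T T' J J₁ C : A} (hC : star C = C)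
    (h : ∀ x, Γ.Live c x → Γ.π x C = 0 ∨ (Γ.π x C = 1 ∧ Val (Γ.π x T) (Γ.π x T')) ∨
      (Inv (Γ.π x T) (Γ.π x T') (Γ.π x J) ∧ Inv (Γ.π x T) (Γ.π x T') (Γ.π x J₁) ∧
        Γ.π x J * (1 + Γ.π x J₁) = 1 + Γ.π x J₁)) :
    Γ.m2.m2.s k (lift s2 (lift s2 c)) (defo T T' J C) (defo' T T' J C) =ᶠ[F]
      Γ.m2.m2.s k (lift s2 (lift s2 c)) (defo T T' J₁ C) (defo' T T' J₁ C) := by
  have := Γ.m2.m2.homotopy' hc.1.m2.m2 _ _
    ((IsFam.const T).defo (IsFam.const T') (isFam_cvx J J₁) (IsFam.const C))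
    ((IsFam.const T).defo' (IsFam.const T') (isFam_cvx J J₁) (IsFam.const C)) fun t _ x hx => by
      simp only [mat_π, mapH_defo, mapH_defo', map_cvx]
      refine defo_val (by rw [← map_star, hC]) ?_
      rcases h x hx.of_m2.of_m2 with h | h | h
      · exact Or.inl h
      · exact Or.inr (Or.inl h)
      · exact Or.inr (Or.inr (h.1.cvx h.2.1 h.2.2 t))
  simpa only [cvx_zero, cvx_one] using this

end Ctx

end Vale.Agent.P228
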