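import Vale.Agent.P228.OpsCt
import Vale.Agent.P228.Carrier

set_option linter.unusedSectionVars false
noncomputable section
open Matrix Filter Topology
namespace Vale.Agent.P228

namespace Config
variable {p : ℕ} [Fact p.Prime] {k : ℕ} {δ : ℝ} (c : Config p k δ)

/-- the lattice approximation of the action -/
def car (l : ℕ) (h : ℤ_[p]) (j : B k × Lat k) : Lat k :=
  fun t => ⌊c.act h (pos (eta l) j.2) t / eta l⌋

lemma car_dist (l : ℕ) (h : ℤ_[p]) (j : B k × Lat k) :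
    dist (pos (eta l) (c.car l h j)) (c.act h (pos (eta l) j.2)) ≤ eta l := by
  refine (dist_pi_le_iff (eta_pos l).le).2 fun t => ?_
  have h0 := eta_pos l
  have h1 := Int.floor_le (c.act h (pos (eta l) j.2) t / eta l)
  have h2 := Int.lt_floor_add_one (c.act h (pos (eta l) j.2) t / eta l)
  rw [le_div_iff₀ h0] at h1
  rw [div_lt_iff₀ h0] at h2
  rw [Real.dist_eq, pos, car, abs_le]
  constructor <;> linarith

omit c in
lemma boxConv_ball (l : ℕ) (y : E k) (R : ℝ) :
    BoxConv {w : Lat k | dist (pos (eta l) w) y ≤ R} := by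
  intro u hu v hv w hw
  have hR : 0 ≤ R := dist_nonneg.trans hu
  have hu' := (dist_pi_le_iff hR).1 hu
  have hv' := (dist_pi_le_iff hR).1 hv
  refine (dist_pi_le_iff hR).2 fun t => ?_
  have h1 := hu' t
  have h2 := hv' t
  have h0 := eta_pos l
  rw [Real.dist_eq, pos, abs_le] at h1 h2 ⊢
  rcases Set.mem_uIcc.1 (hw t) with h | h
  · have a1 : (u t : ℝ) ≤ w t := by exact_mod_cast h.1
    have a2 : (w t : ℝ) ≤ v t := by exact_mod_cast h.2
    constructor <;> nlinarith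
  · have a1 : (v t : ℝ) ≤ w t := by exact_mod_cast h.1
    have a2 : (w t : ℝ) ≤ u t := by exact_mod_cast h.2
    constructor <;> nlinarith

omit c in
lemma conv_of_nr {j j' : ℕ → B k × Lat k} {y : E k} (hj : Conv (fun l => (j l).2) y)
    (h : ∀ᶠ l in (UU : Filter ℕ), Nr (j' l) (j l)) : Conv (fun l => (j' l).2) y :=
  conv_shift (2 * k) hj (h.mono fun l hl t => by push_cast; exact hl t)

lemma car_ev {g : ℕ → ℤ_[p]} {h : ℤ_[p]} (hg : Tendsto g (UU : Filter ℕ) (𝓝 h)) {y : E k}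
    (hy : y ∈ c.Ω) {y' : E k} {ρ : ℝ} (hd : dist (c.act h y) y' ≤ ρ) {j : ℕ → B k × Lat k}
    (hj : Conv (fun l => (j l).2) y) {ε : ℝ} (hε : 0 < ε) :
    ∀ᶠ l in (UU : Filter ℕ), ∀ j', Nr j' (j l) →
      c.car l (g l) j' ∈ {w : Lat k | dist (pos (eta l) w) y' ≤ ρ + ε} := by
  refine thread UU (α := fun _ => B k × Lat k) fun j' => ev_imp fun hn => ?_
  have h1 : Tendsto (fun l => c.act (g l) (pos (eta l) (j' l).2)) (UU : Filter ℕ)
      (𝓝 (c.act h y)) :=
    (c.cont.continuousAt ((isOpen_univ.prod c.isOpen).mem_nhds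
      (show (h, y) ∈ Set.univ ×ˢ c.Ω from ⟨trivial, hy⟩))).tendsto.comp
        (hg.prodMk_nhds (conv_of_nr hj hn))
  filter_upwards [Metric.tendsto_nhds.1 h1 _ (half_pos hε),
    eta_tendsto.eventually (gt_mem_nhds (half_pos hε))] with l h2 h3
  have h4 := c.car_dist l (g l) (j' l)
  have h5 := dist_triangle4 (pos (eta l) (c.car l (g l) (j' l)))
    (c.act (g l) (pos (eta l) (j' l).2)) (c.act h y) y'
  show dist _ _ ≤ _
  linarith

theorem exists_TFam : ∃ T, c.TFam T := by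
  choose T h1 h2 h3 h4 using fun (l : ℕ) (h : ℤ_[p]) => exists_chain (c.car l h)
  refine ⟨T, h1, h2, h3, fun g h hg y hy i j hj hne ε hε => ?_⟩
  filter_upwards [hne, c.car_ev hg hy (y' := c.act h y) (ρ := 0) (by simp) hj hε] with l e1 e2
  exact h4 l (g l) (j l) _ (boxConv_ball l _ _) e2 _ e1

theorem exists_HFam : ∃ H, c.HFam H := by
  choose H h1 h2 using fun (l : ℕ) (h : ℤ_[p]) (O : Op k) => exists_homotopy (c.car l h) O
  refine ⟨H, h1, fun g h O hg y hy y' ρ hd hO i j hj hne ε hε => ?_⟩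
  have h3 : ∀ᶠ l in (UU : Filter ℕ), ∀ a : (B k × Lat k) × (B k × Lat k), Nr a.1 (j l) →
      ent (O l) a.2 a.1 ≠ 0 → dist (pos (eta l) a.2.2) y' ≤ ρ + ε :=
    thread UU (α := fun _ => (B k × Lat k) × (B k × Lat k)) fun θ => ev_imp fun hn =>
      ev_imp fun h0 => hO (fun l => (θ l).2) (fun l => (θ l).1) (conv_of_nr hj hn) h0 ε hε
  filter_upwards [hne, c.car_ev hg hy hd hj hε, h3] with l e1 e2 e3
  exact h2 l (g l) (O l) (j l) _ (boxConv_ball l _ _)
    (fun j' hj' => ⟨e2 j' hj', fun i' hi' => e3 (j', i') hj' hi'⟩) _ e1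

end Config

end Vale.Agent.P228
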