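import Vale.Agent.P228.OpsSharp2
import Vale.Agent.P228.OpsFam
import Vale.Agent.P228.OpsWt

set_option linter.unusedSectionVars false
set_option linter.unusedSimpArgs false
set_option linter.unusedVariables false
noncomputable section
open Matrix Filter Topology
namespace Vale.Agent.P228

section Avg
variable {p : ℕ} [Fact p.Prime] {k : ℕ} {n : Type} [Fintype n] [DecidableEq n] {l : ℕ} {s : ZMod p}

lemma colZero_avg1 {Y : ZMod (p ^ (l + 1)) → Raw k n} {u : n} (h : ∀ a, ColZero (Y a) u) :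
    ColZero (avg1 l s Y) u := (ColZero.sum fun a _ => (h a).smul _).smul _

lemma colZero_avg2 {Y : ZMod (p ^ (l + 1)) × ZMod (p ^ (l + 1)) → Raw k n} {u : n}
    (h : ∀ a, ColZero (Y a) u) : ColZero (avg2 l s Y) u :=
  (ColZero.sum fun a _ => (h a).smul _).smul _

lemma colZero_avg3 {Y : ZMod (p ^ (l + 1)) → Raw k n} {u : n} (h : ∀ a, ColZero (Y a) u) :
    ColZero (avg3 l s Y) u := (ColZero.sum fun a _ => (h a).smul _).smul _

lemma avg1_eq_zero {Y : ZMod (p ^ (l + 1)) → Raw k n} {b b' : B k} {u w : n}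
    (h : ∀ a, Y a b b' u w = 0) : avg1 l s Y b b' u w = 0 := by
  simp only [avg1, Matrix.smul_apply, Matrix.sum_apply, h, smul_zero, Finset.sum_const_zero]

end Avg

lemma chain_cond {k : ℕ} {O : Op k} (h : dE k * O = O * dE k) (y : CC k) :
    dE k (O y) = O (dE k y) := LinearMap.congr_fun h y

namespace Config
variable {p : ℕ} [Fact p.Prime] {k : ℕ} {δ : ℝ} (c : Config p k δ)

lemma ball_zero_sub {y : E k} (h : y ∈ interior c.K) : Metric.closedBall y 0 ⊆ interior c.K := by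
  rw [Metric.closedBall_zero]; exact Set.singleton_subset_iff.2 h

lemma hom_col {O H : ℕ → Op k} (w : ∀ l, c.G l) {y' : E k} {ρ : ℝ} (hH : Ctl H (c.lim w) y' ρ)
    (hρ : 0 ≤ ρ) (hb : Metric.closedBall y' ρ ⊆ interior c.K) (hw : c.lim w ∈ interior c.K)
    (he : ∀ᶠ l in (UU : Filter ℕ), ∀ b, (dE k * H l + H l * dE k)
      (Finsupp.single (b, c.v l (w l)) 1) = O l (Finsupp.single (b, c.v l (w l)) 1)) :
    ∀ᶠ l in (UU : Filter ℕ), ColZero (cmp (c.v l) (O l) -
      (dM k (shiftM (c.v l)) * cmp (c.v l) (H l) + cmp (c.v l) (H l) * dM k (shiftM (c.v l))))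
      (w l) := by
  filter_upwards [c.cmp_mul_thread (fun _ => dE k) H w hH hρ hb,
    c.cmp_mul_thread H (fun _ => dE k) w (ctl_dE le_rfl) le_rfl (c.ball_zero_sub hw), he]
    with l h1 h2 h3
  have h4 : ColZero (cmp (c.v l) (O l - (dE k * H l + H l * dE k))) (w l) :=
    colZero_cmp _ fun b => by rw [LinearMap.sub_apply, h3, sub_self]
  have := (h4.add h1).add h2
  rw [cmp_sub, cmp_add, cmp_dE _ (c.v_inj l)] at this
  have e : ∀ a b d e f : Raw k (c.G l), a - (b + d) + (b - e) + (d - f) = a - (e + f) := by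
    intros; abel
  rwa [e] at this

lemma π_eq_of_col {x : Set (E k) × E k} {Y Y' : c.Mat}
    (h : ∀ θ, c.Lb.lab θ = x → ∀ᶠ l in (UU : Filter ℕ), ColZero (c.lev l Y - c.lev l Y') (θ l)) :
    c.Γ.π x Y = c.Γ.π x Y' := by
  rw [← sub_eq_zero, ← map_sub]
  exact c.Lb.mat_π_eq_zero _ fun θ hθ => (h θ hθ).mono fun l hl => by rwa [map_sub]

section Fam
variable {c} {T : ℕ → ℤ_[p] → Op k} (hT : c.TFam T) {H : ℕ → ℤ_[p] → Op k → Op k} (hH : c.HFam H)
include hT hH

lemma ct_K (a : ∀ l, ZMod (p ^ (l + 1)) × ZMod (p ^ (l + 1))) {h : ℤ_[p]}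
    (ha : Tendsto (fun l => wt p l (a l).1 + wt p l (a l).2) (UU : Filter ℕ) (𝓝 h)) :
    c.Ct (fun l => H l (wt p l (a l).1 + wt p l (a l).2)
      (T l (wt p l (a l).1) * T l (wt p l (a l).2) - T l (wt p l ((a l).1 + (a l).2)))) h := by
  obtain ⟨h1, g1⟩ := exists_padic_lim fun l => wt p l (a l).1
  obtain ⟨h2, g2⟩ := exists_padic_lim fun l => wt p l (a l).2
  obtain rfl : h = h1 + h2 := tendsto_nhds_unique ha (g1.add g2)
  exact HFam.ct c hH ha (Ct.sub c (Ct.mul c (hT.ct _ _ g1) (hT.ct _ _ g2))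
    (hT.ct _ _ (wt_add_tendsto g1 g2)))

lemma ct_L (a : ∀ l, ZMod (p ^ (l + 1))) {h : ℤ_[p]}
    (ha : Tendsto (fun l => -wt p l (a l)) (UU : Filter ℕ) (𝓝 h)) :
    c.Ct (fun l => H l (-wt p l (a l))
      (c.sharp l (T l (wt p l (a l))) - T l (wt p l (-a l)))) h := by
  have g1 : Tendsto (fun l => wt p l (a l)) (UU : Filter ℕ) (𝓝 (-h)) := by
    simpa only [neg_neg] using ha.neg
  have s1 := c.sharp_ct hT g1
  have s2 := hT.ct _ _ (wt_neg_tendsto g1)
  rw [neg_neg] at s1 s2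
  exact HFam.ct c hH ha (Ct.sub c s1 s2)

lemma ctl_N (a : ∀ l, ZMod (p ^ (l + 1))) {y : E k} (hy : y ∈ c.K) (h1 : ‖c.f y‖ ≤ 1) :
    Ctl (fun l => H l 0 (T l (wt p l (a l)) - 1)) y y δ := by
  obtain ⟨h, g⟩ := exists_padic_lim fun l => wt p l (a l)
  have hs := (c.small y hy (Or.inr h1)).2
  exact hH.ctl (fun _ => 0) 0 _ tendsto_const_nhds y (c.KΩ hy) y δ (hs 0)
    (((hT.ct _ h g y (c.KΩ hy)).of_zero (hs h)).sub (ctl_one c.δ_nonneg))

lemma col_r1 (a : ∀ l, ZMod (p ^ (l + 1))) (w : ∀ l, c.G l)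
    (hw : ∀ h, c.act h (c.lim w) ∈ interior c.K) :
    ∀ᶠ l in (UU : Filter ℕ), ColZero (dM k (shiftM (c.v l)) * cmp (c.v l) (T l (wt p l (a l))) -
      cmp (c.v l) (T l (wt p l (a l))) * dM k (shiftM (c.v l))) (w l) := by
  obtain ⟨h, g⟩ := exists_padic_lim fun l => wt p l (a l)
  have hΩ := c.KΩ (c.lim_mem w)
  have hw0 : c.lim w ∈ interior c.K := by simpa only [c.zero _ hΩ] using hw 0
  filter_upwards [c.cmp_mul_thread (fun _ => dE k) _ w (hT.ct _ h g _ hΩ) le_rfl
      (c.ball_zero_sub (hw h)),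
    c.cmp_mul_thread (fun l => T l (wt p l (a l))) (fun _ => dE k) w (ctl_dE le_rfl) le_rfl
      (c.ball_zero_sub hw0)] with l h1 h2
  have := h2.sub h1
  rw [hT.chain, cmp_dE _ (c.v_inj l)] at this
  have e : ∀ a b d : Raw k (c.G l), a - b - (a - d) = d - b := by intros; abel
  rwa [e] at this

lemma col_r2 (a : ∀ l, ZMod (p ^ (l + 1)) × ZMod (p ^ (l + 1))) (w : ∀ l, c.G l)
    (hw : ∀ h, c.act h (c.lim w) ∈ interior c.K) :
    ∀ᶠ l in (UU : Filter ℕ), ColZero
      (cmp (c.v l) (T l (wt p l (a l).1)) * cmp (c.v l) (T l (wt p l (a l).2)) -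
        cmp (c.v l) (T l (wt p l ((a l).1 + (a l).2))) -
        (dM k (shiftM (c.v l)) * cmp (c.v l) (H l (wt p l (a l).1 + wt p l (a l).2)
          (T l (wt p l (a l).1) * T l (wt p l (a l).2) - T l (wt p l ((a l).1 + (a l).2)))) +
        cmp (c.v l) (H l (wt p l (a l).1 + wt p l (a l).2)
          (T l (wt p l (a l).1) * T l (wt p l (a l).2) - T l (wt p l ((a l).1 + (a l).2)))) *
          dM k (shiftM (c.v l)))) (w l) := by
  obtain ⟨h, g⟩ := exists_padic_lim fun l => wt p l (a l).1 + wt p l (a l).2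
  obtain ⟨h2, g2⟩ := exists_padic_lim fun l => wt p l (a l).2
  have hΩ := c.KΩ (c.lim_mem w)
  have hw0 : c.lim w ∈ interior c.K := by simpa only [c.zero _ hΩ] using hw 0
  filter_upwards [c.hom_col w (ct_K hT hH a g _ hΩ) le_rfl (c.ball_zero_sub (hw h)) hw0
      (Eventually.of_forall fun l b => hH.hom l _ _ _ fun j' _ => ⟨by
        simp only [LinearMap.sub_apply, Module.End.mul_apply, map_sub, chain_cond (hT.chain _ _)],
        by simp only [LinearMap.sub_apply, Module.End.mul_apply, map_sub, hT.aug, sub_self]⟩),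
    c.cmp_mul_thread (fun l => T l (wt p l (a l).1)) _ w (hT.ct _ h2 g2 _ hΩ) le_rfl
      (c.ball_zero_sub (hw h2))] with l h1 h2
  have := h1.sub h2
  rw [cmp_sub] at this
  have e : ∀ a b d e : Raw k (c.G l), a - b - d - (a - e) = e - b - d := by intros; abel
  rwa [e] at this

lemma col_r3 (hδ : δ ≤ 1 / 32) (a : ∀ l, ZMod (p ^ (l + 1))) (w : ∀ l, c.G l)
    (hb : c.lim w ∈ Metric.ball c.b c.Rb) (hw : ∀ h, c.act h (c.lim w) ∈ interior c.K) :
    ∀ᶠ l in (UU : Filter ℕ), ColZero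
      (ψM k (shiftM (c.v l)) * star (cmp (c.v l) (T l (wt p l (a l)))) * φM k (shiftM (c.v l)) -
        cmp (c.v l) (T l (wt p l (-a l))) -
        (dM k (shiftM (c.v l)) * cmp (c.v l) (H l (-wt p l (a l))
          (c.sharp l (T l (wt p l (a l))) - T l (wt p l (-a l)))) +
        cmp (c.v l) (H l (-wt p l (a l))
          (c.sharp l (T l (wt p l (a l))) - T l (wt p l (-a l)))) * dM k (shiftM (c.v l))))
      (w l) := by
  obtain ⟨h, g⟩ := exists_padic_lim fun l => -wt p l (a l)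
  have hΩ := c.KΩ (c.lim_mem w)
  have hw0 : c.lim w ∈ interior c.K := by simpa only [c.zero _ hΩ] using hw 0
  have cond : ∀ᶠ l in (UU : Filter ℕ), ∀ j' : B k × Lat k,
      (∀ t, |j'.2 t - c.v l (w l) t| ≤ (2 * k : ℕ)) →
      dE k ((c.sharp l (T l (wt p l (a l))) - T l (wt p l (-a l))) (Finsupp.single j' 1)) =
        (c.sharp l (T l (wt p l (a l))) - T l (wt p l (-a l))) (dE k (Finsupp.single j' 1)) ∧
      aug k ((c.sharp l (T l (wt p l (a l))) - T l (wt p l (-a l))) (Finsupp.single j' 1)) = 0 := by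
    refine thread UU fun j' => ?_
    by_cases h1 : ∀ᶠ l in (UU : Filter ℕ), ∀ t, |(j' l).2 t - c.v l (w l) t| ≤ (2 * k : ℕ)
    · have hc : Conv (fun l => (j' l).2) (c.lim w) := conv_shift (2 * k) (c.lim_conv w) h1
      filter_upwards [c.sharp_chain hT (fun l => wt p l (a l)) j' (Metric.ball_subset_closedBall hb) hc,
        c.sharp_aug hδ hT hH (fun l => wt p l (a l)) j' hb hc] with l h2 h3 _
      constructor
      · simp only [LinearMap.sub_apply, map_sub, h2, chain_cond (hT.chain _ _)]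
      · simp only [LinearMap.sub_apply, map_sub, h3, hT.aug, sub_self]
    · filter_upwards [Ultrafilter.eventually_not.2 h1] with l hl h2
      exact absurd h2 hl
  filter_upwards [c.hom_col w (ct_L hT hH a g _ hΩ) le_rfl (c.ball_zero_sub (hw h)) hw0
      (cond.mono fun l hl b => hH.hom l _ _ _ fun j' hj => hl j' fun t => by
        simpa using hj t)] with l h1
  rw [cmp_sub, sharp, cmp_ext _ (c.v_inj l)] at h1
  exact h1

lemma col_r4 (hδ : δ ≤ 1 / 32) (a : ∀ l, ZMod (p ^ (l + 1))) (w : ∀ l, c.G l)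
    (hw : ‖c.f (c.lim w)‖ ≤ 7 / 8) :
    ∀ᶠ l in (UU : Filter ℕ), ColZero
      (cmp (c.v l) (T l (wt p l (a l))) - 1 -
        (dM k (shiftM (c.v l)) * cmp (c.v l) (H l 0 (T l (wt p l (a l)) - 1)) +
        cmp (c.v l) (H l 0 (T l (wt p l (a l)) - 1)) * dM k (shiftM (c.v l)))) (w l) := by
  have hK := c.lim_mem w
  have h0 := c.δ_nonneg
  have h1 : ‖c.lim w‖ ≤ 7 / 8 + δ := by
    have := (c.small _ hK (Or.inr (by linarith))).1
    have h2 := norm_le_norm_add_norm_sub' (c.lim w) (c.f (c.lim w))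
    rw [← dist_eq_norm, dist_comm] at h2
    linarith
  have hb : Metric.closedBall (c.lim w) δ ⊆ interior c.K :=
    (Metric.closedBall_subset_closedBall' (by rw [dist_zero_right]; linarith)).trans
      c.unit_subset_int
  filter_upwards [c.hom_col w (ctl_N hT hH a hK (by linarith)) h0 hb
      (hb (Metric.mem_closedBall_self h0))
      (Eventually.of_forall fun l b => hH.hom l _ _ _ fun j' _ => ⟨by
        simp only [LinearMap.sub_apply, Module.End.one_apply, map_sub, chain_cond (hT.chain _ _)],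
        by simp only [LinearMap.sub_apply, Module.End.one_apply, map_sub, hT.aug, sub_self]⟩)]
    with l h1
  rwa [cmp_sub, cmp_one _ (c.v_inj l)] at h1

end Fam

theorem exists_ops (hδ : δ ≤ 1 / 32) : Nonempty c.Ops := by
  obtain ⟨T, hT⟩ := c.exists_TFam
  obtain ⟨H, hH⟩ := c.exists_HFam
  obtain ⟨e, ge, he⟩ := c.exists_graded (α := fun l => ZMod (p ^ (l + 1))) (wt p)
    (fun l a => T l (wt p l a)) (fun a h ha => hT.ct _ h ha) fun l => ((p : ℂ) ^ (l + 1))⁻¹
  obtain ⟨K, gK, hK⟩ := c.exists_graded (α := fun l => ZMod (p ^ (l + 1)) × ZMod (p ^ (l + 1)))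
    (fun l a => wt p l a.1 + wt p l a.2)
    (fun l a => H l (wt p l a.1 + wt p l a.2)
      (T l (wt p l a.1) * T l (wt p l a.2) - T l (wt p l (a.1 + a.2))))
    (fun a h ha => ct_K hT hH a ha) fun l => ((p : ℂ) ^ (l + 1))⁻¹ * ((p : ℂ) ^ (l + 1))⁻¹
  obtain ⟨L, gL, hL⟩ := c.exists_graded (α := fun l => ZMod (p ^ (l + 1)))
    (fun l a => -wt p l a)
    (fun l a => H l (-wt p l a) (c.sharp l (T l (wt p l a)) - T l (wt p l (-a))))
    (fun a h ha => ct_L hT hH a ha) fun l => ((p : ℂ) ^ (l + 1))⁻¹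
  have he' : ∀ s l, c.lev l (tw s e) = avg1 l s fun a => cmp (c.v l) (T l (wt p l a)) := he
  have hK' : ∀ s l, c.lev l (tw s K) = avg2 l s fun a => cmp (c.v l) (H l (wt p l a.1 + wt p l a.2)
      (T l (wt p l a.1) * T l (wt p l a.2) - T l (wt p l (a.1 + a.2)))) := hK
  have hL' : ∀ s l, c.lev l (tw s L) = avg3 l s fun a => cmp (c.v l)
      (H l (-wt p l a) (c.sharp l (T l (wt p l a)) - T l (wt p l (-a)))) := hL
  refine ⟨⟨e, K, L, fun s l => avg1 l s fun a => cmp (c.v l) (H l 0 (T l (wt p l a) - 1)),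
    ge, gK, gL, fun s x hx => ⟨?_, ?_, ?_⟩, fun s b b' u w h hw => ?_, fun s w hw => ?_⟩⟩
  · rw [← map_mul, ← map_mul]
    refine c.π_eq_of_col fun θ hθ => ?_
    simp only [map_mul, lev_dM, he', avg_r1]
    refine (thread UU fun a => ?_).mono fun l hl => colZero_avg1 hl
    exact col_r1 hT hH a θ (c.lim_int_of_ball hx θ hθ).2
  · rw [← map_mul, ← map_mul, ← map_mul, ← map_sub, ← map_add]
    refine c.π_eq_of_col fun θ hθ => ?_
    simp only [map_mul, map_sub, map_add, lev_dM, he', hK', avg_r2]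
    refine (thread UU fun a => ?_).mono fun l hl => colZero_avg2 hl
    exact col_r2 hT hH a θ (c.lim_int_of_ball hx θ hθ).2
  · rw [← map_star, ← map_mul, ← map_mul, ← map_mul, ← map_mul, ← map_sub, ← map_add]
    refine c.π_eq_of_col fun θ hθ => ?_
    simp only [map_mul, map_sub, map_add, map_star, lev_dM, lev_φM, lev_ψM, he', hL', avg_r3]
    refine (thread UU fun a => ?_).mono fun l hl => colZero_avg3 hl
    exact col_r3 hT hH hδ a θ (c.lim_int_of_ball hx θ hθ).1 (c.lim_int_of_ball hx θ hθ).2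
  · by_contra hn
    have : ∀ᶠ l in (UU : Filter ℕ), ∀ a : ZMod (p ^ (l + 1)),
        cmp (c.v l) (H l 0 (T l (wt p l a) - 1)) b b' (u l) (w l) = 0 := by
      refine thread UU fun a => ?_
      by_contra h1
      have h2 := ctl_N hT hH a (c.lim_mem w) hw (fun l => (b, c.v l (u l)))
        (fun l => (b', c.v l (w l))) (c.lim_conv w) (Ultrafilter.eventually_not.2 h1)
      refine hn (le_of_forall_pos_le_add fun ε hε => ?_)
      exact le_of_tendsto ((c.lim_tendsto u).dist tendsto_const_nhds) (h2 ε hε)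
    obtain ⟨l, h1, h2⟩ := (h.and this).exists
    exact h1 (avg1_eq_zero h2)
  · simp only [he', avg_r4]
    refine (thread UU fun a => ?_).mono fun l hl => colZero_avg1 hl
    exact col_r4 hT hH hδ a w hw

end Config

end Vale.Agent.P228
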