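import Vale.Agent.P228.GeomA
import Vale.Agent.P228.GeomB1
import Vale.Agent.P228.GeomB2
import Vale.Agent.P228.OpsMain
import Vale.Agent.P228.FineSig
import Vale.Agent.P228.DiscX
import Vale.Agent.P228.Coarse2

set_option linter.unusedSectionVars false
noncomputable section
open Matrix Filter Topology
namespace Vale.Agent.P228

variable {p : ℕ} [Fact p.Prime]

theorem no_config {k : ℕ} (h : ∀ δ > 0, Nonempty (Config p k δ)) : False := by
  have key : ∀ j : ℕ, Nonempty (Disc k (eta j)) := fun j => by
    have h0 := eta_pos j
    have h1 : eta j ≤ 1 := by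
      unfold eta
      rw [div_le_one (by positivity)]
      have : (0 : ℝ) ≤ j := Nat.cast_nonneg j
      linarith
    obtain ⟨c⟩ := h (eta j / 32) (by positivity)
    obtain ⟨O⟩ := c.exists_ops (by linarith)
    exact c.exists_disc (by linarith) O (c.fine_sig O) (by linarith)
  exact no_dseq fun j => (key j).some

theorem no_gact {k : ℕ} {M : Type*} [TopologicalSpace M] [T2Space M] [ConnectedSpace M]
    (hM : HasCharts M k) (G : GAct p M) : ∃ j, (G.pow j).Fix = Set.univ := by
  by_contra hn
  push Not at hn
  refine no_config (p := p) (k := k) fun δ hδ => ?_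
  by_cases h : ∀ j, interior (G.pow j).Fix = ∅
  · exact geomA G hM h hδ
  · push Not at h
    obtain ⟨j, hj⟩ := h
    obtain ⟨e⟩ := exists_edge (G.pow j) hM hj fun h2 =>
      hn j (Set.eq_univ_of_univ_subset (h2 ▸ interior_subset))
    exact e.toConfig hδ.le

end Vale.Agent.P228
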