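import Vale.Agent.P228.Ctx

/-! Naturality of all constructions under star algebra maps. -/

set_option linter.unusedSectionVars false
noncomputable section
open Matrix Filter Topology
namespace Vale.Agent.P228

variable {R S : Type} [Ring R] [StarRing R] [Algebra ℂ R] [StarModule ℂ R]
  [Ring S] [StarRing S] [Algebra ℂ S] [StarModule ℂ S] (f : R →⋆ₐ[ℂ] S)

@[simp] lemma mapH_m2 (a b c d : R) :
    mapH (Fin 2) f !![a, b; c, d] = !![f a, f b; f c, f d] := by
  ext i j; fin_cases i <;> fin_cases j <;> rfl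

lemma star_m2 (a b c d : R) :
    star (!![a, b; c, d] : M2 R) = !![star a, star c; star b, star d] := by
  ext i j; fin_cases i <;> fin_cases j <;> rfl

@[simp] lemma mapH_sh (b : R) : mapH (Fin 2) f (sh b) = sh (f b) := by simp [sh]
@[simp] lemma mapH_th (b : R) : mapH (Fin 2) f (th b) = th (f b) := by simp [th]
@[simp] lemma mapH_dg (a b : R) : mapH (Fin 2) f (dg a b) = dg (f a) (f b) := by simp [dg]
@[simp] lemma mapH_s2 (a : R) : mapH (Fin 2) f (s2 a) = s2 (f a) := by simp [s2]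
@[simp] lemma mapH_swp : mapH (Fin 2) f swp = swp := by simp [swp]
@[simp] lemma mapH_J1 : mapH (Fin 2) f J1 = J1 := by simp [J1]
@[simp] lemma mapH_sig : mapH (Fin 2) f sig = sig := by simp [sig]
@[simp] lemma mapH_el (a a' : R) : mapH (Fin 2) f (el a a') = el (f a) (f a') := by simp [el]
@[simp] lemma mapH_elInv (a a' : R) : mapH (Fin 2) f (elInv a a') = elInv (f a) (f a') := by
  simp [elInv]
@[simp] lemma mapH_Jof (a a' : R) : mapH (Fin 2) f (Jof a a') = Jof (f a) (f a') := by simp [Jof]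
@[simp] lemma mapH_sc (I : Type) [Fintype I] [DecidableEq I] (a : R) :
    mapH I f (sc I a) = sc I (f a) := by
  ext i j
  by_cases h : i = j
  · subst h; simp [sc]
  · simp [sc, Matrix.diagonal_apply_ne _ h]
@[simp] lemma mapH_blk (M N : M2 R) :
    mapH (Fin 2) (mapH (Fin 2) f) (blk M N) = blk (mapH (Fin 2) f M) (mapH (Fin 2) f N) := by
  refine Matrix.ext fun i j => ?_
  exact mapH_dg f _ _
@[simp] lemma map_cvx (t : ℝ) (a b : R) : f (cvx t a b) = cvx t (f a) (f b) := by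
  simp only [cvx, map_add, map_smul]
@[simp] lemma cvx_zero (a b : R) : cvx 0 a b = a := by simp [cvx]
@[simp] lemma cvx_one (a b : R) : cvx 1 a b = b := by simp [cvx]
@[simp] lemma cvx_self (t : ℝ) (a : R) : cvx t a a = a := by
  rw [cvx, ← add_smul]; simp
lemma star_cvx (t : ℝ) (a b : R) : star (cvx t a b) = cvx t (star a) (star b) := by
  simp only [cvx, star_add, star_smul, Complex.star_def, Complex.conj_ofReal]
lemma cvx_eq (t : ℝ) (a b : R) : cvx t a b = a + (t : ℂ) • (b - a) := by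
  rw [cvx, smul_sub, Complex.ofReal_sub, sub_smul, Complex.ofReal_one, one_smul]; abel
lemma cvx_m2 (t : ℝ) (a b c d a' b' c' d' : R) :
    cvx t (!![a, b; c, d] : M2 R) !![a', b'; c', d'] =
      !![cvx t a a', cvx t b b'; cvx t c c', cvx t d d'] := by
  ext i j; fin_cases i <;> fin_cases j <;> rfl

@[simp] lemma mapH_diff (A1 A1' A2 C : R) :
    mapH (Fin 2) f (diff A1 A1' A2 C) = diff (f A1) (f A1') (f A2) (f C) := by simp [diff]
@[simp] lemma mapH_diff' (A1 A1' A2 A2' C : R) :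
    mapH (Fin 2) f (diff' A1 A1' A2 A2' C) = diff' (f A1) (f A1') (f A2) (f A2') (f C) := by
  simp [diff', map_star]
@[simp] lemma mapH_dW (J : R) : mapH (Fin 2) f (dW J) = dW (f J) := by simp [dW]
@[simp] lemma mapH_dWi (J : R) : mapH (Fin 2) f (dWi J) = dWi (f J) := by simp [dWi]
@[simp] lemma mapH_dA1 (T J : R) : mapH (Fin 2) f (dA1 T J) = dA1 (f T) (f J) := by
  simp [dA1, map_star]
@[simp] lemma mapH_dA1' (T J : R) : mapH (Fin 2) f (dA1' T J) = dA1' (f T) (f J) := by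
  simp [dA1', map_star]
@[simp] lemma mapH_defo (T T' J C : R) :
    mapH (Fin 2) (mapH (Fin 2) f) (defo T T' J C) = defo (f T) (f T') (f J) (f C) := by
  simp [defo]
@[simp] lemma mapH_defo' (T T' J C : R) :
    mapH (Fin 2) (mapH (Fin 2) f) (defo' T T' J C) = defo' (f T) (f T') (f J) (f C) := by
  simp [defo']
@[simp] lemma mapH_JL (Q A A' : R) : mapH (Fin 2) f (JL Q A A') = JL (f Q) (f A) (f A') := by
  simp [JL]
@[simp] lemma mapH_JR (Q : R) : mapH (Fin 2) f (JR Q) = JR (f Q) := by simp [JR]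
@[simp] lemma mapH_bottJ (c : Cut R) (A A' : R) :
    mapH (Fin 2) f (bottJ c A A') = bottJ (c.map f) (f A) (f A') := by simp [bottJ, Cut.map]
@[simp] lemma mapH_bott (c : Cut R) (A A' : R) :
    mapH (Fin 2) (mapH (Fin 2) (mapH (Fin 2) f)) (bott c A A') = bott (c.map f) (f A) (f A') := by
  simp [bott, Cut.map]
@[simp] lemma mapH_bott' (c : Cut R) (A A' : R) :
    mapH (Fin 2) (mapH (Fin 2) (mapH (Fin 2) f)) (bott' c A A') = bott' (c.map f) (f A) (f A') := by
  simp [bott', Cut.map]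

@[simp] lemma mapH_pdD (d φ : R) : mapH (Fin 2) f (pdD d φ) = pdD (f d) (f φ) := by
  simp [pdD, map_star]
@[simp] lemma mapH_pdB (d φ : R) (G : M2 R) :
    mapH (Fin 2) f (pdB d φ G) = pdB (f d) (f φ) (mapH (Fin 2) f G) := by simp [pdB]
@[simp] lemma mapH_pdB' (d φ : R) (G : M2 R) :
    mapH (Fin 2) f (pdB' d φ G) = pdB' (f d) (f φ) (mapH (Fin 2) f G) := by simp [pdB']
@[simp] lemma mapH_gam1 (φ ψ k l : R) :
    mapH (Fin 2) f (gam1 φ ψ k l) = gam1 (f φ) (f ψ) (f k) (f l) := by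
  rw [gam1, map_mul]; simp [gam1]
@[simp] lemma mapH_gam (φ ψ k l : R) :
    mapH (Fin 2) f (gam φ ψ k l) = gam (f φ) (f ψ) (f k) (f l) := by simp [gam, map_star]
@[simp] lemma map_uu (e : R) : f (uu e) = uu (f e) := by simp [uu]
@[simp] lemma map_uφ (φ e : R) : f (uφ φ e) = uφ (f φ) (f e) := by simp [uφ, map_star]
@[simp] lemma mapH_uG (φ ψ e K L : R) :
    mapH (Fin 2) f (uG φ ψ e K L) = uG (f φ) (f ψ) (f e) (f K) (f L) := by simp [uG]
@[simp] lemma mapH_Bf (d φ ψ e K L : R) :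
    mapH (Fin 2) f (Bf d φ ψ e K L) = Bf (f d) (f φ) (f ψ) (f e) (f K) (f L) := by simp [Bf]
@[simp] lemma mapH_Bf' (d φ ψ e K L : R) :
    mapH (Fin 2) f (Bf' d φ ψ e K L) = Bf' (f d) (f φ) (f ψ) (f e) (f K) (f L) := by simp [Bf']
@[simp] lemma mapH_two (Y Y' : R) : mapH (Fin 2) f (two Y Y') = two (f Y) (f Y') := by simp [two]
@[simp] lemma mapH_two' (Y Y' : R) : mapH (Fin 2) f (two' Y Y') = two' (f Y) (f Y') := by
  simp [two']
@[simp] lemma mapH_A2 (z w : R) : mapH (Fin 2) f (A2 z w) = A2 (f z) (f w) := by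
  rw [A2, map_smul, mapH_m2]; simp [A2, map_star]
@[simp] lemma mapH_A2' (z w : R) : mapH (Fin 2) f (A2' z w) = A2' (f z) (f w) := by
  rw [A2', map_smul, mapH_m2]; simp [A2', map_star]
@[simp] lemma mapH_dstep (z w D : R) :
    mapH (Fin 2) (mapH (Fin 2) f) (dstep z w D) = dstep (f z) (f w) (f D) := by
  simp [dstep]

lemma Val.map {A A' : R} (h : Val A A') : Val (f A) (f A') := by
  obtain ⟨h1, h2, h3, h4⟩ := h
  refine ⟨?_, ?_, ?_, ?_⟩
  · rw [← map_star, h1]
  · rw [← map_star, h2]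
  · rw [← map_mul, h3, map_one]
  · rw [← map_mul, h4, map_one]

lemma IsProj.map {e : R} (h : IsProj e) : IsProj (f e) :=
  ⟨by rw [← map_star, h.1], by rw [← map_mul, h.2]⟩

lemma IsProj.one_sub {e : R} (h : IsProj e) : IsProj (1 - e) :=
  ⟨by rw [star_sub, star_one, h.1], by rw [sub_mul, mul_sub, mul_sub, h.2]; simp⟩

lemma lift_s2_lift {k : ℕ} (c : Fin k → Cut R) :
    lift (mapH (Fin 2) f) (lift s2 c) = lift s2 (lift f c) := by
  funext j; simp [lift, Cut.map]

lemma lift_sc_lift {k : ℕ} (I : Type) [Fintype I] [DecidableEq I] (c : Fin k → Cut R) :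
    lift (mapH I f) (lift (sc I) c) = lift (sc I) (lift f c) := by
  funext j; simp [lift, Cut.map]

lemma tail_lift {α β : Type} {k : ℕ} (g : α → β) (c : Fin (k + 1) → Cut α) :
    Fin.tail (lift g c) = lift g (Fin.tail c) := rfl

/-- conjugation by a unitary -/
def conjH (u : R) (h1 : star u * u = 1) (h2 : u * star u = 1) : R →⋆ₐ[ℂ] R where
  toFun a := u * a * star u
  map_one' := by rw [mul_one, h2]
  map_mul' a b := by
    calc u * (a * b) * star u = u * a * (star u * u) * b * star u := by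
          rw [h1]; simp only [mul_one, mul_assoc]
      _ = u * a * star u * (u * b * star u) := by simp only [mul_assoc]
  map_zero' := by simp
  map_add' a b := by rw [mul_add, add_mul]
  commutes' r := by
    rw [Algebra.algebraMap_eq_smul_one]; simp [h2]
  map_star' a := by simp [mul_assoc]

@[simp] lemma conjH_apply (u : R) (h1 : star u * u = 1) (h2 : u * star u = 1) (a : R) :
    conjH u h1 h2 a = u * a * star u := rfl

/-! `cmp2` -/

section Cmp
variable {T : Type} [Ring T] {k : ℕ}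

lemma cmp2_apply {T : Type} (M : M2 (M2 (Matrix (B k) (B k) T))) (b b' : B (k + 1)) :
    cmp2 M b b' = M (b 0).1 (b' 0).1 (b 0).2 (b' 0).2 (Fin.tail b) (Fin.tail b') := rfl

lemma sum_B_succ {M : Type} [AddCommMonoid M] (g : B (k + 1) → M) :
    ∑ b, g b = ∑ i : Fin 2, ∑ j : Fin 2, ∑ b : B k, g (Fin.cons (i, j) b) := by
  rw [← (Fin.consEquiv fun _ : Fin (k + 1) => Fin 2 × Fin 2).sum_comp, Fintype.sum_prod_type,
    Fintype.sum_prod_type]
  rfl

lemma cmp2_mul (M N : M2 (M2 (Matrix (B k) (B k) T))) : cmp2 (M * N) = cmp2 M * cmp2 N := by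
  ext b b'
  rw [Matrix.mul_apply, sum_B_succ]
  simp only [cmp2_apply, Matrix.mul_apply, Matrix.sum_apply, Fin.cons_zero, Fin.tail_cons]

lemma cmp2_add (M N : M2 (M2 (Matrix (B k) (B k) T))) : cmp2 (M + N) = cmp2 M + cmp2 N := rfl
lemma cmp2_sub (M N : M2 (M2 (Matrix (B k) (B k) T))) : cmp2 (M - N) = cmp2 M - cmp2 N := rfl
lemma cmp2_neg (M : M2 (M2 (Matrix (B k) (B k) T))) : cmp2 (-M) = -cmp2 M := rfl
lemma cmp2_zero : cmp2 (0 : M2 (M2 (Matrix (B k) (B k) T))) = 0 := rfl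

lemma cmp2_s2_s2_sc (a : T) : cmp2 (s2 (s2 (sc (B k) a))) = sc (B (k + 1)) a := by
  ext b b'
  have hb : b = b' ↔ (b 0).1 = (b' 0).1 ∧ (b 0).2 = (b' 0).2 ∧ Fin.tail b = Fin.tail b' := by
    constructor
    · rintro rfl; exact ⟨rfl, rfl, rfl⟩
    · rintro ⟨h1, h2, h3⟩
      rw [← Fin.cons_self_tail b, ← Fin.cons_self_tail b', h3, Prod.ext h1 h2]
  rw [cmp2_apply]
  simp only [sc, Matrix.diagonal_apply, hb]
  generalize (b 0).1 = i1
  generalize (b' 0).1 = i2
  generalize (b 0).2 = j1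
  generalize (b' 0).2 = j2
  fin_cases i1 <;> fin_cases i2 <;> fin_cases j1 <;> fin_cases j2 <;>
    simp [s2, Matrix.diagonal_apply]

lemma sc_one (I : Type) [DecidableEq I] : sc I (1 : T) = 1 := rfl

lemma s2_one : s2 (1 : T) = 1 := by ext i j; fin_cases i <;> fin_cases j <;> simp [s2]

lemma cmp2_one : cmp2 (1 : M2 (M2 (Matrix (B k) (B k) T))) = 1 := by
  rw [← s2_one, ← s2_one, ← sc_one (B k), cmp2_s2_s2_sc, sc_one]

end Cmp

def cmp2H (k : ℕ) : M2 (M2 (Matrix (B k) (B k) R)) →⋆ₐ[ℂ] Matrix (B (k + 1)) (B (k + 1)) R where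
  toFun := cmp2
  map_one' := cmp2_one
  map_mul' := cmp2_mul
  map_zero' := rfl
  map_add' _ _ := rfl
  commutes' r := by
    rw [Algebra.algebraMap_eq_smul_one, Algebra.algebraMap_eq_smul_one, ← cmp2_one]; rfl
  map_star' _ := rfl

@[simp] lemma cmp2H_apply (k : ℕ) (M : M2 (M2 (Matrix (B k) (B k) R))) : cmp2H k M = cmp2 M := rfl

lemma mapH_cmp2 {k : ℕ} (M : M2 (M2 (Matrix (B k) (B k) R))) :
    mapH (B (k + 1)) f (cmp2 M) = cmp2 (mapH (Fin 2) (mapH (Fin 2) (mapH (B k) f)) M) := rfl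

@[simp] lemma mapH_dM : ∀ (k : ℕ) (z : Ix k → R), mapH (B k) f (dM k z) = dM k (fun i => f (z i))
  | 0, _ => by simp [dM]
  | k + 1, z => by
    rw [dM, mapH_cmp2, mapH_dstep, mapH_dM k, mapH_sc, mapH_sc]; rfl

@[simp] lemma mapH_φM : ∀ (k : ℕ) (z : Ix k → R), mapH (B k) f (φM k z) = φM k (fun i => f (z i))
  | 0, _ => by simp [φM]
  | k + 1, z => by
    rw [φM, mapH_cmp2]
    simp only [mapH_dg, map_mul, mapH_swp, mapH_s2, mapH_A2, mapH_sc, mapH_φM k]; rfl

@[simp] lemma mapH_ψM : ∀ (k : ℕ) (z : Ix k → R), mapH (B k) f (ψM k z) = ψM k (fun i => f (z i))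
  | 0, _ => by simp [ψM]
  | k + 1, z => by
    rw [ψM, mapH_cmp2]
    simp only [mapH_dg, map_mul, mapH_swp, mapH_s2, mapH_A2', mapH_sc, mapH_ψM k]; rfl

end Vale.Agent.P228
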