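import Vale.Agent.P228.Fine
import Vale.Agent.P228.LatB
import Vale.Agent.P228.Conc

set_option linter.unusedSectionVars false
noncomputable section
open Matrix Filter Topology
namespace Vale.Agent.P228

section Ctl
variable {k : ℕ} {O O' : ℕ → Op k} {y y' : E k} {ρ : ℝ}

lemma ev_imp {P Q : ℕ → Prop}
    (h : (∀ᶠ l in (UU : Filter ℕ), P l) → ∀ᶠ l in (UU : Filter ℕ), Q l) :
    ∀ᶠ l in (UU : Filter ℕ), P l → Q l := by
  by_cases h1 : ∀ᶠ l in (UU : Filter ℕ), P l
  · exact (h h1).mono fun l hl _ => hl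
  · exact (Ultrafilter.eventually_not.2 h1).mono fun l hl h2 => absurd h2 hl

lemma ev_choose {α : ℕ → Type} [∀ l, Nonempty (α l)] {P : ∀ l, α l → Prop}
    (h : ∀ᶠ l in (UU : Filter ℕ), ∃ a, P l a) :
    ∃ θ : ∀ l, α l, ∀ᶠ l in (UU : Filter ℕ), P l (θ l) := by
  classical
  refine ⟨fun l => if h : ∃ a, P l a then h.choose else Classical.arbitrary _, ?_⟩
  filter_upwards [h] with l hl
  rw [dif_pos hl]
  exact hl.choose_spec

lemma exists_mid_op {i j : ℕ → B k × Lat k}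
    (h : ∀ᶠ l in (UU : Filter ℕ), ent (O l * O' l) (i l) (j l) ≠ 0) :
    ∃ m : ℕ → B k × Lat k, (∀ᶠ l in (UU : Filter ℕ), ent (O l) (i l) (m l) ≠ 0) ∧
      ∀ᶠ l in (UU : Filter ℕ), ent (O' l) (m l) (j l) ≠ 0 := by
  obtain ⟨m, hm⟩ := ev_choose (α := fun _ => B k × Lat k) (h.mono fun l hl => ent_mul_ne hl)
  exact ⟨m, hm.mono fun l hl => hl.1, hm.mono fun l hl => hl.2⟩

lemma dist_pos_le (l N : ℕ) {u w : Lat k} (h : ∀ i, |u i - w i| ≤ N) :
    dist (pos (eta l) u) (pos (eta l) w) ≤ eta l * N := by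
  refine (dist_pi_le_iff (mul_nonneg (eta_pos l).le (Nat.cast_nonneg N))).2 fun i => ?_
  rw [Real.dist_eq, pos, pos, ← mul_sub, abs_mul, abs_of_pos (eta_pos l)]
  refine mul_le_mul_of_nonneg_left ?_ (eta_pos l).le
  exact_mod_cast h i

lemma Near.shift {u w : ℕ → Lat k} (N : ℕ) (hw : Near w y ρ)
    (h : ∀ᶠ l in (UU : Filter ℕ), ∀ i, |u l i - w l i| ≤ N) : Near u y ρ := by
  intro ε hε
  have h1 : Tendsto (fun l => eta l * N) (UU : Filter ℕ) (𝓝 0) := by
    simpa using eta_tendsto.mul_const (N : ℝ)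
  filter_upwards [h, hw (ε / 2) (half_pos hε), h1.eventually (gt_mem_nhds (half_pos hε))]
    with l h2 h3 h4
  have h5 := dist_triangle (pos (eta l) (u l)) (pos (eta l) (w l)) y
  have h6 := dist_pos_le l N h2
  linarith

lemma Conv.near {u : ℕ → Lat k} (h : Conv u y) (hρ : 0 ≤ ρ) : Near u y ρ := by
  intro ε hε
  filter_upwards [Metric.tendsto_nhds.1 h ε hε] with l hl
  linarith

lemma dE_step {i j : B k × Lat k} (h : ent (dE k) i j ≠ 0) (t : Ix k) :
    |i.2 t - j.2 t| ≤ ((1 : ℕ) : ℤ) := by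
  rcases (dE_ne h).2 with h1 | ⟨s, h1⟩
  · rw [h1]
    simp
  · rw [h1]
    by_cases ht : t = s
    · subst ht
      simp
    · simp [Pi.single_eq_of_ne ht]

lemma ent_add (P Q : Op k) (i j : B k × Lat k) : ent (P + Q) i j = ent P i j + ent Q i j := rfl

lemma ent_sub (P Q : Op k) (i j : B k × Lat k) : ent (P - Q) i j = ent P i j - ent Q i j := rfl

theorem near_zero_iff {u : ℕ → Lat k} : Near u y 0 ↔ Conv u y := by
  unfold Near Conv
  rw [Metric.tendsto_nhds]
  constructor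
  · intro h ε hε
    filter_upwards [h (ε / 2) (half_pos hε)] with l hl
    linarith
  · intro h ε hε
    filter_upwards [h ε hε] with l hl
    linarith

theorem Ctl.add (h : Ctl O y y' ρ) (h' : Ctl O' y y' ρ) : Ctl (fun l => O l + O' l) y y' ρ := by
  intro i j hj hne
  have : ∀ᶠ l in (UU : Filter ℕ), ent (O l) (i l) (j l) ≠ 0 ∨ ent (O' l) (i l) (j l) ≠ 0 := by
    filter_upwards [hne] with l hl
    by_contra hc
    push Not at hc
    exact hl (by rw [ent_add, hc.1, hc.2, add_zero])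
  rcases Ultrafilter.eventually_or.1 this with h1 | h1
  · exact h i j hj h1
  · exact h' i j hj h1

theorem Ctl.sub (h : Ctl O y y' ρ) (h' : Ctl O' y y' ρ) : Ctl (fun l => O l - O' l) y y' ρ := by
  intro i j hj hne
  have : ∀ᶠ l in (UU : Filter ℕ), ent (O l) (i l) (j l) ≠ 0 ∨ ent (O' l) (i l) (j l) ≠ 0 := by
    filter_upwards [hne] with l hl
    by_contra hc
    push Not at hc
    exact hl (by rw [ent_sub, hc.1, hc.2, sub_zero])
  rcases Ultrafilter.eventually_or.1 this with h1 | h1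
  · exact h i j hj h1
  · exact h' i j hj h1

theorem Ctl.dE_mul (h : Ctl O y y' ρ) : Ctl (fun l => dE k * O l) y y' ρ := by
  intro i j hj hne
  obtain ⟨m, h1, h2⟩ := exists_mid_op (O := fun _ => dE k) hne
  exact (h m j hj h2).shift 1 (h1.mono fun l hl => dE_step hl)

theorem Ctl.mul_dE (h : Ctl O y y' ρ) : Ctl (fun l => O l * dE k) y y' ρ := by
  intro i j hj hne
  obtain ⟨m, h1, h2⟩ := exists_mid_op (O' := fun _ => dE k) hne
  exact h i m (Config.conv_shift 1 hj (h2.mono fun l hl => dE_step hl)) h1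

theorem ctl_one (hρ : 0 ≤ ρ) : Ctl (fun _ => (1 : Op k)) y y ρ := by
  intro i j hj hne
  refine (hj.near hρ).shift 0 (hne.mono fun l hl t => ?_)
  have : i l = j l := by
    by_contra h
    exact hl (by rw [ent_one, if_neg h])
  simp [this]

theorem ctl_dE (hρ : 0 ≤ ρ) : Ctl (fun _ => dE k) y y ρ := by
  intro i j hj hne
  exact (hj.near hρ).shift 1 (hne.mono fun l hl => dE_step hl)

theorem Ctl.of_zero {y'' : E k} (h : Ctl O y y' 0) (hd : dist y' y'' ≤ ρ) : Ctl O y y'' ρ := by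
  intro i j hj hne ε hε
  filter_upwards [h i j hj hne ε hε] with l hl
  have := dist_triangle (pos (eta l) (i l).2) y' y''
  linarith

/-- a lattice thread with positions in a compact set converges -/
theorem exists_conv {u : ℕ → Lat k} {S : Set (E k)} (hS : IsCompact S)
    (h : ∀ᶠ l in (UU : Filter ℕ), pos (eta l) (u l) ∈ S) : ∃ y ∈ S, Conv u y := by
  obtain ⟨y, hy, h1⟩ := hS.ultrafilter_le_nhds (UU.map fun l => pos (eta l) (u l))
    (by rw [Ultrafilter.coe_map, Filter.le_principal_iff, Filter.mem_map]; exact h)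
  exact ⟨y, hy, h1⟩

theorem exists_padic_lim {p : ℕ} [Fact p.Prime] (g : ℕ → ℤ_[p]) :
    ∃ h, Tendsto g (UU : Filter ℕ) (𝓝 h) := by
  exact ⟨_, (UU.map g).le_nhds_lim⟩

theorem toZMod_eventually {p : ℕ} [Fact p.Prime] {g : ℕ → ℤ_[p]} {h : ℤ_[p]}
    (hg : Tendsto g (UU : Filter ℕ) (𝓝 h)) :
    ∀ᶠ l in (UU : Filter ℕ), PadicInt.toZMod (g l) = PadicInt.toZMod h := by
  filter_upwards [Metric.tendsto_nhds.1 hg 1 one_pos] with l hl
  rw [dist_eq_norm] at hl
  have h1 : g l - h ∈ RingHom.ker (PadicInt.toZMod (p := p)) := by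
    rw [PadicInt.ker_toZMod, IsLocalRing.mem_maximalIdeal, PadicInt.mem_nonunits]
    exact hl
  rwa [RingHom.mem_ker, map_sub, sub_eq_zero] at h1

end Ctl

namespace Config
variable {p : ℕ} [Fact p.Prime] {k : ℕ} {δ : ℝ} (c : Config p k δ)

theorem unit_subset_int : Metric.closedBall (0 : E k) 1 ⊆ interior c.K := by
  intro y hy
  have h1 : y ∈ Metric.closedBall c.b c.Rb := Metric.ball_subset_closedBall (c.unitB hy)
  have := c.Kint 0 y h1
  rwa [c.zero y (c.BΩ h1)] at this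

include c in
theorem δ_nonneg : 0 ≤ δ := by
  exact dist_nonneg.trans (c.small 0 (interior_subset c.zero_mem_int) (Or.inl (by simp))).1

theorem Ct.mul {O O' : ℕ → Op k} {h h' : ℤ_[p]} (hO : c.Ct O h) (hO' : c.Ct O' h') :
    c.Ct (fun l => O l * O' l) (h + h') := by
  intro y hy i j hj hne
  obtain ⟨m, h1, h2⟩ := exists_mid_op hne
  rw [c.add h h' y hy]
  exact hO _ (c.mem h' y hy) i m (near_zero_iff.1 (hO' y hy m j hj h2)) h1

theorem Ct.sub {O O' : ℕ → Op k} {h : ℤ_[p]} (hO : c.Ct O h) (hO' : c.Ct O' h) :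
    c.Ct (fun l => O l - O' l) h := by
  exact fun y hy => (hO y hy).sub (hO' y hy)

theorem HFam.ct {H : ℕ → ℤ_[p] → Op k → Op k} (hH : c.HFam H) {g : ℕ → ℤ_[p]} {h : ℤ_[p]}
    (hg : Tendsto g (UU : Filter ℕ) (𝓝 h)) {O : ℕ → Op k} (hO : c.Ct O h) :
    c.Ct (fun l => H l (g l) (O l)) h := by
  exact fun y hy => hH.ctl g h O hg y hy _ 0 (by simp) (hO y hy)

theorem near_mem {u : ℕ → Lat k} {y : E k} {ρ : ℝ} (h : Near u y ρ)
    (hρ : 0 ≤ ρ) (hy : Metric.closedBall y ρ ⊆ interior c.K) :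
    ∀ᶠ l in (UU : Filter ℕ), u l ∈ Set.range (c.v l) := by
  obtain ⟨ε, hε, h1⟩ := (isCompact_closedBall y ρ).exists_cthickening_subset_open isOpen_interior hy
  rw [cthickening_closedBall hε.le hρ] at h1
  filter_upwards [h ε hε] with l hl
  rw [mem_range_v]
  exact interior_subset (h1 (by rw [Metric.mem_closedBall]; linarith))

/-- a lattice thread which is almost always in the index set comes from an index thread -/
theorem exists_thread {u : ℕ → Lat k} (h : ∀ᶠ l in (UU : Filter ℕ), u l ∈ Set.range (c.v l)) :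
    ∃ θ : ∀ l, c.G l, ∀ᶠ l in (UU : Filter ℕ), c.v l (θ l) = u l := by
  exact ev_choose (P := fun l a => c.v l a = u l) h

theorem cmp_mul_thread (O O' : ℕ → Op k) (w : ∀ l, c.G l) {y' : E k} {ρ : ℝ}
    (h : Ctl O' (c.lim w) y' ρ) (hρ : 0 ≤ ρ) (hy : Metric.closedBall y' ρ ⊆ interior c.K) :
    ∀ᶠ l in (UU : Filter ℕ),
      ColZero (cmp (c.v l) (O l * O' l) - cmp (c.v l) (O l) * cmp (c.v l) (O' l)) (w l) := by
  have h1 : ∀ᶠ l in (UU : Filter ℕ), ∀ a : B k × (B k × Lat k),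
      ent (O' l) a.2 (a.1, c.v l (w l)) ≠ 0 → a.2.2 ∈ Set.range (c.v l) := by
    refine thread UU (α := fun _ => B k × (B k × Lat k)) fun θ => ev_imp fun hne => ?_
    exact c.near_mem (h (fun l => (θ l).2) (fun l => ((θ l).1, c.v l (w l))) (c.lim_conv w) hne)
      hρ hy
  filter_upwards [h1] with l hl
  exact cmp_mul_col _ (c.v_inj l) _ _ _ fun b i hi => hl (b, i) hi

lemma lim_of_ct {O : ℕ → Op k} {h : ℤ_[p]} (hO : c.Ct O h) {b b' : ℕ → B k} {u w : ∀ l, c.G l}
    (hne : ∀ᶠ l in (UU : Filter ℕ), cmp (c.v l) (O l) (b l) (b' l) (u l) (w l) ≠ 0) :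
    c.lim u = c.act h (c.lim w) :=
  c.lim_eq (near_zero_iff.1 (hO _ (c.KΩ (c.lim_mem w)) (fun l => (b l, c.v l (u l)))
    (fun l => (b' l, c.v l (w l))) (c.lim_conv w) hne))

theorem exists_mat {O : ℕ → Op k} {h : ℤ_[p]} (hO : c.Ct O h) :
    ∃ Y : c.Mat, ∀ l, c.lev l Y = cmp (c.v l) (O l) := by
  exact ⟨Matrix.of fun b b' => ⟨fun l => cmp (c.v l) (O l) b b', fun u w hne =>
    c.lab_eq_of_act (c.lim_of_ct hO (b := fun _ => b) (b' := fun _ => b') hne)⟩, fun l => rfl⟩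

theorem exists_graded {α : ℕ → Type} [∀ l, Fintype (α l)] [∀ l, Nonempty (α l)]
    (wt : ∀ l, α l → ℤ_[p]) (O : ∀ l, α l → Op k)
    (hO : ∀ (a : ∀ l, α l) h, Tendsto (fun l => wt l (a l)) (UU : Filter ℕ) (𝓝 h) →
      c.Ct (fun l => O l (a l)) h) (r : ℕ → ℂ) :
    ∃ Y : ZMod p → c.Mat, c.GCt Y ∧ ∀ s l, c.lev l (tw s Y) =
      r l • ∑ a, chi (s * PadicInt.toZMod (wt l a)) • cmp (c.v l) (O l a) := by
  classical
  set Z : ZMod p → ∀ l, Raw k (c.G l) := fun g l =>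
    r l • ∑ a ∈ Finset.univ.filter (fun a => PadicInt.toZMod (wt l a) = g),
      cmp (c.v l) (O l a) with hZ
  have key : ∀ g b b' (u w : ∀ l, c.G l),
      (∀ᶠ l in (UU : Filter ℕ), Z g l b b' (u l) (w l) ≠ 0) →
      ∃ h, PadicInt.toZMod h = g ∧ c.lim u = c.act h (c.lim w) := by
    intro g b b' u w hne
    have h1 : ∀ᶠ l in (UU : Filter ℕ), ∃ a : α l, PadicInt.toZMod (wt l a) = g ∧
        cmp (c.v l) (O l a) b b' (u l) (w l) ≠ 0 := by
      filter_upwards [hne] with l hl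
      simp only [hZ, Matrix.smul_apply, Matrix.sum_apply, smul_eq_mul] at hl
      obtain ⟨a, ha, h2⟩ := Finset.exists_ne_zero_of_sum_ne_zero (right_ne_zero_of_mul hl)
      exact ⟨a, (Finset.mem_filter.1 ha).2, h2⟩
    obtain ⟨a, ha⟩ := ev_choose h1
    obtain ⟨h, hh⟩ := exists_padic_lim fun l => wt l (a l)
    refine ⟨h, ?_, c.lim_of_ct (hO a h hh) (b := fun _ => b) (b' := fun _ => b')
      (ha.mono fun l hl => hl.2)⟩
    obtain ⟨l, h1, h2⟩ := (ha.and (toZMod_eventually hh)).exists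
    rw [← h2, h1.1]
  refine ⟨fun g => Matrix.of fun b b' => ⟨fun l => Z g l b b', fun u w hne => ?_⟩, key, ?_⟩
  · obtain ⟨h, -, h1⟩ := key g b b' u w hne
    exact c.lab_eq_of_act h1
  · intro s l
    rw [tw, map_sum]
    simp only [map_smul]
    change ∑ g, chi (s * g) • Z g l = _
    rw [← Finset.sum_fiberwise Finset.univ (fun a => PadicInt.toZMod (wt l a)), Finset.smul_sum]
    refine Finset.sum_congr rfl fun g _ => ?_
    simp only [hZ]
    rw [smul_comm, Finset.smul_sum]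
    congr 1
    refine Finset.sum_congr rfl fun a ha => ?_
    rw [(Finset.mem_filter.1 ha).2]

theorem lev_dM (l : ℕ) : c.lev l (dM k c.z) = dM k (shiftM (c.v l)) := by
  exact mapH_dM _ k c.z

theorem lev_φM (l : ℕ) : c.lev l (φM k c.z) = φM k (shiftM (c.v l)) := by
  exact mapH_φM _ k c.z

theorem lev_ψM (l : ℕ) : c.lev l (ψM k c.z) = ψM k (shiftM (c.v l)) := by
  exact mapH_ψM _ k c.z

/-- the labelling by limit points -/
def L0 : Lab UU c.G (E k) where
  lab θ := c.lim θ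
  congr u w h := c.lim_eq ((c.lim_conv w).congr' (h.mono fun l hl => by simp only [hl]))

/-- the compressed shifts, for the labelling by limit points -/
def z0 (i : Ix k) : c.L0.ctrl := ⟨fun l => shiftM (c.v l) i, fun u w h =>
  c.lim_eq (conv_shift 1 (c.lim_conv w) (h.mono fun l hl t => by
    have h1 : c.v l (u l) = c.v l (w l) + Pi.single i 1 := by
      by_contra h2
      exact hl (by simp [shiftM, h2])
    rw [h1]
    by_cases ht : t = i
    · subst ht; simp
    · simp [Pi.single_eq_of_ne ht]))⟩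

theorem φM_lim {b b' : B k} {u w : ∀ l, c.G l}
    (h : ∀ᶠ l in (UU : Filter ℕ), φM k (shiftM (c.v l)) b b' (u l) (w l) ≠ 0) :
    c.lim u = c.lim w := by
  refine (φM k c.z0 b b').2 u w (h.mono fun l hl => ?_)
  have : (φM k c.z0 b b').1 l = φM k (shiftM (c.v l)) b b' :=
    congrFun (congrFun (mapH_φM (c.L0.ev l) k c.z0) b) b'
  rwa [this]

theorem ψM_lim {b b' : B k} {u w : ∀ l, c.G l}
    (h : ∀ᶠ l in (UU : Filter ℕ), ψM k (shiftM (c.v l)) b b' (u l) (w l) ≠ 0) :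
    c.lim u = c.lim w := by
  refine (ψM k c.z0 b b').2 u w (h.mono fun l hl => ?_)
  have : (ψM k c.z0 b b').1 l = ψM k (shiftM (c.v l)) b b' :=
    congrFun (congrFun (mapH_ψM (c.L0.ev l) k c.z0) b) b'
  rwa [this]

/-- the shifts are commuting unitaries at labels whose orbit is interior -/
theorem z_cu {x : Set (E k) × E k} (hx : ∀ θ, c.Lb.lab θ = x → c.lim θ ∈ interior c.K) :
    CU fun i => c.Lb.ctx.π x (c.z i) := by
  refine c.Lb.shift_cu c.v c.v_inj c.z (fun _ _ => rfl) fun θ hθ => ?_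
  refine thread UU (α := fun _ => Lat k) fun w => ev_imp fun hw => ?_
  refine c.near_mem (near_zero_iff.2 (conv_shift 2 (c.lim_conv θ) (by exact_mod_cast hw))) le_rfl ?_
  rw [Metric.closedBall_zero, Set.singleton_subset_iff]
  exact hx θ hθ

theorem lim_int_of_ball {x : Set (E k) × E k} (hx : x.2 ∈ Metric.ball c.o c.R) (θ : ∀ l, c.G l)
    (hθ : c.Lb.lab θ = x) : c.lim θ ∈ Metric.ball c.b c.Rb ∧
      ∀ h, c.act h (c.lim θ) ∈ interior c.K := by
  subst hθ
  have h1 := c.back _ (c.lim_mem θ) hx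
  exact ⟨h1, fun h => c.Kint h _ (Metric.ball_subset_closedBall h1)⟩

theorem strict_of_ball {x : Set (E k) × E k} (hx : x.2 ∈ Metric.ball c.o c.R) :
    Strict (c.Γ.π x (dM k c.z)) (c.Γ.π x (φM k c.z)) (c.Γ.π x (ψM k c.z)) := by
  have h1 := std_strict (c.z_cu (x := x) fun θ hθ => by
    have := (c.lim_int_of_ball hx θ hθ).2 0
    rwa [c.zero _ (c.KΩ (c.lim_mem θ))] at this)
  rw [← mapH_dM, ← mapH_φM, ← mapH_ψM] at h1
  exact h1

end Config

end Vale.Agent.P228
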