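import Vale.Agent.P228.OpsCt

set_option linter.unusedSectionVars false
noncomputable section
open Matrix Filter Topology
namespace Vale.Agent.P228

lemma sh_raw_mul_ne {k : ℕ} {n : Type} [Fintype n] [DecidableEq n] {Y Y' : Raw k n} {b b' : B k}
    {a a' : n} (h : (Y * Y') b b' a a' ≠ 0) :
    ∃ x : B k × n, Y b x.1 a x.2 ≠ 0 ∧ Y' x.1 b' x.2 a' ≠ 0 := by
  rw [Matrix.mul_apply, Matrix.sum_apply] at h
  obtain ⟨b1, -, h1⟩ := Finset.exists_ne_zero_of_sum_ne_zero h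
  rw [Matrix.mul_apply] at h1
  obtain ⟨m, -, h2⟩ := Finset.exists_ne_zero_of_sum_ne_zero h1
  exact ⟨(b1, m), left_ne_zero_of_mul h2, right_ne_zero_of_mul h2⟩

lemma sh_ev_const {β : Type} [Finite β] (b : ℕ → β) : ∃ a, ∀ᶠ l in (UU : Filter ℕ), b l = a := by
  obtain ⟨a, ha⟩ := Ultrafilter.eq_pure_of_finite (UU.map b)
  refine ⟨a, ?_⟩
  have : ({a} : Set β) ∈ UU.map b := by
    rw [ha]
    exact Ultrafilter.mem_pure.2 rfl
  exact this

lemma sh_alg {R : Type} [Ring R] [StarRing R] [Algebra ℂ R] [StarModule ℂ R] {d φ ψ t : R}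
    (h : Strict d φ ψ) (ht : d * t = t * d) : d * (ψ * star t * φ) = ψ * star t * φ * d := by
  obtain ⟨-, ⟨-, -, h3, h4⟩, h5⟩ := h
  have e1 : star d * φ = -(φ * d) := eq_neg_of_add_eq_zero_right h5
  have e2 : d * ψ = -(ψ * star d) := by
    calc d * ψ = ψ * (φ * d) * ψ := by rw [← mul_assoc, h4, one_mul]
      _ = -(ψ * star d * (φ * ψ)) := by
        rw [← neg_neg (φ * d), ← e1]
        noncomm_ring
      _ = -(ψ * star d) := by rw [h3, mul_one]
  have e3 : star d * star t = star t * star d := by rw [← star_mul, ← star_mul, ht]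
  calc d * (ψ * star t * φ) = d * ψ * star t * φ := by noncomm_ring
    _ = -(ψ * (star d * star t) * φ) := by
      rw [e2]
      noncomm_ring
    _ = -(ψ * star t * (star d * φ)) := by
      rw [e3]
      noncomm_ring
    _ = ψ * star t * φ * d := by
      rw [e1]
      noncomm_ring

namespace Config
variable {p : ℕ} [Fact p.Prime] {k : ℕ} {δ : ℝ} (c : Config p k δ)

lemma sh_lim {O : ℕ → Op k} {h : ℤ_[p]} (hO : c.Ct O h) {b b' : ℕ → B k} {u w : ∀ l, c.G l}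
    (hne : ∀ᶠ l in (UU : Filter ℕ),
      (ψM k (shiftM (c.v l)) * star (cmp (c.v l) (O l)) * φM k (shiftM (c.v l)))
        (b l) (b' l) (u l) (w l) ≠ 0) : c.lim w = c.act h (c.lim u) := by
  obtain ⟨m2, hm2⟩ := ev_choose (α := fun l => B k × c.G l) (hne.mono fun l hl => sh_raw_mul_ne hl)
  obtain ⟨m1, hm1⟩ := ev_choose (α := fun l => B k × c.G l)
    (hm2.mono fun l hl => sh_raw_mul_ne hl.1)
  obtain ⟨β, hβ⟩ := sh_ev_const b
  obtain ⟨β', hβ'⟩ := sh_ev_const b'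
  obtain ⟨β1, hβ1⟩ := sh_ev_const fun l => (m1 l).1
  obtain ⟨β2, hβ2⟩ := sh_ev_const fun l => (m2 l).1
  have e1 : c.lim u = c.lim fun l => (m1 l).2 := c.ψM_lim (b := β) (b' := β1) (by
    filter_upwards [hm1, hβ, hβ1] with l h1 h2 h3
    rw [← h2, ← h3]
    exact h1.1)
  have e2 : c.lim (fun l => (m2 l).2) = c.lim w := c.φM_lim (b := β2) (b' := β') (by
    filter_upwards [hm2, hβ2, hβ'] with l h1 h2 h3
    rw [← h2, ← h3]
    exact h1.2)
  rw [e1, ← e2]
  refine c.lim_of_ct hO (b := fun l => (m2 l).1) (b' := fun l => (m1 l).1) ?_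
  filter_upwards [hm1] with l hl h0
  exact hl.2 (by rw [Matrix.star_apply, Matrix.star_apply, h0, star_zero])

theorem sharp_ct {T : ℕ → ℤ_[p] → Op k} (hT : c.TFam T) {g : ℕ → ℤ_[p]} {h : ℤ_[p]}
    (hg : Tendsto g (UU : Filter ℕ) (𝓝 h)) : c.Ct (fun l => c.sharp l (T l (g l))) (-h) := by
  intro y hy i j hj hne
  obtain ⟨θ, hθ⟩ := ev_choose (α := fun l => c.G l × c.G l)
    (P := fun l a => c.v l a.1 = (i l).2 ∧ c.v l a.2 = (j l).2 ∧
      (ψM k (shiftM (c.v l)) * star (cmp (c.v l) (T l (g l))) * φM k (shiftM (c.v l)))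
        (i l).1 (j l).1 a.1 a.2 ≠ 0)
    (hne.mono fun l hl => by
      obtain ⟨a, a', h1⟩ := ent_ext_ne _ _ hl
      exact ⟨(a, a'), h1⟩)
  have h1 : c.lim (fun l => (θ l).2) = y :=
    c.lim_eq (Tendsto.congr' (hθ.mono fun l hl => by simp only [hl.2.1]) hj)
  have h2 := c.sh_lim (hT.ct g h hg) (u := fun l => (θ l).1) (w := fun l => (θ l).2)
    (hθ.mono fun l hl => hl.2.2)
  rw [near_zero_iff, ← h1, h2, ← c.add _ _ _ (c.KΩ (c.lim_mem _)), neg_add_cancel,
    c.zero _ (c.KΩ (c.lim_mem _))]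
  exact Tendsto.congr' (hθ.mono fun l hl => by simp only [hl.1]) (c.lim_conv fun l => (θ l).1)

theorem sharp_chain {T : ℕ → ℤ_[p] → Op k} (hT : c.TFam T) (g : ℕ → ℤ_[p])
    (j : ℕ → B k × Lat k) {y : E k} (hy : y ∈ Metric.closedBall c.b c.Rb)
    (hj : Conv (fun l => (j l).2) y) :
    ∀ᶠ l in (UU : Filter ℕ), dE k (c.sharp l (T l (g l)) (Finsupp.single (j l) 1)) =
      c.sharp l (T l (g l)) (dE k (Finsupp.single (j l) 1)) := by
  obtain ⟨h, hg⟩ := exists_padic_lim g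
  have hyΩ : y ∈ c.Ω := c.BΩ hy
  have hball : ∀ h', Metric.closedBall (c.act h' y) 0 ⊆ interior c.K := fun h' => by
    rw [Metric.closedBall_zero, Set.singleton_subset_iff]
    exact c.Kint h' y hy
  have hy0 : Metric.closedBall y 0 ⊆ interior c.K := by
    have := hball 0
    rwa [c.zero y hyΩ] at this
  obtain ⟨w, hw⟩ := c.exists_thread (c.near_mem (near_zero_iff.2 hj) le_rfl hy0)
  have hwy : c.lim w = y := c.lim_eq (Tendsto.congr' (hw.mono fun l hl => by simp only [hl]) hj)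
  have hθ : ∀ θ, c.Lb.lab θ = c.Lb.lab w → ∀ h', Metric.closedBall (c.act h' (c.lim θ)) 0 ⊆
      interior c.K := by
    intro θ e h'
    obtain ⟨h'', e'⟩ := c.act_of_lab_eq e
    rw [e', hwy, ← c.add _ _ y hyΩ]
    exact hball _
  have hθ0 : ∀ θ, c.Lb.lab θ = c.Lb.lab w → Metric.closedBall (c.lim θ) 0 ⊆ interior c.K := by
    intro θ e
    have := hθ θ e 0
    rwa [c.zero _ (c.KΩ (c.lim_mem θ))] at this
  obtain ⟨Tm, hTm⟩ := c.exists_mat (hT.ct g h hg)
  have h1 : c.Γ.π (c.Lb.lab w) (dM k c.z * Tm - Tm * dM k c.z) = 0 := by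
    refine c.Lb.mat_π_eq_zero _ fun θ e => ?_
    filter_upwards [c.cmp_mul_thread (fun _ => dE k) (fun l => T l (g l)) θ
        (hT.ct g h hg _ (c.KΩ (c.lim_mem θ))) le_rfl (hθ θ e h),
      c.cmp_mul_thread (fun l => T l (g l)) (fun _ => dE k) θ (ctl_dE le_rfl) le_rfl (hθ0 θ e)]
      with l a1 a2
    have a3 := a2.sub a1
    rw [hT.chain, sub_sub_sub_cancel_left, cmp_dE _ (c.v_inj l)] at a3
    change ColZero (c.lev l _) _
    rw [map_sub, map_mul, map_mul, hTm, c.lev_dM]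
    exact a3
  have h2 := std_strict (c.z_cu (x := c.Lb.lab w) fun θ e =>
    hθ0 θ e (Metric.mem_closedBall_self le_rfl))
  rw [← mapH_dM, ← mapH_φM, ← mapH_ψM] at h2
  have h3 : c.Γ.π (c.Lb.lab w) (dM k c.z * (ψM k c.z * star Tm * φM k c.z) -
      ψM k c.z * star Tm * φM k c.z * dM k c.z) = 0 := by
    rw [map_sub, map_mul, map_mul, sub_eq_zero] at h1
    simp only [map_sub, map_mul, map_star]
    exact sub_eq_zero.2 (sh_alg h2 h1)
  have h4 : ∀ᶠ l in (UU : Filter ℕ), ColZero (cmp (c.v l)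
      (dE k * c.sharp l (T l (g l)) - c.sharp l (T l (g l)) * dE k)) (w l) := by
    filter_upwards [c.Lb.colZero_of_π _ w h3, c.cmp_mul_thread (fun l => c.sharp l (T l (g l)))
      (fun _ => dE k) w (ctl_dE le_rfl) le_rfl (hθ0 w rfl)] with l a1 a2
    have a3 := cmp_mul_col _ (c.v_inj l) (dE k) (c.sharp l (T l (g l))) (w l) fun b i hi => by
      obtain ⟨a, a', e1, -, -⟩ := ent_ext_ne _ _ hi
      exact ⟨a, e1⟩
    change ColZero (c.lev l _) _ at a1
    simp only [map_sub, map_mul, map_star, hTm, c.lev_dM, c.lev_φM, c.lev_ψM] at a1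
    have a4 := (a3.sub a2).add a1
    rw [cmp_dE _ (c.v_inj l), sharp, cmp_ext _ (c.v_inj l)] at a4
    rw [cmp_sub, sharp]
    have e : ∀ P Q A D : Raw k (c.G l), P - A - (Q - D) + (A - D) = P - Q := fun P Q A D => by abel
    rwa [e] at a4
  have h5 : Ctl (fun l => dE k * c.sharp l (T l (g l)) - c.sharp l (T l (g l)) * dE k) y
      (c.act (-h) y) 0 := (c.sharp_ct hT hg y hyΩ).dE_mul.sub (c.sharp_ct hT hg y hyΩ).mul_dE
  have h6 : ∀ᶠ l in (UU : Filter ℕ), ∀ i : B k × Lat k,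
      ent (dE k * c.sharp l (T l (g l)) - c.sharp l (T l (g l)) * dE k) i (j l) ≠ 0 →
        i.2 ∈ Set.range (c.v l) :=
    thread UU (α := fun _ => B k × Lat k) fun i => ev_imp fun hne =>
      c.near_mem (h5 i j hj hne) le_rfl (hball _)
  filter_upwards [h4, h6, hw] with l a1 a2 a3
  ext i
  rw [← sub_eq_zero]
  by_contra hne
  obtain ⟨a, ha⟩ := a2 i hne
  have a4 : ent (dE k * c.sharp l (T l (g l)) - c.sharp l (T l (g l)) * dE k) (i.1, c.v l a)
      ((j l).1, c.v l (w l)) = 0 := a1 i.1 (j l).1 a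
  rw [ha, a3] at a4
  exact hne a4

end Config

end Vale.Agent.P228
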