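import Vale.Agent.P228.OpsSharp1
import Vale.Agent.P228.LatC

set_option linter.unusedSectionVars false
set_option linter.unusedSimpArgs false
set_option linter.unusedVariables false
noncomputable section
open Matrix Filter Topology
namespace Vale.Agent.P228

section Raw
variable {k : ℕ} {n : Type} [Fintype n] [DecidableEq n] (v : n → Lat k)

lemma ψ_mul_row (Y : Raw k n) (b : B k) : (ψM k (shiftM v) * Y) (b0 k) b = Y (top k) b := by
  rw [Matrix.mul_apply]
  simp only [ψM_row, ite_mul, one_mul, zero_mul, Finset.sum_ite_eq', Finset.mem_univ, if_true]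

lemma mul_φ_col (Y : Raw k n) (b : B k) : (Y * φM k (shiftM v)) b (b0 k) = Y b (top k) := by
  rw [Matrix.mul_apply]
  simp only [φM_col, mul_ite, mul_one, mul_zero, Finset.sum_ite_eq', Finset.mem_univ, if_true]

lemma aug_sharp_b0 (hv : Function.Injective v) (O : Op k) (a' : n) :
    aug k (ext v (ψM k (shiftM v) * star (cmp v O) * φM k (shiftM v))
      (Finsupp.single (b0 k, v a') 1)) = star (∑ a, ent O (top k, v a') (top k, v a)) := by
  rw [aug_ext v hv, mul_assoc, ψ_mul_row, mul_φ_col, star_sum]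
  rfl

lemma aug_sharp_ne (hv : Function.Injective v) {O : Op k} (hO : DegPres O) {b : B k}
    (hb : b ≠ b0 k) (a' : n) :
    aug k (ext v (ψM k (shiftM v) * star (cmp v O) * φM k (shiftM v))
      (Finsupp.single (b, v a') 1)) = 0 := by
  rw [aug_ext v hv, mul_assoc, ψ_mul_row]
  have : (star (cmp v O) * φM k (shiftM v)) (top k) b = 0 := by
    rw [Matrix.mul_apply]
    refine Finset.sum_eq_zero fun b' _ => ?_
    by_cases h : b' = top k
    · rw [h, φM_row, if_neg hb, mul_zero]
    · have : cmp v O b' (top k) = 0 := by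
        ext a a''
        by_contra h1
        have := hO _ _ h1
        exact h ((deg_eq_top _).1 (this.trans ((deg_eq_top _).2 rfl)))
      rw [Matrix.star_apply, this, star_zero, zero_mul]
  simp [this]

end Raw

lemma pos_zero {k : ℕ} (η : ℝ) : pos η (0 : Lat k) = 0 := by funext i; simp [pos]

lemma conv_zero {k : ℕ} : Conv (fun _ => (0 : Lat k)) 0 := by
  simp only [Conv, pos_zero]; exact tendsto_const_nhds

lemma dist_pos_shift {k : ℕ} (l : ℕ) (u : Lat k) (t : Ix k) :
    dist (pos (eta l) (u - Pi.single t 1)) (pos (eta l) u) ≤ eta l := by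
  refine (dist_pi_le_iff (eta_pos l).le).2 fun i => ?_
  rw [Real.dist_eq, pos, pos, ← mul_sub, abs_mul, abs_of_pos (eta_pos l)]
  refine mul_le_of_le_one_right (eta_pos l).le ?_
  by_cases h : i = t
  · subst h; simp
  · simp [Pi.single_eq_of_ne h]

lemma dE_top {k : ℕ} (y : CC k) (u : Lat k) : dE k y (top k, u) = 0 := by
  by_contra h
  obtain ⟨m, h1, -⟩ := apply_ne h
  have h2 := (dE_ne h1).1
  have h3 := deg_le m.1
  have h4 := (deg_eq_top (top k)).2 rfl
  simp only at h2
  omega

lemma dE_vertex {k : ℕ} (u : Lat k) : dE k (Finsupp.single (b0 k, u) 1) = 0 := by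
  ext i
  by_contra h
  have h2 := (dE_ne (i := i) (j := (b0 k, u)) h).1
  have h4 := (deg_eq_zero (b0 k)).2 rfl
  simp only at h2
  omega

lemma pos_mem_ball {k : ℕ} {η r : ℝ} (hη : 0 < η) {b : E k} {u m : Lat k}
    (h0 : (0 : E k) ∈ Metric.closedBall b r) (hu : pos η u ∈ Metric.closedBall b r)
    (hm : ∀ t, m t ∈ Set.uIcc ((0 : Lat k) t) (u t)) : pos η m ∈ Metric.closedBall b r := by
  have hr : 0 ≤ r := dist_nonneg.trans h0
  rw [Metric.mem_closedBall, dist_pi_le_iff hr] at h0 hu ⊢
  intro t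
  have a1 := h0 t
  have a2 := hu t
  simp only [Real.dist_eq, pos, Pi.zero_apply, abs_le] at a1 a2 ⊢
  rcases Set.mem_uIcc.1 (hm t) with h | h
  · have e1 : (0 : ℝ) ≤ m t := by exact_mod_cast h.1
    have e2 : (m t : ℝ) ≤ u t := by exact_mod_cast h.2
    constructor <;> nlinarith
  · have e1 : (m t : ℝ) ≤ 0 := by exact_mod_cast h.2
    have e2 : (u t : ℝ) ≤ m t := by exact_mod_cast h.1
    constructor <;> nlinarith

namespace Config
variable {p : ℕ} [Fact p.Prime] {k : ℕ} {δ : ℝ} (c : Config p k δ)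

/-- lattice points of the half ball -/
def half (l : ℕ) : Finset (Lat k) := by
  classical exact (Finset.univ.filter fun a : c.G l => ‖c.x l a‖ ≤ 1 / 2).image (c.v l)

lemma mem_half (l : ℕ) (u : Lat k) : u ∈ c.half l ↔ ‖pos (eta l) u‖ ≤ 1 / 2 := by
  simp only [half, Finset.mem_image, Finset.mem_filter, Finset.mem_univ, true_and]
  constructor
  · rintro ⟨a, h, rfl⟩; exact h
  · intro h
    obtain ⟨a, rfl⟩ := (c.mem_range_v l u).2 (interior_subset (c.unit_subset_int
      (mem_closedBall_zero_iff.2 (by linarith))))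
    exact ⟨a, h, rfl⟩

/-- the local degree is one at the origin -/
theorem sharp_aug_zero (hδ : δ ≤ 1 / 32) {T : ℕ → ℤ_[p] → Op k} (hT : c.TFam T)
    {H : ℕ → ℤ_[p] → Op k → Op k} (hH : c.HFam H) (g : ℕ → ℤ_[p]) :
    ∀ᶠ l in (UU : Filter ℕ),
      aug k (c.sharp l (T l (g l)) (Finsupp.single (b0 k, 0) 1)) = 1 := by
  obtain ⟨h, hg⟩ := exists_padic_lim g
  have hK0 : (0 : E k) ∈ c.K := interior_subset c.zero_mem_int
  have A1 : ∀ᶠ l in (UU : Filter ℕ), ∀ a : c.G l,
      ent (T l (g l)) (top k, 0) (top k, c.v l a) ≠ 0 → ‖c.x l a‖ ≤ 1 / 2 := by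
    refine thread UU fun a => ?_
    by_cases h1 : ∀ᶠ l in (UU : Filter ℕ), ent (T l (g l)) (top k, 0) (top k, c.v l (a l)) ≠ 0
    · have hy := c.KΩ (c.lim_mem a)
      have h2 := near_zero_iff.1 (hT.ct g h hg _ hy (fun _ => (top k, 0))
        (fun l => (top k, c.v l (a l))) (c.lim_conv a) h1)
      have h3 : c.act h (c.lim a) = 0 := tendsto_nhds_unique h2 conv_zero
      have h4 : c.lim a = c.act (-h) 0 := by
        rw [← h3, ← c.add _ _ _ hy, neg_add_cancel, c.zero _ hy]
      have h5 : ‖c.lim a‖ < 1 / 2 := by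
        have := (c.small 0 hK0 (Or.inl (by simp))).2 (-h)
        rw [← h4, dist_zero_right] at this
        linarith
      filter_upwards [(c.lim_tendsto a).norm.eventually (gt_mem_nhds h5)] with l hl _
      exact hl.le
    · filter_upwards [Ultrafilter.eventually_not.2 h1] with l hl h2
      exact absurd h2 hl
  have A2 : ∀ᶠ l in (UU : Filter ℕ), ∀ m : B k × Lat k,
      ¬(ent (H l 0 (T l (g l) - 1)) (top k, 0) m ≠ 0 ∧
        dE k (∑ u ∈ c.half l, Finsupp.single (top k, u) 1) m ≠ 0) := by
    refine thread UU fun m => ?_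
    by_contra h1
    have h1 := (Ultrafilter.eventually_not.2 h1).mono fun l hl => not_not.1 hl
    have hS : IsCompact (Metric.closedBall (0 : E k) 1 \ Metric.ball 0 (1 / 4)) :=
      (isCompact_closedBall _ _).diff Metric.isOpen_ball
    obtain ⟨y, hy, hc⟩ := exists_conv (u := fun l => (m l).2) hS (by
      filter_upwards [h1, eta_tendsto.eventually (gt_mem_nhds (show (0 : ℝ) < 1 / 4 by norm_num))]
        with l hl he
      obtain ⟨t, ht⟩ := dE_fund _ _ hl.2
      have d := dist_pos_shift l (m l).2 t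
      rw [mem_half, mem_half] at ht
      have d1 := norm_le_norm_add_norm_sub' (pos (eta l) (m l).2)
        (pos (eta l) ((m l).2 - Pi.single t 1))
      have d2 := norm_le_norm_add_norm_sub' (pos (eta l) ((m l).2 - Pi.single t 1))
        (pos (eta l) (m l).2)
      rw [← dist_eq_norm] at d1 d2
      rw [dist_comm] at d1
      simp only [Set.mem_sdiff, mem_closedBall_zero_iff, mem_ball_zero_iff, not_lt]
      by_cases h2 : ‖pos (eta l) (m l).2‖ ≤ 1 / 2
      · have h3 : ¬‖pos (eta l) ((m l).2 - Pi.single t 1)‖ ≤ 1 / 2 := fun h3 => ht (iff_of_true h2 h3)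
        constructor <;> linarith
      · have h3 : ‖pos (eta l) ((m l).2 - Pi.single t 1)‖ ≤ 1 / 2 := by
          by_contra h3; exact ht (iff_of_false h2 h3)
        constructor <;> linarith)
    have hyK : y ∈ c.K := interior_subset (c.unit_subset_int hy.1)
    have hyΩ := c.KΩ hyK
    have hs := (c.small y hyK (Or.inl (mem_closedBall_zero_iff.1 hy.1))).2
    have c1 : Ctl (fun l => T l (g l) - 1) y y δ :=
      ((hT.ct g h hg y hyΩ).of_zero (hs h)).sub (ctl_one c.δ_nonneg)
    have c2 := hH.ctl (fun _ => 0) 0 _ tendsto_const_nhds y hyΩ y δ (hs 0) c1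
      (fun _ => (top k, 0)) m hc (h1.mono fun l hl => hl.1) (1 / 32) (by norm_num)
    obtain ⟨l, hl⟩ := c2.exists
    simp only [pos_zero, dist_zero_left] at hl
    have := hy.2
    simp only [mem_ball_zero_iff, not_lt] at this
    linarith
  filter_upwards [A1, A2] with l A1 A2
  obtain ⟨a0, ha0⟩ : (0 : Lat k) ∈ Set.range (c.v l) :=
    (c.mem_range_v l 0).2 (by rw [pos_zero]; exact hK0)
  have e1 := aug_sharp_b0 (c.v l) (c.v_inj l) (T l (g l)) a0
  rw [ha0] at e1
  rw [sharp, e1]
  have e2 : ∑ a, ent (T l (g l)) (top k, 0) (top k, c.v l a) =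
      T l (g l) (∑ u ∈ c.half l, Finsupp.single (top k, u) 1) (top k, 0) := by
    classical
    rw [map_sum, Finsupp.finsetSum_apply, half, Finset.sum_image fun a _ b _ h => c.v_inj l h]
    exact (Finset.sum_filter_of_ne fun a _ h => A1 a h).symm
  have e3 : dE k * H l 0 (T l (g l) - 1) + H l 0 (T l (g l) - 1) * dE k = T l (g l) - 1 := by
    refine op_ext fun i j => ?_
    rw [ent, ent, hH.hom l 0 _ j fun j' _ => ⟨?_, ?_⟩]
    · have := LinearMap.congr_fun (hT.chain l (g l)) (Finsupp.single j' 1)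
      simp only [Module.End.mul_apply] at this
      simp only [LinearMap.sub_apply, map_sub, Module.End.one_apply, this]
    · simp only [LinearMap.sub_apply, map_sub, Module.End.one_apply, hT.aug, sub_self]
  have e4 := congrArg (fun y : CC k => y (top k, 0))
    (LinearMap.congr_fun e3 (∑ u ∈ c.half l, Finsupp.single (top k, u) 1))
  have e5 : H l 0 (T l (g l) - 1) (dE k (∑ u ∈ c.half l, Finsupp.single (top k, u) 1))
      (top k, 0) = 0 := by
    by_contra h1
    obtain ⟨m, h2⟩ := apply_ne h1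
    exact A2 m h2
  have e6 : (∑ u ∈ c.half l, Finsupp.single (top k, u) (1 : ℂ)) (top k, 0) = 1 := by
    classical
    rw [Finsupp.finsetSum_apply, Finset.sum_eq_single 0]
    · simp
    · intro u _ hu
      rw [Finsupp.single_eq_of_ne]
      intro h1
      exact hu (Prod.mk.inj h1).2.symm
    · intro h1
      exact absurd ((c.mem_half l 0).2 (by simp [pos_zero])) h1
  simp only [LinearMap.add_apply, Module.End.mul_apply, Finsupp.add_apply, dE_top, e5,
    LinearMap.sub_apply, Module.End.one_apply, Finsupp.sub_apply, e6] at e4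
  rw [e2, show T l (g l) (∑ u ∈ c.half l, Finsupp.single (top k, u) 1) (top k, 0) = 1 by
    linear_combination -e4, star_one]

theorem sharp_aug (hδ : δ ≤ 1 / 32) {T : ℕ → ℤ_[p] → Op k} (hT : c.TFam T)
    {H : ℕ → ℤ_[p] → Op k → Op k} (hH : c.HFam H) (g : ℕ → ℤ_[p])
    (j : ℕ → B k × Lat k) {y : E k} (hy : y ∈ Metric.ball c.b c.Rb)
    (hj : Conv (fun l => (j l).2) y) :
    ∀ᶠ l in (UU : Filter ℕ), aug k (c.sharp l (T l (g l)) (Finsupp.single (j l) 1)) =
      aug k (Finsupp.single (j l) 1) := by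
  have U1 : ∀ᶠ l in (UU : Filter ℕ), ∀ j' : B k × Lat k,
      pos (eta l) j'.2 ∈ Metric.closedBall c.b c.Rb →
      dE k (c.sharp l (T l (g l)) (Finsupp.single j' 1)) =
        c.sharp l (T l (g l)) (dE k (Finsupp.single j' 1)) := by
    refine thread UU fun j' => ?_
    by_cases h1 : ∀ᶠ l in (UU : Filter ℕ), pos (eta l) (j' l).2 ∈ Metric.closedBall c.b c.Rb
    · obtain ⟨y', hy', hc⟩ := exists_conv (u := fun l => (j' l).2) (isCompact_closedBall _ _) h1
      filter_upwards [c.sharp_chain hT g j' hy' hc] with l hl _ using hl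
    · filter_upwards [Ultrafilter.eventually_not.2 h1] with l hl h2
      exact absurd h2 hl
  obtain ⟨hh, hc1, hc2⟩ := exists_contr k
  have h0 : (0 : E k) ∈ Metric.closedBall c.b c.Rb :=
    Metric.ball_subset_closedBall (c.unitB (by simp))
  filter_upwards [U1, c.sharp_aug_zero hδ hT hH g,
    hj.eventually (Metric.isOpen_ball.mem_nhds hy)] with l U1 A0 hl
  have hl := Metric.ball_subset_closedBall hl
  obtain ⟨⟨b, u⟩, hbu⟩ : ∃ q, q = j l := ⟨_, rfl⟩
  rw [← hbu] at hl ⊢
  by_cases hb : b = b0 k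
  · subst hb
    have e1 := LinearMap.congr_fun (hc1 0) (Finsupp.single (b0 k, u) 1)
    simp only [LinearMap.add_apply, Module.End.mul_apply, dE_vertex, map_zero, add_zero,
      LinearMap.sub_apply, Module.End.one_apply, LinearMap.smulRight_apply, aug_single, if_true,
      one_smul] at e1
    have e2 : (dE k * c.sharp l (T l (g l)) - c.sharp l (T l (g l)) * dE k)
        (hh 0 (Finsupp.single (b0 k, u) 1)) = 0 := by
      ext i
      by_contra h1
      obtain ⟨m, h2, h3⟩ := apply_ne h1
      have := U1 m (pos_mem_ball (eta_pos l) h0 hl (hc2 0 m (b0 k, u) h3).2)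
      apply h2
      simp only [ent, LinearMap.sub_apply, Module.End.mul_apply, this, sub_self,
        Finsupp.zero_apply]
    have e3 := congrArg (aug k) e2
    simp only [LinearMap.sub_apply, Module.End.mul_apply, e1, map_sub, aug_dE, A0, map_zero] at e3
    rw [aug_single, if_pos rfl]
    linear_combination -e3
  · have hK : pos (eta l) u ∈ c.K := by
      have := c.Kint 0 _ hl
      rw [c.zero _ (c.BΩ hl)] at this
      exact interior_subset this
    obtain ⟨a, rfl⟩ := (c.mem_range_v l u).2 hK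
    rw [aug_single, if_neg hb, sharp]
    exact aug_sharp_ne _ (c.v_inj l) (hT.deg _ _) hb a

end Config

end Vale.Agent.P228
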